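import Crest.Agent.R309.ModRep

/-!
# R309: the penalties keep the forest arcs within their capacities

PLAN.  On `bal0` (all roots balanced) the fields and root factors are `1`:
`WW X = ∏_{v not root} pen v (tv X v) ^ kk` (`WW_eq`, `fld_eq`, or directly from the definition of `om` and `pen_eq`).
Fix `v` not a root, `e = mpar v`, `D = DD e ≥ s^13`, `A = AA v = 8 s^2 D`, `σ = sgU v e = ±1`.  `lcm` with `lam = 1`,
`φ = phi M p`, `s0 = v`, `H` = the roots, `c = balU` gives an `SLC` sequence `g0`; `G t = g0 (balU v - σ t)`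
(`SLC.comp_sub`, `comp_add`) is the sum over `X ∈ Om`, `bal0 X`, `tv X v = t` of `∏_{v' ≠ v} pen^kk`, so `0 ≤ G ≤ 2^(s^2)`
(`card_Om`, `om_le_one`), and `G t ≥ 1` whenever a flow has value `t` on `e` (`res_spec`, `om_good`).
`tail_le` with `w = D / (s^2+2) ≥ D / (4 s^2)`, `t = s^2`, `σ' = (1-1/A)^kk`, `c = kk / (4A)`
(`(1-x)^k ≤ 1/(1+kx) ≤ 1 - kx/2` for `kx ≤ 1`; `1/w ≤ c`), upper side `U = cap e`, `m1 = x0 - dn`; lower side for
`t ↦ G (-t)`, `U = 0`, `m1 = -(x0 + up)` (`up_le`, `dn_le`, `RangeOK`).  `pen (cap + i) = 1 - i/A ≤ (1-1/A)^i` on the box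
(`one_add_mul_le_pow`), `pen = 1` on `[0,cap]`, `3/(w c) ≤ 384/s^4`.  `tail`: union bound over `2 mN ≤ 2 s` events.
`good_half`: `1[bal0] ≥ 1 - ∑_{roots} (1[0 < val] + 1[val < 0])`.
-/

set_option autoImplicit false
open Finset Crest.Agent.PTime

namespace Crest.Agent.R309

variable {M : Mod}

/-- all roots are balanced -/
def bal0 (M : Mod) (X : List ℤ) : Prop := ∀ v < mN M, isRoot M v → val M X v = 0

theorem mtl_pow {x : ℝ} (h0 : 0 ≤ x) (h1 : x ≤ 1) (k : ℕ) (hk : k * x ≤ 1) :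
    (1 - x) ^ k ≤ 1 - k * x / 2 := by
  have a1 : 1 + k * x ≤ (1 + x) ^ k := one_add_mul_le_pow (by linarith) k
  have a2 : (1 - x) ^ k * (1 + x) ^ k ≤ 1 := by
    rw [← mul_pow]; exact pow_le_one₀ (by nlinarith) (by nlinarith)
  have a3 : 0 ≤ (1 - x) ^ k := pow_nonneg (by linarith) k
  have a4 : 0 ≤ k * x := by positivity
  have a5 : (1 - x) ^ k * (1 + k * x) ≤ 1 := (mul_le_mul_of_nonneg_left a1 a3).trans a2
  refine le_of_mul_le_mul_right (a := 1 + k * x) (a5.trans ?_) (by linarith)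
  nlinarith

theorem mtl_side {G : ℤ → ℝ} (h0 : ∀ n, 0 ≤ G n) (hs : SLC G) {s : ℕ} (h100 : 100 ≤ s)
    (hN : ∀ n, G n ≤ 2 ^ s ^ 2) {D : ℕ} (hD : KK s ≤ D) {m1 U : ℤ} (hm : 1 ≤ G m1) (hU : m1 + D ≤ U)
    {n : ℕ} (hn : n ≤ 8 * s ^ 2 * D) :
    ∑ i ∈ Icc (1 : ℤ) n, G (U + i) * (1 - i / ((8 * s ^ 2 * D : ℕ) : ℝ)) ^ kk s ≤
      384 / (s : ℝ) ^ 4 * ∑ j ∈ Ico (0 : ℤ) (D / (s ^ 2 + 2) : ℕ), G (U - j) := by
  set w := D / (s ^ 2 + 2) with hw
  have hsR : (100 : ℝ) ≤ s := by exact_mod_cast h100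
  have hs2 : 2 ≤ s ^ 2 := by nlinarith
  have hDs : s ^ 2 + 2 ≤ D := by
    refine le_trans ?_ hD
    have h1 : s ^ 3 ≤ s ^ 13 := Nat.pow_le_pow_right (by omega) (by norm_num)
    have h2 : s ^ 3 = s ^ 2 * s := by ring
    unfold KK
    nlinarith
  have hw1 : 1 ≤ w := (Nat.le_div_iff_mul_le (by omega)).2 (by omega)
  have hw2 : w * (s ^ 2 + 2) ≤ D := Nat.div_mul_le_self _ _
  have hw3 : D ≤ 4 * s ^ 2 * w := by
    have : D < (s ^ 2 + 2) * (w + 1) := Nat.lt_mul_div_succ _ (by omega)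
    nlinarith
  have hDR : (s : ℝ) ^ 13 ≤ D := by exact_mod_cast hD
  have hD0 : (0 : ℝ) < D := lt_of_lt_of_le (by positivity) hDR
  have hwR : (1 : ℝ) ≤ w := by exact_mod_cast hw1
  have hw3R : (D : ℝ) ≤ 4 * s ^ 2 * w := by exact_mod_cast hw3
  set A : ℝ := ((8 * s ^ 2 * D : ℕ) : ℝ) with hA
  have hA' : A = 8 * s ^ 2 * D := by rw [hA]; push_cast; ring
  have hk : ((kk s : ℕ) : ℝ) = s ^ 8 := by simp [kk]
  have hkA : (s : ℝ) ^ 8 ≤ A := by
    have h1 : (s : ℝ) ^ 8 ≤ s ^ 13 := pow_le_pow_right₀ (by linarith) (by norm_num)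
    have h2 : (1 : ℝ) ≤ 8 * s ^ 2 := by nlinarith
    rw [hA']
    nlinarith
  have hs8 : (1 : ℝ) ≤ s ^ 8 := one_le_pow₀ (by linarith)
  have hA1 : 1 ≤ A := hs8.trans hkA
  set c : ℝ := s ^ 8 / (4 * A) with hc
  have hc0 : 0 < c := by positivity
  have hwc : (s : ℝ) ^ 4 / 128 ≤ w * c := by
    rw [hc, hA', mul_div_assoc', div_le_div_iff₀ (by positivity) (by positivity)]
    calc (s : ℝ) ^ 4 * (4 * (8 * s ^ 2 * D)) ≤ s ^ 4 * (4 * (8 * s ^ 2 * (4 * s ^ 2 * w))) := by gcongr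
      _ = _ := by ring
  have hs4 : (100 : ℝ) ^ 4 ≤ s ^ 4 := by gcongr
  have hwc1 : 1 / (w : ℝ) ≤ c := by
    rw [div_le_iff₀ (by positivity)]
    linarith
  have hx1 : 1 / A ≤ 1 := by rw [div_le_one (by positivity)]; exact hA1
  have hσ : (1 - 1 / A) ^ kk s ≤ 1 - 2 * c := by
    have := mtl_pow (x := 1 / A) (by positivity) hx1 (kk s)
      (by rw [hk, mul_one_div, div_le_one (by positivity)]; exact hkA)
    refine this.trans (le_of_eq ?_)
    rw [hk, hc]; field_simp; ring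
  have hσ0 : 0 ≤ (1 - 1 / A) ^ kk s := pow_nonneg (by linarith) _
  have key := tail_le h0 hs m1 U w (s ^ 2) hw1 hm hN
    (le_trans (by have : ((w * (s ^ 2 + 2) : ℕ) : ℤ) ≤ D := by exact_mod_cast hw2
                  push_cast at this ⊢; linarith) hU) hσ0 hc0
    (by
      have : (0 : ℝ) ≤ 1 / w := by positivity
      calc (1 - 1 / A) ^ kk s * (1 + 1 / (w : ℝ)) ≤ (1 - 2 * c) * (1 + c) :=
            mul_le_mul hσ (by linarith) (by linarith) (by linarith)
        _ ≤ 1 - c := by nlinarith) n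
  have hS0 : 0 ≤ ∑ j ∈ Ico (0 : ℤ) w, G (U - j) := sum_nonneg fun j _ => h0 _
  refine le_trans (sum_le_sum fun i hi => ?_) (key.trans (mul_le_mul_of_nonneg_right ?_ hS0))
  · rw [mem_Icc] at hi
    refine mul_le_mul_of_nonneg_left ?_ (h0 _)
    rw [← pow_mul, mul_comm (kk s), pow_mul]
    have e : (i : ℝ) = (i.natAbs : ℕ) := by
      rw [← Int.cast_natCast, Int.natAbs_of_nonneg (by omega)]
    have h1 : (i : ℝ) ≤ A := by
      rw [hA]
      exact_mod_cast hi.2.trans (by exact_mod_cast hn)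
    refine pow_le_pow_left₀ (by rw [sub_nonneg, div_le_one (by positivity)]; exact h1) ?_ _
    have := one_add_mul_le_pow (a := -(1 / A)) (by linarith) i.natAbs
    rw [e]
    convert this using 1 <;> ring
  · rw [div_le_div_iff₀ (by positivity) (by positivity)]
    linarith

theorem mtl_G (h : ModOK M) {p : List ℕ} (hp : Adm M p) (hf : Full M p) {v : ℕ} (hv : v < mN M)
    (hr : ¬ isRoot M v) :
    ∃ G : ℤ → ℝ, (∀ t, 0 ≤ G t) ∧ SLC G ∧ (∀ t, G t ≤ 2 ^ ms M ^ 2) ∧
      (∀ x, IsFlow (mI M) x → 1 ≤ G (gz x (mpar M v))) ∧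
      ∀ t, ∑ X ∈ Om M, (if tv M X v = t then (WW M p X : ℝ) * ind (bal0 M X) else 0) =
        G t * pen M v t ^ kk (ms M) := by
  classical
  set v' : Fin (mN M) := ⟨v, hv⟩ with hv'
  set H : Finset (Fin (mN M)) := univ.filter fun u => isRoot M u with hH
  have hvH : v' ∉ H := by simp [hH, hv', hr]
  have hslc := lcm (mem M) (lam_mem h) (lam := fun _ => 1) (fun _ => one_pos) (lc_phi h p)
    (fun e : Fin (mE M) => (e, true)) (fun e => (e, false)) (loF M) (hiF M) (loF_le h) v' H hvH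
    (fun u => balU M u)
  simp only [emb_eq_lift, one_zpow, prod_const_one, one_mul] at hslc
  set T : (Fin (mE M) → ℤ) → ℝ := fun X =>
    ∏ u ∈ (univ \ H).erase v', phi M p u (sv (mem M) u (lift X (-X))) with hT
  have hphi : ∀ X ∈ Box (loF M) (hiF M), ∀ u : Fin (mN M), ¬ isRoot M u →
      phi M p u (sv (mem M) u (lift X (-X))) = (om M (3 * u) (List.ofFn X) : ℝ) ^ gn p (3 * u) := by
    intro X hX u hu
    rw [phi, if_neg hu, sv_val, sub_sub_cancel, ← pen_eq h (ofFn_mem.2 hX) u.2 hu, tv]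
  have hnr : ∀ u ∈ (univ \ H).erase v', ¬ isRoot M u := by
    intro u hu
    simpa [hH] using mem_of_mem_erase hu
  have hT0 : ∀ X, 0 ≤ T X := fun X => (prod_pos fun u _ => (lc_phi h p u).1 _).le
  have hT1 : ∀ X ∈ Box (loF M) (hiF M), T X ≤ 1 := by
    intro X hX
    refine prod_le_one (fun u _ => ((lc_phi h p u).1 _).le) fun u hu => ?_
    rw [hphi X hX u (hnr u hu)]
    have h1 := om_ge h (ofFn_mem.2 hX) (i := 3 * u) (by have := u.2; omega)
    have h2 := om_le_one h (ofFn_mem.2 hX) (i := 3 * u) (by have := u.2; omega) (by omega)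
    exact pow_le_one₀ (by exact_mod_cast le_trans (by norm_num) h1) (by exact_mod_cast h2)
  have hcond : ∀ (X : Fin (mE M) → ℤ) (t : ℤ),
      (sv (mem M) v' (lift X (-X)) = balU M v - sgU M v (mpar M v) * t ∧
        ∀ u ∈ H, sv (mem M) u (lift X (-X)) = balU M u) ↔
      (tv M (List.ofFn X) v = t ∧ bal0 M (List.ofFn X)) := by
    intro X t
    refine and_congr ?_ ?_
    · have e1 : sv (mem M) v' (lift X (-X)) = balU M v - val M (List.ofFn X) v := sv_val M v' X
      rw [e1, tv]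
      rcases sgU_par_self h hv hr with e | e <;> rw [e] <;> omega
    · simp only [sv_val, sub_eq_self, hH, mem_filter, mem_univ, true_and, bal0]
      exact ⟨fun H u hu => H ⟨u, hu⟩, fun H u => H u u.2⟩
  refine ⟨fun t => ∑ X ∈ Box (loF M) (hiF M),
    if tv M (List.ofFn X) v = t ∧ bal0 M (List.ofFn X) then T X else 0, fun t => ?_, ?_, fun t => ?_,
    fun x hx => ?_, fun t => ?_⟩
  · exact sum_nonneg fun X _ => by split_ifs; exacts [hT0 X, le_rfl]
  · simp only [← hcond]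
    rcases sgU_par_self h hv hr with e | e
    · simpa only [e, one_mul] using hslc.comp_sub (balU M v)
    · simpa only [e, neg_mul, one_mul, sub_neg_eq_add, add_comm (balU M v)] using
        hslc.comp_add (balU M v)
  · have h1 := sum_Om M (fun _ => (1 : ℝ))
    have h2 : ((Om M).card : ℝ) ≤ 2 ^ ms M ^ 2 := by exact_mod_cast card_Om h
    rw [sum_const, nsmul_eq_mul, mul_one] at h1
    refine le_trans (sum_le_sum fun X hX => ?_) (h1.symm.le.trans h2)
    split_ifs
    exacts [hT1 X hX, zero_le_one]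
  · obtain ⟨h1, h2, -, h4⟩ := res_spec h hx
    have e : List.ofFn (fun e : Fin (mE M) => gz (res M x) e) = res M x := ofFn_gz (mem_Om.1 h1).1
    have hX : (fun e : Fin (mE M) => gz (res M x) e) ∈ Box (loF M) (hiF M) :=
      ofFn_mem.1 (by rw [e]; exact h1)
    refine le_trans ?_ (single_le_sum (f := fun X => if tv M (List.ofFn X) v = gz x (mpar M v) ∧
      bal0 M (List.ofFn X) then T X else 0)
      (fun X _ => by split_ifs; exacts [hT0 X, le_rfl]) hX)
    simp only [e]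
    rw [if_pos ⟨h4 v hv hr, fun u hu hru => ((h2 u hu).resolve_right fun hh => hh.1 hru).2⟩]
    refine le_of_eq (prod_eq_one fun u hu => ?_).symm
    rw [hphi _ hX u (hnr u hu), e, om_good h h2 (by have := u.2; omega)]
    simp
  · rw [sum_Om, sum_mul]
    refine sum_congr rfl fun X hX => ?_
    by_cases h1 : tv M (List.ofFn X) v = t
    · by_cases h2 : bal0 M (List.ofFn X)
      · rw [if_pos h1, if_pos ⟨h1, h2⟩, ind_true h2, mul_one, WW_eq h hp hX, Wt, hh, hL, ← mul_assoc,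
          fld_eq, ← prod_sdiff (subset_univ H),
          ← mul_prod_erase (univ \ H) _ (a := v') (by simpa using hvH)]
        have e1 : ∏ u ∈ range (mN M), fld M p u ^ val M (List.ofFn X) u = 1 := by
          refine prod_eq_one fun u hu => ?_
          by_cases hru : isRoot M u
          · rw [h2 u (mem_range.1 hu) hru, zpow_zero]
          · rw [fld, if_neg hru, one_zpow]
        have e2 : ∏ u ∈ H, phi M p u (sv (mem M) u (lift X (-X))) = 1 := by
          refine prod_eq_one fun u hu => ?_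
          have hru : isRoot M u := by simpa [hH] using hu
          rw [phi, if_pos hru, sv_val, sub_sub_cancel, h2 u u.2 hru]
          simp
        have e3 : phi M p v' (sv (mem M) v' (lift X (-X))) = pen M v t ^ kk (ms M) := by
          rw [phi, if_neg hr, sv_val, sub_sub_cancel, hf v hv, tgt, if_neg hr, ← h1, tv]
        rw [e1, e2, e3]
        ring
      · rw [if_pos h1, if_neg (fun hh => h2 hh.2), ind_false h2]; simp
    · rw [if_neg h1, if_neg (fun hh => h1 hh.1)]; simp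

theorem mtl_fib {σ : Type} (Ω : Finset σ) (S : Finset ℤ) (ψ : σ → ℤ) (W : σ → ℝ) :
    ∑ i ∈ S, ∑ X ∈ Ω, (if ψ X = i then W X else 0) = ∑ X ∈ Ω, W X * ind (ψ X ∈ S) := by
  rw [sum_comm]
  refine sum_congr rfl fun X _ => ?_
  rw [sum_ite_eq]
  split_ifs with hc
  · rw [ind_true hc, mul_one]
  · rw [ind_false hc, mul_zero]

theorem mtl_fin (h : ModOK M) {p : List ℕ} (z : List ℤ → ℤ) {n w : ℕ} (hz : ∀ X ∈ Om M, z X ≤ n)
    {P : List ℤ → Prop} (hP : ∀ X, P X ↔ 0 < z X) {c : ℝ} (hc : 0 ≤ c)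
    (H : ∑ i ∈ Icc (1 : ℤ) n, ∑ X ∈ Om M,
        (if z X = i then (WW M p X : ℝ) * ind (bal0 M X) else 0) ≤
      c * ∑ j ∈ Ico (0 : ℤ) w, ∑ X ∈ Om M,
        (if z X = -j then (WW M p X : ℝ) * ind (bal0 M X) else 0)) :
    mu M p (fun X => ind (bal0 M X ∧ P X)) ≤ c * mu M p (fun X => ind (bal0 M X)) := by
  have hZ := one_le_Zs h p
  simp only [← neg_eq_iff_eq_neg] at H
  rw [mtl_fib, mtl_fib] at H
  rw [mu, mu, ← mul_div_assoc]
  refine div_le_div_of_nonneg_right ?_ (by linarith)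
  refine le_trans (le_of_eq (sum_congr rfl fun X hX => ?_)) (H.trans
    (mul_le_mul_of_nonneg_left (sum_le_sum fun X hX => ?_) hc))
  · have := hz X hX
    by_cases h1 : bal0 M X
    · by_cases h2 : P X
      · rw [ind_true ⟨h1, h2⟩, ind_true h1,
          ind_true (p := z X ∈ Icc (1 : ℤ) n) (mem_Icc.2 ⟨(hP X).1 h2, this⟩), mul_one, mul_one]
      · rw [ind_false (fun hh => h2 hh.2), ind_false (p := z X ∈ Icc (1 : ℤ) n)
          (fun hh => h2 ((hP X).2 (mem_Icc.1 hh).1)), mul_zero, mul_zero]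
    · rw [ind_false (fun hh => h1 hh.1), ind_false h1]; simp
  · have h1 : (0 : ℝ) < WW M p X := by exact_mod_cast WW_pos h p hX
    exact mul_le_of_le_one_right (mul_nonneg h1.le (ind_nonneg _)) (ind_le_one _)

theorem tail_up (h : ModOK M) {p : List ℕ} (hp : Adm M p) (hf : Full M p) {v : ℕ} (hv : v < mN M)
    (hr : ¬ isRoot M v) :
    mu M p (fun X => ind (bal0 M X ∧ (cap (mI M) (mpar M v) : ℤ) < tv M X v)) ≤
      384 / (ms M : ℝ) ^ 4 * mu M p (fun X => ind (bal0 M X)) := by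
  obtain ⟨G, hG0, hG1, hG2, hG3, hG4⟩ := mtl_G h hp hf hv hr
  have he := par_lt h hv hr
  obtain ⟨⟨f1, hf1, e1⟩, ⟨f2, hf2, e2⟩, -⟩ := h.range _ he
  have hD : KK (ms M) ≤ DD M (mpar M v) := h.forest.big v hv he
  have hup := up_le h he
  have hdn := dn_le h he
  have hDc := DD_le_cap h he
  have hA := AA_ge h hv hr
  have hA0 : 8 ≤ AA M v := by
    have : 1 ≤ ms M ^ 15 := Nat.one_le_pow _ _ (by have := h.big; omega)
    omega
  have hAR : (8 : ℝ) ≤ AA M v := by exact_mod_cast hA0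
  have hside := mtl_side hG0 hG1 h.big hG2 hD (m1 := gz (mx M) (mpar M v) - mdn M (mpar M v))
    (U := cap (mI M) (mpar M v)) (e2 ▸ hG3 f2 hf2) (by unfold DD; push_cast; omega)
    (n := AA M v / 4) (by unfold AA; omega)
  refine mtl_fin h (fun X => tv M X v - cap (mI M) (mpar M v)) (n := AA M v / 4)
    (w := DD M (mpar M v) / (ms M ^ 2 + 2)) (fun X hX => by have := (viol_le h hX hv hr).1; omega)
    (fun X => by rw [sub_pos]) (by positivity) ?_
  refine le_trans (le_of_eq (sum_congr rfl fun i hi => ?_)) (hside.trans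
    (le_of_eq (congrArg _ (sum_congr rfl fun j hj => ?_))))
  · rw [mem_Icc] at hi
    simp only [sub_eq_iff_eq_add']
    rw [hG4, pen, max_eq_left (by omega), max_eq_right (by omega), gA, gA, if_pos (by omega),
      if_pos (by omega)]
    congr 2
    have e : ((8 * ms M ^ 2 * DD M (mpar M v) : ℕ) : ℝ) = AA M v := rfl
    rw [e]
    push_cast
    field_simp
    ring
  · rw [mem_Ico] at hj
    have := Nat.div_le_self (DD M (mpar M v)) (ms M ^ 2 + 2)
    simp only [sub_eq_iff_eq_add']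
    rw [hG4, pen, max_eq_right (by omega), max_eq_right (by omega), gA, if_pos (by omega),
      ← sub_eq_add_neg]
    have e : ((AA M v : ℝ) - ((0 : ℤ) : ℝ)) * ((AA M v : ℝ) - ((0 : ℤ) : ℝ)) / (AA M v : ℝ) ^ 2 = 1 := by
      push_cast; field_simp; ring
    rw [e, one_pow, mul_one]

theorem tail_dn (h : ModOK M) {p : List ℕ} (hp : Adm M p) (hf : Full M p) {v : ℕ} (hv : v < mN M)
    (hr : ¬ isRoot M v) :
    mu M p (fun X => ind (bal0 M X ∧ tv M X v < 0)) ≤ 384 / (ms M : ℝ) ^ 4 * mu M p (fun X => ind (bal0 M X)) := by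
  obtain ⟨G, hG0, hG1, hG2, hG3, hG4⟩ := mtl_G h hp hf hv hr
  have he := par_lt h hv hr
  obtain ⟨⟨f1, hf1, e1⟩, ⟨f2, hf2, e2⟩, -⟩ := h.range _ he
  have hD : KK (ms M) ≤ DD M (mpar M v) := h.forest.big v hv he
  have hup := up_le h he
  have hdn := dn_le h he
  have hDc := DD_le_cap h he
  have hA := AA_ge h hv hr
  have hA0 : 8 ≤ AA M v := by
    have : 1 ≤ ms M ^ 15 := Nat.one_le_pow _ _ (by have := h.big; omega)
    omega
  have hAR : (8 : ℝ) ≤ AA M v := by exact_mod_cast hA0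
  have hside := mtl_side (G := fun t => G (0 - t)) (fun _ => hG0 _) (hG1.comp_sub 0) h.big
    (fun _ => hG2 _) hD (m1 := -(gz (mx M) (mpar M v) + mup M (mpar M v))) (U := 0)
    (by simp only [zero_sub, neg_neg]; exact e1 ▸ hG3 f1 hf1) (by unfold DD; push_cast; omega)
    (n := AA M v / 4) (by unfold AA; omega)
  refine mtl_fin h (fun X => - tv M X v) (n := AA M v / 4)
    (w := DD M (mpar M v) / (ms M ^ 2 + 2)) (fun X hX => by have := (viol_le h hX hv hr).2; omega)
    (fun X => by rw [neg_pos]) (by positivity) ?_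
  refine le_trans (le_of_eq (sum_congr rfl fun i hi => ?_)) (hside.trans
    (le_of_eq (congrArg _ (sum_congr rfl fun j hj => ?_))))
  · rw [mem_Icc] at hi
    simp only [neg_eq_iff_eq_neg, zero_add, zero_sub]
    rw [hG4, pen, max_eq_right (by omega), max_eq_left (by omega), gA, gA, if_pos (by omega),
      if_pos (by omega)]
    congr 2
    have e : ((8 * ms M ^ 2 * DD M (mpar M v) : ℕ) : ℝ) = AA M v := rfl
    rw [e]
    push_cast
    field_simp
    ring
  · rw [mem_Ico] at hj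
    have := Nat.div_le_self (DD M (mpar M v)) (ms M ^ 2 + 2)
    simp only [neg_inj, zero_sub, neg_neg]
    rw [hG4, pen, max_eq_right (by omega), max_eq_right (by omega), gA, if_pos (by omega)]
    have e : ((AA M v : ℝ) - ((0 : ℤ) : ℝ)) * ((AA M v : ℝ) - ((0 : ℤ) : ℝ)) / (AA M v : ℝ) ^ 2 = 1 := by
      push_cast; field_simp; ring
    rw [e, one_pow, mul_one]

theorem tail (h : ModOK M) {p : List ℕ} (hp : Adm M p) (hf : Full M p) :
    3 / 4 * mu M p (fun X => ind (bal0 M X)) ≤ mu M p (fun X => ind (good M X)) := by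
  classical
  have hsR : (100 : ℝ) ≤ ms M := by exact_mod_cast h.big
  have hN : (mN M : ℝ) ≤ ms M := by exact_mod_cast h.sized.2.1
  set S := (range (mN M)).filter fun v => ¬ isRoot M v with hS
  have hpt : ∀ X ∈ Om M, ind (bal0 M X) ≤ ind (good M X) + ∑ v ∈ S,
      (ind (bal0 M X ∧ (cap (mI M) (mpar M v) : ℤ) < tv M X v) + ind (bal0 M X ∧ tv M X v < 0)) := by
    intro X _
    have hnn : ∀ v ∈ S, 0 ≤ ind (bal0 M X ∧ (cap (mI M) (mpar M v) : ℤ) < tv M X v) +
        ind (bal0 M X ∧ tv M X v < 0) := fun v _ => add_nonneg (ind_nonneg _) (ind_nonneg _)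
    have hs0 := sum_nonneg hnn
    by_cases hb : bal0 M X
    · by_cases hg : good M X
      · rw [ind_true hb, ind_true hg]; linarith
      · rw [ind_true hb, ind_false hg, zero_add]
        unfold good at hg
        push Not at hg
        obtain ⟨v, hv, h1, h2⟩ := hg
        have hr : ¬ isRoot M v := fun hr => h1 hr (hb v hv hr)
        refine le_trans ?_ (single_le_sum hnn (a := v) (by simp [hS, hv, hr]))
        by_cases h0 : 0 ≤ tv M X v
        · rw [ind_true ⟨hb, h2 hr h0⟩]; linarith [ind_nonneg (bal0 M X ∧ tv M X v < 0)]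
        · rw [ind_true (p := bal0 M X ∧ tv M X v < 0) ⟨hb, not_le.1 h0⟩]
          linarith [ind_nonneg (bal0 M X ∧ (cap (mI M) (mpar M v) : ℤ) < tv M X v)]
    · rw [ind_false hb]; linarith [ind_nonneg (good M X)]
  have hmu := mu_mono h p hpt
  rw [mu_add, mu_sum] at hmu
  have hB0 : 0 ≤ mu M p (fun X => ind (bal0 M X)) := by
    have := mu_mono h p (f := fun _ => 0) (g := fun X => ind (bal0 M X)) fun X _ => ind_nonneg _
    rwa [mu_const h] at this
  have hsum : ∑ v ∈ S, mu M p (fun X => ind (bal0 M X ∧ (cap (mI M) (mpar M v) : ℤ) < tv M X v) +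
      ind (bal0 M X ∧ tv M X v < 0)) ≤
      #S • (768 / (ms M : ℝ) ^ 4 * mu M p (fun X => ind (bal0 M X))) := by
    refine sum_le_card_nsmul _ _ _ fun v hv => ?_
    simp only [hS, mem_filter, mem_range] at hv
    rw [mu_add]
    have h1 := tail_up h hp hf hv.1 hv.2
    have h2 := tail_dn h hp hf hv.1 hv.2
    have e : 768 / (ms M : ℝ) ^ 4 = 384 / (ms M : ℝ) ^ 4 + 384 / (ms M : ℝ) ^ 4 := by ring
    rw [e]
    linarith
  have hc : (#S : ℝ) ≤ ms M := by
    refine le_trans ?_ hN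
    exact_mod_cast (card_filter_le _ _).trans (card_range _).le
  have h3 : (#S : ℝ) * (768 / (ms M : ℝ) ^ 4) ≤ 1 / 4 := by
    have h7 : (100 : ℝ) ^ 3 ≤ (ms M : ℝ) ^ 3 := by gcongr
    calc (#S : ℝ) * (768 / (ms M : ℝ) ^ 4) ≤ ms M * (768 / (ms M : ℝ) ^ 4) := by gcongr
      _ = 768 / (ms M : ℝ) ^ 3 := by field_simp
      _ ≤ 1 / 4 := by rw [div_le_iff₀ (by positivity)]; linarith
  rw [nsmul_eq_mul, ← mul_assoc] at hsum
  have := mul_le_mul_of_nonneg_right h3 hB0
  linarith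

theorem good_half (h : ModOK M) {p : List ℕ} (hp : Adm M p) (hf : Full M p)
    (h1 : ∀ v < mN M, isRoot M v → mu M p (fun X => ind (0 < val M X v)) ≤ 3 / (ms M : ℝ) ^ 2 ∧
      mu M p (fun X => ind (val M X v < 0)) ≤ 3 / (ms M : ℝ) ^ 2) :
    1 / 2 ≤ mu M p (fun X => ind (good M X)) := by
  classical
  have hsR : (100 : ℝ) ≤ ms M := by exact_mod_cast h.big
  have hN : (mN M : ℝ) ≤ ms M := by exact_mod_cast h.sized.2.1
  set S := (range (mN M)).filter fun v => isRoot M v with hS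
  have hpt : ∀ X ∈ Om M, (1 : ℝ) ≤ ind (bal0 M X) + ∑ v ∈ S,
      (ind (0 < val M X v) + ind (val M X v < 0)) := by
    intro X _
    have hnn : ∀ v ∈ S, 0 ≤ ind (0 < val M X v) + ind (val M X v < 0) :=
      fun v _ => add_nonneg (ind_nonneg _) (ind_nonneg _)
    have hs0 := sum_nonneg hnn
    by_cases hb : bal0 M X
    · rw [ind_true hb]; linarith
    · rw [ind_false hb, zero_add]
      unfold bal0 at hb
      push Not at hb
      obtain ⟨v, hv, hr, h2⟩ := hb
      refine le_trans ?_ (single_le_sum hnn (a := v) (by simp [hS, hv, hr]))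
      rcases lt_or_gt_of_ne h2 with h0 | h0
      · rw [ind_true h0]; linarith [ind_nonneg (0 < val M X v)]
      · rw [ind_true h0]; linarith [ind_nonneg (val M X v < 0)]
  have hmu := mu_mono h p hpt
  rw [mu_add, mu_sum, mu_const h] at hmu
  have hsum : ∑ v ∈ S, mu M p (fun X => ind (0 < val M X v) + ind (val M X v < 0)) ≤
      #S • (6 / (ms M : ℝ) ^ 2) := by
    refine sum_le_card_nsmul _ _ _ fun v hv => ?_
    simp only [hS, mem_filter, mem_range] at hv
    rw [mu_add]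
    have h2 := h1 v hv.1 hv.2
    have e : 6 / (ms M : ℝ) ^ 2 = 3 / (ms M : ℝ) ^ 2 + 3 / (ms M : ℝ) ^ 2 := by ring
    rw [e]
    linarith [h2.1, h2.2]
  have hc : (#S : ℝ) ≤ ms M := by
    refine le_trans ?_ hN
    exact_mod_cast (card_filter_le _ _).trans (card_range _).le
  have h3 : (#S : ℝ) * (6 / (ms M : ℝ) ^ 2) ≤ 1 / 4 := by
    calc (#S : ℝ) * (6 / (ms M : ℝ) ^ 2) ≤ ms M * (6 / (ms M : ℝ) ^ 2) := by gcongr
      _ = 6 / (ms M : ℝ) := by field_simp
      _ ≤ 1 / 4 := by rw [div_le_iff₀ (by positivity)]; linarith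
  rw [nsmul_eq_mul] at hsum
  have := tail h hp hf
  linarith

end Crest.Agent.R309
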