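import Crest.Agent.R309.ModRep

/-!
# R309: tuning the fields at the roots

PLAN.  `pp_small`: `θ = lam⁻¹ ^ jj ≤ 2^(-11 size s) ≤ s^(-11)` (`le_lam_pow`, `Nat.lt_size_self`).  `lcm` with
`px e = (e,true)`, `py e = (e,false)` (`emb_eq_lift`), `s0 = v`, `H = ∅` gives an `SLC` sequence `g0`; `g m = g0 (balU v - m)`
(`SLC.comp_sub`, `sv_val`) satisfies `∑_{X ∈ Om, val X v = m} WW X = cst * g m * θ^|m|` (`sum_Om`, `WW_eq`,
`Finset.mul_prod_erase`); `|val| ≤ MM` on `Om` (`val_root`), so fibre the sums over `m` (`Finset.sum_fiberwise_of_maps_to`)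
and apply `pp_le`.  `tune_pos`: `Zs_bump`, `om_root2`; pointwise
`lam^(-z) ≤ 1 - (1 - 1/lam) 1[0 < z] + 2 * 1[z < 0]` (`om_le`), `1 - 1/lam = 1/(MM+1) ≥ 1/(3 s^15)`,
`P⁻ ≤ 2/s^20`.  `tune_neg` is symmetric.
-/

set_option autoImplicit false
open Finset Crest.Agent.PTime

namespace Crest.Agent.R309

variable {M : Mod}

theorem mt_fib {σ : Type} (Ω : Finset σ) (S : Finset ℤ) (ψ : σ → ℤ) (W : σ → ℝ) :
    ∑ i ∈ S, ∑ X ∈ Ω, (if ψ X = i then W X else 0) = ∑ X ∈ Ω, W X * ind (ψ X ∈ S) := by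
  rw [sum_comm]
  refine sum_congr rfl fun X _ => ?_
  rw [sum_ite_eq]
  split_ifs with hc
  · rw [ind_true hc, mul_one]
  · rw [ind_false hc, mul_zero]

theorem mt_tune (h : ModOK M) {p : List ℕ} (hp : Adm M p) (hlt : p.sum < LL (ms M)) {i : ℕ}
    (hi : i < 3 * mN M) (z : List ℤ → ℤ) (hz : ∀ X ∈ Om M, om M i X = lam (ms M) ^ (- z X))
    (hη : 1 / (ms M : ℝ) ^ 2 ≤ mu M p (fun X => ind (0 < z X)))
    (hpp : mu M p (fun X => ind (0 < z X)) * mu M p (fun X => ind (z X < 0)) ≤ 2 / (ms M : ℝ) ^ 22) :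
    Zs M (bump p i) ≤ (1 - 1 / (8 * (ms M : ℝ) ^ 17)) * Zs M p := by
  set s := ms M with hs
  have hs100 : 100 ≤ s := h.big
  have hsR : (100 : ℝ) ≤ s := by exact_mod_cast hs100
  have hlam : (1 : ℝ) ≤ lam s := by exact_mod_cast one_le_lam s
  set c : ℝ := 1 - (lam s : ℝ)⁻¹ with hc
  have hc1 : 1 / (3 * (s : ℝ) ^ 15) ≤ c := by
    have h1 : (1 : ℝ) ≤ (s : ℝ) ^ 15 := one_le_pow₀ (by linarith)
    have e : c = 1 / (2 * (s : ℝ) ^ 15 + 1) := by
      rw [hc, lam, MM]; push_cast; field_simp; ring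
    rw [e]
    gcongr
    linarith
  have hpt : ∀ X ∈ Om M, (om M i X : ℝ) ≤ 1 + ((-c) * ind (0 < z X) + 2 * ind (z X < 0)) := by
    intro X hX
    have h3 : (om M i X : ℝ) ≤ 3 := by exact_mod_cast om_le h hX hi
    have h4 : (om M i X : ℝ) = (lam s : ℝ) ^ (- z X) := by rw [hz X hX]; push_cast; rfl
    rcases lt_trichotomy (z X) 0 with h0 | h0 | h0
    · rw [ind_false (not_lt.2 h0.le), ind_true h0]; linarith
    · rw [h4, h0, ind_false (lt_irrefl _)]; simp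
    · rw [ind_true h0, ind_false (not_lt.2 h0.le), h4]
      have : (lam s : ℝ) ^ (- z X) ≤ (lam s : ℝ) ^ (-1 : ℤ) := zpow_le_zpow_right₀ hlam (by omega)
      rw [zpow_neg_one] at this
      linarith
  have hmu := mu_mono h p hpt
  rw [mu_add, mu_add, mu_mul, mu_mul, mu_const h] at hmu
  have hN0 : 0 ≤ mu M p (fun X => ind (z X < 0)) := by
    have := mu_mono h p (f := fun _ => 0) (g := fun X => ind (z X < 0)) fun X _ => ind_nonneg _
    rwa [mu_const h] at this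
  have hN : mu M p (fun X => ind (z X < 0)) ≤ 2 / (s : ℝ) ^ 20 := by
    have h1 := (mul_le_mul_of_nonneg_right hη hN0).trans hpp
    rw [div_mul_eq_mul_div, one_mul, div_le_iff₀ (by positivity)] at h1
    refine h1.trans (le_of_eq ?_)
    field_simp
  have h5 : 1 / (3 * (s : ℝ) ^ 15) * (1 / (s : ℝ) ^ 2) ≤ c * mu M p (fun X => ind (0 < z X)) :=
    mul_le_mul hc1 hη (by positivity) (le_trans (by positivity) hc1)
  have h6 : 2 * (2 / (s : ℝ) ^ 20) + 1 / (8 * (s : ℝ) ^ 17) ≤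
      1 / (3 * (s : ℝ) ^ 15) * (1 / (s : ℝ) ^ 2) := by
    have h7 : (100 : ℝ) ^ 3 ≤ (s : ℝ) ^ 3 := by gcongr
    rw [← sub_nonneg]
    have e : 1 / (3 * (s : ℝ) ^ 15) * (1 / (s : ℝ) ^ 2) -
        (2 * (2 / (s : ℝ) ^ 20) + 1 / (8 * (s : ℝ) ^ 17)) =
        (5 * (s : ℝ) ^ 3 - 96) / (24 * (s : ℝ) ^ 20) := by
      field_simp; ring
    rw [e]
    exact div_nonneg (by linarith) (by positivity)
  rw [Zs_bump h hp.1 hi ((gn_le_sum p i).trans_lt hlt), mul_comm]
  exact mul_le_mul_of_nonneg_right (by linarith) (by linarith [one_le_Zs h p])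

theorem pp_small (h : ModOK M) {p : List ℕ} (hp : Adm M p) (hf : Full M p) {v : ℕ} (hv : v < mN M)
    (hr : isRoot M v) :
    mu M p (fun X => ind (0 < val M X v)) * mu M p (fun X => ind (val M X v < 0)) ≤ 2 / (ms M : ℝ) ^ 22 := by
  set s := ms M with hs
  have hs100 : 100 ≤ s := h.big
  have hsR : (100 : ℝ) ≤ s := by exact_mod_cast hs100
  set v' : Fin (mN M) := ⟨v, hv⟩ with hv'
  set θ : ℝ := ((lam s : ℝ))⁻¹ ^ jj s with hθ
  have hlam : (1 : ℝ) ≤ lam s := by exact_mod_cast one_le_lam s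
  have hθ0 : 0 ≤ θ := by positivity
  have hθ1 : θ ≤ (1 / s) ^ 11 := by
    have h1 : (2 : ℝ) ≤ (lam s : ℝ) ^ MM s := by exact_mod_cast le_lam_pow (s := s) (by omega)
    have h2 : (s : ℝ) ≤ 2 ^ Nat.size s := by exact_mod_cast (Nat.lt_size_self s).le
    rw [hθ, jj, pow_mul, inv_pow, mul_comm 11, pow_mul]
    gcongr
    rw [inv_pow, one_div]
    refine inv_anti₀ (by linarith) (h2.trans ?_)
    gcongr
  have hθ2 : θ ≤ 1 / 2 := by
    refine hθ1.trans ?_
    have h1 : (1 / s : ℝ) ≤ 1 / 2 := by gcongr; linarith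
    calc (1 / s : ℝ) ^ 11 ≤ (1 / s) ^ 1 :=
          pow_le_pow_of_le_one (by positivity) (by linarith) (by norm_num)
      _ ≤ 1 / 2 := by simpa using h1
  have hslc := (lcm (mem M) (lam_mem h) (lamv_pos M p) (lc_phi h p)
    (fun e : Fin (mE M) => (e, true)) (fun e => (e, false)) (loF M) (hiF M) (loF_le h) v' ∅
    (notMem_empty _) (fun _ => 0)).comp_sub (balU M v)
  simp only [emb_eq_lift, notMem_empty, IsEmpty.forall_iff, implies_true, and_true,
    sdiff_empty] at hslc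
  set g : ℤ → ℝ := fun m => ∑ X ∈ Box (loF M) (hiF M),
    if sv (mem M) v' (lift X (-X)) = balU M v - m then
      (∏ a, lamv M p a ^ lift X (-X) a) *
        ∏ s ∈ univ.erase v', phi M p s (sv (mem M) s (lift X (-X))) else 0 with hg
  have hg0 : ∀ m, 0 ≤ g m := fun m => sum_nonneg fun X _ => by
    split_ifs
    · exact (mul_pos (prod_pos fun a _ => zpow_pos (lamv_pos M p a) _)
        (prod_pos fun s _ => (lc_phi h p s).1 _)).le
    · exact le_rfl
  have hF : ∀ m : ℤ, ∑ X ∈ Om M, (if val M X v = m then (WW M p X : ℝ) else 0) =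
      cst M p * (g m * θ ^ m.natAbs) := by
    intro m
    rw [sum_Om, hg]
    simp only [sum_mul, mul_sum]
    refine sum_congr rfl fun X hX => ?_
    have e1 : sv (mem M) v' (lift X (-X)) = balU M v - val M (List.ofFn X) v := sv_val M v' X
    by_cases hc : val M (List.ofFn X) v = m
    · rw [if_pos hc, if_pos (by rw [e1, hc]), WW_eq h hp hX, Wt, hh, hL,
        ← mul_prod_erase univ _ (mem_univ v')]
      have e2 : phi M p v' (sv (mem M) v' (lift X (-X))) = θ ^ m.natAbs := by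
        rw [phi, if_pos hr, e1, hc, hf v hv, tgt, if_pos hr, sub_sub_cancel]
      rw [e2]; ring
    · rw [if_neg hc, if_neg (by rw [e1]; omega)]; simp
  have hA : ∑ X ∈ Om M, (WW M p X : ℝ) * ind (0 < val M X v) =
      cst M p * ∑ i ∈ Icc (1 : ℤ) (MM s), g i * θ ^ i.natAbs := by
    rw [mul_sum, ← sum_congr rfl fun i _ => hF i, mt_fib]
    refine sum_congr rfl fun X hX => ?_
    have := val_root h hX hv hr
    congr 2
    rw [mem_Icc, ← hs] at *
    exact propext (by omega)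
  have hB : ∑ X ∈ Om M, (WW M p X : ℝ) * ind (val M X v < 0) =
      cst M p * ∑ i ∈ Icc (1 : ℤ) (MM s), g (-i) * θ ^ i.natAbs := by
    have hF' : ∀ m : ℤ, ∑ X ∈ Om M, (if - val M X v = m then (WW M p X : ℝ) else 0) =
        cst M p * (g (-m) * θ ^ m.natAbs) := by
      intro m
      rw [← Int.natAbs_neg m, ← hF]
      simp only [neg_eq_iff_eq_neg]
    rw [mul_sum, ← sum_congr rfl fun i _ => hF' i, mt_fib]
    refine sum_congr rfl fun X hX => ?_
    have := val_root h hX hv hr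
    congr 2
    rw [mem_Icc, ← hs] at *
    exact propext (by omega)
  have hZ : Zs M p = cst M p * ∑ i ∈ Icc (-(MM s : ℤ)) (MM s), g i * θ ^ i.natAbs := by
    rw [mul_sum, ← sum_congr rfl fun i _ => hF i, mt_fib, Zs]
    refine sum_congr rfl fun X hX => ?_
    have := val_root h hX hv hr
    rw [ind_true, mul_one]
    rw [mem_Icc, ← hs] at *
    omega
  have hZ1 := one_le_Zs h p
  have hpp := pp_le hg0 hslc hθ0 hθ2 (MM s)
  have hc := cst_pos M p
  rw [mu, mu, div_mul_div_comm, div_le_iff₀ (by positivity), hA, hB, hZ]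
  have h3 : 2 * θ ^ 2 ≤ 2 / (s : ℝ) ^ 22 := by
    have : θ ^ 2 ≤ ((1 / s) ^ 11) ^ 2 := by gcongr
    have e : ((1 / (s : ℝ)) ^ 11) ^ 2 = 1 / (s : ℝ) ^ 22 := by field_simp
    rw [e] at this
    rw [show 2 / (s : ℝ) ^ 22 = 2 * (1 / (s : ℝ) ^ 22) by ring]
    linarith
  calc _ = cst M p ^ 2 * ((∑ i ∈ Icc (1 : ℤ) (MM s), g i * θ ^ i.natAbs) *
        ∑ i ∈ Icc (1 : ℤ) (MM s), g (-i) * θ ^ i.natAbs) := by ring
    _ ≤ cst M p ^ 2 * (2 * θ ^ 2 * (∑ i ∈ Icc (-(MM s : ℤ)) (MM s), g i * θ ^ i.natAbs) ^ 2) := by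
        gcongr
    _ ≤ cst M p ^ 2 * (2 / (s : ℝ) ^ 22 *
        (∑ i ∈ Icc (-(MM s : ℤ)) (MM s), g i * θ ^ i.natAbs) ^ 2) := by gcongr
    _ = _ := by ring

theorem tune_pos (h : ModOK M) {p : List ℕ} (hp : Adm M p) (hf : Full M p) (hlt : p.sum < LL (ms M)) {v : ℕ}
    (hv : v < mN M) (hr : isRoot M v) (hη : 1 / (ms M : ℝ) ^ 2 ≤ mu M p (fun X => ind (0 < val M X v))) :
    Zs M (bump p (3 * v + 2)) ≤ (1 - 1 / (8 * (ms M : ℝ) ^ 17)) * Zs M p := by
  refine mt_tune h hp hlt (by omega) (fun X => val M X v) (fun X hX => om_root2 h hX hv hr) hη ?_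
  exact pp_small h hp hf hv hr

theorem tune_neg (h : ModOK M) {p : List ℕ} (hp : Adm M p) (hf : Full M p) (hlt : p.sum < LL (ms M)) {v : ℕ}
    (hv : v < mN M) (hr : isRoot M v) (hη : 1 / (ms M : ℝ) ^ 2 ≤ mu M p (fun X => ind (val M X v < 0))) :
    Zs M (bump p (3 * v + 1)) ≤ (1 - 1 / (8 * (ms M : ℝ) ^ 17)) * Zs M p := by
  refine mt_tune h hp hlt (by omega) (fun X => - val M X v)
    (fun X hX => by rw [neg_neg]; exact om_root1 h hX hv hr) (by simpa only [neg_pos] using hη) ?_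
  simp only [neg_pos, neg_lt_zero]
  rw [mul_comm]
  exact pp_small h hp hf hv hr

end Crest.Agent.R309
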