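import Crest.Agent.R309.ModMix
import Crest.Agent.R309.ModTune
import Crest.Agent.R309.ModTail

/-!
# R309: annealing

The state is `(p, z, done)`: exponents, an estimate of `Zs M p` (of the number of flows once `done`).

PLAN.  `acc_prob`: union bound (`Ex_mono`, `Ex_sum`, `ind`) over the `3N + 2N + 1 ≤ 6 s` test functions, each by `cheb`
with `c = 3`, `η = 1/(6 s^22)`, `m = mm s = s^69`, bias by `smp_mix` (`3 / 2^(23 s) ≤ η/2` as `36 s^22 ≤ 2^(23 s)`),
`om_ge`, `om_le`, `smp_mem`, `draws_length`; `6 s * 36 / (m η^2) = 7776 / s^24 ≤ 1 / (8 s^21)`.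
`anneal_adm`, `anneal_nonneg`: `runL_inv` with `Adm p ∧ p.sum ≤ i` (for `i ≤ LL`; state it as `i ≤ LL → …`), `mem_draws`.
`anneal_spec`: `runL_bad` with `γ = 1/(8 LL)`, `x = 1/(2 s^22)`, `c1 p = p.sum - ∑_v gn p (3v)` and the invariant
`Inv i (p,z,d) := Adm p ∧ p.sum ≤ i ∧ (d = false → p.sum = i ∧ (1-x)^i Zs p ≤ z ≤ (1+x)^i Zs p ∧
 (Full p ∨ ∀ j, j % 3 ≠ 0 → gn p j = 0) ∧ Zs p ≤ 2^(s^2) (1 - 1/(8 s^17))^(c1 p)) ∧
 (d = true → (1-x)^i cnt ≤ z ≤ (1+x)^i cnt ∧ 1/2 ≤ mu p good)`.  If `Acc` holds the step preserves it: an estimate of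
`mu p (om j) ≥ 1/3` has relative error `≤ 3η = x` (`Zs_bump`); in the first phase `WW_le_one`, `card_Om`; in the second
`tune_pos`, `tune_neg`; at the end `good_half`, `Zs_good`.  Since `1 ≤ Zs p`, `c1 p < 8 s^17 (s^2+1)`
(`(1-1/a)^a ≤ 1/2`), and `∑_v gn p (3v) ≤ s * 22 s^16`, so `d = false` is impossible for `i = LL = s^21`.
`(1+x)^LL ≤ exp (1/(2s)) ≤ 1 + 1/s`, `(1-x)^LL ≥ 1 - 1/(2s)`.  Start: `vol_eq`, `Zs_zero`.
-/

set_option autoImplicit false
open Finset Crest.Agent.PTime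

namespace Crest.Agent.R309

abbrev ASt : Type := List ℕ × ℚ × Bool

/-- empirical mean -/
def est (S : List (List ℤ)) (φ : List ℤ → ℚ) : ℚ := (S.map φ).sum / (S.length : ℚ)

def posq (M : Mod) (v : ℕ) (X : List ℤ) : ℚ := if 0 < val M X v then 1 else 0
def negq (M : Mod) (v : ℕ) (X : List ℤ) : ℚ := if val M X v < 0 then 1 else 0
def goodq (M : Mod) (X : List ℤ) : ℚ := if good M X then 1 else 0

/-- the next exponent to be raised -/
def nxt (M : Mod) (p : List ℕ) (S : List (List ℤ)) : Option ℕ :=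
  ((((List.range (mN M)).filter fun v => decide (gn p (3 * v) < tgt M v)).map fun v => 3 * v) ++
    (((List.range (mN M)).filter fun v =>
      decide (isRoot M v ∧ 2 / (ms M : ℚ) ^ 2 ≤ est S (posq M v))).map fun v => 3 * v + 2) ++
    (((List.range (mN M)).filter fun v =>
      decide (isRoot M v ∧ 2 / (ms M : ℚ) ^ 2 ≤ est S (negq M v))).map fun v => 3 * v + 1)).head?

def smps (M : Mod) (p : List ℕ) (l : List Bool) : List (List ℤ) := draws (smp M p 0) (slen (ms M) 0) (mm (ms M)) l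

def aUpd (M : Mod) (st : ASt) (S : List (List ℤ)) : ASt :=
  (nxt M st.1 S).elim (st.1, st.2.1 * est S (goodq M), true)
    fun i => (bump st.1 i, st.2.1 * est S (om M i), false)

def aStep (M : Mod) (st : ASt) (l : List Bool) : ASt := if st.2.2 = true then st else aUpd M st (smps M st.1 l)

def aseg (s : ℕ) : ℕ := mm s * slen s 0
def alen (s : ℕ) : ℕ := LL s * aseg s

def vol (M : Mod) : ℕ := ∏ e ∈ range (mE M), (hi M e - lo M e + 1).toNat

def anneal (M : Mod) (t : List Bool) : ASt :=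
  runL (aStep M) (aseg (ms M)) (LL (ms M)) (List.replicate (3 * mN M) 0, (vol M : ℚ), false) t

variable {M : Mod}

theorem vol_eq (M : Mod) : vol M = (Om M).card := (card_lbox _ _ _).symm

/-- all estimates are accurate -/
def Acc (M : Mod) (p : List ℕ) (S : List (List ℤ)) : Prop :=
  (∀ i < 3 * mN M, |(est S (om M i) : ℝ) - mu M p (fun X => om M i X)| ≤ 1 / (6 * (ms M : ℝ) ^ 22)) ∧
  (∀ v < mN M, |(est S (posq M v) : ℝ) - mu M p (fun X => ind (0 < val M X v))| ≤ 1 / (6 * (ms M : ℝ) ^ 22)) ∧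
  (∀ v < mN M, |(est S (negq M v) : ℝ) - mu M p (fun X => ind (val M X v < 0))| ≤ 1 / (6 * (ms M : ℝ) ^ 22)) ∧
  |(est S (goodq M) : ℝ) - mu M p (fun X => ind (good M X))| ≤ 1 / (6 * (ms M : ℝ) ^ 22)

theorem an_one (h : ModOK M) {p : List ℕ} (hp : Adm M p) (φ : List ℤ → ℚ) (ψ : List ℤ → ℝ)
    (hψ : ∀ X, ψ X = φ X) (hφ : ∀ X ∈ Om M, 0 ≤ φ X ∧ φ X ≤ 3) :
    Ex (aseg (ms M)) (fun l => ind (1 / (6 * (ms M : ℝ) ^ 22) < |(est (smps M p l) φ : ℝ) - mu M p ψ|)) ≤
      1296 / (ms M : ℝ) ^ 25 := by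
  have hs100 : 100 ≤ ms M := h.big
  have hsR : (100 : ℝ) ≤ ms M := by exact_mod_cast hs100
  have hb : ∀ X ∈ Om M, 0 ≤ ψ X ∧ ψ X ≤ 3 := fun X hX => by
    rw [hψ]; exact_mod_cast hφ X hX
  have hmix := smp_mix h hp 0 le_rfl ψ 3 hb
  have h2 : (3 : ℝ) / 2 ^ JJ (ms M) 0 ≤ 1 / (6 * (ms M : ℝ) ^ 22) / 2 := by
    have a1 : (ms M : ℝ) ≤ 2 ^ ms M := by exact_mod_cast (Nat.lt_two_pow_self (n := ms M)).le
    have a2 : (ms M : ℝ) ^ 23 ≤ 2 ^ JJ (ms M) 0 := by
      rw [JJ, zero_add, mul_comm, pow_mul]; gcongr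
    have a3 : 36 * (ms M : ℝ) ^ 22 ≤ (ms M : ℝ) ^ 23 := by
      rw [pow_succ' (ms M : ℝ) 22]; gcongr; linarith
    rw [div_div, div_le_div_iff₀ (by positivity) (by positivity)]
    linarith
  have key := cheb (smp M p 0) (slen (ms M) 0) (mm (ms M)) (aseg (ms M)) le_rfl
    (by unfold mm; positivity) ψ 3 (mu M p ψ) (1 / (6 * (ms M : ℝ) ^ 22)) (by positivity)
    (fun l => hb _ (smp_mem h p 0 l)) (hmix.trans h2)
  have e : ∀ l, (est (smps M p l) φ : ℝ) =
      ((draws (smp M p 0) (slen (ms M) 0) (mm (ms M)) l).map ψ).sum / mm (ms M) := by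
    intro l
    rw [est, smps, draws_length, funext hψ]
    push_cast [List.map_map]
    rfl
  simp only [e]
  refine key.trans (le_of_eq ?_)
  rw [mm]; push_cast; field_simp; norm_num

theorem an_some {p : List ℕ} {S : List (List ℤ)} {i : ℕ} (hn : nxt M p S = some i) :
    (∃ v < mN M, i = 3 * v ∧ gn p (3 * v) < tgt M v) ∨ ((∀ v < mN M, tgt M v ≤ gn p (3 * v)) ∧
      ∃ v < mN M, isRoot M v ∧ ((i = 3 * v + 2 ∧ 2 / (ms M : ℚ) ^ 2 ≤ est S (posq M v)) ∨
        (i = 3 * v + 1 ∧ 2 / (ms M : ℚ) ^ 2 ≤ est S (negq M v)))) := by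
  unfold nxt at hn
  rw [List.append_assoc, List.head?_append] at hn
  cases h1 : (((List.range (mN M)).filter fun v => decide (gn p (3 * v) < tgt M v)).map
      fun v => 3 * v).head? with
  | some j =>
    rw [h1, Option.some_or, Option.some_inj] at hn
    subst hn
    have := List.mem_of_head? h1
    simp only [List.mem_map, List.mem_filter, List.mem_range, decide_eq_true_eq] at this
    obtain ⟨v, ⟨a1, a2⟩, rfl⟩ := this
    exact Or.inl ⟨v, a1, rfl, a2⟩
  | none =>
    rw [h1, Option.none_or] at hn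
    have := List.mem_of_head? hn
    simp only [List.head?_eq_none_iff, List.map_eq_nil_iff, List.filter_eq_nil_iff, List.mem_range,
      decide_eq_true_eq, not_lt] at h1
    simp only [List.mem_append, List.mem_map, List.mem_filter, List.mem_range,
      decide_eq_true_eq] at this
    refine Or.inr ⟨h1, ?_⟩
    rcases this with ⟨v, ⟨a1, a2, a3⟩, rfl⟩ | ⟨v, ⟨a1, a2, a3⟩, rfl⟩
    · exact ⟨v, a1, a2, Or.inl ⟨rfl, a3⟩⟩
    · exact ⟨v, a1, a2, Or.inr ⟨rfl, a3⟩⟩

theorem an_none {p : List ℕ} {S : List (List ℤ)} (hn : nxt M p S = none) :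
    (∀ v < mN M, tgt M v ≤ gn p (3 * v)) ∧ ∀ v < mN M, isRoot M v →
      est S (posq M v) < 2 / (ms M : ℚ) ^ 2 ∧ est S (negq M v) < 2 / (ms M : ℚ) ^ 2 := by
  unfold nxt at hn
  simp only [List.head?_eq_none_iff, List.append_eq_nil_iff, List.map_eq_nil_iff,
    List.filter_eq_nil_iff, List.mem_range, decide_eq_true_eq, not_lt, not_and, not_le] at hn
  exact ⟨hn.1.1, fun v hv hr => ⟨hn.1.2 v hv hr, hn.2 v hv hr⟩⟩

theorem an_lt {p : List ℕ} {S : List (List ℤ)} {i : ℕ} (hn : nxt M p S = some i) : i < 3 * mN M := by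
  rcases an_some hn with ⟨v, a1, a2, -⟩ | ⟨-, v, a1, -, ⟨a2, -⟩ | ⟨a2, -⟩⟩ <;> omega

theorem an_adm {p : List ℕ} (hp : Adm M p) (hlt : p.sum < LL (ms M)) {S : List (List ℤ)} {i : ℕ}
    (hn : nxt M p S = some i) : Adm M (bump p i) ∧ i < p.length ∧ (bump p i).sum = p.sum + 1 := by
  have hi : i < p.length := hp.1 ▸ an_lt hn
  refine ⟨⟨by rw [length_bump, hp.1], by rw [sum_bump hi]; omega, fun w hw => ?_⟩, hi, sum_bump hi⟩
  rw [gn_bump hi]
  have := hp.2.2 w hw
  split_ifs with hc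
  · rcases an_some hn with ⟨v, a1, a2, a3⟩ | ⟨-, v, a1, -, ⟨a2, -⟩ | ⟨a2, -⟩⟩
    · obtain rfl : w = v := by omega
      omega
    · omega
    · omega
  · omega

theorem an_adm0 (M : Mod) : Adm M (List.replicate (3 * mN M) 0) := by
  refine ⟨by simp, by simp, fun v _ => ?_⟩
  have := gn_le_sum (List.replicate (3 * mN M) 0) (3 * v)
  simp only [List.sum_replicate, smul_eq_mul, mul_zero] at this
  omega

theorem an_est_nonneg (h : ModOK M) (p : List ℕ) (l : List Bool) (φ : List ℤ → ℚ)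
    (hφ : ∀ X ∈ Om M, 0 ≤ φ X) : 0 ≤ est (smps M p l) φ := by
  refine div_nonneg (List.sum_nonneg fun y hy => ?_) (by positivity)
  obtain ⟨X, hX, rfl⟩ := List.mem_map.1 hy
  obtain ⟨l', rfl⟩ := mem_draws hX
  exact hφ _ (smp_mem h p 0 l')

/-- the relative error of one step -/
noncomputable def ax (M : Mod) : ℝ := 1 / (2 * (ms M : ℝ) ^ 22)

theorem an_x_le (h : ModOK M) : ax M ≤ 1 := by
  have hsR : (100 : ℝ) ≤ ms M := by exact_mod_cast h.big
  have : (1 : ℝ) ≤ (ms M : ℝ) ^ 22 := one_le_pow₀ (by linarith)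
  rw [ax, div_le_one (by positivity)]
  linarith

theorem an_rel (h : ModOK M) {Z z e μ : ℝ} {i : ℕ} (hZ : 0 ≤ Z) (h1 : (1 - ax M) ^ i * Z ≤ z)
    (h2 : z ≤ (1 + ax M) ^ i * Z) (hμ : 1 / 3 ≤ μ) (he : |e - μ| ≤ 1 / (6 * (ms M : ℝ) ^ 22)) :
    (1 - ax M) ^ (i + 1) * (Z * μ) ≤ z * e ∧ z * e ≤ (1 + ax M) ^ (i + 1) * (Z * μ) := by
  have hx1 := an_x_le h
  have hx0 : 0 ≤ ax M := by unfold ax; positivity
  have e1 : 1 / (6 * (ms M : ℝ) ^ 22) = ax M / 3 := by rw [ax]; ring
  rw [e1, abs_le] at he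
  have a1 : (1 - ax M) * μ ≤ e := by nlinarith [he.1]
  have a2 : e ≤ (1 + ax M) * μ := by nlinarith [he.2]
  have a3 : 0 ≤ (1 - ax M) * μ := mul_nonneg (by linarith) (by linarith)
  have a4 : 0 ≤ (1 - ax M) ^ i * Z := mul_nonneg (pow_nonneg (by linarith) _) hZ
  constructor
  · calc _ = ((1 - ax M) ^ i * Z) * ((1 - ax M) * μ) := by ring
      _ ≤ z * e := mul_le_mul h1 a1 a3 (a4.trans h1)
  · calc z * e ≤ ((1 + ax M) ^ i * Z) * ((1 + ax M) * μ) :=
          mul_le_mul h2 a2 (a3.trans a1) (by positivity)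
      _ = _ := by ring

/-- the invariant of the annealing loop -/
def AInv (M : Mod) (i : ℕ) (st : ASt) : Prop :=
  Adm M st.1 ∧ st.1.sum ≤ i ∧
  (st.2.2 = false → st.1.sum = i ∧ (1 - ax M) ^ i * Zs M st.1 ≤ st.2.1 ∧
    st.2.1 ≤ (1 + ax M) ^ i * Zs M st.1 ∧
    ∃ c : ℕ, st.1.sum ≤ ∑ v ∈ range (mN M), gn st.1 (3 * v) + c ∧
      Zs M st.1 ≤ 2 ^ ms M ^ 2 * (1 - 1 / (8 * (ms M : ℝ) ^ 17)) ^ c) ∧
  (st.2.2 = true → (1 - ax M) ^ i * (flows (mI M)).card ≤ st.2.1 ∧
    st.2.1 ≤ (1 + ax M) ^ i * (flows (mI M)).card ∧ 1 / 2 ≤ mu M st.1 (fun X => ind (good M X)))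

theorem an_step (h : ModOK M) {i : ℕ} (hi : i < LL (ms M)) {st : ASt} (H : AInv M i st) (l : List Bool)
    (hacc : Acc M st.1 (smps M st.1 l)) : AInv M (i + 1) (aStep M st l) := by
  obtain ⟨p, z, d⟩ := st
  obtain ⟨h1, h2, h3, h4⟩ := H
  simp only at h1 h2 h3 h4 hacc
  have hsR : (100 : ℝ) ≤ ms M := by exact_mod_cast h.big
  have hx1 := an_x_le h
  have hx0 : 0 ≤ ax M := by unfold ax; positivity
  have hη : 1 / (6 * (ms M : ℝ) ^ 22) ≤ 1 / (ms M : ℝ) ^ 2 := by
    have : (ms M : ℝ) ^ 2 ≤ (ms M : ℝ) ^ 22 := pow_le_pow_right₀ (by linarith) (by norm_num)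
    have : (0 : ℝ) < (ms M : ℝ) ^ 2 := by positivity
    gcongr
    linarith
  have e23 : (2 : ℝ) / (ms M : ℝ) ^ 2 = 2 * (1 / (ms M : ℝ) ^ 2) := by ring
  have e33 : (3 : ℝ) / (ms M : ℝ) ^ 2 = 3 * (1 / (ms M : ℝ) ^ 2) := by ring
  unfold aStep
  cases d with
  | true =>
    rw [if_pos rfl]
    obtain ⟨a1, a2, a3⟩ := h4 rfl
    have hc0 : (0 : ℝ) ≤ (flows (mI M)).card := by positivity
    refine ⟨h1, by simp only; omega, fun hh => by simp at hh, fun _ => ⟨?_, ?_, a3⟩⟩
    · exact (mul_le_mul_of_nonneg_right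
        (pow_le_pow_of_le_one (by linarith) (by linarith) (by omega)) hc0).trans a1
    · exact a2.trans (mul_le_mul_of_nonneg_right (pow_le_pow_right₀ (by linarith) (by omega)) hc0)
  | false =>
    rw [if_neg (by simp)]
    obtain ⟨a1, a2, a3, c, a4, a5⟩ := h3 rfl
    have hZ : 0 ≤ Zs M p := zero_le_one.trans (one_le_Zs h p)
    unfold aUpd
    simp only
    cases hn : nxt M p (smps M p l) with
    | none =>
      obtain ⟨b1, b2⟩ := an_none hn
      have hf : Full M p := fun v hv => le_antisymm (h1.2.2 v hv) (b1 v hv)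
      have hg : 1 / 2 ≤ mu M p (fun X => ind (good M X)) := by
        refine good_half h h1 hf fun v hv hr => ?_
        have c1 : (est (smps M p l) (posq M v) : ℝ) < 2 / (ms M : ℝ) ^ 2 := by
          simpa using (Rat.cast_lt (K := ℝ)).2 (b2 v hv hr).1
        have c2 : (est (smps M p l) (negq M v) : ℝ) < 2 / (ms M : ℝ) ^ 2 := by
          simpa using (Rat.cast_lt (K := ℝ)).2 (b2 v hv hr).2
        have c3 := abs_le.1 (hacc.2.1 v hv)
        have c4 := abs_le.1 (hacc.2.2.1 v hv)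
        constructor <;> linarith [c3.1, c4.1]
      have key := an_rel h hZ a2 a3 (by linarith) hacc.2.2.2
      rw [Zs_good h] at key
      refine ⟨h1, by simp only [Option.elim]; omega, fun hh => by simp at hh, fun _ => ?_⟩
      simp only [Option.elim]
      push_cast
      exact ⟨key.1, key.2, hg⟩
    | some j =>
      obtain ⟨b1, b2, b3⟩ := an_adm h1 (by omega) hn
      have hj := an_lt hn
      have hZb := Zs_bump h h1.1 hj ((gn_le_sum p j).trans_lt (by omega))
      have hμ : 1 / 3 ≤ mu M p (fun X => om M j X) := by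
        have := mu_mono h p (f := fun _ => 1 / 3) (g := fun X => om M j X) fun X hX => by
          have := (Rat.cast_le (K := ℝ)).2 (om_ge h hX hj)
          simpa using this
        rwa [mu_const h] at this
      have key := an_rel h hZ a2 a3 hμ (hacc.1 j hj)
      rw [← hZb] at key
      refine ⟨b1, by simp only [Option.elim]; omega, fun _ => ?_, fun hh => by simp at hh⟩
      simp only [Option.elim]
      push_cast
      refine ⟨by omega, key.1, key.2, ?_⟩
      have hmono : ∑ v ∈ range (mN M), gn p (3 * v) ≤ ∑ v ∈ range (mN M), gn (bump p j) (3 * v) :=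
        sum_le_sum fun v _ => by rw [gn_bump b2]; omega
      have s17 : (1 : ℝ) ≤ (ms M : ℝ) ^ 17 := one_le_pow₀ (by linarith)
      have b4 : 0 ≤ 1 - 1 / (8 * (ms M : ℝ) ^ 17) := by
        rw [sub_nonneg, div_le_one (by positivity)]; linarith
      rcases an_some hn with ⟨v, c1, c2, c3⟩ | ⟨c0, v, c1, c2, c3⟩
      · refine ⟨c, ?_, le_trans ?_ a5⟩
        · have : ∑ v ∈ range (mN M), gn p (3 * v) < ∑ v ∈ range (mN M), gn (bump p j) (3 * v) :=
            sum_lt_sum (fun v _ => by rw [gn_bump b2]; omega)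
              ⟨v, mem_range.2 c1, by rw [gn_bump b2, if_pos c2.symm]; omega⟩
          omega
        · rw [hZb]
          refine mul_le_of_le_one_right hZ ?_
          have := mu_mono h p (f := fun X => om M j X) (g := fun _ => 1) fun X hX => by
            exact_mod_cast om_le_one h hX hj (by omega)
          rwa [mu_const h] at this
      · have hf : Full M p := fun v hv => le_antisymm (h1.2.2 v hv) (c0 v hv)
        refine ⟨c + 1, by omega, ?_⟩
        have hstep : Zs M (bump p j) ≤ (1 - 1 / (8 * (ms M : ℝ) ^ 17)) * Zs M p := by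
          rcases c3 with ⟨rfl, c3⟩ | ⟨rfl, c3⟩
          · have d1 : 2 / (ms M : ℝ) ^ 2 ≤ (est (smps M p l) (posq M v) : ℝ) := by
              simpa using (Rat.cast_le (K := ℝ)).2 c3
            have d2 := abs_le.1 (hacc.2.1 v c1)
            exact tune_pos h h1 hf (by omega) c1 c2 (by linarith [d2.2])
          · have d1 : 2 / (ms M : ℝ) ^ 2 ≤ (est (smps M p l) (negq M v) : ℝ) := by
              simpa using (Rat.cast_le (K := ℝ)).2 c3
            have d2 := abs_le.1 (hacc.2.2.1 v c1)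
            exact tune_neg h h1 hf (by omega) c1 c2 (by linarith [d2.2])
        refine hstep.trans ((mul_le_mul_of_nonneg_left a5 b4).trans (le_of_eq ?_))
        ring

theorem acc_prob (h : ModOK M) {p : List ℕ} (hp : Adm M p) :
    Ex (aseg (ms M)) (fun l => ind (¬ Acc M p (smps M p l))) ≤ 1 / (8 * (LL (ms M) : ℝ)) := by
  have hsR : (100 : ℝ) ≤ ms M := by exact_mod_cast h.big
  have hN : (mN M : ℝ) ≤ ms M := by exact_mod_cast h.sized.2.1
  set η : ℝ := 1 / (6 * (ms M : ℝ) ^ 22) with hη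
  set A : ℕ → List Bool → ℝ := fun i l =>
    ind (η < |(est (smps M p l) (om M i) : ℝ) - mu M p (fun X => om M i X)|) with hA
  set B : ℕ → List Bool → ℝ := fun v l =>
    ind (η < |(est (smps M p l) (posq M v) : ℝ) - mu M p (fun X => ind (0 < val M X v))|) with hB
  set C : ℕ → List Bool → ℝ := fun v l =>
    ind (η < |(est (smps M p l) (negq M v) : ℝ) - mu M p (fun X => ind (val M X v < 0))|) with hC
  set D : List Bool → ℝ := fun l =>
    ind (η < |(est (smps M p l) (goodq M) : ℝ) - mu M p (fun X => ind (good M X))|) with hD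
  have hpt : ∀ l, ind (¬ Acc M p (smps M p l)) ≤ ∑ i ∈ range (3 * mN M), A i l +
      (∑ v ∈ range (mN M), B v l + (∑ v ∈ range (mN M), C v l + D l)) := by
    intro l
    have a1 : ∀ i ∈ range (3 * mN M), 0 ≤ A i l := fun _ _ => ind_nonneg _
    have a2 : ∀ i ∈ range (mN M), 0 ≤ B i l := fun _ _ => ind_nonneg _
    have a3 : ∀ i ∈ range (mN M), 0 ≤ C i l := fun _ _ => ind_nonneg _
    have a4 : 0 ≤ D l := ind_nonneg _
    have b1 := sum_nonneg a1
    have b2 := sum_nonneg a2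
    have b3 := sum_nonneg a3
    by_cases hacc : Acc M p (smps M p l)
    · rw [ind_false (not_not.2 hacc)]; linarith
    rw [ind_true hacc]
    unfold Acc at hacc
    rw [not_and_or, not_and_or, not_and_or] at hacc
    push Not at hacc
    rcases hacc with ⟨i, hi, H⟩ | ⟨i, hi, H⟩ | ⟨i, hi, H⟩ | H
    · have := single_le_sum a1 (mem_range.2 hi)
      have e : A i l = 1 := ind_true H
      linarith
    · have := single_le_sum a2 (mem_range.2 hi)
      have e : B i l = 1 := ind_true H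
      linarith
    · have := single_le_sum a3 (mem_range.2 hi)
      have e : C i l = 1 := ind_true H
      linarith
    · have e : D l = 1 := ind_true H
      linarith
  refine (Ex_mono fun l _ => hpt l).trans ?_
  rw [Ex_add, Ex_add, Ex_add, Ex_sum, Ex_sum, Ex_sum]
  have c1 : ∑ i ∈ range (3 * mN M), Ex (aseg (ms M)) (A i) ≤
      #(range (3 * mN M)) • (1296 / (ms M : ℝ) ^ 25) :=
    sum_le_card_nsmul _ _ _ fun i hi => an_one h hp _ _ (fun _ => rfl) fun X hX =>
      ⟨le_trans (by norm_num) (om_ge h hX (mem_range.1 hi)), om_le h hX (mem_range.1 hi)⟩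
  have c2 : ∑ i ∈ range (mN M), Ex (aseg (ms M)) (B i) ≤ #(range (mN M)) • (1296 / (ms M : ℝ) ^ 25) :=
    sum_le_card_nsmul _ _ _ fun i _ => an_one h hp _ _
      (fun X => by unfold posq ind; split_ifs <;> simp)
      fun X _ => by unfold posq; split_ifs <;> norm_num
  have c3 : ∑ i ∈ range (mN M), Ex (aseg (ms M)) (C i) ≤ #(range (mN M)) • (1296 / (ms M : ℝ) ^ 25) :=
    sum_le_card_nsmul _ _ _ fun i _ => an_one h hp _ _
      (fun X => by unfold negq ind; split_ifs <;> simp)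
      fun X _ => by unfold negq; split_ifs <;> norm_num
  have c4 : Ex (aseg (ms M)) D ≤ 1296 / (ms M : ℝ) ^ 25 :=
    an_one h hp _ _ (fun X => by unfold goodq ind; split_ifs <;> simp)
      fun X _ => by unfold goodq; split_ifs <;> norm_num
  simp only [card_range, nsmul_eq_mul, Nat.cast_mul, Nat.cast_ofNat] at c1 c2 c3
  have c5 : (5 * (mN M : ℝ) + 1) * (1296 / (ms M : ℝ) ^ 25) ≤ 1 / (8 * (LL (ms M) : ℝ)) := by
    have h7 : (100 : ℝ) ^ 3 ≤ (ms M : ℝ) ^ 3 := by gcongr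
    calc (5 * (mN M : ℝ) + 1) * (1296 / (ms M : ℝ) ^ 25) ≤ (6 * ms M) * (1296 / (ms M : ℝ) ^ 25) := by
          gcongr; linarith
      _ = 1 / (8 * (ms M : ℝ) ^ 21) * (62208 / (ms M : ℝ) ^ 3) := by field_simp; norm_num
      _ ≤ 1 / (8 * (ms M : ℝ) ^ 21) * 1 := by
          gcongr; rw [div_le_one (by positivity)]; linarith
      _ = _ := by simp [LL]
  linarith

theorem anneal_adm (h : ModOK M) (t : List Bool) : Adm M (anneal M t).1 := by
  have := runL_inv (aStep M) (aseg (ms M))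
    (fun i st => i ≤ LL (ms M) → Adm M st.1 ∧ st.1.sum ≤ i) (fun i st l H hi => by
      obtain ⟨h1, h2⟩ := H (by omega)
      unfold aStep
      split_ifs
      · exact ⟨h1, by omega⟩
      · unfold aUpd
        cases hn : nxt M st.1 (smps M st.1 l) with
        | none => exact ⟨h1, by simp only [Option.elim]; omega⟩
        | some j =>
          obtain ⟨a1, -, a3⟩ := an_adm h1 (by omega) hn
          exact ⟨a1, by simp only [Option.elim]; omega⟩)
    (LL (ms M)) (List.replicate (3 * mN M) 0, (vol M : ℚ), false)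
    (fun _ => ⟨an_adm0 M, by simp⟩) t le_rfl
  exact this.1

theorem anneal_nonneg (h : ModOK M) (t : List Bool) : 0 ≤ (anneal M t).2.1 := by
  refine runL_inv (aStep M) (aseg (ms M)) (fun _ st => 0 ≤ st.2.1) (fun i st l H => ?_)
    (LL (ms M)) (List.replicate (3 * mN M) 0, (vol M : ℚ), false) (by simp) t
  unfold aStep
  split_ifs
  · exact H
  · unfold aUpd
    cases hn : nxt M st.1 (smps M st.1 l) with
    | none =>
      exact mul_nonneg H (an_est_nonneg h _ _ _ fun X _ => by unfold goodq; split_ifs <;> norm_num)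
    | some j =>
      exact mul_nonneg H (an_est_nonneg h _ _ _ fun X hX =>
        le_trans (by norm_num) (om_ge h hX (an_lt hn)))

theorem anneal_spec (h : ModOK M) {len : ℕ} (hlen : alen (ms M) ≤ len) :
    Ex len (fun t => ind (¬ ((1 - 1 / (ms M : ℚ)) * (flows (mI M)).card ≤ (anneal M t).2.1 ∧
      (anneal M t).2.1 ≤ (1 + 1 / (ms M : ℚ)) * (flows (mI M)).card ∧
      1 / 2 ≤ mu M (anneal M t).1 (fun X => ind (good M X))))) ≤ 1 / 8 := by
  have hs100 : 100 ≤ ms M := h.big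
  have hsR : (100 : ℝ) ≤ ms M := by exact_mod_cast hs100
  have hL : (LL (ms M) : ℝ) = (ms M : ℝ) ^ 21 := by simp [LL]
  have hbad := runL_bad (aStep M) (aseg (ms M)) (LL (ms M)) len hlen (AInv M)
    (1 / (8 * (LL (ms M) : ℝ))) (by positivity) (fun i hi st H => by
      refine le_trans (Ex_mono fun l _ => ?_) (acc_prob h H.1)
      by_cases hacc : Acc M st.1 (smps M st.1 l)
      · rw [ind_false (not_not.2 (an_step h hi H l hacc))]; exact ind_nonneg _
      · rw [ind_true hacc]; exact ind_le_one _)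
    (List.replicate (3 * mN M) 0, (vol M : ℚ), false) (by
      refine ⟨an_adm0 M, by simp, fun _ => ⟨by simp, ?_, ?_, 0, by simp, ?_⟩, fun hh => by simp at hh⟩
      · simp [Zs_zero, vol_eq]
      · simp [Zs_zero, vol_eq]
      · simp only [Zs_zero, pow_zero, mul_one]
        exact_mod_cast card_Om h)
  have e : (LL (ms M) : ℝ) * (1 / (8 * (LL (ms M) : ℝ))) = 1 / 8 := by rw [hL]; field_simp
  rw [e] at hbad
  refine le_trans (Ex_mono fun t _ => ?_) hbad
  by_cases H : AInv M (LL (ms M)) (anneal M t)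
  swap
  · exact (ind_le_one _).trans (ind_true H).ge
  refine (ind_false (not_not.2 ?_)).le.trans (ind_nonneg _)
  obtain ⟨h1, -, h3, h4⟩ := H
  have hd : (anneal M t).2.2 = true := by
    by_contra hd
    obtain ⟨a1, -, -, c, a4, a5⟩ := h3 (by simpa using hd)
    have b1 : ∑ v ∈ range (mN M), gn (anneal M t).1 (3 * v) ≤ #(range (mN M)) • (22 * ms M ^ 16) := by
      refine sum_le_card_nsmul _ _ _ fun v hv => (h1.2.2 v (mem_range.1 hv)).trans ?_
      unfold tgt
      split_ifs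
      · have : Nat.size (ms M) ≤ ms M := Nat.size_le.2 Nat.lt_two_pow_self
        calc jj (ms M) = 22 * ms M ^ 15 * Nat.size (ms M) := by unfold jj MM; ring
          _ ≤ 22 * ms M ^ 15 * ms M := by gcongr
          _ = _ := by ring
      · have : ms M ^ 8 ≤ ms M ^ 16 := Nat.pow_le_pow_right (by omega) (by norm_num)
        unfold kk; omega
    have b2 : ∑ v ∈ range (mN M), gn (anneal M t).1 (3 * v) ≤ 22 * ms M ^ 17 := by
      refine b1.trans ?_
      rw [card_range, smul_eq_mul]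
      calc mN M * (22 * ms M ^ 16) ≤ ms M * (22 * ms M ^ 16) := Nat.mul_le_mul_right _ h.sized.2.1
        _ = _ := by ring
    have b3 : 8 * ms M ^ 17 * (ms M ^ 2 + 1) ≤ c := by
      have c1 : 100 * 100 ≤ ms M * ms M := Nat.mul_le_mul hs100 hs100
      have c2 : 8 * (ms M ^ 2 + 1) + 22 ≤ ms M ^ 4 := by nlinarith
      have c3 := Nat.mul_le_mul_left (ms M ^ 17) c2
      have c4 : LL (ms M) = ms M ^ 17 * ms M ^ 4 := by unfold LL; ring
      nlinarith
    have s17 : (1 : ℝ) ≤ (ms M : ℝ) ^ 17 := one_le_pow₀ (by linarith)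
    have b4 : 1 / (8 * (ms M : ℝ) ^ 17) ≤ 1 := by rw [div_le_one (by positivity)]; linarith
    have b5 : (1 - 1 / (8 * (ms M : ℝ) ^ 17)) ^ (8 * ms M ^ 17) ≤ 1 / 2 := by
      have e : ((8 * ms M ^ 17 : ℕ) : ℝ) * (1 / (8 * (ms M : ℝ) ^ 17)) = 1 := by
        push_cast; field_simp
      have := mtl_pow (x := 1 / (8 * (ms M : ℝ) ^ 17)) (by positivity) b4 (8 * ms M ^ 17) e.le
      rw [e] at this
      linarith
    have b7 : (0 : ℝ) ≤ 1 / (8 * (ms M : ℝ) ^ 17) := by positivity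
    have b6 : (1 - 1 / (8 * (ms M : ℝ) ^ 17)) ^ c ≤ (1 / 2) ^ (ms M ^ 2 + 1) := by
      refine (pow_le_pow_of_le_one (by linarith) (by linarith) b3).trans ?_
      rw [pow_mul]
      exact pow_le_pow_left₀ (pow_nonneg (by linarith) _) b5 _
    have b8 := (one_le_Zs h _).trans (a5.trans (mul_le_mul_of_nonneg_left b6 (by positivity)))
    rw [pow_succ (1 / 2 : ℝ), ← mul_assoc, ← mul_pow] at b8
    norm_num at b8
  obtain ⟨a1, a2, a3⟩ := h4 hd
  have hx0 : 0 < ax M := by unfold ax; positivity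
  have hx1 : ax M ≤ 1 := an_x_le h
  have hLx : (LL (ms M) : ℝ) * ax M = 1 / (2 * ms M) := by rw [hL, ax]; field_simp
  have p1 : 1 - 1 / (2 * (ms M : ℝ)) ≤ (1 - ax M) ^ LL (ms M) := by
    have := one_add_mul_le_pow (a := - ax M) (by linarith) (LL (ms M))
    rw [mul_neg, hLx] at this
    exact this
  have p2 : (1 + ax M) ^ LL (ms M) * (1 - ax M) ^ LL (ms M) ≤ 1 := by
    rw [← mul_pow]; exact pow_le_one₀ (by nlinarith) (by nlinarith)
  have q0 : (0 : ℝ) < 1 / ms M := by positivity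
  have q1 : 1 / (ms M : ℝ) ≤ 1 := by rw [div_le_one (by positivity)]; linarith
  have q2 : 1 / (2 * (ms M : ℝ)) = 1 / ms M / 2 := by field_simp
  rw [q2] at p1
  have p3 : (1 + ax M) ^ LL (ms M) ≤ 1 + 1 / (ms M : ℝ) := by
    have r1 : 0 ≤ (1 + ax M) ^ LL (ms M) := by positivity
    have r2 := (mul_le_mul_of_nonneg_left p1 r1).trans p2
    refine le_of_mul_le_mul_right (a := 1 - 1 / (ms M : ℝ) / 2) (r2.trans ?_) (by linarith)
    nlinarith
  have hc0 : (0 : ℝ) ≤ (flows (mI M)).card := by positivity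
  refine ⟨?_, ?_, a3⟩
  · have : (1 - 1 / (ms M : ℝ)) * (flows (mI M)).card ≤ ((anneal M t).2.1 : ℝ) :=
      (mul_le_mul_of_nonneg_right (by linarith) hc0).trans a1
    exact (Rat.cast_le (K := ℝ)).1 (by push_cast; exact this)
  · have : ((anneal M t).2.1 : ℝ) ≤ (1 + 1 / (ms M : ℝ)) * (flows (mI M)).card :=
      a2.trans (mul_le_mul_of_nonneg_right p3 hc0)
    exact (Rat.cast_le (K := ℝ)).1 (by push_cast; exact this)

end Crest.Agent.R309
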