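import Crest.Agent.R309.Thr

/-!
# R309: Poincaré inequality for unit increments, and general facts on `Vr`

PLAN.  `Vr_le`: `Vr = ∑ W (f - c)^2 - (∑ W (f-c))^2 / Z`.  `Vr_add_le`: with `c` the `W`-mean of `g`,
`Vr f ≤ ∑ W (f - c)^2` and `(f-c)^2 ≤ (1+ε)(g-c)^2 + (1+1/ε)(f-g)^2`, `∑ W (g-c)^2 = Vr g`.
`Vr_union`: algebra.  `P1`: induction on `nb`, generalising `l u`.  If `l = u` the box is a point and `Vr = 0`.
Otherwise pick `k` with `l k < u k`, `θ = l k + (u k - l k + 1) / 2`; the box is the disjoint union of the two halves,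
both have `∑ clog ≤ nb - 1` (`Nat.clog_of_two_le`: `clog 2 n = clog 2 ((n+1)/2) + 1`), all hypotheses pass to
sub-boxes, `Gr` of the halves add up to at most `Gr` of the box (`ξ a < u' a ≤ u a`), and `thr` bounds the
between-term of `Vr_union`.  (`κ ≥ 1` from `hκ` with `j = k`.)
-/

set_option autoImplicit false
open Finset

namespace Crest.Agent.R309

section
variable {σ : Type}

theorem p1_expand (Ω : Finset σ) (W f : σ → ℝ) (c : ℝ) :
    ∑ x ∈ Ω, W x * (f x - c) ^ 2 =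
      ∑ x ∈ Ω, W x * f x ^ 2 - 2 * c * ∑ x ∈ Ω, W x * f x + c ^ 2 * ∑ x ∈ Ω, W x := by
  rw [mul_sum, mul_sum, ← sum_sub_distrib, ← sum_add_distrib]
  exact sum_congr rfl fun x _ => by ring

theorem Vr_le (Ω : Finset σ) (W f : σ → ℝ) (hW : ∀ x ∈ Ω, 0 < W x) (c : ℝ) :
    Vr Ω W f ≤ ∑ x ∈ Ω, W x * (f x - c) ^ 2 := by
  rcases Ω.eq_empty_or_nonempty with rfl | hne
  · simp [Vr]
  have hZ : 0 < ∑ x ∈ Ω, W x := sum_pos hW hne
  rw [p1_expand, Vr]
  have : 0 ≤ (∑ x ∈ Ω, W x * f x - c * ∑ x ∈ Ω, W x) ^ 2 / ∑ x ∈ Ω, W x := by positivity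
  have e : (∑ x ∈ Ω, W x * f x - c * ∑ x ∈ Ω, W x) ^ 2 / ∑ x ∈ Ω, W x =
      (∑ x ∈ Ω, W x * f x) ^ 2 / ∑ x ∈ Ω, W x - 2 * c * ∑ x ∈ Ω, W x * f x
        + c ^ 2 * ∑ x ∈ Ω, W x := by
    field_simp; ring
  linarith

theorem Vr_eq_mean (Ω : Finset σ) (W f : σ → ℝ) (hW : ∀ x ∈ Ω, 0 < W x) :
    Vr Ω W f = ∑ x ∈ Ω, W x * (f x - (∑ y ∈ Ω, W y * f y) / ∑ y ∈ Ω, W y) ^ 2 := by
  rcases Ω.eq_empty_or_nonempty with rfl | hne
  · simp [Vr]
  have hZ : 0 < ∑ x ∈ Ω, W x := sum_pos hW hne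
  rw [p1_expand, Vr]
  field_simp; ring

theorem Vr_add_le (Ω : Finset σ) (W f g : σ → ℝ) (hW : ∀ x ∈ Ω, 0 < W x) {ε : ℝ} (hε : 0 < ε) :
    Vr Ω W f ≤ (1 + ε) * Vr Ω W g + (1 + 1 / ε) * ∑ x ∈ Ω, W x * (f x - g x) ^ 2 := by
  set c := (∑ y ∈ Ω, W y * g y) / ∑ y ∈ Ω, W y with hc
  refine (Vr_le Ω W f hW c).trans ?_
  rw [Vr_eq_mean Ω W g hW, ← hc, mul_sum, mul_sum, ← sum_add_distrib]
  refine sum_le_sum fun x hx => ?_
  have h1 : (f x - c) ^ 2 ≤ (1 + ε) * (g x - c) ^ 2 + (1 + 1 / ε) * (f x - g x) ^ 2 := by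
    have h2 : 0 ≤ (ε * (g x - c) - (f x - g x)) ^ 2 / ε := by positivity
    have e : (ε * (g x - c) - (f x - g x)) ^ 2 / ε =
        (1 + ε) * (g x - c) ^ 2 + (1 + 1 / ε) * (f x - g x) ^ 2 - (f x - c) ^ 2 := by
      field_simp; ring
    linarith
  have := mul_le_mul_of_nonneg_left h1 (hW x hx).le
  linarith

theorem Vr_union [DecidableEq σ] (A B : Finset σ) (hd : Disjoint A B) (W f : σ → ℝ)
    (hA : 0 < ∑ x ∈ A, W x) (hB : 0 < ∑ x ∈ B, W x) :
    Vr (A ∪ B) W f = Vr A W f + Vr B W f +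
      ((∑ x ∈ A, W x) * (∑ x ∈ B, W x * f x) - (∑ x ∈ B, W x) * (∑ x ∈ A, W x * f x)) ^ 2 /
        ((∑ x ∈ A ∪ B, W x) * (∑ x ∈ B, W x) * (∑ x ∈ A, W x)) := by
  simp only [Vr, sum_union hd]
  have : ∑ x ∈ A, W x + ∑ x ∈ B, W x ≠ 0 := by positivity
  field_simp
  ring

theorem Vr_smul (Ω : Finset σ) (W f : σ → ℝ) (c : ℝ) : Vr Ω (fun x => c * W x) f = c * Vr Ω W f := by
  simp only [Vr, mul_assoc, ← mul_sum]
  rcases eq_or_ne c 0 with rfl | hc
  · simp
  rcases eq_or_ne (∑ x ∈ Ω, W x) 0 with h0 | h0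
  · simp [h0]
  field_simp

theorem Vr_congr (Ω : Finset σ) {W W' f f' : σ → ℝ} (h : ∀ x ∈ Ω, W x = W' x) (h' : ∀ x ∈ Ω, f x = f' x) :
    Vr Ω W f = Vr Ω W' f' := by
  unfold Vr
  rw [sum_congr rfl h, sum_congr rfl (fun x hx => by rw [h x hx, h' x hx] :
      ∀ x ∈ Ω, W x * f x ^ 2 = W' x * f' x ^ 2),
    sum_congr rfl (fun x hx => by rw [h x hx, h' x hx] : ∀ x ∈ Ω, W x * f x = W' x * f' x)]

end

variable {ι : Type} [Fintype ι] [DecidableEq ι]

theorem P1 {h : (ι × Bool → ℤ) → ℝ} (hp : Pos h) (hl : Lor h) (Λ : ι → ℝ) (hΛ1 : ∀ j, 1 ≤ Λ j) (κ : ℝ)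
    (m : (ι → ℤ) → ℝ) (nb : ℕ) (l u : ι → ℤ) (hlu : ∀ j, l j ≤ u j)
    (hΛ : ∀ j, ((u j - l j : ℤ) : ℝ) ≤ Λ j)
    (hκ : ∀ X ∈ Box l u, ∀ j k, h (lift X (-X + ee j - ee k)) ≤ κ * Wt h X)
    (hnb : ∑ j, Nat.clog 2 (u j - l j + 1).toNat ≤ nb) :
    Vr (Box l u) (Wt h) m ≤
      (2 + 4 * κ * Fintype.card ι) * κ * nb * ∑ a, Λ a ^ 2 * Gr (Wt h) l u a m := by
  have hW : ∀ X, 0 < Wt h X := fun X => hp _
  have triv : ∀ l u : ι → ℤ, l = u → ∀ C : ℝ,
      Vr (Box l u) (Wt h) m ≤ C * ∑ a, Λ a ^ 2 * Gr (Wt h) l u a m := by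
    rintro l _ rfl C
    have hb : Box l l = {l} := by
      ext X
      rw [mem_Box, mem_singleton]
      constructor
      · intro H; funext j; exact le_antisymm (H j).2 (H j).1
      · rintro rfl j; exact ⟨le_rfl, le_rfl⟩
    have := (hW l).ne'
    simp only [Vr, Gr, hb, sum_singleton, lt_irrefl, if_false, mul_zero, sum_const_zero]
    field_simp
    simp
  induction nb generalizing l u with
  | zero =>
    refine triv l u ?_ _
    funext j
    have h1 : Nat.clog 2 (u j - l j + 1).toNat = 0 :=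
      (sum_eq_zero_iff.1 (Nat.le_zero.1 hnb)) j (mem_univ _)
    by_contra hne
    have h2 : 2 ≤ (u j - l j + 1).toNat := by have := hlu j; omega
    have := Nat.clog_pos (b := 2) (by norm_num) h2
    omega
  | succ nb ih =>
    by_cases hlu' : l = u
    · exact triv l u hlu' _
    obtain ⟨k, hk⟩ := Function.ne_iff.1 hlu'
    have hk' : l k < u k := lt_of_le_of_ne (hlu k) hk
    set θ : ℤ := l k + (u k - l k + 1) / 2 with hθ
    have h1 : l k < θ := by omega
    have h2 : θ ≤ u k := by omega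
    have hκ1 : 1 ≤ κ := by
      have := hκ l (mem_Box.2 fun j => ⟨le_rfl, hlu j⟩) k k
      rw [add_sub_cancel_right] at this
      have h3 := hW l
      change Wt h l ≤ _ at this
      nlinarith
    set u' := Function.update u k (θ - 1) with hu'
    set l' := Function.update l k θ with hl'
    have hu'le : ∀ j, u' j ≤ u j := by
      intro j
      by_cases hj : j = k
      · subst hj; simp only [hu', Function.update_self]; omega
      · simp [hu', Function.update_of_ne hj]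
    have hl'le : ∀ j, l j ≤ l' j := by
      intro j
      by_cases hj : j = k
      · subst hj; simp only [hl', Function.update_self]; omega
      · simp [hl', Function.update_of_ne hj]
    have hlu1 : ∀ j, l j ≤ u' j := by
      intro j
      by_cases hj : j = k
      · subst hj; simp only [hu', Function.update_self]; omega
      · simp [hu', Function.update_of_ne hj, hlu j]
    have hlu2 : ∀ j, l' j ≤ u j := by
      intro j
      by_cases hj : j = k
      · subst hj; simp only [hl', Function.update_self]; omega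
      · simp [hl', Function.update_of_ne hj, hlu j]
    have hsub1 : Box l u' ⊆ Box l u := fun X hX =>
      mem_Box.2 fun j => ⟨(mem_Box.1 hX j).1, (mem_Box.1 hX j).2.trans (hu'le j)⟩
    have hsub2 : Box l' u ⊆ Box l u := fun X hX =>
      mem_Box.2 fun j => ⟨(hl'le j).trans (mem_Box.1 hX j).1, (mem_Box.1 hX j).2⟩
    have hdisj : Disjoint (Box l u') (Box l' u) := by
      rw [disjoint_left]
      intro X hX hX'
      have a1 := (mem_Box.1 hX k).2
      have a2 := (mem_Box.1 hX' k).1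
      simp only [hu', hl', Function.update_self] at a1 a2
      omega
    have hun : Box l u = Box l u' ∪ Box l' u := by
      refine subset_antisymm ?_ (union_subset hsub1 hsub2)
      intro X hX
      rw [mem_union, mem_Box, mem_Box]
      rw [mem_Box] at hX
      by_cases hc : X k < θ
      · left
        intro j
        by_cases hj : j = k
        · subst hj; simp only [hu', Function.update_self]; exact ⟨(hX j).1, by omega⟩
        · simpa [hu', Function.update_of_ne hj] using hX j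
      · right
        intro j
        by_cases hj : j = k
        · subst hj; simp only [hl', Function.update_self]; exact ⟨by omega, (hX j).2⟩
        · simpa [hl', Function.update_of_ne hj] using hX j
    have hclog : Nat.clog 2 (u k - l k + 1).toNat =
        Nat.clog 2 (((u k - l k + 1).toNat + 2 - 1) / 2) + 1 :=
      Nat.clog_of_two_le (by norm_num) (by omega)
    have hsumc : ∀ l₁ u₁ : ι → ℤ, (∀ j, j ≠ k → l₁ j = l j ∧ u₁ j = u j) →
        (u₁ k - l₁ k + 1).toNat ≤ ((u k - l k + 1).toNat + 2 - 1) / 2 →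
        ∑ j, Nat.clog 2 (u₁ j - l₁ j + 1).toNat ≤ nb := by
      intro l₁ u₁ hj hle
      rw [← add_sum_erase _ _ (mem_univ k)] at hnb ⊢
      rw [sum_congr rfl (fun j hj' => by rw [(hj j (ne_of_mem_erase hj')).1,
        (hj j (ne_of_mem_erase hj')).2] : ∀ j ∈ univ.erase k,
          Nat.clog 2 (u₁ j - l₁ j + 1).toNat = Nat.clog 2 (u j - l j + 1).toNat)]
      have := Nat.clog_mono_right 2 hle
      omega
    have ih1 := ih l u' hlu1 (fun j => le_trans (by exact_mod_cast by linarith [hu'le j]) (hΛ j))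
      (fun X hX => hκ X (hsub1 hX))
      (hsumc l u' (fun j hj => ⟨rfl, by simp [hu', Function.update_of_ne hj]⟩)
        (by simp only [hu', Function.update_self]; omega))
    have ih2 := ih l' u hlu2 (fun j => le_trans (by exact_mod_cast by linarith [hl'le j]) (hΛ j))
      (fun X hX => hκ X (hsub2 hX))
      (hsumc l' u (fun j hj => ⟨by simp [hl', Function.update_of_ne hj], rfl⟩)
        (by simp only [hl', Function.update_self]; omega))
    have hA : 0 < ∑ X ∈ Box l u', Wt h X :=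
      sum_pos (fun X _ => hW X) ⟨l, mem_Box.2 fun j => ⟨le_rfl, hlu1 j⟩⟩
    have hB : 0 < ∑ X ∈ Box l' u, Wt h X :=
      sum_pos (fun X _ => hW X) ⟨u, mem_Box.2 fun j => ⟨hlu2 j, le_rfl⟩⟩
    have hZ : 0 < ∑ X ∈ Box l u, Wt h X :=
      sum_pos (fun X _ => hW X) ⟨u, mem_Box.2 fun j => ⟨hlu j, le_rfl⟩⟩
    have hthr := thr hp hl l u hlu Λ hΛ1 hΛ κ hκ k θ h1 h2 m
    rw [← hu', ← hl'] at hthr
    have hV := Vr_union _ _ hdisj (Wt h) m hA hB
    rw [← hun] at hV
    have hG : ∀ a, Gr (Wt h) l u' a m + Gr (Wt h) l' u a m ≤ Gr (Wt h) l u a m := by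
      intro a
      unfold Gr
      rw [hun, sum_union hdisj]
      refine add_le_add (sum_le_sum fun ξ _ => ?_) le_rfl
      have := hW (ξ + ee a)
      have := hu'le a
      split_ifs with c1 c2
      · exact le_rfl
      · omega
      · positivity
      · exact le_rfl
    have hGs : ∑ a, Λ a ^ 2 * Gr (Wt h) l u' a m + ∑ a, Λ a ^ 2 * Gr (Wt h) l' u a m ≤
        ∑ a, Λ a ^ 2 * Gr (Wt h) l u a m := by
      rw [← sum_add_distrib]
      refine sum_le_sum fun a _ => ?_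
      rw [← mul_add]
      exact mul_le_mul_of_nonneg_left (hG a) (sq_nonneg _)
    have hC : 0 ≤ (2 + 4 * κ * Fintype.card ι) * κ * nb := by positivity
    have hbt : ((∑ x ∈ Box l u', Wt h x) * (∑ x ∈ Box l' u, Wt h x * m x) -
          (∑ x ∈ Box l' u, Wt h x) * (∑ x ∈ Box l u', Wt h x * m x)) ^ 2 /
        ((∑ x ∈ Box l u, Wt h x) * (∑ x ∈ Box l' u, Wt h x) * (∑ x ∈ Box l u', Wt h x)) ≤
        (2 + 4 * κ * Fintype.card ι) * κ * ∑ a, Λ a ^ 2 * Gr (Wt h) l u a m := by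
      rw [div_le_iff₀ (by positivity)]
      refine hthr.trans (le_of_eq ?_)
      ring
    have := mul_le_mul_of_nonneg_left hGs hC
    push_cast
    rw [hV]
    linarith

end Crest.Agent.R309
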