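import Crest.Agent.R309.Ex
import Crest.Agent.R309.P1

/-!
# R309: the lazy Metropolis chain driven by random bits

PLAN.  `Kop_mstep`: `Ex_split` at `b0+1`, `Ex_ofBits` twice; for `i < 2^b0` the number of accepting `u < 2^B` is
`accN` (`u * W x < 2^B * W y ↔ u < ⌈2^B W y / W x⌉₊`, `Nat.lt_ceil`).  Ideal kernel
`K' f x = avg_{i < 2^b0} (a f y + (1-a) f x)`, `a = min 1 (W y / W x)`, `K = (I + K')/2`;
`|accN/2^B - a| ≤ 2^(-B)`, so `|Kop f x - K f x| ≤ c / 2^B` for `0 ≤ f ≤ c` on `Ω`; both operators are monotone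
averages on `Ω`, so `|Kop^[T] f - K^[T] f| ≤ T c / 2^B` on `Ω` (induction; `K^[T] f` stays in `[0,c]`, and
`|Kop g - Kop g'| ≤ sup |g - g'|`).  With `⟨f,g⟩ = ∑ W f g`: `W x * a = min (W x) (W y)`; `hsym` gives
`∑ W (K' g) = ∑ W g` for every `g`, `⟨g, g - K' g⟩ = Dp g / 2`, Jensen gives `‖K' g‖^2 ≤ ∑ W K'(g^2) = ‖g‖^2`, hence
`‖K g‖^2 ≤ (2‖g‖^2 + 2⟨g,K' g⟩)/4 = ‖g‖^2 - Dp g / 4 ≤ (1 - 1/(4γ)) ‖g‖^2` when `∑ W g = 0` (`Vr g = ‖g‖^2`).  For
`g = f - mean`: `W x0 (K^[T] g x0)^2 ≤ (1-1/(4γ))^T c^2 Z`, `(1 - 1/a)^a ≤ 1/2`.  `mix_tv`: apply `mix` to the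
indicators of `{y | ν y > μ y}` and of its complement in `Ω`.
-/

set_option autoImplicit false
open Finset Crest.Agent.PTime

namespace Crest.Agent.R309

variable {σ : Type}

/-- one step: the first `b0+1` bits give the proposal (or laziness), the rest the acceptance test -/
def mstep (W : σ → ℚ) (prop : σ → ℕ → σ) (b0 B : ℕ) (x : σ) (l : List Bool) : σ :=
  if ofBits (l.take (b0 + 1)) < 2 ^ b0 ∧
      (ofBits (l.drop (b0 + 1)) : ℚ) * W x < 2 ^ B * W (prop x (ofBits (l.take (b0 + 1))))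
  then prop x (ofBits (l.take (b0 + 1))) else x

/-- `T` steps from `x0` -/
def sample (W : σ → ℚ) (prop : σ → ℕ → σ) (b0 B T : ℕ) (x0 : σ) (t : List Bool) : σ :=
  runL (mstep W prop b0 B) (b0 + 1 + B) T x0 t

/-- number of accepting values of the test -/
def accN (W : σ → ℚ) (B : ℕ) (x y : σ) : ℕ := min (2 ^ B) (⌈2 ^ B * W y / W x⌉.toNat)

theorem sum_ite_lt (M c : ℕ) (a b : ℝ) :
    ∑ u ∈ range M, (if u < c then a else b) = (min M c : ℕ) * a + ((M - min M c : ℕ) : ℝ) * b := by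
  induction M with
  | zero => simp
  | succ M ih =>
    rw [sum_range_succ, ih]
    split_ifs with h
    · rw [min_eq_left h.le, min_eq_left (Nat.succ_le_of_lt h)]
      simp only [Nat.sub_self]
      push_cast
      ring
    · rw [min_eq_right (not_lt.1 h), min_eq_right ((not_lt.1 h).trans (Nat.le_succ _)),
        Nat.succ_sub (not_lt.1 h)]
      push_cast
      ring

theorem Kop_mstep (W : σ → ℚ) (prop : σ → ℕ → σ) (b0 B : ℕ) (g : σ → ℝ) (x : σ) (hx : 0 < W x) :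
    Kop (mstep W prop b0 B) (b0 + 1 + B) g x =
      (2 ^ (b0 + B) * g x + ∑ i ∈ range (2 ^ b0), ((accN W B x (prop x i) : ℝ) * g (prop x i)
        + ((2 ^ B - accN W B x (prop x i) : ℕ) : ℝ) * g x)) / 2 ^ (b0 + 1 + B) := by
  have h1 := Ex_split (a := b0 + 1) (n := b0 + 1 + B) (Nat.le_add_right _ _) fun l l' =>
    g (if ofBits l < 2 ^ b0 ∧ (ofBits l' : ℚ) * W x < 2 ^ B * W (prop x (ofBits l)) then prop x (ofBits l) else x)
  refine h1.trans ?_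
  rw [Nat.add_sub_cancel_left, Ex_ofBits (b0 + 1) fun i => Ex B fun l' =>
    g (if i < 2 ^ b0 ∧ (ofBits l' : ℚ) * W x < 2 ^ B * W (prop x i) then prop x i else x),
    pow_succ 2 b0, Nat.mul_two, sum_range_add]
  have h2 : ∀ i ∈ range (2 ^ b0), (Ex B fun l' =>
      g (if i < 2 ^ b0 ∧ (ofBits l' : ℚ) * W x < 2 ^ B * W (prop x i) then prop x i else x)) =
      ((accN W B x (prop x i) : ℝ) * g (prop x i) + ((2 ^ B - accN W B x (prop x i) : ℕ) : ℝ) * g x) / 2 ^ B :=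
    fun i hi => by
      rw [Ex_ofBits B fun u => g (if i < 2 ^ b0 ∧ (u : ℚ) * W x < 2 ^ B * W (prop x i) then prop x i else x),
        accN, ← sum_ite_lt]
      congr 1
      refine sum_congr rfl fun u _ => ?_
      simp only [mem_range.1 hi, true_and, Int.lt_toNat, Int.lt_ceil, lt_div_iff₀ hx, Int.cast_natCast,
        apply_ite g]
  rw [sum_congr rfl h2, ← sum_div]
  generalize (∑ i ∈ range (2 ^ b0), ((accN W B x (prop x i) : ℝ) * g (prop x i) +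
    ((2 ^ B - accN W B x (prop x i) : ℕ) : ℝ) * g x)) = S
  simp only [add_lt_iff_neg_left, not_lt_zero, false_and, if_false, Ex_const, sum_const, card_range,
    nsmul_eq_mul, pow_add]
  push_cast
  field_simp
  ring

theorem sample_mem (Ω : Finset σ) (W : σ → ℚ) (prop : σ → ℕ → σ) (hprop : ∀ x ∈ Ω, ∀ i, prop x i ∈ Ω)
    (b0 B T : ℕ) {x0 : σ} (h0 : x0 ∈ Ω) (t : List Bool) : sample W prop b0 B T x0 t ∈ Ω := by
  refine runL_inv _ _ (fun _ x => x ∈ Ω) (fun _ x l hx => ?_) T x0 h0 t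
  unfold mstep
  split_ifs
  exacts [hprop x hx _, hx]

/-- Dirichlet form of the proposal -/
noncomputable def Dp (Ω : Finset σ) (W : σ → ℝ) (prop : σ → ℕ → σ) (b0 : ℕ) (f : σ → ℝ) : ℝ :=
  ∑ x ∈ Ω, (∑ i ∈ range (2 ^ b0), min (W x) (W (prop x i)) * (f x - f (prop x i)) ^ 2) / 2 ^ b0

/-- the hypotheses of the mixing bound -/
structure Mixes (Ω : Finset σ) (W : σ → ℚ) (prop : σ → ℕ → σ) (b0 B T J : ℕ) (x0 : σ) : Prop where
  pos : ∀ x ∈ Ω, 0 < W x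
  mem : ∀ x ∈ Ω, ∀ i, prop x i ∈ Ω
  symm : ∀ G : σ → σ → ℝ, ∑ x ∈ Ω, ∑ i ∈ range (2 ^ b0), G x (prop x i) =
    ∑ x ∈ Ω, ∑ i ∈ range (2 ^ b0), G (prop x i) x
  start : x0 ∈ Ω
  gap : ∃ γ z : ℕ, 1 ≤ γ ∧ (∀ f : σ → ℝ, Vr Ω (fun x => (W x : ℝ)) f ≤ γ * Dp Ω (fun x => (W x : ℝ)) prop b0 f) ∧
    ∑ x ∈ Ω, (W x : ℝ) ≤ 2 ^ z * (W x0 : ℝ) ∧ 4 * γ * (z + 2 * J + 2) ≤ T
  prec : T * 2 ^ (J + 1) ≤ 2 ^ B

/-- the non-lazy kernel with acceptance probabilities `β` -/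
noncomputable def Pk (prop : σ → ℕ → σ) (b0 : ℕ) (β : σ → σ → ℝ) (f : σ → ℝ) (x : σ) : ℝ :=
  (∑ i ∈ range (2 ^ b0), (β x (prop x i) * f (prop x i) + (1 - β x (prop x i)) * f x)) / 2 ^ b0

/-- the lazy kernel -/
noncomputable def Lk (prop : σ → ℕ → σ) (b0 : ℕ) (β : σ → σ → ℝ) (f : σ → ℝ) (x : σ) : ℝ :=
  (f x + Pk prop b0 β f x) / 2

/-- ideal acceptance probability -/
noncomputable def aI (W : σ → ℚ) (x y : σ) : ℝ := min 1 ((W y : ℝ) / W x)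

/-- real acceptance probability -/
noncomputable def aR (W : σ → ℚ) (B : ℕ) (x y : σ) : ℝ := (accN W B x y : ℝ) / 2 ^ B

theorem avg_le {N : ℕ} {t : ℕ → ℝ} {c : ℝ} (h : ∀ i, t i ≤ c) : (∑ i ∈ range (2 ^ N), t i) / 2 ^ N ≤ c := by
  rw [div_le_iff₀ (by positivity)]
  refine (sum_le_sum fun i _ => h i).trans_eq ?_
  simp [mul_comm]

theorem le_avg {N : ℕ} {t : ℕ → ℝ} {c : ℝ} (h : ∀ i, c ≤ t i) : c ≤ (∑ i ∈ range (2 ^ N), t i) / 2 ^ N := by
  rw [le_div_iff₀ (by positivity)]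
  refine Eq.trans_le ?_ (sum_le_sum fun i _ => h i)
  simp [mul_comm]

theorem accN_le (W : σ → ℚ) (B : ℕ) (x y : σ) : accN W B x y ≤ 2 ^ B := min_le_left _ _

theorem aR_mem (W : σ → ℚ) (B : ℕ) (x y : σ) : 0 ≤ aR W B x y ∧ aR W B x y ≤ 1 :=
  ⟨by unfold aR; positivity, (div_le_one (by positivity)).2 (by exact_mod_cast accN_le W B x y)⟩

theorem aI_mem {W : σ → ℚ} {x y : σ} (hx : 0 < W x) (hy : 0 < W y) : 0 ≤ aI W x y ∧ aI W x y ≤ 1 :=
  ⟨le_min zero_le_one (by positivity), min_le_left _ _⟩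

theorem mul_aI {W : σ → ℚ} {x : σ} (hx : 0 < W x) (y : σ) : (W x : ℝ) * aI W x y = min (W x : ℝ) (W y) := by
  have : (0 : ℝ) < W x := by exact_mod_cast hx
  rw [aI, mul_min_of_nonneg _ _ this.le, mul_one, mul_div_cancel₀ _ this.ne']

theorem abs_aR_sub {W : σ → ℚ} (B : ℕ) {x y : σ} (hx : 0 < W x) (hy : 0 < W y) :
    |aR W B x y - aI W x y| ≤ 1 / 2 ^ B := by
  have h0 : (0 : ℤ) ≤ ⌈2 ^ B * W y / W x⌉ := Int.ceil_nonneg (by positivity)
  have h1 : ((⌈2 ^ B * W y / W x⌉.toNat : ℕ) : ℝ) = ((⌈2 ^ B * W y / W x⌉ : ℤ) : ℝ) := by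
    rw [← Int.cast_natCast, Int.toNat_of_nonneg h0]
  have h2 : (2 : ℝ) ^ B * (W y / W x) ≤ ((⌈2 ^ B * W y / W x⌉ : ℤ) : ℝ) := by
    rw [← mul_div_assoc]; exact_mod_cast Int.le_ceil (2 ^ B * W y / W x)
  have h3 : ((⌈2 ^ B * W y / W x⌉ : ℤ) : ℝ) ≤ (2 : ℝ) ^ B * (W y / W x) + 1 := by
    rw [← mul_div_assoc]; exact_mod_cast (Int.ceil_lt_add_one (2 ^ B * W y / W x)).le
  have h4 : aI W x y = min ((2 : ℝ) ^ B) (2 ^ B * (W y / W x)) / 2 ^ B := by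
    rw [aI, eq_div_iff (by positivity), mul_comm, mul_min_of_nonneg _ _ (by positivity), mul_one]
  rw [h4, aR, ← sub_div, abs_div, abs_of_pos (show (0 : ℝ) < 2 ^ B by positivity), accN]
  gcongr
  push_cast
  rw [h1]
  refine (abs_min_sub_min_le_max _ _ _ _).trans (max_le (by simp) (abs_le.2 ⟨?_, ?_⟩)) <;> linarith

theorem Kop_eq_Lk (W : σ → ℚ) (prop : σ → ℕ → σ) (b0 B : ℕ) (g : σ → ℝ) (x : σ) (hx : 0 < W x) :
    Kop (mstep W prop b0 B) (b0 + 1 + B) g x = Lk prop b0 (aR W B) g x := by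
  rw [Kop_mstep W prop b0 B g x hx, Lk, Pk]
  have : ∀ i ∈ range (2 ^ b0), (aR W B x (prop x i) * g (prop x i) + (1 - aR W B x (prop x i)) * g x) =
      ((accN W B x (prop x i) : ℝ) * g (prop x i) + ((2 ^ B - accN W B x (prop x i) : ℕ) : ℝ) * g x) / 2 ^ B :=
    fun i _ => by
      rw [Nat.cast_sub (accN_le W B x _), aR]
      push_cast
      field_simp
  rw [sum_congr rfl this, ← sum_div, pow_add, pow_add, pow_add]
  field_simp

theorem Lk_bdd {Ω : Finset σ} {prop : σ → ℕ → σ} (hm : ∀ x ∈ Ω, ∀ i, prop x i ∈ Ω) (b0 : ℕ) {β : σ → σ → ℝ}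
    (hβ : ∀ x ∈ Ω, ∀ y ∈ Ω, 0 ≤ β x y ∧ β x y ≤ 1) {f : σ → ℝ} {lo hi : ℝ}
    (hf : ∀ x ∈ Ω, lo ≤ f x ∧ f x ≤ hi) : ∀ x ∈ Ω, lo ≤ Lk prop b0 β f x ∧ Lk prop b0 β f x ≤ hi := by
  intro x hx
  have h1 : lo ≤ Pk prop b0 β f x := le_avg fun i => by
    have := hβ x hx _ (hm x hx i)
    nlinarith [(hf x hx).1, (hf _ (hm x hx i)).1]
  have h2 : Pk prop b0 β f x ≤ hi := avg_le fun i => by
    have := hβ x hx _ (hm x hx i)
    nlinarith [(hf x hx).2, (hf _ (hm x hx i)).2]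
  unfold Lk
  constructor <;> linarith [(hf x hx).1, (hf x hx).2]

theorem Lk_sub (prop : σ → ℕ → σ) (b0 : ℕ) (β : σ → σ → ℝ) (f g : σ → ℝ) (x : σ) :
    Lk prop b0 β (fun y => f y - g y) x = Lk prop b0 β f x - Lk prop b0 β g x := by
  simp only [Lk, Pk]
  rw [← sub_div, add_sub_add_comm, ← sub_div, ← sum_sub_distrib]
  congr 3
  exact sum_congr rfl fun i _ => by ring

theorem Lk_const (prop : σ → ℕ → σ) (b0 : ℕ) (β : σ → σ → ℝ) (c : ℝ) (x : σ) :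
    Lk prop b0 β (fun _ => c) x = c := by
  have : ∀ i ∈ range (2 ^ b0), β x (prop x i) * c + (1 - β x (prop x i)) * c = c := fun i _ => by ring
  simp only [Lk, Pk]
  rw [sum_congr rfl this]
  simp

theorem Lk_diff (prop : σ → ℕ → σ) (b0 : ℕ) (β β' : σ → σ → ℝ) (f : σ → ℝ) (x : σ) {ε c : ℝ}
    (h : ∀ i, |β x (prop x i) - β' x (prop x i)| ≤ ε) (h' : ∀ i, |f (prop x i) - f x| ≤ c) :
    |Lk prop b0 β f x - Lk prop b0 β' f x| ≤ ε * c := by
  have h1 : ∀ i, |(β x (prop x i) - β' x (prop x i)) * (f (prop x i) - f x)| ≤ ε * c := fun i => by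
    rw [abs_mul]
    exact mul_le_mul (h i) (h' i) (abs_nonneg _) ((abs_nonneg _).trans (h i))
  have h2 : Lk prop b0 β f x - Lk prop b0 β' f x =
      (∑ i ∈ range (2 ^ b0), (β x (prop x i) - β' x (prop x i)) * (f (prop x i) - f x)) / 2 ^ b0 / 2 := by
    simp only [Lk, Pk]
    rw [← sub_div, add_sub_add_left_eq_sub, ← sub_div, ← sum_sub_distrib]
    congr 2
    exact sum_congr rfl fun i _ => by ring
  have h3 := avg_le (N := b0) fun i => (abs_le.1 (h1 i)).2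
  have h4 := le_avg (N := b0) fun i => (abs_le.1 (h1 i)).1
  have h5 := (abs_nonneg _).trans (h1 0)
  rw [h2, abs_le]
  constructor <;> linarith

section
variable {Ω : Finset σ} {W : σ → ℚ} {prop : σ → ℕ → σ} {b0 B T J : ℕ} {x0 : σ}

theorem Mixes.bdd (h : Mixes Ω W prop b0 B T J x0) {f : σ → ℝ} {c : ℝ} (hf : ∀ x ∈ Ω, 0 ≤ f x ∧ f x ≤ c)
    (n : ℕ) : ∀ x ∈ Ω, 0 ≤ (Lk prop b0 (aI W))^[n] f x ∧ (Lk prop b0 (aI W))^[n] f x ≤ c := by
  induction n with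
  | zero => exact hf
  | succ n ih =>
    rw [Function.iterate_succ_apply']
    exact Lk_bdd h.mem b0 (fun x hx y hy => aI_mem (h.pos x hx) (h.pos y hy)) ih

theorem Mixes.close (h : Mixes Ω W prop b0 B T J x0) {f : σ → ℝ} {c : ℝ} (hf : ∀ x ∈ Ω, 0 ≤ f x ∧ f x ≤ c)
    (n : ℕ) : ∀ x ∈ Ω, |(Kop (mstep W prop b0 B) (b0 + 1 + B))^[n] f x - (Lk prop b0 (aI W))^[n] f x| ≤
      n * (1 / 2 ^ B * c) := by
  induction n with
  | zero => simp
  | succ n ih =>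
    intro x hx
    rw [Function.iterate_succ_apply', Function.iterate_succ_apply', Kop_eq_Lk _ _ _ _ _ _ (h.pos x hx)]
    have h1 := Lk_bdd h.mem b0 (fun x _ y _ => aR_mem W B x y) (fun y hy => abs_le.1 (ih y hy)) x hx
    rw [Lk_sub] at h1
    have h2 := Lk_diff prop b0 (aR W B) (aI W) ((Lk prop b0 (aI W))^[n] f) x
      (fun i => abs_aR_sub B (h.pos x hx) (h.pos _ (h.mem x hx i))) (c := c) fun i => by
        have h3 := h.bdd hf n x hx
        have h4 := h.bdd hf n _ (h.mem x hx i)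
        rw [abs_le]
        constructor <;> linarith
    rw [abs_le] at h2 ⊢
    push_cast
    constructor <;> linarith

theorem Mixes.mul_Pk (h : Mixes Ω W prop b0 B T J x0) (g : σ → ℝ) {x : σ} (hx : x ∈ Ω) :
    (W x : ℝ) * Pk prop b0 (aI W) g x = W x * g x +
      (∑ i ∈ range (2 ^ b0), min (W x : ℝ) (W (prop x i)) * (g (prop x i) - g x)) / 2 ^ b0 := by
  have : ∀ i ∈ range (2 ^ b0), (W x : ℝ) * (aI W x (prop x i) * g (prop x i) + (1 - aI W x (prop x i)) * g x) =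
      W x * g x + min (W x : ℝ) (W (prop x i)) * (g (prop x i) - g x) := fun i _ => by
    rw [← mul_aI (h.pos x hx)]; ring
  rw [Pk, ← mul_div_assoc, mul_sum, sum_congr rfl this, sum_add_distrib, add_div]
  simp

theorem Mixes.sum_Pk (h : Mixes Ω W prop b0 B T J x0) (g : σ → ℝ) :
    ∑ x ∈ Ω, (W x : ℝ) * Pk prop b0 (aI W) g x = ∑ x ∈ Ω, W x * g x := by
  rw [sum_congr rfl fun x hx => h.mul_Pk g hx, sum_add_distrib, ← sum_div]
  have := h.symm fun x y => min (W x : ℝ) (W y) * g y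
  simp only [mul_sub, sum_sub_distrib, this, min_comm (W (prop _ _) : ℝ)]
  simp

theorem Mixes.sum_mul_Pk (h : Mixes Ω W prop b0 B T J x0) (g : σ → ℝ) :
    ∑ x ∈ Ω, (W x : ℝ) * (g x * Pk prop b0 (aI W) g x) =
      ∑ x ∈ Ω, W x * g x ^ 2 - Dp Ω (fun x => (W x : ℝ)) prop b0 g / 2 := by
  have h1 : ∀ x ∈ Ω, (W x : ℝ) * (g x * Pk prop b0 (aI W) g x) = W x * g x ^ 2 +
      (∑ i ∈ range (2 ^ b0), min (W x : ℝ) (W (prop x i)) * (g x * g (prop x i)) -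
        ∑ i ∈ range (2 ^ b0), min (W x : ℝ) (W (prop x i)) * g x ^ 2) / 2 ^ b0 := fun x hx => by
    rw [mul_left_comm, h.mul_Pk g hx, mul_add, ← mul_div_assoc, mul_sum, ← sum_sub_distrib]
    congr 1
    · ring
    · congr 1
      exact sum_congr rfl fun i _ => by ring
  have h2 : ∀ x ∈ Ω, ∑ i ∈ range (2 ^ b0), min (W x : ℝ) (W (prop x i)) * (g x - g (prop x i)) ^ 2 =
      ∑ i ∈ range (2 ^ b0), min (W x : ℝ) (W (prop x i)) * g x ^ 2 +
      ∑ i ∈ range (2 ^ b0), min (W x : ℝ) (W (prop x i)) * g (prop x i) ^ 2 -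
      2 * ∑ i ∈ range (2 ^ b0), min (W x : ℝ) (W (prop x i)) * (g x * g (prop x i)) := fun x _ => by
    rw [mul_sum, ← sum_add_distrib, ← sum_sub_distrib]
    exact sum_congr rfl fun i _ => by ring
  have h3 := h.symm fun x y => min (W x : ℝ) (W y) * g y ^ 2
  simp only [min_comm (W (prop _ _) : ℝ)] at h3
  rw [sum_congr rfl h1, sum_add_distrib, ← sum_div, Dp, ← sum_div, sum_congr rfl h2, sum_sub_distrib,
    sum_sub_distrib, sum_add_distrib, h3, ← mul_sum]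
  ring

theorem Mixes.jensen (h : Mixes Ω W prop b0 B T J x0) (g : σ → ℝ) {x : σ} (hx : x ∈ Ω) :
    Pk prop b0 (aI W) g x ^ 2 ≤ Pk prop b0 (aI W) (fun y => g y ^ 2) x := by
  have h1 := sq_sum_le_card_mul_sum_sq (s := range (2 ^ b0))
    (f := fun i => aI W x (prop x i) * g (prop x i) + (1 - aI W x (prop x i)) * g x)
  rw [card_range] at h1
  push_cast at h1
  rw [Pk, Pk, div_pow, div_le_div_iff₀ (by positivity) (by positivity)]
  have h2 : ∑ i ∈ range (2 ^ b0), (aI W x (prop x i) * g (prop x i) + (1 - aI W x (prop x i)) * g x) ^ 2 ≤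
      ∑ i ∈ range (2 ^ b0), (aI W x (prop x i) * g (prop x i) ^ 2 + (1 - aI W x (prop x i)) * g x ^ 2) :=
    sum_le_sum fun i _ => by
      have h3 := aI_mem (h.pos x hx) (h.pos _ (h.mem x hx i))
      nlinarith [mul_nonneg (mul_nonneg h3.1 (sub_nonneg.2 h3.2)) (sq_nonneg (g (prop x i) - g x))]
  refine (mul_le_mul_of_nonneg_right (h1.trans (mul_le_mul_of_nonneg_left h2 (by positivity)))
    (by positivity)).trans_eq ?_
  rw [mul_right_comm, mul_comm, sq ((2 : ℝ) ^ b0)]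

theorem Mixes.sum_Lk (h : Mixes Ω W prop b0 B T J x0) (g : σ → ℝ) :
    ∑ x ∈ Ω, (W x : ℝ) * Lk prop b0 (aI W) g x = ∑ x ∈ Ω, W x * g x := by
  simp only [Lk, ← mul_div_assoc, mul_add, ← sum_div, sum_add_distrib, h.sum_Pk]
  ring

theorem Mixes.sq_Lk (h : Mixes Ω W prop b0 B T J x0) (g : σ → ℝ) :
    ∑ x ∈ Ω, (W x : ℝ) * Lk prop b0 (aI W) g x ^ 2 ≤
      ∑ x ∈ Ω, W x * g x ^ 2 - Dp Ω (fun x => (W x : ℝ)) prop b0 g / 4 := by
  calc _ ≤ ∑ x ∈ Ω, ((W x : ℝ) * g x ^ 2 / 4 + W x * (g x * Pk prop b0 (aI W) g x) / 2 +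
        W x * Pk prop b0 (aI W) (fun y => g y ^ 2) x / 4) := sum_le_sum fun x hx => by
        have h1 := h.jensen g hx
        have h2 : (0 : ℝ) ≤ W x := by exact_mod_cast (h.pos x hx).le
        have h3 := mul_le_mul_of_nonneg_left h1 h2
        rw [Lk]
        nlinarith
    _ = _ := by
        rw [sum_add_distrib, sum_add_distrib, ← sum_div, ← sum_div, ← sum_div, h.sum_Pk, h.sum_mul_Pk]
        ring

theorem Mixes.contract (h : Mixes Ω W prop b0 B T J x0) {γ : ℕ} (hγ : 1 ≤ γ)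
    (hP : ∀ f : σ → ℝ, Vr Ω (fun x => (W x : ℝ)) f ≤ γ * Dp Ω (fun x => (W x : ℝ)) prop b0 f)
    {g : σ → ℝ} (hg : ∑ x ∈ Ω, (W x : ℝ) * g x = 0) (n : ℕ) :
    ∑ x ∈ Ω, (W x : ℝ) * (Lk prop b0 (aI W))^[n] g x = 0 ∧
      ∑ x ∈ Ω, (W x : ℝ) * (Lk prop b0 (aI W))^[n] g x ^ 2 ≤
        (1 - 1 / (4 * γ : ℕ)) ^ n * ∑ x ∈ Ω, W x * g x ^ 2 := by
  induction n with
  | zero => simp [hg]
  | succ n ih =>
    rw [Function.iterate_succ_apply', h.sum_Lk]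
    refine ⟨ih.1, (h.sq_Lk _).trans ?_⟩
    have h1 := hP ((Lk prop b0 (aI W))^[n] g)
    rw [Vr, ih.1] at h1
    have hγ' : (1 : ℝ) ≤ γ := by exact_mod_cast hγ
    have h2 : (0 : ℝ) ≤ 1 - 1 / (4 * γ : ℕ) := by
      push_cast
      exact sub_nonneg.2 ((div_le_one (by positivity)).2 (by linarith))
    rw [pow_succ', mul_assoc]
    refine le_trans ?_ (mul_le_mul_of_nonneg_left ih.2 h2)
    have h3 : (∑ x ∈ Ω, (W x : ℝ) * (Lk prop b0 (aI W))^[n] g x ^ 2) / γ ≤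
        Dp Ω (fun x => (W x : ℝ)) prop b0 ((Lk prop b0 (aI W))^[n] g) := by
      rw [div_le_iff₀' (by positivity)]
      simpa using h1
    push_cast
    rw [sub_mul, one_mul, div_mul_eq_mul_div, one_mul, mul_comm (4 : ℝ), ← div_div]
    linarith

end

theorem Lk_iterate_sub (prop : σ → ℕ → σ) (b0 : ℕ) (β : σ → σ → ℝ) (f : σ → ℝ) (c : ℝ) (n : ℕ) :
    (Lk prop b0 β)^[n] (fun y => f y - c) = fun y => (Lk prop b0 β)^[n] f y - c := by
  induction n with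
  | zero => rfl
  | succ n ih =>
    funext x
    rw [Function.iterate_succ_apply', Function.iterate_succ_apply', ih, Lk_sub, Lk_const]

theorem mix {Ω : Finset σ} {W : σ → ℚ} {prop : σ → ℕ → σ} {b0 B T J : ℕ} {x0 : σ}
    (h : Mixes Ω W prop b0 B T J x0) {len : ℕ} (hlen : T * (b0 + 1 + B) ≤ len) (f : σ → ℝ) (c : ℝ)
    (hf : ∀ x ∈ Ω, 0 ≤ f x ∧ f x ≤ c) :
    |Ex len (fun t => f (sample W prop b0 B T x0 t)) - (∑ x ∈ Ω, (W x : ℝ) * f x) / ∑ x ∈ Ω, (W x : ℝ)|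
      ≤ c / 2 ^ J := by
  obtain ⟨γ, z, hγ, hP, hz, hT⟩ := h.gap
  have hW : ∀ x ∈ Ω, (0 : ℝ) < W x := fun x hx => by exact_mod_cast h.pos x hx
  have hZ : 0 < ∑ x ∈ Ω, (W x : ℝ) := sum_pos hW ⟨x0, h.start⟩
  have hc : 0 ≤ c := (hf x0 h.start).1.trans (hf x0 h.start).2
  set μ := (∑ x ∈ Ω, (W x : ℝ) * f x) / ∑ x ∈ Ω, (W x : ℝ) with hμ
  have hμ0 : 0 ≤ μ := div_nonneg (sum_nonneg fun x hx => mul_nonneg (hW x hx).le (hf x hx).1) hZ.le
  have hμ1 : μ ≤ c := by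
    rw [hμ, div_le_iff₀' hZ, sum_mul]
    exact sum_le_sum fun x hx => mul_le_mul_of_nonneg_left (hf x hx).2 (hW x hx).le
  have h1 := (h.contract hγ hP (g := fun y => f y - μ) (by
    simp only [mul_sub, sum_sub_distrib, ← sum_mul]
    rw [hμ, mul_div_cancel₀ _ hZ.ne', sub_self]) T).2
  rw [Lk_iterate_sub] at h1
  have h2 : ∑ x ∈ Ω, (W x : ℝ) * (f x - μ) ^ 2 ≤ 2 ^ z * W x0 * c ^ 2 := by
    refine le_trans ?_ (mul_le_mul_of_nonneg_right hz (sq_nonneg c))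
    rw [sum_mul]
    exact sum_le_sum fun x hx => mul_le_mul_of_nonneg_left
      (sq_le_sq' (by linarith [(hf x hx).1]) (by linarith [(hf x hx).2])) (hW x hx).le
  have hγ' : (1 : ℝ) ≤ (4 * γ : ℕ) := by exact_mod_cast (show 1 ≤ 4 * γ by omega)
  have h3 : (0 : ℝ) ≤ 1 - 1 / (4 * γ : ℕ) := sub_nonneg.2 ((div_le_one (by positivity)).2 hγ')
  have h4 : (1 - 1 / (4 * γ : ℕ) : ℝ) ^ T ≤ (1 / 2) ^ (z + 2 * J + 2) := by
    refine (pow_le_pow_of_le_one h3 (sub_le_self _ (by positivity)) hT).trans ?_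
    rw [pow_mul]
    refine pow_le_pow_left₀ (by positivity) ((Real.one_sub_div_pow_le_exp_neg hγ').trans ?_) _
    linarith [Real.exp_neg_one_lt_d9]
  have h5 := (single_le_sum (f := fun x => (W x : ℝ) * ((Lk prop b0 (aI W))^[T] f x - μ) ^ 2)
    (fun x hx => mul_nonneg (hW x hx).le (sq_nonneg _)) h.start).trans (h1.trans
      (mul_le_mul h4 h2 (sum_nonneg fun x hx => mul_nonneg (hW x hx).le (sq_nonneg _)) (by positivity)))
  rw [show (1 / 2 : ℝ) ^ (z + 2 * J + 2) * (2 ^ z * W x0 * c ^ 2) = W x0 * (c / 2 ^ (J + 1)) ^ 2 by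
    rw [one_div_pow]; field_simp; ring] at h5
  have h6 := abs_le_of_sq_le_sq (le_of_mul_le_mul_left h5 (hW x0 h.start)) (by positivity)
  have h7 := h.close hf T x0 h.start
  have h8 : T * (1 / 2 ^ B * c) ≤ c / 2 ^ (J + 1) := by
    rw [← mul_assoc, mul_one_div, div_mul_eq_mul_div, div_le_div_iff₀ (by positivity) (by positivity),
      mul_right_comm, mul_comm c]
    gcongr
    exact_mod_cast h.prec
  have h9 : c / 2 ^ J = c / 2 ^ (J + 1) + c / 2 ^ (J + 1) := by rw [pow_succ]; field_simp; ring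
  unfold sample
  rw [Ex_runL _ _ _ _ hlen, h9]
  exact (abs_sub_le _ _ _).trans (add_le_add (h7.trans h8) h6)

theorem mix_tv {Ω : Finset σ} {W : σ → ℚ} {prop : σ → ℕ → σ} {b0 B T J : ℕ} {x0 : σ}
    (h : Mixes Ω W prop b0 B T J x0) {len : ℕ} (hlen : T * (b0 + 1 + B) ≤ len) :
    ∑ y ∈ Ω, |Ex len (fun t => ind (sample W prop b0 B T x0 t = y)) - (W y : ℝ) / ∑ x ∈ Ω, (W x : ℝ)|
      ≤ 2 / 2 ^ J := by
  classical
  have key : ∀ A ⊆ Ω, |∑ y ∈ A, (Ex len (fun t => ind (sample W prop b0 B T x0 t = y)) -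
      (W y : ℝ) / ∑ x ∈ Ω, (W x : ℝ))| ≤ 1 / 2 ^ J := fun A hA => by
    have h0 : ∀ x, ∑ y ∈ A, ind (x = y) = if x ∈ A then 1 else 0 := fun x => by simp [ind]
    have h1 := mix h hlen (fun x => ∑ y ∈ A, ind (x = y)) 1 fun x _ => by
      rw [h0]; split_ifs <;> norm_num
    rw [Ex_sum] at h1
    simp only [h0, mul_ite, mul_one, mul_zero, sum_ite_mem, inter_eq_right.2 hA] at h1
    rwa [sum_sub_distrib, ← sum_div]
  set d := fun y => Ex len (fun t => ind (sample W prop b0 B T x0 t = y)) - (W y : ℝ) / ∑ x ∈ Ω, (W x : ℝ)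
  rw [← sum_filter_add_sum_filter_not Ω fun y => 0 ≤ d y,
    sum_congr rfl fun y hy => abs_of_nonneg (mem_filter.1 hy).2,
    sum_congr rfl fun y (hy : y ∈ Ω.filter fun y => ¬ 0 ≤ d y) => abs_of_neg (not_le.1 (mem_filter.1 hy).2),
    sum_neg_distrib]
  have h1 := (abs_le.1 (key _ (filter_subset (fun y => 0 ≤ d y) Ω))).2
  have h2 := (abs_le.1 (key _ (filter_subset (fun y => ¬ 0 ≤ d y) Ω))).1
  rw [show (2 : ℝ) / 2 ^ J = 1 / 2 ^ J + 1 / 2 ^ J by ring]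
  linarith

end Crest.Agent.R309
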