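import Mathlib

/-!
# R309 core: arrays on `ℤ^V` whose second-difference forms have at most one positive direction

`h : (V → ℤ) → ℝ` is a positive array, `QF h α` is the bilinear form with matrix
`h (α + e_a + e_b)`, `Lor h` says that each of these forms is `≤ 0` on some hyperplane.
`CC px py l u P G α` sums `G` over all ways of giving the pairs `j ∈ P` the values
`(X j, -X j)`, `l j ≤ X j ≤ u j`, on the two variables `px j`, `py j`.

PLAN.
* `Lor.orth`: `Q(e_a,e_a) = h(α+2e_a) > 0`.  Take `w = ℓ(a) • v - ℓ(v) • e_a`; `ℓ w = 0`, so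
  `0 ≥ Q(w,w) = ℓ(a)^2 Q(v,v) + ℓ(v)^2 Q(e_a,e_a)` (cross term vanishes, `QF_symm`).  If `Q(v,v) > 0`
  both squares vanish, so `ℓ v = 0` and `Q(v,v) ≤ 0`.
* `Lor.lc2`: apply `orth` to `v = h(α+a+a) • e_b - h(α+a+b) • e_a`.
* `tel`: expand (`QF_add_left`, ...).  With `d = dd p p'`: `β + i•d + e_p = β + (i+1)•d + e_p'`.  Cross terms
  `2 t_i L_i - 2 t_{i-1} L_{i-1}` with `L_i = ∑ a, c a * g (β + i•d + e_p + e_a)` telescope to `0`.  With
  `P_i = g (β + i•d + e_p + e_p')` one has `Q_i(p,p) = P_{i+1}`, `Q_i(p',p') = P_{i-1}`, and the quadratic terms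
  `t_i^2 P_{i+1} - 2 t_i t_{i-1} P_i + t_{i-1}^2 P_{i-1}` sum to `∑ P_i (t_i - t_{i-1})^2 ≥ 0`, because
  `∑ t_i^2 P_{i+1} = ∑ t_{i-1}^2 P_i` and `∑ t_{i-1}^2 P_{i-1} = ∑ t_i^2 P_i` (telescoping sums of
  `t_i^2 P_{i+1}` and `t_i^2 P_i`; boundary values vanish since `t (l-1) = t u = 0`).  Use `sum_Icc_tel`.
* `Lor.sum_line`: define linear functionals `t_i(v)` recursively (`t_{l-1} = 0`) such that
  `Q_i(v + t_i e_p - t_{i-1} e_p', e_p) = 0` (`Q_i(p,p) > 0`); explicit: by induction on `n = (i-l+1).toNat`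
  produce coefficient vectors `τ n : V → ℝ` with `t = ∑ τ n a * v a`.  The hyperplane is `t_u(v) = 0`; then
  `orth` and `tel`.  (`QF` of the sum array is the sum of the `QF`s.)
* `CC_insert`: bijection `bx (insert j P) ≃ Icc × bx P` (`X ↦ (X j, update X j 0)`), or
  `Finset.sum_fiberwise`-style; `emb (update X j i) = emb X + i • dd` when `X j = 0`.
* `CC_pos`, `CC_lor`: `Finset.induction_on` with `CC_insert` and `Lor.sum_line`.
-/

set_option autoImplicit false
set_option linter.unusedSectionVars false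
open Finset

namespace Crest.Agent.R309

/-- unit vector -/
def ee {V : Type} [DecidableEq V] (a : V) : V → ℤ := Pi.single a 1

/-- difference of two unit vectors -/
def dd {V : Type} [DecidableEq V] (p p' : V) : V → ℤ := ee p - ee p'

theorem sum_Icc_top (f : ℤ → ℝ) {l i : ℤ} (h : l ≤ i) :
    ∑ j ∈ Icc l i, f j = ∑ j ∈ Icc l (i - 1), f j + f i := by
  rw [Icc_sub_one_right_eq_Ico, sum_Ico_add_eq_sum_Ico_add_one h, Ico_add_one_right_eq_Icc]

theorem sum_Icc_tel (S : ℤ → ℝ) (l u : ℤ) (h : l - 1 ≤ u) :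
    ∑ i ∈ Icc l u, (S i - S (i - 1)) = S u - S (l - 1) := by
  induction u, h using Int.leInduction with
  | base => simp
  | succ u h ih => rw [sum_Icc_top _ (by omega), add_sub_cancel_right, ih]; ring

variable {V ι : Type} [Fintype V] [DecidableEq V] [Fintype ι] [DecidableEq ι]

/-- the bilinear form with matrix `h (α + e_a + e_b)` -/
noncomputable def QF (h : (V → ℤ) → ℝ) (α : V → ℤ) (v w : V → ℝ) : ℝ :=
  ∑ a, ∑ b, v a * w b * h (α + ee a + ee b)

def Pos (h : (V → ℤ) → ℝ) : Prop := ∀ α, 0 < h α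

def Lor (h : (V → ℤ) → ℝ) : Prop :=
  ∀ α, ∃ ℓ : V → ℝ, ∀ v : V → ℝ, ∑ a, ℓ a * v a = 0 → QF h α v v ≤ 0

theorem QF_symm (h : (V → ℤ) → ℝ) (α : V → ℤ) (v w : V → ℝ) : QF h α v w = QF h α w v := by
  rw [QF, sum_comm]
  exact sum_congr rfl fun a _ => sum_congr rfl fun b _ => by rw [add_right_comm]; ring

theorem QF_single_right (h : (V → ℤ) → ℝ) (α : V → ℤ) (v : V → ℝ) (b : V) :
    QF h α v (Pi.single b 1) = ∑ a, v a * h (α + ee a + ee b) := by
  simp [QF, Pi.single_apply]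

theorem QF_single_single (h : (V → ℤ) → ℝ) (α : V → ℤ) (a b : V) :
    QF h α (Pi.single a 1) (Pi.single b 1) = h (α + ee a + ee b) := by
  simp [QF, Pi.single_apply]

theorem QF_lin (h : (V → ℤ) → ℝ) (α : V → ℤ) (c v v' w : V → ℝ) (s t : ℝ) :
    QF h α (c + s • v - t • v') w = QF h α c w + s * QF h α v w - t * QF h α v' w := by
  simp only [QF, mul_sum, ← sum_add_distrib, ← sum_sub_distrib, Pi.add_apply, Pi.sub_apply,
    Pi.smul_apply, smul_eq_mul]
  exact sum_congr rfl fun a _ => sum_congr rfl fun b _ => by ring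

theorem QF_sum {κ : Type*} (s : Finset κ) (h : (V → ℤ) → ℝ) (δ : κ → V → ℤ) (α : V → ℤ)
    (v w : V → ℝ) :
    QF (fun α => ∑ i ∈ s, h (α + δ i)) α v w = ∑ i ∈ s, QF h (α + δ i) v w := by
  simp only [QF, mul_sum]
  rw [sum_comm (s := s)]
  refine sum_congr rfl fun a _ => ?_
  rw [sum_comm (s := s)]
  exact sum_congr rfl fun b _ => sum_congr rfl fun i _ => by
    rw [add_right_comm _ _ (δ i), add_right_comm _ _ (δ i)]

/-- expansion of the form on `c + s e_p - t e_p'` -/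
theorem QF_ext (h : (V → ℤ) → ℝ) (α : V → ℤ) (c : V → ℝ) (p p' : V) (s t : ℝ) :
    QF h α (c + s • Pi.single p 1 - t • Pi.single p' 1) (c + s • Pi.single p 1 - t • Pi.single p' 1) =
      QF h α c c + 2 * s * ∑ a, c a * h (α + ee a + ee p) - 2 * t * ∑ a, c a * h (α + ee a + ee p')
        + s ^ 2 * h (α + ee p + ee p) - 2 * s * t * h (α + ee p + ee p') + t ^ 2 * h (α + ee p' + ee p') := by
  rw [QF_lin, QF_symm h α c, QF_symm h α (Pi.single p 1), QF_symm h α (Pi.single p' 1), QF_lin,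
    QF_lin, QF_lin, QF_symm h α (Pi.single p 1) c, QF_symm h α (Pi.single p' 1) c]
  simp only [QF_single_single]
  simp only [QF_single_right, add_right_comm α (ee p') (ee p)]
  ring

theorem QF_ext_single (h : (V → ℤ) → ℝ) (α : V → ℤ) (c : V → ℝ) (p p' b : V) (s t : ℝ) :
    QF h α (c + s • Pi.single p 1 - t • Pi.single p' 1) (Pi.single b 1) =
      ∑ a, c a * h (α + ee a + ee b) + s * h (α + ee p + ee b) - t * h (α + ee p' + ee b) := by
  rw [QF_lin, QF_single_single, QF_single_single, QF_single_right]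

theorem Lor.orth {h : (V → ℤ) → ℝ} (hp : Pos h) (hl : Lor h) (α : V → ℤ) (a : V) (v : V → ℝ)
    (hv : QF h α v (Pi.single a 1) = 0) : QF h α v v ≤ 0 := by
  obtain ⟨ℓ, hℓ⟩ := hl α
  by_contra hc
  rw [not_le] at hc
  have h1 := hℓ (0 + ℓ a • v - (∑ b, ℓ b * v b) • Pi.single a 1) (by
    simp [mul_sub, sum_sub_distrib, Pi.single_apply, mul_sum, mul_left_comm, mul_comm])
  have h0 : ∀ w, QF h α 0 w = 0 := fun w => by simp [QF]
  rw [QF_lin, QF_symm h α v, QF_symm h α (Pi.single a 1), QF_lin, QF_lin, h0, h0, h0,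
    QF_symm h α (Pi.single a 1) v, hv, QF_single_single] at h1
  have h2 := hp (α + ee a + ee a)
  have h3 : (∑ b, ℓ b * v b) ^ 2 ≤ 0 := by nlinarith [mul_nonneg (sq_nonneg (ℓ a)) hc.le]
  exact absurd (hℓ v (pow_eq_zero_iff two_ne_zero |>.1 (le_antisymm h3 (sq_nonneg _)))) hc.not_ge

theorem Lor.lc2 {h : (V → ℤ) → ℝ} (hp : Pos h) (hl : Lor h) (α : V → ℤ) (a b : V) :
    h (α + ee a + ee a) * h (α + ee b + ee b) ≤ h (α + ee a + ee b) ^ 2 := by
  have h1 := hl.orth hp α a (0 + h (α + ee a + ee a) • Pi.single b 1 -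
    h (α + ee a + ee b) • Pi.single a 1) (by
      rw [QF_ext_single, add_right_comm α (ee b)]; simp [mul_comm])
  rw [QF_ext, add_right_comm α (ee b) (ee a)] at h1
  have h2 := hp (α + ee a + ee a)
  simp only [QF, Pi.zero_apply, zero_mul, sum_const_zero] at h1
  nlinarith

theorem tel (g : (V → ℤ) → ℝ) (hg : ∀ α, 0 ≤ g α) (p p' : V) (β : V → ℤ) (l u : ℤ) (hlu : l ≤ u)
    (t : ℤ → ℝ) (h0 : t (l - 1) = 0) (h1 : t u = 0) (c : V → ℝ) :
    ∑ i ∈ Icc l u, QF g (β + i • dd p p') c c ≤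
      ∑ i ∈ Icc l u, QF g (β + i • dd p p') (c + t i • Pi.single p 1 - t (i - 1) • Pi.single p' 1)
        (c + t i • Pi.single p 1 - t (i - 1) • Pi.single p' 1) := by
  have h2 := sum_Icc_tel (fun i => 2 * t i * ∑ a, c a * g (β + i • dd p p' + ee a + ee p) +
    t i ^ 2 * g (β + i • dd p p' + ee p + ee p) - t i ^ 2 * g (β + i • dd p p' + ee p + ee p')) l u
    (by omega)
  simp only [h0, h1, mul_zero, zero_mul, ne_eq, OfNat.ofNat_ne_zero, not_false_eq_true, zero_pow,
    add_zero, sub_self] at h2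
  rw [← add_zero (∑ i ∈ Icc l u, QF g _ c c), ← h2, ← sum_add_distrib]
  refine sum_le_sum fun i _ => ?_
  have e : ∀ a, β + (i - 1) • dd p p' + ee a + ee p = β + i • dd p p' + ee a + ee p' := fun a => by
    unfold dd; module
  have e' : β + (i - 1) • dd p p' + ee p + ee p' = β + i • dd p p' + ee p' + ee p' := by
    unfold dd; module
  rw [QF_ext]
  simp only [e, e']
  nlinarith [mul_nonneg (hg (β + i • dd p p' + ee p + ee p')) (sq_nonneg (t i - t (i - 1)))]

theorem Lor.sum_line {h : (V → ℤ) → ℝ} (hp : Pos h) (hl : Lor h) (p p' : V) (l u : ℤ) (hlu : l ≤ u) :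
    Lor (fun α => ∑ i ∈ Icc l u, h (α + i • dd p p')) := by
  intro α
  refine ⟨fun a => ∑ i ∈ Icc l u, h (α + i • dd p p' + ee a + ee p), fun v hv => ?_⟩
  rw [QF_sum]
  refine (tel h (fun α => (hp α).le) p p' α l u hlu (fun i => -(∑ j ∈ Icc l i,
    ∑ a, v a * h (α + j • dd p p' + ee a + ee p)) / h (α + i • dd p p' + ee p + ee p))
    (by simp) ?_ v).trans (sum_nonpos fun i hi => hl.orth hp _ p _ ?_)
  · simp only [mul_comm _ (v _), mul_sum] at hv
    rw [sum_comm, hv, neg_zero, zero_div]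
  · have e : α + (i - 1) • dd p p' + ee p + ee p = α + i • dd p p' + ee p' + ee p := by
      unfold dd; module
    rw [QF_ext_single, e, div_mul_cancel₀ _ (hp _).ne', div_mul_cancel₀ _ (hp _).ne',
      sum_Icc_top _ (mem_Icc.1 hi).1]
    ring

/-- the point of `ℤ^V` with `X j` on `px j` and `-X j` on `py j` -/
def emb (px py : ι → V) (X : ι → ℤ) : V → ℤ := ∑ j, X j • dd (px j) (py j)

/-- the box in the coordinates of `P`, zero elsewhere -/
noncomputable def bx (l u : ι → ℤ) (P : Finset ι) : Finset (ι → ℤ) :=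
  Fintype.piFinset fun j => if j ∈ P then Icc (l j) (u j) else {0}

/-- contraction of the pairs in `P` -/
noncomputable def CC (px py : ι → V) (l u : ι → ℤ) (P : Finset ι) (G : (V → ℤ) → ℝ) (α : V → ℤ) : ℝ :=
  ∑ X ∈ bx l u P, G (α + emb px py X)

theorem CC_empty (px py : ι → V) (l u : ι → ℤ) (G : (V → ℤ) → ℝ) (α : V → ℤ) :
    CC px py l u ∅ G α = G α := by
  have : bx l u ∅ = {0} := by ext X; simp [bx, funext_iff]
  simp [CC, this, emb]

theorem emb_add_single (px py : ι → V) (X : ι → ℤ) (j : ι) (i : ℤ) :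
    emb px py (X + Pi.single j i) = emb px py X + i • dd (px j) (py j) := by
  simp [emb, add_smul, sum_add_distrib, Pi.single_apply, ite_smul]

theorem mem_bx {l u X : ι → ℤ} {P : Finset ι} :
    X ∈ bx l u P ↔ (∀ j ∈ P, l j ≤ X j ∧ X j ≤ u j) ∧ ∀ j ∉ P, X j = 0 := by
  simp only [bx, Fintype.mem_piFinset, ← forall_and]
  refine forall_congr' fun j => ?_
  by_cases h : j ∈ P <;> simp [h]

theorem CC_insert (px py : ι → V) (l u : ι → ℤ) (P : Finset ι) (j : ι) (hj : j ∉ P)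
    (G : (V → ℤ) → ℝ) (α : V → ℤ) :
    CC px py l u (insert j P) G α = ∑ i ∈ Icc (l j) (u j), CC px py l u P G (α + i • dd (px j) (py j)) := by
  simp only [CC]
  rw [← sum_product']
  symm
  refine sum_nbij' (fun q => q.2 + Pi.single j q.1) (fun X => (X j, X - Pi.single j (X j)))
    ?_ ?_ ?_ ?_ ?_
  · rintro ⟨i, X⟩ h
    simp only [mem_product, mem_Icc, mem_bx] at h ⊢
    refine ⟨fun k hk => ?_, fun k hk => ?_⟩
    · rcases mem_insert.1 hk with rfl | hk
      · simpa [h.2.2 k hj] using h.1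
      · simpa [Pi.single_eq_of_ne (ne_of_mem_of_not_mem hk hj)] using h.2.1 k hk
    · rw [mem_insert, not_or] at hk
      simpa [hk.1] using h.2.2 k hk.2
  · intro X h
    simp only [mem_product, mem_Icc, mem_bx] at h ⊢
    refine ⟨h.1 j (mem_insert_self _ _), fun k hk => ?_, fun k hk => ?_⟩
    · simpa [Pi.single_eq_of_ne (ne_of_mem_of_not_mem hk hj)] using h.1 k (mem_insert_of_mem hk)
    · by_cases e : k = j
      · simp [e]
      · simpa [e] using h.2 k (by simp [e, hk])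
  · rintro ⟨i, X⟩ h
    simp only [mem_product, mem_bx] at h
    simp [h.2.2 j hj]
  · intro X _; simp
  · rintro ⟨i, X⟩ _
    rw [emb_add_single, add_assoc, add_comm (emb px py X)]

theorem CC_pos (px py : ι → V) (l u : ι → ℤ) (hlu : ∀ j, l j ≤ u j) (P : Finset ι)
    {h : (V → ℤ) → ℝ} (hp : Pos h) : Pos (CC px py l u P h) := by
  exact fun α => sum_pos (fun _ _ => hp _) (Fintype.piFinset_nonempty.2 fun j => by
    split_ifs <;> simp [hlu j])

theorem CC_lor (px py : ι → V) (l u : ι → ℤ) (hlu : ∀ j, l j ≤ u j) (P : Finset ι)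
    {h : (V → ℤ) → ℝ} (hp : Pos h) (hl : Lor h) : Lor (CC px py l u P h) := by
  induction P using Finset.induction_on with
  | empty => rwa [show CC px py l u ∅ h = h from funext (CC_empty px py l u h)]
  | insert j P hj ih =>
    rw [show CC px py l u (insert j P) h = _ from funext (CC_insert px py l u P j hj h)]
    exact ih.sum_line (CC_pos px py l u hlu P hp) _ _ _ _ (hlu j)

/-- the full box -/
noncomputable def Box (l u : ι → ℤ) : Finset (ι → ℤ) := Fintype.piFinset fun j => Icc (l j) (u j)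

theorem mem_Box {l u X : ι → ℤ} : X ∈ Box l u ↔ ∀ j, l j ≤ X j ∧ X j ≤ u j := by
  simp [Box, Fintype.mem_piFinset]

theorem bx_univ (l u : ι → ℤ) : bx l u univ = Box l u := by
  simp [bx, Box]

/-- the point of `ℤ^(ι × Bool)` with `X` on the `true` and `Y` on the `false` variables -/
def lift (X Y : ι → ℤ) : ι × Bool → ℤ := fun a => if a.2 then X a.1 else Y a.1

theorem emb_eq_lift (X : ι → ℤ) :
    emb (fun j : ι => (j, true)) (fun j : ι => (j, false)) X = lift X (-X) := by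
  funext ⟨j, b⟩
  cases b <;> simp [emb, lift, dd, ee, Pi.single_apply]

/-- weight of a configuration -/
def Wt (h : (ι × Bool → ℤ) → ℝ) (X : ι → ℤ) : ℝ := h (lift X (-X))

/-- unnormalised variance -/
noncomputable def Vr {σ : Type} (Ω : Finset σ) (W f : σ → ℝ) : ℝ :=
  ∑ x ∈ Ω, W x * f x ^ 2 - (∑ x ∈ Ω, W x * f x) ^ 2 / ∑ x ∈ Ω, W x

/-- squared unit increments in direction `a`, weighted by the upper endpoint -/
noncomputable def Gr (W : (ι → ℤ) → ℝ) (l u : ι → ℤ) (a : ι) (f : (ι → ℤ) → ℝ) : ℝ :=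
  ∑ ξ ∈ Box l u, if ξ a < u a then W (ξ + ee a) * (f (ξ + ee a) - f ξ) ^ 2 else 0

end Crest.Agent.R309
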