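import Crest.Agent.R309.Anneal

/-!
# R309: approximate counting and almost uniform sampling of flows

PLAN.  `cntA`: if the result of `maxflow` is a flow then `mkMod_ok` applies; `median_nonneg`, `mem_draws`,
`anneal_nonneg`.  `cntA_spec`: `maxflow_flow`; `majority` with `bad z = decide (z < a ∨ b < z)`, `anneal_spec`,
`median_spec`, `draws_length`; `(11/16)^(2s+1) ≤ 1/2^s`.

`first_tv` is generic.  With `q y = Ex (ind (g = some y))`, `a = ∑_{y ∈ F} q y = 1 - Ex (ind (g = none))`,
`r = 1 - a`: `first_some`, `first_none` give `Ex (ind (out = y)) = q y (1 - r^k)/a + [y = x0] r^k` (geometric sum), and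
`∑ |q y / a - 1/N| ≤ τ/a + |N c - a|/a ≤ 2τ/a ≤ 6τ`, `a ≥ 7/16 - τ ≥ 1/3`.
`att_law`: `Ex_split` at `alen`; `c = Ex alen (1 / Zs (anneal l).1)`; for every `l`, with `p = (anneal l).1` (`anneal_adm`),
`att = some y ↔ smp = res y` for a flow `y` (`res_spec`, `ext_spec`), `sum_good`, `WW_good`, `smp_tv` give
`∑_{y ∈ flows} |Ex (ind (att = some y)) - 1/Zs p| ≤ 2/2^JJ`; `abs_Ex_le`, `Ex_sum`;
`N / Zs p = mu p good` (`Zs_good`), which is `≥ 1/2` with probability `≥ 7/8` (`anneal_spec`).
-/

set_option autoImplicit false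
open Finset Crest.Agent.PTime

namespace Crest.Agent.R309

def clen (s : ℕ) : ℕ := (2 * s + 1) * alen s

def cntA (I : Inst) (s : ℕ) (t : List Bool) : ℚ :=
  if IsFlow I (maxflow I s) then median (draws (fun l => (anneal (mkMod I s) l).2.1) (alen s) (2 * s + 1) t) else 0

private theorem ind_mono' {p q : Prop} (h : p → q) : ind p ≤ ind q := by
  by_cases hp : p
  · rw [ind_true hp, ind_true (h hp)]
  · rw [ind_false hp]; exact ind_nonneg q

theorem cntA_nonneg {I : Inst} (hI : WF I) {s : ℕ} (hs : Sized I s) (h100 : 100 ≤ s) (t : List Bool) :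
    0 ≤ cntA I s t := by
  unfold cntA
  split_ifs with hf
  · refine median_nonneg fun y hy => ?_
    obtain ⟨l, rfl⟩ := mem_draws hy
    exact anneal_nonneg (mkMod_ok hI hs h100 hf) l
  · exact le_rfl

theorem cntA_zero {I : Inst} (h : (flows I).card = 0) (s : ℕ) (t : List Bool) : cntA I s t = 0 := by
  unfold cntA
  rw [if_neg]
  intro hf
  have := card_pos.2 ⟨_, mem_flows.2 hf⟩
  omega

theorem cntA_spec {I : Inst} (hI : WF I) {s : ℕ} (hs : Sized I s) (h100 : 100 ≤ s) {len : ℕ} (hlen : clen s ≤ len) :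
    Ex len (fun t => ind (¬ ((1 - 1 / (s : ℚ)) * (flows I).card ≤ cntA I s t ∧
      cntA I s t ≤ (1 + 1 / (s : ℚ)) * (flows I).card))) ≤ 1 / 2 ^ s := by
  rcases Nat.eq_zero_or_pos (flows I).card with h0 | h0
  · refine Ex_le fun t _ => ?_
    rw [ind_false]
    · positivity
    · rw [cntA_zero h0, h0]; simp
  obtain ⟨f, hf⟩ := card_pos.1 h0
  have hm := maxflow_flow hI hs (mem_flows.1 hf)
  have h := mkMod_ok hI hs h100 hm
  have h1 := majority (fun l => (anneal (mkMod I s) l).2.1) (alen s) (2 * s + 1) len hlen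
    (fun z => decide (z < (1 - 1 / (s : ℚ)) * (flows I).card ∨ (1 + 1 / (s : ℚ)) * (flows I).card < z))
    ((Ex_mono fun l _ => ind_mono' fun hb hg => by
      simp only [decide_eq_true_eq] at hb
      rcases hb with hb | hb
      · exact absurd hg.1 (not_le.2 hb)
      · exact absurd hg.2.1 (not_le.2 hb)).trans (anneal_spec h (len := alen s) le_rfl))
  refine (Ex_mono fun t _ => ind_mono' fun hb => ?_).trans (h1.trans ?_)
  · by_contra hn
    apply hb
    unfold cntA
    rw [if_pos hm]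
    exact median_spec _ _ _ (by rw [draws_length]; omega)
  · rw [pow_succ, pow_mul, one_div, ← inv_pow]
    have a1 : (((11 : ℝ) / 16) ^ 2) ^ s ≤ (2 : ℝ)⁻¹ ^ s := pow_le_pow_left₀ (by positivity) (by norm_num) s
    have a2 : (0 : ℝ) ≤ (2 : ℝ)⁻¹ ^ s := by positivity
    linarith

theorem first_tv {β : Type} (F : Finset β) (g : List Bool → Option β) (hg : ∀ l y, g l = some y → y ∈ F)
    (seg k len : ℕ) (h : k * seg ≤ len) {x0 : β} (h0 : x0 ∈ F) (c τ : ℝ) (hτ : τ ≤ 1 / 16)
    (hc : 7 / 16 ≤ F.card * c) (hq : ∑ y ∈ F, |Ex seg (fun l => ind (g l = some y)) - c| ≤ τ) :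
    ∑ y ∈ F, |Ex len (fun t => ind ((firstSome g seg k t).getD x0 = y)) - 1 / F.card| ≤ 6 * τ + 2 * (2 / 3) ^ k := by
  classical
  set q : β → ℝ := fun y => Ex seg (fun l => ind (g l = some y)) with hqd
  set r : ℝ := Ex seg (fun l => ind (g l = none)) with hr
  have hr0 : 0 ≤ r := Ex_nonneg fun _ _ => ind_nonneg _
  have hq0 : ∀ y, 0 ≤ q y := fun y => Ex_nonneg fun _ _ => ind_nonneg _
  have ha : ∑ y ∈ F, q y = 1 - r := by
    rw [eq_sub_iff_add_eq, ← Ex_sum, ← Ex_add, ← Ex_const seg 1]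
    refine Ex_congr fun l _ => ?_
    cases hl : g l with
    | none => simp [ind]
    | some z =>
      rw [sum_eq_single z (fun y _ hy => ind_false fun h => hy (Option.some.inj h).symm)
        (fun h => (h (hg l z hl)).elim)]
      simp [ind]
  have hτ0 : 0 ≤ τ := (sum_nonneg fun _ _ => abs_nonneg _).trans hq
  have hN : (0 : ℝ) < F.card := by exact_mod_cast card_pos.2 ⟨x0, h0⟩
  have hd : |(1 - r) - F.card * c| ≤ τ := by
    rw [← ha, ← nsmul_eq_mul, ← sum_const, ← sum_sub_distrib]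
    exact (abs_sum_le_sum_abs _ _).trans hq
  obtain ⟨a, hae⟩ : ∃ a, a = 1 - r := ⟨_, rfl⟩
  rw [← hae] at ha hd
  have ha3 : 1 / 3 ≤ a := by
    have := (abs_le.1 hd).1
    linarith
  have ha0 : 0 < a := by linarith
  have hG : ∑ j ∈ range k, r ^ j = (1 - r ^ k) / a := by
    rw [eq_div_iff ha0.ne', mul_comm, hae, mul_neg_geom_sum]
  have hrk : 0 ≤ r ^ k := by positivity
  have key : ∀ y ∈ F, |Ex len (fun t => ind ((firstSome g seg k t).getD x0 = y)) - 1 / F.card| ≤
      (|q y - c| / a + |a - F.card * c| / (a * F.card)) + (q y * (r ^ k / a) + ind (x0 = y) * r ^ k) := by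
    intro y _
    have e1 : Ex len (fun t => ind ((firstSome g seg k t).getD x0 = y)) =
        q y * ((1 - r ^ k) / a) + ind (x0 = y) * r ^ k := by
      rw [← hG, ← first_some g seg k len h y, ← first_none g seg k len h, ← Ex_mul, ← Ex_add]
      refine Ex_congr fun t _ => ?_
      cases firstSome g seg k t <;> simp [ind]
    have e2 : q y * ((1 - r ^ k) / a) + ind (x0 = y) * r ^ k - 1 / F.card =
        ((q y - c) / a - (a - F.card * c) / (a * F.card)) + (ind (x0 = y) * r ^ k - q y * (r ^ k / a)) := by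
      field_simp
      ring
    rw [e1, e2]
    refine (abs_add_le _ _).trans (add_le_add ((abs_sub _ _).trans ?_) ((abs_sub _ _).trans ?_))
    · rw [abs_div, abs_div, abs_of_pos ha0, abs_of_pos (mul_pos ha0 hN)]
    · rw [abs_of_nonneg (mul_nonneg (ind_nonneg _) hrk), abs_of_nonneg (mul_nonneg (hq0 y) (by positivity)),
        add_comm]
  refine (sum_le_sum key).trans ?_
  have e3 : ∑ y ∈ F, ind (x0 = y) = 1 := by
    rw [sum_eq_single x0 (fun y _ hy => ind_false (Ne.symm hy)) (fun h => (h h0).elim), ind_true rfl]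
  rw [sum_add_distrib, sum_add_distrib, sum_add_distrib, ← sum_div, ← sum_mul, ← sum_mul, ha, e3, sum_const,
    nsmul_eq_mul]
  have b1 : (∑ y ∈ F, |q y - c|) / a ≤ 3 * τ := by
    rw [div_le_iff₀ ha0]
    nlinarith
  have b2 : (F.card : ℝ) * (|a - F.card * c| / (a * F.card)) ≤ 3 * τ := by
    rw [show (F.card : ℝ) * (|a - F.card * c| / (a * F.card)) = |a - F.card * c| / a by field_simp,
      div_le_iff₀ ha0]
    nlinarith
  have b3 : a * (r ^ k / a) = r ^ k := by field_simp
  have b4 : r ^ k ≤ (2 / 3) ^ k := pow_le_pow_left₀ hr0 (by linarith) k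
  linarith

/-- keep a good configuration -/
def keep (M : Mod) (X : List ℤ) : Option (List ℤ) := if good M X then some X else none

/-- one attempt -/
def att (M : Mod) (J : ℕ) (t : List Bool) : Option (List ℤ) :=
  (keep M (smp M (anneal M (t.take (alen (ms M)))).1 J (t.drop (alen (ms M))))).map (ext M)

def tlen (s : ℕ) : ℕ := alen s + slen s s

def smpA (I : Inst) (s : ℕ) (t : List Bool) : List ℤ :=
  (firstSome (att (mkMod I s) s) (tlen s) (5 * s) t).getD (maxflow I s)

theorem att_flow {M : Mod} (h : ModOK M) {J : ℕ} {t : List Bool} {y : List ℤ} (hy : att M J t = some y) :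
    IsFlow (mI M) y := by
  unfold att keep at hy
  split_ifs at hy with hg
  · cases hy
    exact (ext_spec h (smp_mem h _ _ _) hg).1
  · cases hy

theorem att_law {M : Mod} (h : ModOK M) (J : ℕ) {len : ℕ} (hlen : alen (ms M) + slen (ms M) J ≤ len) :
    ∃ c : ℝ, 7 / 16 ≤ (flows (mI M)).card * c ∧
      ∑ y ∈ flows (mI M), |Ex len (fun l => ind (att M J l = some y)) - c| ≤ 2 / 2 ^ JJ (ms M) J := by
  refine ⟨Ex (alen (ms M)) (fun l => 1 / Zs M (anneal M l).1), ?_, ?_⟩
  · rw [← Ex_mul]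
    have h1 := anneal_spec h (len := alen (ms M)) le_rfl
    have h2 : Ex (alen (ms M)) (fun t => 1 / 2 - 1 / 2 *
        ind (¬ ((1 - 1 / (ms M : ℚ)) * (flows (mI M)).card ≤ (anneal M t).2.1 ∧
          (anneal M t).2.1 ≤ (1 + 1 / (ms M : ℚ)) * (flows (mI M)).card ∧
          1 / 2 ≤ mu M (anneal M t).1 (fun X => ind (good M X))))) ≤
        Ex (alen (ms M)) (fun l => (flows (mI M)).card * (1 / Zs M (anneal M l).1)) := by
      refine Ex_mono fun l _ => ?_
      have a1 := one_le_Zs h (anneal M l).1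
      have a2 : ((flows (mI M)).card : ℝ) * (1 / Zs M (anneal M l).1) =
          mu M (anneal M l).1 (fun X => ind (good M X)) := by
        rw [← Zs_good h (anneal M l).1]
        field_simp
      by_cases hb : (1 - 1 / (ms M : ℚ)) * (flows (mI M)).card ≤ (anneal M l).2.1 ∧
          (anneal M l).2.1 ≤ (1 + 1 / (ms M : ℚ)) * (flows (mI M)).card ∧
          1 / 2 ≤ mu M (anneal M l).1 (fun X => ind (good M X))
      · rw [ind_false (not_not.2 hb), a2]
        linarith [hb.2.2]
      · rw [ind_true hb]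
        have : (0 : ℝ) ≤ ((flows (mI M)).card : ℝ) * (1 / Zs M (anneal M l).1) := by positivity
        linarith
    rw [Ex_sub, Ex_const, Ex_mul] at h2
    linarith
  · have e1 : ∀ y, Ex len (fun l => ind (att M J l = some y)) = Ex (alen (ms M)) (fun l =>
        Ex (len - alen (ms M)) (fun l' => ind ((keep M (smp M (anneal M l).1 J l')).map (ext M) = some y))) :=
      fun y => Ex_split (a := alen (ms M)) (by omega)
        fun l l' => ind ((keep M (smp M (anneal M l).1 J l')).map (ext M) = some y)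
    refine (sum_le_sum fun y _ => ?_ : _ ≤ ∑ y ∈ flows (mI M), Ex (alen (ms M)) (fun l =>
      |Ex (len - alen (ms M)) (fun l' => ind ((keep M (smp M (anneal M l).1 J l')).map (ext M) = some y)) -
        1 / Zs M (anneal M l).1|)).trans ?_
    · rw [e1, ← Ex_sub]
      exact abs_Ex_le _ _
    rw [← Ex_sum]
    refine Ex_le fun l _ => ?_
    have hp := anneal_adm h l
    generalize (anneal M l).1 = p at hp
    rw [← sum_good h fun y => |Ex (len - alen (ms M))
      (fun l' => ind ((keep M (smp M p J l')).map (ext M) = some y)) - 1 / Zs M p|]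
    refine le_trans ?_ (smp_tv h hp J (len := len - alen (ms M)) (by omega))
    refine le_trans (sum_le_sum fun X hX => le_of_eq ?_)
      (sum_le_sum_of_subset_of_nonneg (filter_subset (good M) _) fun _ _ _ => abs_nonneg _)
    obtain ⟨hX1, hX2⟩ := mem_filter.1 hX
    rw [WW_good h p hX2, Rat.cast_one]
    congr 2
    refine Ex_congr fun l' _ => ?_
    congr 1
    have hS := smp_mem h p J l'
    generalize smp M p J l' = S at hS
    unfold keep
    refine propext ⟨fun hh => ?_, fun hh => ?_⟩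
    · split_ifs at hh with hg
      · rw [← (ext_spec h hS hg).2, ← (ext_spec h hX1 hX2).2, Option.some.inj hh]
      · cases hh
    · rw [hh, if_pos hX2]; rfl

theorem smpA_flow {I : Inst} (hI : WF I) {s : ℕ} (hs : Sized I s) (h100 : 100 ≤ s) {f : List ℤ} (hf : IsFlow I f)
    (t : List Bool) : IsFlow I (smpA I s t) := by
  unfold smpA
  cases h : firstSome (att (mkMod I s) s) (tlen s) (5 * s) t with
  | none => exact maxflow_flow hI hs hf
  | some y =>
    obtain ⟨l, hl⟩ := firstSome_mem h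
    exact att_flow (mkMod_ok hI hs h100 hf) hl

theorem smpA_tv {I : Inst} (hI : WF I) {s : ℕ} (hs : Sized I s) (h100 : 100 ≤ s) {f : List ℤ} (hf : IsFlow I f)
    {len : ℕ} (hlen : 5 * s * tlen s ≤ len) :
    ∑ y ∈ flows I, |Ex len (fun t => ind (smpA I s t = y)) - 1 / (flows I).card| ≤ 2 / 2 ^ s := by
  have h := mkMod_ok hI hs h100 hf
  obtain ⟨c, h1, h2⟩ := att_law h s (len := tlen s) le_rfl
  have e : JJ (ms (mkMod I s)) s = s + 23 * s := rfl
  rw [e] at h2
  have a0 : (0 : ℝ) < 2 ^ s := by positivity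
  have a1 : (2 : ℝ) ^ 5 ≤ 2 ^ (23 * s) := pow_le_pow_right₀ (by norm_num) (by omega)
  have a2 : (2 : ℝ) ^ 1 ≤ 2 ^ s := pow_le_pow_right₀ (by norm_num) (by omega)
  have a3 : (2 : ℝ) / 2 ^ (s + 23 * s) ≤ 1 / 16 * (1 / 2 ^ s) := by
    rw [pow_add, div_le_iff₀ (by positivity)]
    have : (1 : ℝ) / 16 * (1 / 2 ^ s) * (2 ^ s * 2 ^ (23 * s)) = 2 ^ (23 * s) / 16 := by field_simp
    rw [this]
    linarith
  have a4 : (1 : ℝ) / 2 ^ s ≤ 1 / 2 := one_div_le_one_div_of_le (by norm_num) (by linarith)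
  have a5 : ((2 : ℝ) / 3) ^ (5 * s) ≤ 1 / 2 ^ s * (1 / 2 ^ s) := by
    rw [pow_mul, one_div, ← inv_pow, ← mul_pow]
    exact pow_le_pow_left₀ (by positivity) (by norm_num) s
  have a6 : (0 : ℝ) < 1 / 2 ^ s := by positivity
  refine (first_tv (flows I) (att (mkMod I s) s) (fun l y hy => mem_flows.2 (att_flow h hy)) (tlen s) (5 * s) len
    hlen (mem_flows.2 (maxflow_flow hI hs hf)) c _ (by linarith) h1 h2).trans ?_
  rw [show (2 : ℝ) / 2 ^ s = 2 * (1 / 2 ^ s) by ring]
  nlinarith

end Crest.Agent.R309
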