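import Crest.Agent.R309.Chain

/-!
# R309: the exact law of the chain by dynamic programming, and choosing with integer weights

PLAN.  `lk_map`: the first entry of `L.zip (L.map g)` with key `x` has value `g x`.  `cntv_eq`: by induction on `T`,
`(dpStep ..)^[T] (L.map ind_y) = L.map (fun x => n_T x)` with `(n_T x : ℝ) = 2^(T seg) * (Kop ..)^[T] ind_y x` for `x ∈ L`
(`Function.iterate_succ_apply'`, `Kop_mstep`, `lk_map`); then `Ex_runL`.  `PT.cntv`: `PT.iterate`; all entries of the
`t`-th iterate are `≤ 2^(t (b0+1+B))` if `n0 ≤ 2^b0` (`lk L g x ≤ c` if all entries of `g` are `≤ c`; `accN ≤ 2^B`).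
`pick_count`: induction on the list, generalising the range: for `n ≥ ∑ weights`,
`∑ u ∈ range n, ind (pick l u = some y) = ∑ of the weights with key y`.  `PT.pick`: `pick l u` is the first component of
a `foldl` with state `Option σ × ℕ` (`PT.foldl_bdd` or `PT.foldl`), or use `find?` on the list of partial sums.
-/

set_option autoImplicit false
open Finset Crest.Agent.PTime

namespace Crest.Agent.R309

variable {σ : Type}

/-- look up the value of `x` -/
def lk [DecidableEq σ] (L : List σ) (g : List ℕ) (x : σ) : ℕ :=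
  (((L.zip g).find? fun q => decide (q.1 = x)).map fun q => q.2).getD 0

theorem lk_map [DecidableEq σ] {L : List σ} (g : σ → ℕ) {x : σ} (hx : x ∈ L) : lk L (L.map g) x = g x := by
  induction L with
  | nil => cases hx
  | cons a L ih =>
    by_cases h : a = x
    · subst h; simp [lk]
    · have := ih ((List.mem_cons.1 hx).resolve_left (Ne.symm h))
      simpa [lk, h] using this

def dpStep [DecidableEq σ] (W : σ → ℚ) (prop : σ → ℕ → σ) (b0 B n0 : ℕ) (L : List σ) (g : List ℕ) : List ℕ :=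
  L.map fun x => 2 ^ (b0 + B) * lk L g x + ∑ i ∈ range n0,
    (accN W B x (prop x i) * lk L g (prop x i) + (2 ^ B - accN W B x (prop x i)) * lk L g x)

/-- the number of tapes that lead from `x0` to `y` -/
def cntv [DecidableEq σ] (W : σ → ℚ) (prop : σ → ℕ → σ) (b0 B n0 T : ℕ) (L : List σ) (x0 y : σ) : ℕ :=
  lk L ((dpStep W prop b0 B n0 L)^[T] (L.map fun x => if x = y then 1 else 0)) x0

theorem cntv_eq [DecidableEq σ] (W : σ → ℚ) (prop : σ → ℕ → σ) (b0 B T : ℕ) (L : List σ)
    (hW : ∀ x ∈ L, 0 < W x) (hp : ∀ x ∈ L, ∀ i, prop x i ∈ L) {x0 : σ} (h0 : x0 ∈ L) (y : σ) {len : ℕ}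
    (hlen : T * (b0 + 1 + B) ≤ len) :
    (cntv W prop b0 B (2 ^ b0) T L x0 y : ℝ) =
      2 ^ (T * (b0 + 1 + B)) * Ex len (fun t => ind (sample W prop b0 B T x0 t = y)) := by
  have key : ∀ T, ∃ n : σ → ℕ,
      (dpStep W prop b0 B (2 ^ b0) L)^[T] (L.map fun x => if x = y then 1 else 0) = L.map n ∧
      ∀ x ∈ L, (n x : ℝ) = 2 ^ (T * (b0 + 1 + B)) *
        (Kop (mstep W prop b0 B) (b0 + 1 + B))^[T] (fun z => ind (z = y)) x := by
    intro T
    induction T with
    | zero =>
      refine ⟨_, rfl, fun x _ => ?_⟩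
      by_cases h : x = y <;> simp [h, ind]
    | succ T ih =>
      obtain ⟨n, h1, h2⟩ := ih
      rw [Function.iterate_succ_apply', h1]
      refine ⟨_, rfl, fun x hx => ?_⟩
      rw [Function.iterate_succ_apply', Kop_mstep _ _ _ _ _ _ (hW x hx)]
      simp only [Nat.cast_add, Nat.cast_mul, Nat.cast_sum, Nat.cast_pow, Nat.cast_ofNat, lk_map n hx,
        fun i => lk_map n (hp x hx i), h2 x hx, fun i => h2 _ (hp x hx i)]
      rw [add_mul T 1, one_mul, pow_add 2 (T * (b0 + 1 + B)), mul_assoc, mul_div_cancel₀ _ (by positivity),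
        mul_add ((2 : ℝ) ^ _), mul_sum]
      congr 1
      · ring
      · exact sum_congr rfl fun i _ => by ring
  obtain ⟨n, h1, h2⟩ := key T
  unfold cntv sample
  rw [h1, lk_map n h0, h2 x0 h0, Ex_runL _ _ _ _ hlen (fun z => ind (z = y))]

private theorem lk_le [DecidableEq σ] (L : List σ) {g : List ℕ} {c : ℕ} (h : ∀ z ∈ g, z ≤ c) (x : σ) :
    lk L g x ≤ c := by
  unfold lk
  cases h' : (L.zip g).find? fun q => decide (q.1 = x) with
  | none => exact Nat.zero_le _
  | some q => exact h _ (List.of_mem_zip (List.mem_of_find?_eq_some h')).2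

private theorem dp_bound [DecidableEq σ] (W : σ → ℚ) (prop : σ → ℕ → σ) (b0 B : ℕ) {n0 : ℕ} (hn : n0 ≤ 2 ^ b0)
    (L : List σ) (y : σ) (T : ℕ) :
    ((dpStep W prop b0 B n0 L)^[T] (L.map fun x => if x = y then 1 else 0)).length = L.length ∧
      ∀ z ∈ (dpStep W prop b0 B n0 L)^[T] (L.map fun x => if x = y then 1 else 0), z ≤ 2 ^ (T * (b0 + 1 + B)) := by
  induction T with
  | zero =>
    refine ⟨by simp, fun z hz => ?_⟩
    obtain ⟨x, -, rfl⟩ := List.mem_map.1 hz
    split_ifs <;> simp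
  | succ T ih =>
    rw [Function.iterate_succ_apply']
    refine ⟨by simp [dpStep], fun z hz => ?_⟩
    obtain ⟨x, -, rfl⟩ := List.mem_map.1 hz
    have h1 := lk_le L ih.2
    generalize (dpStep W prop b0 B n0 L)^[T] (L.map fun x => if x = y then 1 else 0) = g at h1
    rw [add_mul T 1, one_mul, pow_add 2 (T * (b0 + 1 + B))]
    generalize 2 ^ (T * (b0 + 1 + B)) = c at h1
    have h2 : ∑ i ∈ range n0, (accN W B x (prop x i) * lk L g (prop x i) +
        (2 ^ B - accN W B x (prop x i)) * lk L g x) ≤ ∑ _i ∈ range n0, 2 ^ B * c := by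
      refine sum_le_sum fun i _ => ?_
      have a1 := Nat.mul_le_mul_left (accN W B x (prop x i)) (h1 (prop x i))
      have a2 := Nat.mul_le_mul_left (2 ^ B - accN W B x (prop x i)) (h1 x)
      have a3 : accN W B x (prop x i) * c + (2 ^ B - accN W B x (prop x i)) * c = 2 ^ B * c := by
        rw [← add_mul, Nat.add_sub_cancel' (accN_le _ _ _ _)]
      omega
    rw [sum_const, card_range, smul_eq_mul] at h2
    have h3 := Nat.mul_le_mul_right (2 ^ B * c) hn
    have h4 := Nat.mul_le_mul_left (2 ^ (b0 + B)) (h1 x)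
    have h5 : c * 2 ^ (b0 + 1 + B) = 2 ^ (b0 + B) * c + 2 ^ b0 * (2 ^ B * c) := by ring
    omega

@[fun_prop] theorem PT.lk {α : Type} [Enc α] [Enc σ] [EncInj σ] [DecidableEq σ] {L : α → List σ} {g : α → List ℕ}
    {x : α → σ} (hL : PT L) (hg : PT g) (hx : PT x) : PT (fun a => lk (L a) (g a) (x a)) := by
  unfold R309.lk; fun_prop

theorem PT.cntv {α : Type} [Enc α] [Enc σ] [EncInj σ] [DecidableEq σ] {W : α → σ → ℚ} {prop : α → σ → ℕ → σ}
    {b0 B n0 T : α → ℕ} {L : α → List σ} {x0 y : α → σ} (hW : PT (fun p : α × σ => W p.1 p.2))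
    (hp : PT (fun p : α × σ × ℕ => prop p.1 p.2.1 p.2.2)) (h1 : PT b0) (h1' : PB b0) (h2 : PT B) (h2' : PB B)
    (h3 : PT n0) (h3' : PB n0) (hn : ∀ a, n0 a ≤ 2 ^ b0 a) (h4 : PT T) (h4' : PB T) (hL : PT L) (hx : PT x0)
    (hy : PT y) : PT (fun a => cntv (W a) (prop a) (b0 a) (B a) (n0 a) (T a) (L a) (x0 a) (y a)) := by
  unfold R309.cntv
  refine PT.lk hL ?_ hx
  refine PT.iterate (f := fun a => dpStep (W a) (prop a) (b0 a) (B a) (n0 a) (L a)) ?_ ?_ h4 h4'
    (B := fun a => (L a).length * (4 * (T a * (b0 a + 1 + B a) + 1) + 1 + 1) + 1) (by fun_prop) fun a i hi => ?_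
  · unfold dpStep
    have hA : ∀ {γ : Type} [Enc γ] {f : γ → α} {x z : γ → σ}, PT f → PT x → PT z →
        PT (fun c => accN (W (f c)) (B (f c)) (x c) (z c)) := by
      intro γ _ f x z hf hx hz
      unfold accN
      have a1 : PT fun c => W (f c) (x c) := hW.comp (g := fun c => (f c, x c)) (hf.pair hx)
      have a2 : PT fun c => W (f c) (z c) := hW.comp (g := fun c => (f c, z c)) (hf.pair hz)
      have a3 : PT fun c => B (f c) := h2.comp (g := f) hf
      have a4 : PB fun c => B (f c) := h2'.comp (g := f) hf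
      fun_prop
    refine PT.map (f := fun (p : α × List ℕ) x => 2 ^ (b0 p.1 + B p.1) * R309.lk (L p.1) p.2 x +
      ∑ i ∈ range (n0 p.1), (accN (W p.1) (B p.1) x (prop p.1 x i) * R309.lk (L p.1) p.2 (prop p.1 x i) +
        (2 ^ B p.1 - accN (W p.1) (B p.1) x (prop p.1 x i)) * R309.lk (L p.1) p.2 x)) ?_ (by fun_prop)
    refine PT.add (PT.mul (by fun_prop) (by fun_prop)) ?_
    refine PT.sum_range (f := fun (q : (α × List ℕ) × σ) i =>
      accN (W q.1.1) (B q.1.1) q.2 (prop q.1.1 q.2 i) * R309.lk (L q.1.1) q.1.2 (prop q.1.1 q.2 i) +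
        (2 ^ B q.1.1 - accN (W q.1.1) (B q.1.1) q.2 (prop q.1.1 q.2 i)) * R309.lk (L q.1.1) q.1.2 q.2)
      (by fun_prop) (by fun_prop) ?_
    have a1 : PT fun r : ((α × List ℕ) × σ) × U => prop r.1.1.1 r.1.2 r.2.val :=
      hp.comp (g := fun r : ((α × List ℕ) × σ) × U => (r.1.1.1, r.1.2, r.2.val)) (by fun_prop)
    have a2 := hA (f := fun r : ((α × List ℕ) × σ) × U => r.1.1.1) (x := fun r => r.1.2) (by fun_prop)
      (by fun_prop) a1
    exact PT.add (PT.mul a2 (PT.lk (by fun_prop) (by fun_prop) a1))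
      (PT.mul (PT.sub (by fun_prop) a2) (by fun_prop))
  · exact PT.map (f := fun a x => if x = y a then 1 else 0) (by fun_prop) hL
  · obtain ⟨g1, g2⟩ := dp_bound (W a) (prop a) (b0 a) (B a) (hn a) (L a) (y a) i
    rw [← g1]
    refine sz_list_le fun z hz => sz_le_of_lt ?_
    refine (g2 z hz).trans_lt (Nat.pow_lt_pow_right (by norm_num) ?_)
    have := Nat.mul_le_mul_right (b0 a + 1 + B a) hi
    omega

/-- choose an entry: the weights cut the numbers into consecutive intervals -/
def pick : List (σ × ℕ) → ℕ → Option σ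
  | [], _ => none
  | q :: r, u => if u < q.2 then some q.1 else pick r (u - q.2)

theorem pick_mem {l : List (σ × ℕ)} {u : ℕ} {y : σ} (h : pick l u = some y) : y ∈ l.map fun q => q.1 := by
  induction l generalizing u with
  | nil => cases h
  | cons q r ih =>
    unfold pick at h
    split_ifs at h
    · cases h; simp
    · exact List.mem_cons_of_mem _ (ih h)

private theorem pick_sum (l : List (σ × ℕ)) (y : σ) {n : ℕ} (hn : (l.map fun q => q.2).sum ≤ n) :
    ∑ u ∈ range n, ind (pick l u = some y) = (l.map fun q => ind (q.1 = y) * (q.2 : ℝ)).sum := by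
  induction l generalizing n with
  | nil => simp [pick, ind]
  | cons q r ih =>
    rw [List.map_cons, List.sum_cons] at hn
    obtain ⟨m, rfl⟩ : ∃ m, n = q.2 + m := ⟨n - q.2, by omega⟩
    rw [sum_range_add, List.map_cons, List.sum_cons, ← ih (n := m) (by omega)]
    congr 1
    · rw [sum_congr rfl (g := fun _ => ind (q.1 = y)) fun u hu => by
        rw [pick, if_pos (mem_range.1 hu), Option.some_inj]]
      simp [mul_comm]
    · exact sum_congr rfl fun u _ => by rw [pick, if_neg (by omega), Nat.add_sub_cancel_left]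

theorem pick_count {L : List σ} (hL : L.Nodup) (w : σ → ℕ) {n : ℕ} (hn : (L.map w).sum ≤ n) {y : σ} (hy : y ∈ L) :
    ∑ u ∈ range n, ind (pick (L.map fun x => (x, w x)) u = some y) = w y := by
  rw [pick_sum _ _ (by simpa [Function.comp_def] using hn), List.map_map]
  classical
  rw [← List.sum_toFinset _ hL, sum_eq_single y]
  · simp [ind]
  · intro x _ hx
    simp [ind, hx]
  · intro h
    exact (h (List.mem_toFinset.2 hy)).elim

private def pkStep (s : Option σ × ℕ) (q : σ × ℕ) : Option σ × ℕ :=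
  if s.1.isSome = true then s else if s.2 < q.2 then (some q.1, s.2) else (none, s.2 - q.2)

private theorem pk_some (l : List (σ × ℕ)) (z : σ) (u : ℕ) : l.foldl pkStep (some z, u) = (some z, u) := by
  induction l with
  | nil => rfl
  | cons q r ih => rw [List.foldl_cons, pkStep, if_pos (by simp), ih]

private theorem pk_none (l : List (σ × ℕ)) (u : ℕ) : (l.foldl pkStep (none, u)).1 = pick l u := by
  induction l generalizing u with
  | nil => rfl
  | cons q r ih =>
    rw [List.foldl_cons, pkStep, if_neg (by simp), pick]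
    split_ifs
    · rw [pk_some]
    · exact ih _

theorem PT.pick {α : Type} [Enc α] [Enc σ] {l : α → List (σ × ℕ)} {u : α → ℕ} (hl : PT l) (hu : PT u) :
    PT (fun a => pick (l a) (u a)) := by
  refine (PT.fst (PT.foldl_bdd (f := fun _ => pkStep) (init := fun a => ((none : Option σ), u a)) (l := l) ?_
    (by fun_prop) hl (B := fun a => sz (l a) + 2 + (4 * sz (u a) + 1) + 1) (by fun_prop)
    (fun a s => (s.1 = none ∨ ∃ q ∈ l a, s.1 = some q.1) ∧ s.2 ≤ u a) (fun a => ⟨Or.inl rfl, le_rfl⟩)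
    (fun a s b hb hs => ?_) fun a s hs => ?_)).congr fun a => (pk_none _ _).symm
  · unfold pkStep; fun_prop
  · unfold pkStep
    split_ifs
    · exact hs
    · exact ⟨Or.inr ⟨b, hb, rfl⟩, hs.2⟩
    · exact ⟨Or.inl rfl, (Nat.sub_le _ _).trans hs.2⟩
  · rw [sz_prod]
    have a1 := sz_le_of_lt (hs.2.trans_lt (lt_two_pow_sz _))
    rcases hs.1 with h | ⟨q, hq, h⟩
    · rw [h]
      change 1 + _ + 1 ≤ _
      omega
    · rw [h]
      change sz [q.1] + _ + 1 ≤ _
      have a2 := sz_mem hq
      rw [sz_prod] at a2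
      rw [sz_cons, sz_nil]
      omega

/-- polynomial time of the chain; `Inv` is a size-bounded invariant of the states -/
theorem PT.sample {α : Type} [Enc α] [Enc σ] {W : α → σ → ℚ} {prop : α → σ → ℕ → σ} {b0 B T : α → ℕ} {x0 : α → σ}
    {t : α → List Bool} (hW : PT (fun p : α × σ => W p.1 p.2))
    (hp : PT (fun p : α × σ × ℕ => prop p.1 p.2.1 p.2.2)) (h1 : PT b0) (h1' : PB b0) (h2 : PT B) (h2' : PB B)
    (h4 : PT T) (h4' : PB T) (hx : PT x0) (ht : PT t) (Inv : α → σ → Prop) (i0 : ∀ a, Inv a (x0 a))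
    (i1 : ∀ a x i, Inv a x → Inv a (prop a x i)) {Bd : α → ℕ} (hB : PB Bd) (i2 : ∀ a x, Inv a x → sz x ≤ Bd a) :
    PT (fun a => sample (W a) (prop a) (b0 a) (B a) (T a) (x0 a) (t a)) := by
  unfold R309.sample
  refine PT.runL (step := fun a => mstep (W a) (prop a) (b0 a) (B a)) ?_ (by fun_prop) h4 h4' hx ht hB
    fun a i _ => i2 a _ (runL_inv _ _ (fun _ x => Inv a x) (fun _ x l hx => ?_) i _ (i0 a) _)
  · unfold mstep
    have a1 : PT fun p : α × σ × List Bool => prop p.1 p.2.1 (ofBits (p.2.2.take (b0 p.1 + 1))) :=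
      hp.comp (g := fun p : α × σ × List Bool => (p.1, p.2.1, ofBits (p.2.2.take (b0 p.1 + 1)))) (by fun_prop)
    have a2 : PT fun p : α × σ × List Bool => W p.1 p.2.1 :=
      hW.comp (g := fun p : α × σ × List Bool => (p.1, p.2.1)) (by fun_prop)
    have a3 : PT fun p : α × σ × List Bool => W p.1 (prop p.1 p.2.1 (ofBits (p.2.2.take (b0 p.1 + 1)))) :=
      hW.comp (g := fun p : α × σ × List Bool => (p.1, prop p.1 p.2.1 (ofBits (p.2.2.take (b0 p.1 + 1)))))
        (PT.pair (by fun_prop) a1)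
    exact PT.ite (PT.and (by fun_prop) (PT.rat_lt (PT.rat_mul (by fun_prop) a2) (PT.rat_mul (by fun_prop) a3))) a1
      (by fun_prop)
  · unfold mstep
    split_ifs
    · exact i1 a x _ hx
    · exact hx

end Crest.Agent.R309
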