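import Crest.Agent.Lib.PT.Code
import Crest.Prelude.Def_FinProb

/-!
# R309: averages over random bit strings

`Ex n f` is the average of `f` over the bit strings of length `n`; `runL step seg n x t` makes `n` steps, each
reading the next `seg` bits of the tape.

PLAN.  Everything up to `uniformProb_eq_Ex` is induction on `n` (`Ex_ofBits`: `ofBits (b :: l) = Nat.bit b (ofBits l)`,
`Finset.sum_range` split into even/odd, or go through `Ex_append`/`ofBits_concat`; `Ex_eq_sum`: `Fin.consEquiv` /
`Fin.cons`).  `Ex_runL`: induction on `n` generalising `x len`, `len = seg + rest`, `Ex_append`, `Ex_congr`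
(`take_left'`, `drop_left'`).  `runL_bad`: induction on `n` generalising `Inv x`, using `Ex_runL`-style splitting:
`Kop (K^n 1[¬Inv]) x ≤ Ex (1[¬ Inv 1 (step x l)] + n γ)` since all averages of indicators are `≤ 1`.
`cheb`: `μ' = Ex seg (φ ∘ g)`; induction shows `(Kop)^[m] (acc ↦ ((acc.map φ).sum - acc.length μ')^2) acc =
(..acc..)^2 + m Var`, `Var ≤ c^2`; Markov's inequality with `η/2`.  `majority`: `(Kop)^[k] (acc ↦ 4^(countP bad acc))
≤ (11/8)^k`, and on the event `4^count ≥ 2^k`.  `first_some`: induction on `k` (`some x` is absorbing).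
`median_spec`: the least element `z` of `l` with `len ≤ 2 #{y ≤ z}` satisfies both conditions, so `find?` succeeds; if
the result `z` were `< a`, then all `y ≤ z` are outside `[a,b]`, at least half of the list.
-/

set_option autoImplicit false
open Finset Crest.Agent.PTime

namespace Crest.Agent.R309

/-- average over the bit strings of length `n` -/
noncomputable def Ex : ℕ → (List Bool → ℝ) → ℝ
  | 0, f => f []
  | n + 1, f => (Ex n (fun l => f (false :: l)) + Ex n (fun l => f (true :: l))) / 2

open Classical in
/-- indicator of a proposition -/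
noncomputable def ind (p : Prop) : ℝ := if p then 1 else 0

theorem ind_nonneg (p : Prop) : 0 ≤ ind p := by unfold ind; split_ifs <;> norm_num
theorem ind_le_one (p : Prop) : ind p ≤ 1 := by unfold ind; split_ifs <;> norm_num
theorem ind_true {p : Prop} (h : p) : ind p = 1 := by simp [ind, h]
theorem ind_false {p : Prop} (h : ¬ p) : ind p = 0 := by simp [ind, h]
theorem ind_not (p : Prop) : ind (¬ p) = 1 - ind p := by unfold ind; by_cases h : p <;> simp [h]

theorem Ex_mono {n : ℕ} {f g : List Bool → ℝ} (h : ∀ l, l.length = n → f l ≤ g l) : Ex n f ≤ Ex n g := by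
  induction n generalizing f g with
  | zero => exact h [] rfl
  | succ n ih =>
    have h1 := ih (f := fun l => f (false :: l)) (g := fun l => g (false :: l)) fun l hl => h _ (by simp [hl])
    have h2 := ih (f := fun l => f (true :: l)) (g := fun l => g (true :: l)) fun l hl => h _ (by simp [hl])
    simp only [Ex]
    linarith

theorem Ex_congr {n : ℕ} {f g : List Bool → ℝ} (h : ∀ l, l.length = n → f l = g l) : Ex n f = Ex n g := by
  exact le_antisymm (Ex_mono fun l hl => (h l hl).le) (Ex_mono fun l hl => (h l hl).ge)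

theorem Ex_const (n : ℕ) (c : ℝ) : Ex n (fun _ => c) = c := by
  induction n with
  | zero => rfl
  | succ n ih => simp only [Ex, ih]; ring

theorem Ex_add (n : ℕ) (f g : List Bool → ℝ) : Ex n (fun l => f l + g l) = Ex n f + Ex n g := by
  induction n generalizing f g with
  | zero => rfl
  | succ n ih => simp only [Ex, ih]; ring

theorem Ex_sub (n : ℕ) (f g : List Bool → ℝ) : Ex n (fun l => f l - g l) = Ex n f - Ex n g := by
  induction n generalizing f g with
  | zero => rfl
  | succ n ih => simp only [Ex, ih]; ring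

theorem Ex_mul (n : ℕ) (c : ℝ) (f : List Bool → ℝ) : Ex n (fun l => c * f l) = c * Ex n f := by
  induction n generalizing f with
  | zero => rfl
  | succ n ih => simp only [Ex, ih]; ring

theorem Ex_sum {α : Type} (n : ℕ) (S : Finset α) (f : α → List Bool → ℝ) :
    Ex n (fun l => ∑ i ∈ S, f i l) = ∑ i ∈ S, Ex n (f i) := by
  induction S using Finset.cons_induction with
  | empty => simp [Ex_const]
  | cons a s ha ih => simp only [sum_cons, Ex_add, ih]

theorem Ex_nonneg {n : ℕ} {f : List Bool → ℝ} (h : ∀ l, l.length = n → 0 ≤ f l) : 0 ≤ Ex n f := by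
  exact (Ex_const n 0).ge.trans (Ex_mono h)

theorem Ex_le {n : ℕ} {f : List Bool → ℝ} {c : ℝ} (h : ∀ l, l.length = n → f l ≤ c) : Ex n f ≤ c := by
  exact (Ex_mono h).trans (Ex_const n c).le

theorem abs_Ex_le (n : ℕ) (f : List Bool → ℝ) : |Ex n f| ≤ Ex n (fun l => |f l|) := by
  refine abs_le.2 ⟨?_, Ex_mono fun l _ => le_abs_self _⟩
  rw [neg_eq_neg_one_mul, ← Ex_mul]
  exact Ex_mono fun l _ => by linarith [neg_abs_le (f l)]

theorem Ex_append (a b : ℕ) (f : List Bool → ℝ) :
    Ex (a + b) f = Ex a (fun l => Ex b (fun l' => f (l ++ l'))) := by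
  induction a generalizing f with
  | zero => simp [Ex]
  | succ a ih => rw [Nat.add_right_comm]; simp only [Ex, ih, List.cons_append]

theorem Ex_split {a n : ℕ} (h : a ≤ n) (F : List Bool → List Bool → ℝ) :
    Ex n (fun t => F (t.take a) (t.drop a)) = Ex a (fun l => Ex (n - a) (fun l' => F l l')) := by
  obtain ⟨b, rfl⟩ := Nat.exists_eq_add_of_le h
  rw [Ex_append, Nat.add_sub_cancel_left]
  exact Ex_congr fun l hl => by simp only [List.take_left' hl, List.drop_left' hl]

theorem Ex_take {a n : ℕ} (h : a ≤ n) (f : List Bool → ℝ) : Ex n (fun t => f (t.take a)) = Ex a f := by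
  rw [Ex_split h fun l _ => f l]
  simp only [Ex_const]

theorem sum_range_two_mul' (m : ℕ) (g : ℕ → ℝ) :
    ∑ i ∈ range (m * 2), g i = ∑ i ∈ range m, g (Nat.bit false i) + ∑ i ∈ range m, g (Nat.bit true i) := by
  induction m with
  | zero => simp
  | succ m ih =>
    rw [show (m + 1) * 2 = m * 2 + 1 + 1 by ring, sum_range_succ, sum_range_succ, ih, sum_range_succ,
      sum_range_succ, Nat.bit_false_apply, Nat.bit_true_apply, mul_comm m 2]
    ring

theorem Ex_ofBits (n : ℕ) (g : ℕ → ℝ) : Ex n (fun l => g (ofBits l)) = (∑ i ∈ range (2 ^ n), g i) / 2 ^ n := by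
  induction n generalizing g with
  | zero => simp [Ex]
  | succ n ih =>
    have h1 := ih fun i => g (Nat.bit false i)
    have h2 := ih fun i => g (Nat.bit true i)
    have h3 : ∀ b l, ofBits (b :: l) = Nat.bit b (ofBits l) := fun _ _ => rfl
    simp only [Ex, h3, h1, h2, pow_succ, sum_range_two_mul']
    ring

theorem Ex_eq_sum (n : ℕ) (f : List Bool → ℝ) :
    Ex n f = (∑ ω : Fin n → Bool, f (List.ofFn ω)) / 2 ^ n := by
  induction n generalizing f with
  | zero => simp [Ex]
  | succ n ih =>
    rw [← (Fin.consEquiv fun _ : Fin (n + 1) => Bool).sum_comp, Fintype.sum_prod_type]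
    simp only [Ex, ih, Fin.consEquiv_apply, List.ofFn_succ, Fin.cons_zero, Fin.cons_succ,
      Fintype.sum_bool, pow_succ]
    ring

theorem uniformProb_eq_Ex (n : ℕ) (E : List Bool → Prop) :
    Crest.FinProb.uniformProb {ω : Fin n → Bool | E (List.ofFn ω)} = Ex n (fun l => ind (E l)) := by
  rw [Ex_eq_sum, Crest.FinProb.uniformProb, card_filter]
  simp [ind]

theorem Ex_all_false (n : ℕ) : Ex n (fun l => ind (l.all (fun b => !b) = true)) = 1 / 2 ^ n := by
  induction n with
  | zero => simp [Ex, ind]
  | succ n ih =>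
    have h : Ex n (fun l => ind ((true :: l).all (fun b => !b) = true)) = 0 := by
      simp [ind, Ex_const]
    have h' : Ex n (fun l => ind ((false :: l).all (fun b => !b) = true)) = 1 / 2 ^ n := by
      simpa using ih
    rw [Ex, h, h', pow_succ]
    ring

variable {σ β : Type}

/-- `n` steps, each reading `seg` bits -/
def runL (step : σ → List Bool → σ) (seg : ℕ) : ℕ → σ → List Bool → σ
  | 0, x, _ => x
  | n + 1, x, t => runL step seg n (step x (t.take seg)) (t.drop seg)

theorem runL_take (step : σ → List Bool → σ) (seg n : ℕ) (x : σ) (t : List Bool) {len : ℕ} (h : n * seg ≤ len) :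
    runL step seg n x (t.take len) = runL step seg n x t := by
  induction n generalizing x t len with
  | zero => rfl
  | succ n ih =>
    rw [Nat.succ_mul] at h
    rw [runL, runL, List.take_take, min_eq_left (by omega), List.drop_take, ih _ _ (by omega)]

theorem runL_eq_iterate (step : σ → List Bool → σ) (seg n : ℕ) (x : σ) (t : List Bool) :
    runL step seg n x t =
      ((fun s : σ × List Bool => (step s.1 (s.2.take seg), s.2.drop seg))^[n] (x, t)).1 := by
  induction n generalizing x t with
  | zero => rfl
  | succ n ih => rw [runL, ih, Function.iterate_succ_apply]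

theorem iterate_snd_sublist (step : σ → List Bool → σ) (seg n : ℕ) (x : σ) (t : List Bool) :
    ((fun s : σ × List Bool => (step s.1 (s.2.take seg), s.2.drop seg))^[n] (x, t)).2.Sublist t := by
  induction n with
  | zero => exact List.Sublist.refl _
  | succ n ih => rw [Function.iterate_succ_apply']; exact (List.drop_sublist _ _).trans ih

/-- polynomial time; `B` bounds the size of the intermediate states -/
theorem PT.runL {α : Type} [Enc α] [Enc σ] {step : α → σ → List Bool → σ} {seg n : α → ℕ} {x : α → σ}
    {t : α → List Bool} (hstep : PT (fun p : α × σ × List Bool => step p.1 p.2.1 p.2.2)) (hseg : PT seg)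
    (hn : PT n) (hn' : PB n) (hx : PT x) (ht : PT t) {B : α → ℕ} (hB : PB B)
    (hb : ∀ a i, i ≤ n a → sz (runL (step a) (seg a) i (x a) (t a)) ≤ B a) :
    PT (fun a => runL (step a) (seg a) (n a) (x a) (t a)) := by
  have h1 : PT (fun p : α × σ × List Bool => seg p.1) := hseg.comp PT.id.fst
  have h2 := hstep.comp (g := fun p : α × σ × List Bool => (p.1, p.2.1, p.2.2.take (seg p.1)))
    (PT.id.fst.pair (PT.id.snd.fst.pair (h1.take PT.id.snd.snd)))
  have := PT.iterate (f := fun (a : α) (s : σ × List Bool) => (step a s.1 (s.2.take (seg a)), s.2.drop (seg a)))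
    (init := fun a => (x a, t a)) (h2.pair (h1.drop PT.id.snd.snd)) (hx.pair ht) hn hn'
    (B := fun a => B a + sz (t a) + 1) ((hB.add ht.pb_sz).add (PB.const 1)) fun a i hi => by
      have h3 := hb a i hi
      have h4 := sz_sublist (iterate_snd_sublist (step a) (seg a) i (x a) (t a))
      rw [runL_eq_iterate] at h3
      rw [sz_prod]
      omega
  exact this.fst.congr fun a => runL_eq_iterate _ _ _ _ _

theorem runL_succ' (step : σ → List Bool → σ) (seg n : ℕ) (x : σ) (t : List Bool) :
    runL step seg (n + 1) x t = step (runL step seg n x t) ((t.drop (n * seg)).take seg) := by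
  induction n generalizing x t with
  | zero => simp [runL]
  | succ n ih => rw [runL, ih, List.drop_drop, runL, Nat.succ_mul, Nat.add_comm seg]

theorem runL_inv_sub (step : σ → List Bool → σ) (seg : ℕ) (t : List Bool) (Inv : ℕ → σ → Prop)
    (h : ∀ i x l, l.Sublist t → Inv i x → Inv (i + 1) (step x l)) (n : ℕ) (x : σ) (h0 : Inv 0 x) :
    Inv n (runL step seg n x t) := by
  induction n with
  | zero => exact h0
  | succ n ih =>
    rw [runL_succ']
    exact h _ _ _ ((List.take_sublist _ _).trans (List.drop_sublist _ _)) ih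

theorem runL_inv (step : σ → List Bool → σ) (seg : ℕ) (Inv : ℕ → σ → Prop)
    (h : ∀ i x l, Inv i x → Inv (i + 1) (step x l)) (n : ℕ) (x : σ) (h0 : Inv 0 x) (t : List Bool) :
    Inv n (runL step seg n x t) := by
  exact runL_inv_sub step seg t Inv (fun i x l _ => h i x l) n x h0

/-- the one-step averaging operator -/
noncomputable def Kop (step : σ → List Bool → σ) (seg : ℕ) (g : σ → ℝ) : σ → ℝ :=
  fun x => Ex seg (fun l => g (step x l))

theorem Ex_runL (step : σ → List Bool → σ) (seg n len : ℕ) (h : n * seg ≤ len) (g : σ → ℝ) (x : σ) :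
    Ex len (fun t => g (runL step seg n x t)) = (Kop step seg)^[n] g x := by
  induction n generalizing x len with
  | zero => exact Ex_const len (g x)
  | succ n ih =>
    rw [Nat.succ_mul] at h
    rw [Function.iterate_succ_apply', Kop]
    refine (Ex_split (a := seg) (by omega) fun l l' => g (runL step seg n (step x l) l')).trans ?_
    exact Ex_congr fun l _ => ih _ (by omega) _

theorem runL_bad (step : σ → List Bool → σ) (seg n len : ℕ) (h : n * seg ≤ len) (Inv : ℕ → σ → Prop) (γ : ℝ)
    (hγ : 0 ≤ γ) (hs : ∀ i < n, ∀ x, Inv i x → Ex seg (fun l => ind (¬ Inv (i + 1) (step x l))) ≤ γ)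
    (x : σ) (h0 : Inv 0 x) : Ex len (fun t => ind (¬ Inv n (runL step seg n x t))) ≤ n * γ := by
  induction n generalizing x len Inv with
  | zero => exact Ex_le fun t _ => by rw [runL, ind_false (not_not.2 h0)]; simp
  | succ n ih =>
    rw [Nat.succ_mul] at h
    refine (Ex_split (a := seg) (by omega) fun l l' =>
      ind (¬ Inv (n + 1) (runL step seg n (step x l) l'))).trans_le ?_
    refine (Ex_mono (g := fun l => ind (¬ Inv (0 + 1) (step x l)) + n * γ) fun l _ => ?_).trans ?_
    · by_cases h1 : Inv (0 + 1) (step x l)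
      · rw [ind_false (not_not.2 h1), zero_add]
        exact ih _ (by omega) (fun i => Inv (i + 1)) (fun i hi => hs (i + 1) (by omega)) _ h1
      · rw [ind_true h1]
        exact (Ex_le fun _ _ => ind_le_one _).trans (le_add_of_nonneg_right (by positivity))
    · rw [Ex_add, Ex_const]
      have := hs 0 (by omega) x h0
      push_cast
      linarith

/-- `m` independent evaluations of `g` -/
def draws (g : List Bool → β) (seg m : ℕ) (t : List Bool) : List β :=
  runL (fun acc l => g l :: acc) seg m [] t

theorem draws_length (g : List Bool → β) (seg m : ℕ) (t : List Bool) : (draws g seg m t).length = m := by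
  exact runL_inv _ seg (fun i (acc : List β) => acc.length = i) (fun i x l h => by simp [h]) m [] rfl t

theorem mem_draws {g : List Bool → β} {seg m : ℕ} {t : List Bool} {y : β} (h : y ∈ draws g seg m t) :
    ∃ l, y = g l := by
  exact runL_inv _ seg (fun _ (acc : List β) => ∀ y ∈ acc, ∃ l, y = g l)
    (fun i x l h y hy => (List.mem_cons.1 hy).elim (fun h => ⟨l, h⟩) (h y)) m [] (by simp) t y h

theorem PT.draws {α : Type} [Enc α] [Enc β] {g : α → List Bool → β} {seg m : α → ℕ} {t : α → List Bool}
    (hg : PT (fun p : α × List Bool => g p.1 p.2)) (hseg : PT seg) (hm : PT m) (hm' : PB m) (ht : PT t) :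
    PT (fun a => draws (g a) (seg a) (m a) (t a)) := by
  obtain ⟨q, hq⟩ := hg.pb_sz
  have h1 := hg.comp (g := fun p : α × List β × List Bool => (p.1, p.2.2)) (PT.id.fst.pair PT.id.snd.snd)
  have hQ : PB fun a => q.eval (sz a + sz (t a) + 1) :=
    PB.poly_eval q ((PT.id.pb_sz.add ht.pb_sz).add (PB.const 1))
  refine PT.runL (step := fun a acc l => g a l :: acc) (h1.cons PT.id.snd.fst) hseg hm hm' (PT.const []) ht
    (B := fun a => m a * (q.eval (sz a + sz (t a) + 1) + 1) + 1)
    ((hm'.mul (hQ.add (PB.const 1))).add (PB.const 1)) fun a i hi => ?_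
  refine (runL_inv_sub _ (seg a) (t a) (fun i (acc : List β) =>
    sz acc ≤ i * (q.eval (sz a + sz (t a) + 1) + 1) + 1) (fun i x l hl h => ?_) i [] (by simp)).trans
    (by gcongr)
  have h2 := (hq (a, l)).trans (eval_mono q (show sz (a, l) ≤ sz a + sz (t a) + 1 by
    have := sz_sublist hl
    rw [sz_pair]; omega))
  rw [sz_cons, Nat.succ_mul]
  dsimp only at h2
  omega

theorem cheb (g : List Bool → β) (seg m len : ℕ) (h : m * seg ≤ len) (hm : 0 < m) (φ : β → ℝ) (c μ η : ℝ)
    (hη : 0 < η) (hφ : ∀ l, 0 ≤ φ (g l) ∧ φ (g l) ≤ c) (hμ : |Ex seg (fun l => φ (g l)) - μ| ≤ η / 2) :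
    Ex len (fun t => ind (η < |((draws g seg m t).map φ).sum / m - μ|)) ≤ 4 * c ^ 2 / (m * η ^ 2) := by
  set μ' := Ex seg (fun l => φ (g l)) with hμ'
  have h0 : 0 ≤ μ' := Ex_nonneg fun l _ => (hφ l).1
  have h1 : μ' ≤ c := Ex_le fun l _ => (hφ l).2
  set F : List β → ℝ := fun acc => ((acc.map φ).sum - acc.length * μ') ^ 2 with hF
  have key : ∀ (k : ℕ) (acc : List β),
      (Kop (fun acc l => g l :: acc) seg)^[k] F acc ≤ F acc + k * c ^ 2 := fun k => by
    induction k with
    | zero => simp
    | succ k ih =>
      intro acc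
      rw [Function.iterate_succ_apply', Kop]
      set D := (acc.map φ).sum - acc.length * μ' with hD
      refine (Ex_mono (g := fun l => 2 * D * φ (g l) + (D ^ 2 - 2 * D * μ' + c ^ 2 + k * c ^ 2))
        fun l _ => (ih _).trans ?_).trans_eq ?_
      · have h2 : F (g l :: acc) = (φ (g l) - μ' + D) ^ 2 := by
          simp only [hF, hD, List.map_cons, List.sum_cons, List.length_cons]
          push_cast
          ring
        have h3 : (φ (g l) - μ') ^ 2 ≤ c ^ 2 :=
          sq_le_sq' (by linarith [(hφ l).1]) (by linarith [(hφ l).2])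
        rw [h2]
        nlinarith
      · rw [Ex_add, Ex_mul, Ex_const, ← hμ']
        simp only [hF, ← hD]
        push_cast
        ring
  have hm' : (0 : ℝ) < m := by exact_mod_cast hm
  refine (Ex_mono (g := fun t => 4 / (m * η) ^ 2 * F (draws g seg m t)) fun t _ => ?_).trans ?_
  · by_cases h2 : η < |((draws g seg m t).map φ).sum / m - μ|
    · rw [ind_true h2, div_mul_eq_mul_div, le_div_iff₀ (by positivity)]
      simp only [hF, draws_length]
      set S := ((draws g seg m t).map φ).sum
      have h3 : η / 2 ≤ |S / m - μ'| := by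
        have := abs_sub_le (S / m) μ' μ
        linarith
      have h4 : S - m * μ' = m * (S / m - μ') := by field_simp
      have h5 : (η / 2) ^ 2 ≤ (S / m - μ') ^ 2 := by
        rw [← sq_abs (S / m - μ')]
        gcongr
      rw [h4, mul_pow, mul_pow]
      nlinarith [sq_nonneg (m : ℝ)]
    · rw [ind_false h2]
      positivity
  · rw [Ex_mul]
    have h2 := (Ex_runL (fun acc l => g l :: acc) seg m len h F []).trans_le (key m [])
    have h3 : F [] = 0 := by simp [hF]
    rw [h3, zero_add] at h2
    calc _ ≤ 4 / (m * η) ^ 2 * (m * c ^ 2) := by gcongr; exact h2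
      _ = _ := by field_simp

theorem majority (g : List Bool → β) (seg k len : ℕ) (h : k * seg ≤ len) (bad : β → Bool)
    (hb : Ex seg (fun l => ind (bad (g l) = true)) ≤ 1 / 8) :
    Ex len (fun t => ind (k ≤ 2 * (draws g seg k t).countP bad)) ≤ (11 / 16) ^ k := by
  set F : List β → ℝ := fun acc => 4 ^ acc.countP bad with hF
  have key : ∀ (n : ℕ) (acc : List β),
      (Kop (fun acc l => g l :: acc) seg)^[n] F acc ≤ (11 / 8) ^ n * F acc := fun n => by
    induction n with
    | zero => simp
    | succ n ih =>
      intro acc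
      rw [Function.iterate_succ_apply', Kop]
      refine (Ex_mono (g := fun l => (11 / 8) ^ n * F acc * (1 + 3 * ind (bad (g l) = true)))
        fun l _ => (ih _).trans_eq ?_).trans ?_
      · simp only [hF, List.countP_cons, ind]
        split_ifs <;> ring
      · rw [Ex_mul, Ex_add, Ex_mul, Ex_const, pow_succ, mul_right_comm _ (11 / 8 : ℝ)]
        have : 0 ≤ F acc := by positivity
        gcongr
        linarith
  refine (Ex_mono (g := fun t => 1 / 2 ^ k * F (draws g seg k t)) fun t _ => ?_).trans ?_
  · by_cases h2 : k ≤ 2 * (draws g seg k t).countP bad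
    · rw [ind_true h2, div_mul_eq_mul_div, le_div_iff₀ (by positivity), one_mul, one_mul]
      simp only [hF]
      rw [show (4 : ℝ) = 2 ^ 2 by norm_num, ← pow_mul]
      exact pow_le_pow_right₀ one_le_two h2
    · rw [ind_false h2]
      positivity
  · rw [Ex_mul]
    have h2 := (Ex_runL (fun acc l => g l :: acc) seg k len h F []).trans_le (key k [])
    have h3 : F [] = 1 := by simp [hF]
    rw [h3, mul_one] at h2
    calc _ ≤ 1 / 2 ^ k * (11 / 8 : ℝ) ^ k := by gcongr; exact h2
      _ = _ := by rw [← one_div_pow, ← mul_pow]; norm_num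

/-- the first of `k` attempts that succeeds -/
def firstSome (g : List Bool → Option β) (seg k : ℕ) (t : List Bool) : Option β :=
  runL (fun acc l => acc.or (g l)) seg k none t

theorem firstSome_mem {g : List Bool → Option β} {seg k : ℕ} {t : List Bool} {y : β}
    (h : firstSome g seg k t = some y) : ∃ l, g l = some y := by
  refine runL_inv _ seg (fun _ (acc : Option β) => ∀ y, acc = some y → ∃ l, g l = some y)
    (fun i x l h y hy => ?_) k none (by simp) t y h
  cases x with
  | none => exact ⟨l, hy⟩
  | some z => exact h y hy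

theorem Kop_or_some (g : List Bool → Option β) (seg k : ℕ) (G : Option β → ℝ) (x : β) :
    (Kop (fun acc l => acc.or (g l)) seg)^[k] G (some x) = G (some x) := by
  induction k with
  | zero => rfl
  | succ k ih => rw [Function.iterate_succ_apply', Kop]; simp only [Option.some_or, ih, Ex_const]

theorem first_some (g : List Bool → Option β) (seg k len : ℕ) (h : k * seg ≤ len) (y : β) :
    Ex len (fun t => ind (firstSome g seg k t = some y)) =
      Ex seg (fun l => ind (g l = some y)) * ∑ j ∈ range k, Ex seg (fun l => ind (g l = none)) ^ j := by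
  refine (Ex_runL _ seg k len h (fun o => ind (o = some y)) none).trans ?_
  induction k with
  | zero => simp [ind]
  | succ k ih =>
    rw [Function.iterate_succ_apply', Kop, sum_range_succ', pow_zero, mul_add, mul_one, add_comm]
    simp only [pow_succ, ← sum_mul]
    rw [← mul_assoc, ← ih (by rw [Nat.succ_mul] at h; omega), ← Ex_mul, ← Ex_add]
    refine Ex_congr fun l _ => ?_
    rw [Option.none_or]
    cases g l with
    | none => simp [ind]
    | some x => rw [Kop_or_some]; simp [ind]

theorem first_none (g : List Bool → Option β) (seg k len : ℕ) (h : k * seg ≤ len) :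
    Ex len (fun t => ind (firstSome g seg k t = none)) = Ex seg (fun l => ind (g l = none)) ^ k := by
  refine (Ex_runL _ seg k len h (fun o => ind (o = none)) none).trans ?_
  induction k with
  | zero => simp [ind]
  | succ k ih =>
    rw [Function.iterate_succ_apply', Kop, pow_succ, ← ih (by rw [Nat.succ_mul] at h; omega), ← Ex_mul]
    refine Ex_congr fun l _ => ?_
    rw [Option.none_or]
    cases g l with
    | none => simp [ind]
    | some x => rw [Kop_or_some]; simp [ind]

theorem PT.firstSome {α : Type} [Enc α] [Enc β] {g : α → List Bool → Option β} {seg k : α → ℕ} {t : α → List Bool}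
    (hg : PT (fun p : α × List Bool => g p.1 p.2)) (hseg : PT seg) (hk : PT k) (hk' : PB k) (ht : PT t) :
    PT (fun a => firstSome (g a) (seg a) (k a) (t a)) := by
  obtain ⟨q, hq⟩ := hg.pb_sz
  have h1 := hg.comp (g := fun p : α × Option β × List Bool => (p.1, p.2.2)) (PT.id.fst.pair PT.id.snd.snd)
  have hQ : PB fun a => q.eval (sz a + sz (t a) + 1) :=
    PB.poly_eval q ((PT.id.pb_sz.add ht.pb_sz).add (PB.const 1))
  have h2 : PT fun p : α × Option β × List Bool => p.2.1.or (g p.1 p.2.2) :=
    (PT.id.snd.fst.isSome.cond PT.id.snd.fst h1).congr fun p => by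
      obtain ⟨a, o, l⟩ := p
      cases o <;> rfl
  refine PT.runL (step := fun a acc l => acc.or (g a l)) h2 hseg hk hk' (PT.const none) ht
    (B := fun a => q.eval (sz a + sz (t a) + 1) + 1) (hQ.add (PB.const 1)) fun a i hi => ?_
  refine runL_inv_sub _ (seg a) (t a) (fun i (acc : Option β) =>
    sz acc ≤ q.eval (sz a + sz (t a) + 1) + 1) (fun i x l hl h => ?_) i none (Nat.le_add_left 1 _)
  have h2 := (hq (a, l)).trans (eval_mono q (show sz (a, l) ≤ sz a + sz (t a) + 1 by
    have := sz_sublist hl
    rw [sz_pair]; omega))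
  cases x with
  | none => exact h2.trans (Nat.le_succ _)
  | some z => exact h

/-- a median of a list of rationals -/
def median (l : List ℚ) : ℚ :=
  (l.find? fun z => decide (l.length ≤ 2 * l.countP (fun y => decide (y ≤ z)) ∧
    l.length ≤ 2 * l.countP (fun y => decide (z ≤ y)))).getD 0

theorem median_nonneg {l : List ℚ} (h : ∀ y ∈ l, 0 ≤ y) : 0 ≤ median l := by
  unfold median
  cases h' : l.find? _ with
  | none => exact le_rfl
  | some z => exact h z (List.mem_of_find?_eq_some h')

theorem exists_median {l : List ℚ} (hl : l ≠ []) :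
    ∃ z ∈ l, l.length ≤ 2 * l.countP (fun y => decide (y ≤ z)) ∧
      l.length ≤ 2 * l.countP (fun y => decide (z ≤ y)) := by
  obtain ⟨M, hM, hmax⟩ := exists_max_image l.toFinset id (by simpa using hl)
  obtain ⟨z, hz, hmin⟩ := exists_min_image
    (l.toFinset.filter fun z => l.length ≤ 2 * l.countP (fun y => decide (y ≤ z))) id
    ⟨M, mem_filter.2 ⟨hM, by
      rw [List.countP_eq_length.2 fun y hy =>
        decide_eq_true (show y ≤ M from hmax y (List.mem_toFinset.2 hy))]
      omega⟩⟩
  rw [mem_filter, List.mem_toFinset] at hz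
  refine ⟨z, hz.1, hz.2, ?_⟩
  have h1 := List.length_eq_countP_add_countP (fun y => decide (z ≤ y)) (l := l)
  rcases (l.toFinset.filter fun y => y < z).eq_empty_or_nonempty with h2 | h2
  · rw [List.countP_eq_length.2 fun y hy => decide_eq_true (not_lt.1 fun h3 =>
      (notMem_empty y) (h2 ▸ mem_filter.2 ⟨List.mem_toFinset.2 hy, h3⟩))]
    omega
  · obtain ⟨w, hw, hwmax⟩ := exists_max_image _ id h2
    rw [mem_filter] at hw
    have h3 : ¬ l.length ≤ 2 * l.countP (fun y => decide (y ≤ w)) := fun h3 =>
      (hmin w (mem_filter.2 ⟨hw.1, h3⟩)).not_gt hw.2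
    have h4 : l.countP (fun y => ¬ (decide (z ≤ y)) = true) ≤ l.countP (fun y => decide (y ≤ w)) :=
      List.countP_mono_left fun y hy h5 => decide_eq_true
        (hwmax y (mem_filter.2 ⟨List.mem_toFinset.2 hy, by simpa using h5⟩))
    omega

theorem median_spec (l : List ℚ) (a b : ℚ)
    (h : 2 * l.countP (fun y => decide (y < a ∨ b < y)) < l.length) : a ≤ median l ∧ median l ≤ b := by
  obtain ⟨z₀, hz₀, h0⟩ := exists_median (l := l) (by rintro rfl; simp at h)
  unfold median
  cases h' : l.find? _ with
  | none => exact absurd (decide_eq_true h0) (List.find?_eq_none.1 h' z₀ hz₀)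
  | some z =>
    have h1' := List.find?_some h'
    have h1 := of_decide_eq_true h1'
    refine ⟨not_lt.1 fun h2 => ?_, not_lt.1 fun h2 => ?_⟩
    · have : l.countP (fun y => decide (y ≤ z)) ≤ l.countP (fun y => decide (y < a ∨ b < y)) :=
        List.countP_mono_left fun y _ h3 => decide_eq_true (.inl ((of_decide_eq_true h3).trans_lt h2))
      omega
    · have : l.countP (fun y => decide (z ≤ y)) ≤ l.countP (fun y => decide (y < a ∨ b < y)) :=
        List.countP_mono_left fun y _ h3 => decide_eq_true (.inr (h2.trans_le (of_decide_eq_true h3)))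
      omega

@[fun_prop] theorem PT.median {α : Type} [Enc α] {l : α → List ℚ} (hl : PT l) : PT (fun a => median (l a)) := by
  unfold R309.median
  fun_prop

end Crest.Agent.R309
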