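import Crest.Agent.R309.Count
import Crest.Agent.R309.Dp

/-!
# R309: one round of the exact sampler

With probability `2^(-Jc)` (all coins `false`) the law of the chain is computed exactly and the round outputs a good
configuration `y` with probability `(2^Jc - 1)(cmax - cnt y) / 2^xl`; otherwise it runs the chain.

PLAN.  `mem_enum`, `nodup_enum`: `c ↦` base `2^s` digits is a bijection from `range (2^(s E))` to the lists of length `E`
with entries in `[0, 2^s)` (`Nat.ofDigits`-free: induction on `E`, or `Nat.eq_of_testBit_eq`), and `0 ≤ lo`, `hi ≤ cap < 2^s`.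
`exc_law`: `Ex_take`, `Ex_ofBits`, `pick_count`.  The weights add up to at most `2^xl`: by `cntv_eq` and `smp_mix`
(`c = 1`, `f = ind (· = y)`, `mu = 1/Zs` for good `y`), `|cnt y / 2^xl - 1/Zs| ≤ 2^(-JJ)`, so `cmax - cnt y ≤ 2 * 2^xl / 2^JJ`
(`cmax` is `cnt y'` for a good `y'` or `0`), at most `2^(s^2)` summands, `JJ ≥ Jc + s^2 + 2`.
`round_law`: for `p = (anneal l).1`, `Ex_split` twice, `Ex_all_false`:
`P(X = y) = 2^(-Jc) (2^Jc - 1)(cmax - cnt y)/2^xl + (1 - 2^(-Jc)) cnt y / 2^xl = (1 - 2^(-Jc)) cmax / 2^xl`;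
`round = some y ↔ X = some (res y)` for a flow `y` (`res_spec`, `ext_spec`).
`round_succ`: if not all coins are `false` the round succeeds iff the sample is good; `smp_mix` gives probability
`≥ mu p good - 2^(-JJ) ≥ 1/4` when `1/2 ≤ mu p good`, which has probability `≥ 7/8` (`anneal_spec`); `7/8 * 1/2 * 1/4 ≥ 1/10`.
-/

set_option autoImplicit false
open Finset Crest.Agent.PTime

namespace Crest.Agent.R309

def JX (s Jc : ℕ) : ℕ := Jc + s ^ 2 + 2
def qq (s : ℕ) : ℕ := s ^ 2 + 3 * s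
def rlen (s Jc : ℕ) : ℕ := alen s + Jc + slen s (JX s Jc)
def xl (M : Mod) (Jc : ℕ) : ℕ := TT (ms M) (JX (ms M) Jc) * (b0 M + 1 + BB (ms M) (JX (ms M) Jc))

/-- enumeration of the box (complete if `2 ^ (s E) ≤ pad`) -/
def enum (M : Mod) (pad : ℕ) : List (List ℤ) :=
  ((List.range (min pad (2 ^ (ms M * mE M)))).map fun c =>
    (List.range (mE M)).map fun e => ((c / 2 ^ (ms M * e) % 2 ^ ms M : ℕ) : ℤ)).filter fun X => decide (inB M X)

def cnt (M : Mod) (Jc : ℕ) (p : List ℕ) (pad : ℕ) (y : List ℤ) : ℕ :=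
  cntv (WW M p) (prp M) (b0 M) (BB (ms M) (JX (ms M) Jc)) (min pad (2 ^ b0 M)) (TT (ms M) (JX (ms M) Jc))
    (enum M pad) (X0 M) y

def genum (M : Mod) (pad : ℕ) : List (List ℤ) := (enum M pad).filter fun X => decide (good M X)

def cmax (M : Mod) (Jc : ℕ) (p : List ℕ) (pad : ℕ) : ℕ := ((genum M pad).map (cnt M Jc p pad)).foldl max 0

/-- the exceptional branch -/
def excb (M : Mod) (Jc : ℕ) (p : List ℕ) (pad : ℕ) (u : List Bool) : Option (List ℤ) :=
  pick ((genum M pad).map fun y => (y, (2 ^ Jc - 1) * (cmax M Jc p pad - cnt M Jc p pad y)))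
    (ofBits (u.take (xl M Jc)))

/-- all coins are `false` -/
def coin (a0 Jc : ℕ) (t : List Bool) : Bool := ((t.drop a0).take Jc).all fun b => !b

def round (M : Mod) (Jc pad : ℕ) (t : List Bool) : Option (List ℤ) :=
  (if coin (alen (ms M)) Jc t = true then
      excb M Jc (anneal M (t.take (alen (ms M)))).1 pad (t.drop (alen (ms M) + Jc))
    else keep M (smp M (anneal M (t.take (alen (ms M)))).1 (JX (ms M) Jc) (t.drop (alen (ms M) + Jc)))).map (ext M)

variable {M : Mod}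

theorem enum_sub {pad : ℕ} {X : List ℤ} (h : X ∈ enum M pad) : X ∈ Om M := by
  exact mem_Om.2 (of_decide_eq_true (List.mem_filter.1 h).2)

theorem ex_digits (s E : ℕ) (f : ℕ → ℕ) (hf : ∀ e < E, f e < 2 ^ s) :
    ∃ c < 2 ^ (s * E), ∀ e < E, c / 2 ^ (s * e) % 2 ^ s = f e := by
  induction E generalizing f with
  | zero => exact ⟨0, by simp, by simp⟩
  | succ E ih =>
    obtain ⟨c, hc, hd⟩ := ih (fun e => f (e + 1)) fun e he => hf _ (by omega)
    have h0 := hf 0 (by omega)
    refine ⟨f 0 + 2 ^ s * c, ?_, fun e he => ?_⟩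
    · rw [Nat.mul_succ, pow_add, mul_comm (2 ^ (s * E))]
      calc f 0 + 2 ^ s * c < 2 ^ s * (c + 1) := by rw [mul_add]; omega
        _ ≤ _ := Nat.mul_le_mul_left _ hc
    · cases e with
      | zero => simp [Nat.mod_eq_of_lt h0]
      | succ e =>
        rw [Nat.mul_succ, pow_add, mul_comm (2 ^ (s * e)), ← Nat.div_div_eq_div_mul,
          Nat.add_mul_div_left _ _ (by positivity), Nat.div_eq_of_lt h0, zero_add]
        exact hd e (by omega)

theorem ex_digits_inj (s E : ℕ) {c c' : ℕ} (hc : c < 2 ^ (s * E)) (hc' : c' < 2 ^ (s * E))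
    (h : ∀ e < E, c / 2 ^ (s * e) % 2 ^ s = c' / 2 ^ (s * e) % 2 ^ s) : c = c' := by
  induction E generalizing c c' with
  | zero => simp at hc hc'; omega
  | succ E ih =>
    have h0 := h 0 (by omega)
    simp only [mul_zero, pow_zero, Nat.div_one] at h0
    rw [Nat.mul_succ, pow_add] at hc hc'
    have h1 : c / 2 ^ s = c' / 2 ^ s := by
      refine ih ((Nat.div_lt_iff_lt_mul (by positivity)).2 hc) ((Nat.div_lt_iff_lt_mul (by positivity)).2 hc')
        fun e he => ?_
      have := h (e + 1) (by omega)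
      rwa [Nat.mul_succ, pow_add, mul_comm (2 ^ (s * e)), ← Nat.div_div_eq_div_mul,
        ← Nat.div_div_eq_div_mul] at this
    rw [← Nat.div_add_mod c (2 ^ s), ← Nat.div_add_mod c' (2 ^ s), h0, h1]

theorem mem_enum (h : ModOK M) {pad : ℕ} (hpad : 2 ^ qq (ms M) ≤ pad) {X : List ℤ} (hX : X ∈ Om M) :
    X ∈ enum M pad := by
  have hX' := mem_Om.1 hX
  have h1 : 2 ^ (ms M * mE M) ≤ pad := by
    refine le_trans (Nat.pow_le_pow_right (by norm_num) ?_) hpad
    have : ms M * mE M ≤ ms M * ms M := Nat.mul_le_mul_left _ h.sized.1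
    unfold qq
    rw [sq]; omega
  obtain ⟨c, hc, hd⟩ := ex_digits (ms M) (mE M) (fun e => (gz X e).toNat) fun e he => by
    have a1 := hX'.2 e he
    have a2 := lo_nonneg M e
    have a3 := hi_le_cap M e
    have a4 : cap (mI M) e < 2 ^ ms M := h.sized.2.2 e he
    omega
  refine List.mem_filter.2 ⟨List.mem_map.2 ⟨c, List.mem_range.2 (by rw [min_eq_right h1]; exact hc), ?_⟩,
    decide_eq_true hX'⟩
  refine ext_gz (by simp [hX'.1]) fun e he => ?_
  have he' : e < mE M := by simpa using he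
  have a1 := hX'.2 e he'
  have a2 := lo_nonneg M e
  rw [gz_map_range _ _ he', hd e he']
  omega

theorem nodup_enum (M : Mod) (pad : ℕ) : (enum M pad).Nodup := by
  refine List.Nodup.filter _ (List.Nodup.map_on (fun c hc c' hc' e => ?_) List.nodup_range)
  refine ex_digits_inj (ms M) (mE M) ((List.mem_range.1 hc).trans_le (min_le_right _ _))
    ((List.mem_range.1 hc').trans_le (min_le_right _ _)) fun i hi => ?_
  have := congrArg (fun x => gz x i) e
  simp only [gz_map_range _ _ hi] at this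
  exact_mod_cast this

theorem cnt_eq (h : ModOK M) (Jc : ℕ) (p : List ℕ) {pad : ℕ} (hpad : 2 ^ qq (ms M) ≤ pad) (y : List ℤ) {len : ℕ}
    (hlen : slen (ms M) (JX (ms M) Jc) ≤ len) :
    (cnt M Jc p pad y : ℝ) = 2 ^ xl M Jc * Ex len (fun t => ind (smp M p (JX (ms M) Jc) t = y)) := by
  have h1 : 2 ^ b0 M ≤ pad := by
    refine le_trans (Nat.pow_le_pow_right (by norm_num) ?_) hpad
    have := b0_le h
    unfold qq
    omega
  unfold cnt
  rw [min_eq_right h1]
  exact cntv_eq _ _ _ _ _ _ (fun x hx => WW_pos h p (enum_sub hx))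
    (fun x hx i => mem_enum h hpad (prp_mem (enum_sub hx) i)) (mem_enum h hpad (X0_mem h)) y
    ((xl_le h _).trans hlen)

theorem ex_foldl_max (l : List ℕ) (c : ℕ) :
    (l.foldl max c = c ∨ l.foldl max c ∈ l) ∧ c ≤ l.foldl max c ∧ ∀ x ∈ l, x ≤ l.foldl max c := by
  induction l generalizing c with
  | nil => simp
  | cons b l ih =>
    rw [List.foldl_cons]
    obtain ⟨h1, h2, h3⟩ := ih (max c b)
    refine ⟨?_, (le_max_left _ _).trans h2, fun x hx => ?_⟩
    · rcases h1 with h | h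
      · rw [h]
        rcases max_choice c b with h' | h'
        · exact .inl h'
        · exact .inr (by rw [h']; exact List.mem_cons_self)
      · exact .inr (List.mem_cons_of_mem _ h)
    · rcases List.mem_cons.1 hx with rfl | hx
      · exact (le_max_right _ _).trans h2
      · exact h3 x hx

theorem mem_genum {pad : ℕ} {X : List ℤ} (h : X ∈ genum M pad) : X ∈ Om M ∧ good M X :=
  ⟨enum_sub (List.mem_filter.1 h).1, of_decide_eq_true (List.mem_filter.1 h).2⟩

theorem ex_cnt_near (h : ModOK M) (Jc : ℕ) {p : List ℕ} (hp : Adm M p) {pad : ℕ} (hpad : 2 ^ qq (ms M) ≤ pad)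
    {y : List ℤ} (hy : y ∈ genum M pad) :
    |(cnt M Jc p pad y : ℝ) - 2 ^ xl M Jc / Zs M p| ≤ 2 ^ xl M Jc / 2 ^ JJ (ms M) (JX (ms M) Jc) := by
  obtain ⟨h1, h2⟩ := mem_genum hy
  have h3 := smp_mix h hp (JX (ms M) Jc) le_rfl (fun x => ind (x = y)) 1 fun x _ => ⟨ind_nonneg _, ind_le_one _⟩
  have h4 : mu M p (fun x => ind (x = y)) = 1 / Zs M p := by
    unfold mu
    beta_reduce
    rw [sum_eq_single y (fun x _ hx => by rw [ind_false hx, mul_zero]) (fun h0 => (h0 h1).elim), ind_true rfl,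
      WW_good h p h2]
    simp
  rw [h4] at h3
  rw [cnt_eq h Jc p hpad y le_rfl, div_eq_mul_one_div _ (Zs M p), ← mul_sub, abs_mul,
    abs_of_pos (by positivity : (0 : ℝ) < 2 ^ xl M Jc), div_eq_mul_one_div _ (2 ^ JJ _ _)]
  exact mul_le_mul_of_nonneg_left h3 (by positivity)

theorem ex_cmax_sub (h : ModOK M) (Jc : ℕ) {p : List ℕ} (hp : Adm M p) {pad : ℕ} (hpad : 2 ^ qq (ms M) ≤ pad)
    {y : List ℤ} (hy : y ∈ genum M pad) :
    ((cmax M Jc p pad - cnt M Jc p pad y : ℕ) : ℝ) ≤ 2 * 2 ^ xl M Jc / 2 ^ JJ (ms M) (JX (ms M) Jc) := by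
  obtain ⟨h1, -, h3⟩ := ex_foldl_max ((genum M pad).map (cnt M Jc p pad)) 0
  rcases h1 with h1 | h1
  · rw [show cmax M Jc p pad = 0 from h1, Nat.zero_sub, Nat.cast_zero]
    positivity
  · obtain ⟨z, hz, e⟩ := List.mem_map.1 h1
    have e' : cnt M Jc p pad z = cmax M Jc p pad := e
    rw [Nat.cast_sub (show cnt M Jc p pad y ≤ cmax M Jc p pad from h3 _ (List.mem_map_of_mem hy)), ← e',
      mul_div_assoc]
    have a1 := abs_le.1 (ex_cnt_near h Jc hp hpad hy)
    have a2 := abs_le.1 (ex_cnt_near h Jc hp hpad hz)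
    linarith [a1.1, a2.2]

theorem exc_law (h : ModOK M) (Jc : ℕ) {p : List ℕ} (hp : Adm M p) {pad : ℕ} (hpad : 2 ^ qq (ms M) ≤ pad)
    {y : List ℤ} (hy : y ∈ Om M) (hg : good M y) {len : ℕ} (hlen : slen (ms M) (JX (ms M) Jc) ≤ len) :
    Ex len (fun u => ind (excb M Jc p pad u = some y)) =
      (2 ^ Jc - 1) * ((cmax M Jc p pad : ℝ) - cnt M Jc p pad y) / 2 ^ xl M Jc := by
  have hx : xl M Jc ≤ len := (xl_le h _).trans hlen
  have hyg : y ∈ genum M pad := List.mem_filter.2 ⟨mem_enum h hpad hy, decide_eq_true hg⟩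
  have hle : cnt M Jc p pad y ≤ cmax M Jc p pad := (ex_foldl_max _ 0).2.2 _ (List.mem_map_of_mem hyg)
  have hsum : ((genum M pad).map fun y => (2 ^ Jc - 1) * (cmax M Jc p pad - cnt M Jc p pad y)).sum ≤
      2 ^ xl M Jc := by
    have a1 : (genum M pad).length ≤ 2 ^ ms M ^ 2 := by
      refine (List.length_filter_le _ _).trans ((List.length_filter_le _ _).trans ?_)
      rw [List.length_map, List.length_range]
      refine (min_le_right _ _).trans (Nat.pow_le_pow_right (by norm_num) ?_)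
      rw [sq]
      exact Nat.mul_le_mul_left _ h.sized.1
    refine (List.sum_le_card_nsmul _ (2 ^ xl M Jc / 2 ^ ms M ^ 2) fun w hw => ?_).trans ?_
    · obtain ⟨z, hz, rfl⟩ := List.mem_map.1 hw
      rw [Nat.le_div_iff_mul_le (by positivity)]
      have a2 := ex_cmax_sub h Jc hp hpad hz
      have a3 : (2 : ℝ) ^ JJ (ms M) (JX (ms M) Jc) = 2 ^ Jc * 2 ^ ms M ^ 2 * 2 * 2 ^ (1 + 23 * ms M) := by
        rw [← pow_add, ← pow_succ, ← pow_add]
        unfold JJ JX
        congr 1; ring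
      have a4 : (1 : ℝ) ≤ 2 ^ (1 + 23 * ms M) := one_le_pow₀ one_le_two
      have a5 : (((2 ^ Jc - 1 : ℕ)) : ℝ) ≤ 2 ^ Jc := by exact_mod_cast Nat.sub_le (2 ^ Jc) 1
      have a6 : (((2 ^ Jc - 1) * (cmax M Jc p pad - cnt M Jc p pad z) * 2 ^ ms M ^ 2 : ℕ) : ℝ) ≤
          ((2 ^ xl M Jc : ℕ) : ℝ) := by
        rw [Nat.cast_mul, Nat.cast_mul, Nat.cast_pow, Nat.cast_pow, Nat.cast_ofNat]
        calc _ ≤ (2 : ℝ) ^ Jc * (2 * 2 ^ xl M Jc / 2 ^ JJ (ms M) (JX (ms M) Jc)) * 2 ^ ms M ^ 2 := by gcongr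
          _ = 2 ^ xl M Jc / 2 ^ (1 + 23 * ms M) := by rw [a3]; field_simp
          _ ≤ _ := div_le_self (by positivity) a4
      exact_mod_cast a6
    · rw [List.length_map, smul_eq_mul]
      exact (Nat.mul_le_mul_right _ a1).trans (Nat.mul_div_le _ _)
  unfold excb
  rw [Ex_take hx fun u => ind (pick ((genum M pad).map fun y =>
      (y, (2 ^ Jc - 1) * (cmax M Jc p pad - cnt M Jc p pad y))) (ofBits u) = some y),
    Ex_ofBits _ fun u => ind (pick ((genum M pad).map fun y =>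
      (y, (2 ^ Jc - 1) * (cmax M Jc p pad - cnt M Jc p pad y))) u = some y),
    pick_count (L := genum M pad) ((nodup_enum M pad).filter _) _ hsum hyg, Nat.cast_mul, Nat.cast_sub hle,
    Nat.cast_sub Nat.one_le_two_pow]
  push_cast
  rfl

theorem round_pad (M : Mod) (Jc pad pad' : ℕ) {t : List Bool} (h : coin (alen (ms M)) Jc t = false) :
    round M Jc pad t = round M Jc pad' t := by
  simp [round, h]

/-- the configuration chosen in a round -/
def rX (M : Mod) (Jc pad : ℕ) (l k u : List Bool) : Option (List ℤ) :=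
  if (k.all fun b => !b) = true then excb M Jc (anneal M l).1 pad u
    else keep M (smp M (anneal M l).1 (JX (ms M) Jc) u)

theorem round_eq (M : Mod) (Jc pad : ℕ) (t : List Bool) :
    round M Jc pad t = (rX M Jc pad (t.take (alen (ms M))) ((t.drop (alen (ms M))).take Jc)
      ((t.drop (alen (ms M))).drop Jc)).map (ext M) := by
  rw [List.drop_drop]; rfl

theorem rX_mem (h : ModOK M) {Jc pad : ℕ} {l k u : List Bool} {X : List ℤ} (hX : rX M Jc pad l k u = some X) :
    X ∈ Om M ∧ good M X := by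
  unfold rX at hX
  split_ifs at hX
  · have := pick_mem hX
    rw [List.map_map] at this
    obtain ⟨z, hz, rfl⟩ := List.mem_map.1 this
    exact mem_genum hz
  · unfold keep at hX
    split_ifs at hX with hg
    obtain rfl := Option.some.inj hX
    exact ⟨smp_mem h _ _ _, hg⟩

theorem round_split (M : Mod) (Jc pad : ℕ) {len : ℕ} (hlen : rlen (ms M) Jc ≤ len) (Φ : Option (List ℤ) → ℝ) :
    Ex len (fun t => Φ (rX M Jc pad (t.take (alen (ms M))) ((t.drop (alen (ms M))).take Jc)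
      ((t.drop (alen (ms M))).drop Jc))) =
    Ex (alen (ms M)) fun l =>
      (Ex (len - alen (ms M) - Jc) (fun u => Φ (excb M Jc (anneal M l).1 pad u)) -
        Ex (len - alen (ms M) - Jc) (fun u => Φ (keep M (smp M (anneal M l).1 (JX (ms M) Jc) u)))) / 2 ^ Jc +
      Ex (len - alen (ms M) - Jc) (fun u => Φ (keep M (smp M (anneal M l).1 (JX (ms M) Jc) u))) := by
  unfold rlen at hlen
  rw [Ex_split (a := alen (ms M)) (by omega) fun l l' => Φ (rX M Jc pad l (l'.take Jc) (l'.drop Jc))]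
  refine Ex_congr fun l _ => ?_
  rw [Ex_split (a := Jc) (by omega) fun k u => Φ (rX M Jc pad l k u), div_eq_mul_one_div, ← Ex_all_false,
    ← Ex_mul, ← Ex_const Jc (Ex (len - alen (ms M) - Jc) fun u =>
      Φ (keep M (smp M (anneal M l).1 (JX (ms M) Jc) u))), ← Ex_add]
  refine Ex_congr fun k _ => ?_
  unfold rX
  rw [Ex_const]
  by_cases hk : (k.all fun b => !b) = true
  · simp only [if_pos hk, ind_true hk]; ring
  · simp only [if_neg hk, ind_false hk]; ring

theorem round_flow (h : ModOK M) {Jc pad : ℕ} {t : List Bool} {y : List ℤ} (hy : round M Jc pad t = some y) :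
    IsFlow (mI M) y := by
  rw [round_eq] at hy
  obtain ⟨X, hX, rfl⟩ := Option.map_eq_some_iff.1 hy
  obtain ⟨h1, h2⟩ := rX_mem h hX
  exact (ext_spec h h1 h2).1

theorem round_law (h : ModOK M) (Jc : ℕ) {pad : ℕ} (hpad : 2 ^ qq (ms M) ≤ pad) {len : ℕ}
    (hlen : rlen (ms M) Jc ≤ len) :
    ∃ c : ℝ, ∀ y, IsFlow (mI M) y → Ex len (fun t => ind (round M Jc pad t = some y)) = c := by
  refine ⟨Ex (alen (ms M)) fun l =>
    (2 ^ Jc - 1) * (cmax M Jc (anneal M l).1 pad : ℝ) / (2 ^ xl M Jc * 2 ^ Jc), fun y hy => ?_⟩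
  obtain ⟨h1, h2, h3, -⟩ := res_spec h hy
  have hn : slen (ms M) (JX (ms M) Jc) ≤ len - alen (ms M) - Jc := by unfold rlen at hlen; omega
  have e1 : ∀ t, (round M Jc pad t = some y) = (rX M Jc pad (t.take (alen (ms M))) ((t.drop (alen (ms M))).take Jc)
      ((t.drop (alen (ms M))).drop Jc) = some (res M y)) := fun t => by
    rw [round_eq]
    refine propext ⟨fun h4 => ?_, fun h4 => by rw [h4, Option.map_some, h3]⟩
    obtain ⟨X, hX, rfl⟩ := Option.map_eq_some_iff.1 h4
    obtain ⟨a1, a2⟩ := rX_mem h hX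
    rw [(ext_spec h a1 a2).2, hX]
  simp only [e1]
  rw [round_split M Jc pad hlen fun o => ind (o = some (res M y))]
  refine Ex_congr fun l _ => ?_
  have e2 : ∀ X, (keep M X = some (res M y)) = (X = res M y) := fun X => by
    unfold keep
    refine propext ⟨fun h4 => ?_, fun h4 => by rw [h4, if_pos h2]⟩
    split_ifs at h4
    exact Option.some.inj h4
  have e3 : Ex (len - alen (ms M) - Jc) (fun u => ind (smp M (anneal M l).1 (JX (ms M) Jc) u = res M y)) =
      cnt M Jc (anneal M l).1 pad (res M y) / 2 ^ xl M Jc := by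
    rw [cnt_eq h Jc _ hpad _ hn]; field_simp
  simp only [e2]
  rw [exc_law h Jc (anneal_adm h l) hpad h1 h2 hn, e3]
  field_simp
  ring

theorem round_succ (h : ModOK M) {Jc : ℕ} (hJ : 1 ≤ Jc) (pad : ℕ) {len : ℕ} (hlen : rlen (ms M) Jc ≤ len) :
    1 ≤ 10 * Ex len (fun t => ind (round M Jc pad t ≠ none)) := by
  have hn : slen (ms M) (JX (ms M) Jc) ≤ len - alen (ms M) - Jc := by unfold rlen at hlen; omega
  simp only [round_eq]
  rw [round_split M Jc pad hlen fun o => ind (o.map (ext M) ≠ none)]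
  have h1 := anneal_spec h (len := alen (ms M)) le_rfl
  refine le_trans ?_ (mul_le_mul_of_nonneg_left (Ex_mono (f := fun t => 1 / 8 - 1 / 8 *
    ind (¬ ((1 - 1 / (ms M : ℚ)) * (flows (mI M)).card ≤ (anneal M t).2.1 ∧
      (anneal M t).2.1 ≤ (1 + 1 / (ms M : ℚ)) * (flows (mI M)).card ∧
      1 / 2 ≤ mu M (anneal M t).1 (fun X => ind (good M X))))) fun l _ => ?_) (by norm_num))
  · rw [Ex_sub, Ex_mul, Ex_const]
    linarith
  · have e2 : ∀ X, ((keep M X).map (ext M) ≠ none) = good M X := fun X => by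
      unfold keep
      by_cases hg : good M X <;> simp [hg]
    simp only [e2]
    set A := Ex (len - alen (ms M) - Jc) fun u => ind ((excb M Jc (anneal M l).1 pad u).map (ext M) ≠ none)
    set B := Ex (len - alen (ms M) - Jc) fun u => ind (good M (smp M (anneal M l).1 (JX (ms M) Jc) u)) with hB
    have a1 : 0 ≤ A := Ex_nonneg fun _ _ => ind_nonneg _
    have a2 : 0 ≤ B := Ex_nonneg fun _ _ => ind_nonneg _
    have a3 : (2 : ℝ) ^ 1 ≤ 2 ^ Jc := pow_le_pow_right₀ one_le_two hJ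
    have a4 : B / 2 ≤ (A - B) / 2 ^ Jc + B := by
      have b1 : B / 2 ^ Jc ≤ B / 2 ^ 1 := div_le_div_of_nonneg_left a2 (by norm_num) a3
      have b2 : 0 ≤ A / 2 ^ Jc := by positivity
      rw [sub_div]
      linarith
    refine le_trans ?_ a4
    by_cases hs : (1 - 1 / (ms M : ℚ)) * (flows (mI M)).card ≤ (anneal M l).2.1 ∧
      (anneal M l).2.1 ≤ (1 + 1 / (ms M : ℚ)) * (flows (mI M)).card ∧
      1 / 2 ≤ mu M (anneal M l).1 (fun X => ind (good M X))
    · rw [ind_false (not_not.2 hs)]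
      have b1 := abs_le.1 (smp_mix h (anneal_adm h l) (JX (ms M) Jc) hn (fun X => ind (good M X)) 1
        fun x _ => ⟨ind_nonneg _, ind_le_one _⟩)
      have b2 : (2 : ℝ) ^ 2 ≤ 2 ^ JJ (ms M) (JX (ms M) Jc) :=
        pow_le_pow_right₀ one_le_two (by unfold JJ JX; omega)
      have b3 : (1 : ℝ) / 2 ^ JJ (ms M) (JX (ms M) Jc) ≤ 1 / 2 ^ 2 :=
        div_le_div_of_nonneg_left zero_le_one (by norm_num) b2
      rw [← hB] at b1
      linarith [b1.1, hs.2.2]
    · rw [ind_true hs]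
      linarith

end Crest.Agent.R309
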