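import Crest.Agent.R309.Push

/-!
# R309: finding a flow by capacity scaling

PLAN.  `Φ x = ∑ v ∈ range nV, max (dfc I x v) 0`.  `aug_some`: `push_lab`; the start vertex `a` has `dfc ≥ Δ`, the end
vertex `v` has `dfc ≤ -Δ`, so `a ≠ v` and `Φ` drops by exactly `Δ`.  `aug_none`: let `U` be the labelled set and `f` a
flow; `U` contains all `v` with `dfc ≥ Δ` (`push_init`) and none with `dfc ≤ -Δ`; `sum_exc` for `x` and `f` and
`push_cut` (`forb = nE`) give `∑_{v ∈ U} dfc v ≤ nE (Δ-1)`, hence `Φ ≤ (nE + 2 nV)(Δ-1)`.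
`maxflow_flow`: `Φ 0 = ∑_{bal v > 0} bal v = ∑ sg * f ≤ nE 2^s < 2^(2s)` (`sum_exc`), and `Φ` never increases, so
`Δ = 2^(2s)` always fails.  If some `Δ = 2^i` succeeds first, `2Δ` failed, so `Φ < 6 s Δ` and
`Φ' = Φ - Δ ≤ (1 - 1/(6s)) Φ`; if all fail, `Δ = 1` gives `Φ = 0` and the step changes nothing.  `(1-1/a)^a ≤ 1/2`,
`6s (2s+1) ≤ 24 s^2` for `s ≥ 1`, so finally `Φ < 1`.  `Φ = 0` and `∑_v dfc v = 0` (`sum_exc` with `U = true`) give
`dfc = 0`.  (`s = 0`: no arcs, no vertices.)  `PT.maxflow`: `PT.iterate`, all iterates are `InCap` (`push_incap`).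
-/

set_option autoImplicit false
open Finset Crest.Agent.PTime

namespace Crest.Agent.R309

/-- missing outflow -/
def dfc (I : Inst) (x : List ℤ) (v : ℕ) : ℤ := bal I v - exc I x v

def augL (I : Inst) (x : List ℤ) (Δ : ℕ) : Labs := push I x Δ (nE I) fun v => decide ((Δ : ℤ) ≤ dfc I x v)

def aug (I : Inst) (x : List ℤ) (Δ : ℕ) : Option (List ℤ) :=
  ((List.range (nV I)).find? fun v => decide (dfc I x v ≤ -(Δ : ℤ)) && (lab (augL I x Δ) v).isSome).bind
    (lab (augL I x Δ))

def mfStep (I : Inst) (s : ℕ) (x : List ℤ) : List ℤ :=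
  (((List.range (2 * s + 1)).map fun i => 2 ^ (2 * s - i)).filterMap (aug I x)).headD x

def maxflow (I : Inst) (s : ℕ) : List ℤ := (mfStep I s)^[24 * s ^ 2] (List.replicate (nE I) 0)

def Phi (I : Inst) (x : List ℤ) : ℤ := ∑ v ∈ range (nV I), max (dfc I x v) 0

private theorem aug_spec {I : Inst} {x : List ℤ} {Δ : ℕ} {y : List ℤ} (h : aug I x Δ = some y) :
    ∃ v < nV I, dfc I x v ≤ -(Δ : ℤ) ∧ lab (augL I x Δ) v = some y := by
  unfold aug at h
  obtain ⟨v, h1, h2⟩ := Option.bind_eq_some_iff.1 h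
  have h3 := List.find?_some h1
  simp only [Bool.and_eq_true, decide_eq_true_eq] at h3
  exact ⟨v, List.mem_range.1 (List.mem_of_find?_eq_some h1), h3.1, h2⟩

private theorem Phi_nonneg (I : Inst) (x : List ℤ) : 0 ≤ Phi I x :=
  sum_nonneg fun _ _ => le_max_right _ _

theorem aug_some {I : Inst} (hI : WF I) {x : List ℤ} (hx : InCap I x) {Δ : ℕ} (hΔ : 1 ≤ Δ) {y : List ℤ}
    (h : aug I x Δ = some y) : InCap I y ∧ Phi I y = Phi I x - Δ ∧ (Δ : ℤ) ≤ Phi I x := by
  obtain ⟨v, hv, h1, h2⟩ := aug_spec h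
  obtain ⟨-, a, ha, h3, h4⟩ := push_lab hI hx Δ (nE I) _ h2
  have h3' : (Δ : ℤ) ≤ dfc I x a := by simpa using h3
  have hav : a ≠ v := by
    rintro rfl
    omega
  have key : Phi I y = Phi I x - Δ := by
    have : ∀ w ∈ range (nV I), max (dfc I y w) 0 = max (dfc I x w) 0 - if w = a then (Δ : ℤ) else 0 := by
      intro w _
      have e : dfc I y w = dfc I x w - Δ * ((if w = a then 1 else 0) - (if w = v then 1 else 0)) := by
        unfold dfc; rw [h4 w]; ring
      rw [e]
      by_cases hw : w = a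
      · subst hw
        simp only [if_true, if_neg hav]
        omega
      · by_cases hw' : w = v
        · subst hw'
          simp only [if_true, if_neg hw]
          omega
        · simp only [if_neg hw, if_neg hw']
          omega
    unfold Phi
    rw [sum_congr rfl this, sum_sub_distrib, sum_ite_eq' (range (nV I)) a, if_pos (mem_range.2 ha)]
  have := Phi_nonneg I y
  exact ⟨push_incap hx Δ (nE I) _ h2, key, by omega⟩

private theorem sum_dfc {I : Inst} (hI : WF I) (x : List ℤ) {f : List ℤ} (hf : IsFlow I f) (U : ℕ → Bool) :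
    ∑ v ∈ range (nV I), (if U v = true then dfc I x v else 0) =
      ∑ e ∈ range (nE I), sg I U e * (gz f e - gz x e) := by
  have : ∀ v ∈ range (nV I), (if U v = true then dfc I x v else 0) =
      (if U v = true then exc I f v else 0) - (if U v = true then exc I x v else 0) := by
    intro v hv
    unfold dfc
    rw [hf.2 v (mem_range.1 hv)]
    split_ifs <;> simp
  rw [sum_congr rfl this, sum_sub_distrib, sum_exc hI, sum_exc hI, ← sum_sub_distrib]
  exact sum_congr rfl fun e _ => by ring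

theorem aug_none {I : Inst} (hI : WF I) {x : List ℤ} (hx : InCap I x) {Δ : ℕ} (hΔ : 1 ≤ Δ) {f : List ℤ}
    (hf : IsFlow I f) (h : aug I x Δ = none) : Phi I x ≤ (nE I + 2 * nV I) * ((Δ : ℤ) - 1) := by
  have h1 : ∀ v < nV I, (lab (augL I x Δ) v).isSome = true → -(Δ : ℤ) < dfc I x v := by
    intro v hv hs
    unfold aug at h
    cases h' : (List.range (nV I)).find? fun v =>
        decide (dfc I x v ≤ -(Δ : ℤ)) && (lab (augL I x Δ) v).isSome with
    | none =>
      have := List.find?_eq_none.1 h' v (List.mem_range.2 hv)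
      simp only [Bool.and_eq_true, decide_eq_true_eq, hs, and_true] at this
      omega
    | some u =>
      rw [h'] at h
      have h3 := List.find?_some h'
      simp only [Bool.and_eq_true] at h3
      have h4 : lab (augL I x Δ) u = none := h
      rw [h4] at h3
      cases h3.2
  have h2 : ∀ v < nV I, (Δ : ℤ) ≤ dfc I x v → (lab (augL I x Δ) v).isSome = true := fun v hv hd =>
    push_init x Δ (nE I) _ hv (by simpa using hd)
  have h3 := sum_dfc hI x hf fun v => (lab (augL I x Δ) v).isSome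
  have h4 : ∑ e ∈ range (nE I), sg I (fun v => (lab (augL I x Δ) v).isSome) e * (gz f e - gz x e) ≤
      ∑ _e ∈ range (nE I), ((Δ : ℤ) - 1) :=
    sum_le_sum fun e he => push_cut hI hx hΔ (nE I) _ hf.1 (mem_range.1 he) (mem_range.1 he).ne
  have h5 : Phi I x ≤ ∑ v ∈ range (nV I),
      ((if (lab (augL I x Δ) v).isSome = true then dfc I x v else 0) + ((Δ : ℤ) - 1)) := by
    refine sum_le_sum fun v hv => ?_
    have a1 := h1 v (mem_range.1 hv)
    have a2 := h2 v (mem_range.1 hv)
    split_ifs with hh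
    · have := a1 hh
      omega
    · have : ¬ (Δ : ℤ) ≤ dfc I x v := fun h => hh (a2 h)
      omega
  rw [sum_add_distrib, h3] at h5
  simp only [sum_const, card_range, nsmul_eq_mul] at h4 h5
  have h6 : (0 : ℤ) ≤ nV I * ((Δ : ℤ) - 1) := mul_nonneg (by positivity) (by omega)
  nlinarith

private theorem first_some {β : Type} (g : ℕ → Option β) (x : β) (n : ℕ) :
    ((∀ i < n, g i = none) ∧ (List.range n).filterMap g = []) ∨
      ∃ i < n, g i = some (((List.range n).filterMap g).headD x) ∧ (∀ j < i, g j = none) ∧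
        (List.range n).filterMap g ≠ [] := by
  induction n with
  | zero => left; simp
  | succ n ih =>
    rw [List.range_succ, List.filterMap_append]
    rcases ih with ⟨h1, h2⟩ | ⟨i, h1, h2, h3, h4⟩
    · rw [h2]
      cases h : g n with
      | none =>
        left
        refine ⟨fun i hi => ?_, by simp [h]⟩
        rcases Nat.lt_succ_iff_lt_or_eq.1 hi with hi | rfl
        · exact h1 i hi
        · exact h
      | some y =>
        right
        exact ⟨n, by omega, by simp [h], h1, by simp [h]⟩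
    · right
      refine ⟨i, by omega, ?_, h3, by simp [h4]⟩
      rw [h2]
      obtain ⟨a, l, hl⟩ := List.exists_cons_of_ne_nil h4
      rw [hl]
      rfl

private theorem mfStep_cases (I : Inst) (s : ℕ) (x : List ℤ) :
    ((∀ i < 2 * s + 1, aug I x (2 ^ (2 * s - i)) = none) ∧ mfStep I s x = x) ∨
      ∃ i < 2 * s + 1, aug I x (2 ^ (2 * s - i)) = some (mfStep I s x) ∧
        ∀ j < i, aug I x (2 ^ (2 * s - j)) = none := by
  unfold mfStep
  rw [List.filterMap_map]
  rcases first_some (aug I x ∘ fun i => 2 ^ (2 * s - i)) x (2 * s + 1) with ⟨h1, h2⟩ | ⟨i, h1, h2, h3, _⟩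
  · left
    exact ⟨h1, by rw [h2]; rfl⟩
  · right
    exact ⟨i, h1, h2, h3⟩

private theorem mfStep_incap {I : Inst} (s : ℕ) {x : List ℤ} (hx : InCap I x) : InCap I (mfStep I s x) := by
  rcases mfStep_cases I s x with h | ⟨i, _, h, _⟩
  · rw [h.2]; exact hx
  · obtain ⟨v, _, _, h2⟩ := aug_spec h
    exact push_incap hx _ _ _ h2

private theorem incap_zero (I : Inst) : InCap I (List.replicate (nE I) 0) := by
  refine ⟨by simp, fun e he => ?_⟩
  have : gz (List.replicate (nE I) 0) e = 0 := by simp [gz, List.getD_eq_getElem?_getD, he]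
  rw [this]
  exact ⟨le_rfl, by positivity⟩

private theorem iter_incap (I : Inst) (s n : ℕ) : InCap I ((mfStep I s)^[n] (List.replicate (nE I) 0)) := by
  induction n with
  | zero => exact incap_zero I
  | succ n ih => rw [Function.iterate_succ_apply']; exact mfStep_incap s ih

private theorem mfStep_phi {I : Inst} (hI : WF I) {s : ℕ} (hs : Sized I s) {f : List ℤ} (hf : IsFlow I f)
    {x : List ℤ} (hx : InCap I x) (h0 : Phi I x < 2 ^ (2 * s)) :
    Phi I (mfStep I s x) ≤ Phi I x ∧ 6 * s * Phi I (mfStep I s x) + Phi I x ≤ 6 * s * Phi I x := by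
  have hn := Phi_nonneg I x
  rcases mfStep_cases I s x with h | ⟨i, hi, h, h'⟩
  · have := aug_none hI hx (Nat.one_le_two_pow) hf (h.1 (2 * s) (by omega))
    simp only [Nat.sub_self, pow_zero, Nat.cast_one, sub_self, mul_zero] at this
    rw [h.2]
    exact ⟨le_rfl, by omega⟩
  · obtain ⟨-, h2, h3⟩ := aug_some hI hx (Nat.one_le_two_pow) h
    rcases Nat.eq_zero_or_pos i with rfl | hpos
    · simp only [Nat.sub_zero] at h3
      push_cast at h3
      omega
    · have h4 := aug_none hI hx (Nat.one_le_two_pow) hf (h' (i - 1) (by omega))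
      have e : 2 * s - (i - 1) = (2 * s - i) + 1 := by omega
      rw [e, pow_succ] at h4
      generalize 2 ^ (2 * s - i) = D at h2 h3 h4
      push_cast at h4
      have a1 : (nE I : ℤ) ≤ s := by exact_mod_cast hs.1
      have a2 : (nV I : ℤ) ≤ s := by exact_mod_cast hs.2.1
      have a3 : (0 : ℤ) ≤ D := by positivity
      have a4 : (0 : ℤ) ≤ nE I := by positivity
      have a5 : (0 : ℤ) ≤ nV I := by positivity
      have a6 : ((nE I : ℤ) + 2 * nV I) * (D * 2) ≤ (3 * s) * (D * 2) :=
        mul_le_mul_of_nonneg_right (by omega) (by omega)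
      rw [h2]
      refine ⟨by omega, ?_⟩
      nlinarith

private theorem phi_zero {I : Inst} (hI : WF I) {s : ℕ} (hs : Sized I s) {f : List ℤ} (hf : IsFlow I f) :
    Phi I (List.replicate (nE I) 0) < 2 ^ (2 * s) := by
  have h1 := sum_dfc hI (List.replicate (nE I) 0) hf fun v => decide (0 ≤ dfc I (List.replicate (nE I) 0) v)
  have h2 : Phi I (List.replicate (nE I) 0) = ∑ v ∈ range (nV I),
      (if decide (0 ≤ dfc I (List.replicate (nE I) 0) v) = true then dfc I (List.replicate (nE I) 0) v else 0) := by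
    refine sum_congr rfl fun v _ => ?_
    simp only [decide_eq_true_eq]
    split_ifs <;> omega
  have h3 : ∑ e ∈ range (nE I), sg I (fun v => decide (0 ≤ dfc I (List.replicate (nE I) 0) v)) e *
      (gz f e - gz (List.replicate (nE I) 0) e) ≤ ∑ _e ∈ range (nE I), (2 : ℤ) ^ s := by
    refine sum_le_sum fun e he => ?_
    have he' := mem_range.1 he
    have : gz (List.replicate (nE I) 0) e = 0 := by simp [gz, List.getD_eq_getElem?_getD, he']
    rw [this, sub_zero]
    have a1 := hf.1.2 e he'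
    have a2 : (cap I e : ℤ) < 2 ^ s := by exact_mod_cast hs.2.2 e he'
    unfold sg
    split_ifs <;> omega
  rw [h2, h1]
  simp only [sum_const, card_range, nsmul_eq_mul] at h3
  have a1 : (nE I : ℤ) < 2 ^ s := by exact_mod_cast hs.1.trans_lt (Nat.lt_two_pow_self)
  have a2 : (0 : ℤ) < 2 ^ s := by positivity
  rw [two_mul, pow_add]
  nlinarith

private theorem bern (b n : ℕ) : b ^ (n + 1) + (n + 1) * b ^ n ≤ (b + 1) ^ (n + 1) := by
  induction n with
  | zero => simp
  | succ n ih =>
    calc b ^ (n + 1 + 1) + (n + 1 + 1) * b ^ (n + 1)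
        ≤ (b ^ (n + 1) + (n + 1) * b ^ n) * (b + 1) := by
          have : (b ^ (n + 1) + (n + 1) * b ^ n) * (b + 1) =
            b ^ (n + 1 + 1) + (n + 1 + 1) * b ^ (n + 1) + (n + 1) * b ^ n := by ring
          omega
      _ ≤ (b + 1) ^ (n + 1) * (b + 1) := Nat.mul_le_mul_right _ ih
      _ = _ := by ring

private theorem pow_gap (b k : ℕ) : 2 ^ k * b ^ ((b + 1) * k) ≤ (b + 1) ^ ((b + 1) * k) := by
  rw [pow_mul, pow_mul, ← mul_pow]
  refine Nat.pow_le_pow_left ?_ k
  have := bern b b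
  have e : (b + 1) * b ^ b = b ^ (b + 1) + b ^ b := by ring
  omega

theorem maxflow_flow {I : Inst} (hI : WF I) {s : ℕ} (hs : Sized I s) {f : List ℤ} (hf : IsFlow I f) :
    IsFlow I (maxflow I s) := by
  have hc : InCap I (maxflow I s) := iter_incap I s _
  refine ⟨hc, ?_⟩
  rcases Nat.eq_zero_or_pos s with rfl | hpos
  · intro v hv
    have := hs.2.1
    omega
  obtain ⟨b, hb⟩ : ∃ b, 6 * s = b + 1 := ⟨6 * s - 1, by omega⟩
  have hb' : (6 * s : ℤ) = b + 1 := by exact_mod_cast hb
  have h0 := phi_zero hI hs hf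
  have key : ∀ n, Phi I ((mfStep I s)^[n] (List.replicate (nE I) 0)) < 2 ^ (2 * s) ∧
      ((b : ℤ) + 1) ^ n * Phi I ((mfStep I s)^[n] (List.replicate (nE I) 0)) ≤
        b ^ n * Phi I (List.replicate (nE I) 0) := by
    intro n
    induction n with
    | zero => exact ⟨h0, by simp⟩
    | succ n ih =>
      rw [Function.iterate_succ_apply']
      obtain ⟨h1, h2⟩ := mfStep_phi hI hs hf (iter_incap I s n) ih.1
      refine ⟨h1.trans_lt ih.1, ?_⟩
      rw [hb'] at h2
      have h3 := ih.2
      generalize Phi I (mfStep I s ((mfStep I s)^[n] (List.replicate (nE I) 0))) = P' at h1 h2 ⊢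
      generalize Phi I ((mfStep I s)^[n] (List.replicate (nE I) 0)) = P at h1 h2 h3
      have h4 : ((b : ℤ) + 1) * P' ≤ b * P := by linarith
      calc ((b : ℤ) + 1) ^ (n + 1) * P' = (b + 1) ^ n * ((b + 1) * P') := by ring
        _ ≤ (b + 1) ^ n * (b * P) := mul_le_mul_of_nonneg_left h4 (by positivity)
        _ = b * ((b + 1) ^ n * P) := by ring
        _ ≤ b * (b ^ n * Phi I (List.replicate (nE I) 0)) := mul_le_mul_of_nonneg_left h3 (by positivity)
        _ = _ := by ring
  have h1 : ((b : ℤ) + 1) ^ (24 * s ^ 2) * Phi I (maxflow I s) ≤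
      b ^ (24 * s ^ 2) * Phi I (List.replicate (nE I) 0) := (key (24 * s ^ 2)).2
  have e : 24 * s ^ 2 = (b + 1) * (4 * s) := by rw [← hb]; ring
  have h2 : (2 : ℤ) ^ (4 * s) * b ^ (24 * s ^ 2) ≤ (b + 1) ^ (24 * s ^ 2) := by
    rw [e]; exact_mod_cast pow_gap b (4 * s)
  have h3 : (2 : ℤ) ^ (2 * s) ≤ 2 ^ (4 * s) := pow_le_pow_right₀ (by norm_num) (by omega)
  have h4 : (0 : ℤ) < (b : ℤ) ^ (24 * s ^ 2) := pow_pos (by omega) _
  have h5 : Phi I (maxflow I s) < 1 := by
    have h6 : (0 : ℤ) < ((b : ℤ) + 1) ^ (24 * s ^ 2) := by positivity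
    refine lt_of_mul_lt_mul_left (a := ((b : ℤ) + 1) ^ (24 * s ^ 2)) ?_ h6.le
    have h7 : (b : ℤ) ^ (24 * s ^ 2) * Phi I (List.replicate (nE I) 0) < b ^ (24 * s ^ 2) * 2 ^ (4 * s) :=
      mul_lt_mul_of_pos_left (h0.trans_le h3) h4
    linarith
  have h6 : ∀ v ∈ range (nV I), dfc I (maxflow I s) v ≤ 0 := by
    intro v hv
    have := single_le_sum (f := fun v => max (dfc I (maxflow I s) v) 0) (fun _ _ => le_max_right _ _) hv
    change max _ _ ≤ Phi I (maxflow I s) at this
    omega
  have h7 := sum_dfc hI (maxflow I s) hf fun _ => true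
  simp only [if_true, sg, sub_self, zero_mul, sum_const_zero] at h7
  intro v hv
  have := (sum_eq_zero_iff_of_nonpos h6).1 h7 v (mem_range.2 hv)
  unfold dfc at this
  omega

private theorem sz_incap {I : Inst} {x : List ℤ} (hx : InCap I x) :
    sz x ≤ nE I * (4 * sz I + 5 + 1) + 1 := by
  rw [← hx.1]
  refine sz_list_le fun z hz => sz_int_le ?_
  obtain ⟨e, he, rfl⟩ := List.getElem_of_mem hz
  have he' : e < nE I := hx.1 ▸ he
  have h1 := hx.2 e he'
  have h2 : gz x e = x[e] := List.getD_eq_getElem _ _ he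
  have h3 : cap I e = I.2.2.1[e]'he' := List.getD_eq_getElem _ _ he'
  have h4 := lt_two_pow_sz (cap I e)
  have h5 : sz (cap I e) ≤ sz I := by
    have a1 := sz_mem (List.getElem_mem (l := I.2.2.1) he')
    have a2 := sz_prod I
    have a3 := sz_prod I.2
    have a4 := sz_prod I.2.2
    rw [h3]
    omega
  have h6 : 2 ^ sz (cap I e) ≤ 2 ^ sz I := Nat.pow_le_pow_right (by norm_num) h5
  omega

section pt
variable {α : Type} [Enc α]

@[fun_prop] theorem PT.dfc {I : α → Inst} {x : α → List ℤ} {v : α → ℕ} (h : PT I) (hx : PT x) (hv : PT v) :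
    PT (fun a => dfc (I a) (x a) (v a)) := by
  unfold R309.dfc; fun_prop

@[fun_prop] theorem PT.augL {I : α → Inst} {x : α → List ℤ} {Δ : α → ℕ} (h : PT I) (hx : PT x) (hΔ : PT Δ) :
    PT (fun a => augL (I a) (x a) (Δ a)) := by
  unfold R309.augL
  exact PT.push (init := fun a v => decide (((Δ a : ℕ) : ℤ) ≤ R309.dfc (I a) (x a) v)) h hx hΔ (by fun_prop)
    (by fun_prop)

@[fun_prop] theorem PT.aug {I : α → Inst} {x : α → List ℤ} {Δ : α → ℕ} (h : PT I) (hx : PT x) (hΔ : PT Δ) :
    PT (fun a => aug (I a) (x a) (Δ a)) := by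
  unfold R309.aug
  exact PT.option_bind (f := fun a v => R309.lab (R309.augL (I a) (x a) (Δ a)) v) (by fun_prop) (by fun_prop)

@[fun_prop] theorem PT.mfStep {I : α → Inst} {s : α → ℕ} {x : α → List ℤ} (h : PT I) (hs : PT s) (hs' : PB s)
    (hx : PT x) : PT (fun a => mfStep (I a) (s a) (x a)) := by
  unfold R309.mfStep
  refine PT.headD (PT.filterMap (f := fun a D => R309.aug (I a) (x a) D) (by fun_prop) ?_) hx
  refine PT.map (f := fun a i => 2 ^ (2 * s a - i)) ?_ (by fun_prop)
  exact PT.pow (by fun_prop) (by fun_prop) (PB.sub (by fun_prop))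

end pt

@[fun_prop] theorem PT.maxflow {α : Type} [Enc α] {I : α → Inst} {s : α → ℕ} (hI : PT I) (hs : PT s)
    (hs' : PB s) : PT (fun a => maxflow (I a) (s a)) := by
  unfold R309.maxflow
  exact PT.iterate (f := fun a => R309.mfStep (I a) (s a))
    (PT.mfStep (by fun_prop) (by fun_prop) (by fun_prop) (by fun_prop)) (by fun_prop) (by fun_prop) (by fun_prop)
    (B := fun a => R309.nE (I a) * (4 * sz (I a) + 5 + 1) + 1) (by fun_prop)
    fun a i _ => sz_incap (iter_incap _ _ _)

end Crest.Agent.R309
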