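import Crest.Agent.R309.Core
import Crest.Agent.Lib.PT.Code

/-!
# R309: integer flows with capacities and prescribed balances

An instance is `(tails, heads, capacities, balances)`.

PLAN.  `mem_lbox`: `List.ofFn`, `List.ext_getElem`; `sum_lbox`: `Finset.sum_image` with `List.ofFn_injective`;
`sum_exc`: swap the sums; for `e < nE`, `∑_{v < nV} [U v] ([tl e = v] - [hd e = v]) = [U (tl e)] - [U (hd e)]` by `WF`.
-/

set_option autoImplicit false
open Finset Crest.Agent.PTime

namespace Crest.Agent.R309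

abbrev Inst : Type := List ℕ × List ℕ × List ℕ × List ℤ

def nE (I : Inst) : ℕ := I.2.2.1.length
def nV (I : Inst) : ℕ := I.2.2.2.length
def tl (I : Inst) (e : ℕ) : ℕ := I.1.getD e 0
def hd (I : Inst) (e : ℕ) : ℕ := I.2.1.getD e 0
def cap (I : Inst) (e : ℕ) : ℕ := I.2.2.1.getD e 0
def bal (I : Inst) (v : ℕ) : ℤ := I.2.2.2.getD v 0

/-- entry of an integer list -/
def gz (x : List ℤ) (e : ℕ) : ℤ := x.getD e 0

/-- `+1` if the arc leaves `U`, `-1` if it enters `U` -/
def sg (I : Inst) (U : ℕ → Bool) (e : ℕ) : ℤ :=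
  (if U (tl I e) = true then 1 else 0) - (if U (hd I e) = true then 1 else 0)

/-- net outflow -/
def exc (I : Inst) (x : List ℤ) (v : ℕ) : ℤ :=
  ∑ e ∈ range (nE I), sg I (fun w => decide (w = v)) e * gz x e

def WF (I : Inst) : Prop := ∀ e < nE I, tl I e < nV I ∧ hd I e < nV I

def Sized (I : Inst) (s : ℕ) : Prop := nE I ≤ s ∧ nV I ≤ s ∧ ∀ e < nE I, cap I e < 2 ^ s

def InCap (I : Inst) (x : List ℤ) : Prop := x.length = nE I ∧ ∀ e < nE I, 0 ≤ gz x e ∧ gz x e ≤ cap I e

def IsFlow (I : Inst) (x : List ℤ) : Prop := InCap I x ∧ ∀ v < nV I, exc I x v = bal I v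

instance (I : Inst) (x : List ℤ) : Decidable (InCap I x) := by unfold InCap; infer_instance
instance (I : Inst) (x : List ℤ) : Decidable (IsFlow I x) := by unfold IsFlow; infer_instance

/-- the lists of length `E` with entries in `[l e, u e]` -/
noncomputable def lbox (E : ℕ) (l u : ℕ → ℤ) : Finset (List ℤ) :=
  (Box (fun e : Fin E => l e) (fun e : Fin E => u e)).image List.ofFn

theorem gz_ofFn {E : ℕ} (X : Fin E → ℤ) (e : Fin E) : gz (List.ofFn X) e = X e := by
  simp [gz, List.getD_eq_getElem?_getD]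

theorem ofFn_gz {E : ℕ} {x : List ℤ} (h : x.length = E) : List.ofFn (fun e : Fin E => gz x e) = x := by
  subst h
  refine List.ext_getElem (by simp) fun i h1 h2 => ?_
  simp [gz, List.getD_eq_getElem?_getD]

theorem ext_gz {x y : List ℤ} (h : x.length = y.length) (h' : ∀ e < x.length, gz x e = gz y e) : x = y := by
  refine List.ext_getElem h fun i h1 h2 => ?_
  have := h' i h1
  simpa [gz, List.getD_eq_getElem?_getD, h1, h2] using this

theorem gz_map_range (E : ℕ) (f : ℕ → ℤ) {e : ℕ} (h : e < E) : gz ((List.range E).map f) e = f e := by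
  simp [gz, List.getD_eq_getElem?_getD, h]

theorem gz_set (x : List ℤ) (e e' : ℕ) (a : ℤ) (h : e < x.length) :
    gz (x.set e a) e' = if e' = e then a else gz x e' := by
  simp only [gz, List.getD_eq_getElem?_getD, List.getElem?_set]
  by_cases h' : e' = e
  · subst h'; simp [h]
  · simp [h', Ne.symm h']

theorem mem_lbox {E : ℕ} {l u : ℕ → ℤ} {x : List ℤ} :
    x ∈ lbox E l u ↔ x.length = E ∧ ∀ e < E, l e ≤ gz x e ∧ gz x e ≤ u e := by
  simp only [lbox, mem_image, mem_Box]
  constructor
  · rintro ⟨X, hX, rfl⟩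
    exact ⟨by simp, fun e he => by rw [gz_ofFn X ⟨e, he⟩]; exact hX ⟨e, he⟩⟩
  · rintro ⟨h1, h2⟩
    exact ⟨fun e => gz x e, fun e => h2 e e.2, ofFn_gz h1⟩

theorem sum_lbox (E : ℕ) (l u : ℕ → ℤ) (G : List ℤ → ℝ) :
    ∑ x ∈ lbox E l u, G x = ∑ X ∈ Box (fun e : Fin E => l e) (fun e : Fin E => u e), G (List.ofFn X) := by
  exact sum_image fun X _ Y _ h => List.ofFn_injective h

theorem card_lbox (E : ℕ) (l u : ℕ → ℤ) :
    (lbox E l u).card = ∏ e ∈ range E, (u e - l e + 1).toNat := by
  rw [lbox, card_image_of_injective _ List.ofFn_injective, Box, Fintype.card_piFinset,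
    ← Fin.prod_univ_eq_prod_range (fun e => (u e - l e + 1).toNat)]
  refine prod_congr rfl fun e _ => ?_
  rw [Int.card_Icc]
  congr 1
  ring

/-- all flows -/
noncomputable def flows (I : Inst) : Finset (List ℤ) :=
  (lbox (nE I) (fun _ => 0) (fun e => cap I e)).filter (IsFlow I)

theorem mem_flows {I : Inst} {x : List ℤ} : x ∈ flows I ↔ IsFlow I x := by
  rw [flows, mem_filter, mem_lbox]
  exact ⟨fun h => h.2, fun h => ⟨h.1, h⟩⟩

theorem sum_exc {I : Inst} (h : WF I) (U : ℕ → Bool) (x : List ℤ) :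
    ∑ v ∈ range (nV I), (if U v = true then exc I x v else 0) = ∑ e ∈ range (nE I), sg I U e * gz x e := by
  have key : ∀ w < nV I, ∑ v ∈ range (nV I), (if U v = true then (if w = v then (1 : ℤ) else 0) else 0) =
      if U w = true then 1 else 0 := fun w hw => by
    rw [sum_eq_single w (fun v _ hv => by simp [Ne.symm hv]) (fun h => (h (mem_range.2 hw)).elim)]
    simp
  calc _ = ∑ v ∈ range (nV I), ∑ e ∈ range (nE I),
        ((if U v = true then (if tl I e = v then (1 : ℤ) else 0) else 0) -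
          (if U v = true then (if hd I e = v then (1 : ℤ) else 0) else 0)) * gz x e :=
        sum_congr rfl fun v _ => by by_cases hv : U v = true <;> simp [hv, exc, sg]
    _ = _ := by
        rw [sum_comm]
        refine sum_congr rfl fun e he => ?_
        rw [← sum_mul, sum_sub_distrib, key _ (h e (mem_range.1 he)).1, key _ (h e (mem_range.1 he)).2, sg]

section pt
variable {α : Type} [Enc α]
@[fun_prop] theorem PT.nE {I : α → Inst} (h : PT I) : PT (fun a => nE (I a)) := by unfold R309.nE; fun_prop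
@[fun_prop] theorem PB.nE {I : α → Inst} (h : PT I) : PB (fun a => nE (I a)) := by unfold R309.nE; fun_prop
@[fun_prop] theorem PT.nV {I : α → Inst} (h : PT I) : PT (fun a => nV (I a)) := by unfold R309.nV; fun_prop
@[fun_prop] theorem PB.nV {I : α → Inst} (h : PT I) : PB (fun a => nV (I a)) := by unfold R309.nV; fun_prop
@[fun_prop] theorem PT.tl {I : α → Inst} {e : α → ℕ} (h : PT I) (he : PT e) : PT (fun a => tl (I a) (e a)) := by
  unfold R309.tl; fun_prop
@[fun_prop] theorem PT.hd {I : α → Inst} {e : α → ℕ} (h : PT I) (he : PT e) : PT (fun a => hd (I a) (e a)) := by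
  unfold R309.hd; fun_prop
@[fun_prop] theorem PT.cap {I : α → Inst} {e : α → ℕ} (h : PT I) (he : PT e) : PT (fun a => cap (I a) (e a)) := by
  unfold R309.cap; fun_prop
@[fun_prop] theorem PT.bal {I : α → Inst} {e : α → ℕ} (h : PT I) (he : PT e) : PT (fun a => bal (I a) (e a)) := by
  unfold R309.bal; fun_prop
@[fun_prop] theorem PT.gz {x : α → List ℤ} {e : α → ℕ} (h : PT x) (he : PT e) : PT (fun a => gz (x a) (e a)) := by
  unfold R309.gz; fun_prop
@[fun_prop] theorem PT.exc {I : α → Inst} {x : α → List ℤ} {v : α → ℕ} (h : PT I) (hx : PT x) (hv : PT v) :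
    PT (fun a => exc (I a) (x a) (v a)) := by
  unfold R309.exc sg
  fun_prop
@[fun_prop] theorem PT.isFlow {I : α → Inst} {x : α → List ℤ} (h : PT I) (hx : PT x) :
    PT (fun a => IsFlow (I a) (x a)) := by
  unfold IsFlow InCap
  exact PT.and (PT.and (by fun_prop) (PT.forall_lt (by fun_prop) (by fun_prop) (by fun_prop)))
    (PT.forall_lt (by fun_prop) (by fun_prop) (by fun_prop))
end pt

end Crest.Agent.R309
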