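import Mathlib

/-!
# R309: log-concave sequences on `ℤ`

PLAN.
* `LC.ratio`: `φ (n+1) / φ n` is antitone (induction on `n' - n`); `LC.slc`: induction on `i` with `ratio`
  (`φ(m-i-1) φ(m'+i+1) ≤ φ(m-i) φ(m'+i)` because the ratio at `m-i-1` is at least the ratio at `m'+i`).
* `LC.min_le`: if `φ b ≤ φ (b+1)` all ratios at `i ≤ b` are `≥ 1`, so `φ i ≤ φ b` for `i ≤ b` and the lower sum
  has `b-l+1 ≤ u-l` terms; otherwise the ratios at `i ≥ b` are `≤ 1` and the upper sum has `u-b ≤ u-l` terms.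
* `lc_gA`: `gA A d` is `A - d` for `d ≤ A - 1` and halves afterwards; `gA A (max n 0)` has ratios
  `1, …, 1, (A-1)/A, (A-2)/(A-1), …, 1/2, 1/2, …`.  Case distinction `n < 0`, `n = 0`, `0 < n < A-1`, `n = A-1`, ...
* `pp_le`: for `i, j ≥ 1`: `g i * g (-j) ≤ g 0 * g (i-j)` (`SLC` with `m = min 0 (i-j)`, shift `min i j`), so with
  `p n = g n θ^|n|`: `p i p (-j) ≤ θ^(2 min i j) p 0 p (i-j)`.  For fixed `d = i-j` the map `(i,j) ↦ min i j` is
  injective, `∑_{k ≥ 1} θ^(2k) ≤ 2θ^2`.  `p 0 ≤ Z`, `∑_d p d ≤ Z` (`|i-j| ≤ M`).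
* `tail_le`: `r = 1 + 1/w`.  For `n ≥ U - w`: `g (n+1) ≤ r g n`.  Otherwise `g (n+1) > 0` and `SLC` gives
  `g i * g (n+1) ≤ g (i+1) * g n` for `i ≤ n` (`m = i+1, m' = n`, shift 1; trivial for `i = n`), hence by induction
  `g (i+1) ≥ r g i > 0` on `[m1, n]` and `g (n+1) ≥ r^(n+1-m1) > 2^t` (`r^w ≥ 2`), a contradiction.  So
  `g (U+i) ≤ r^(i+j) g (U-j) ≤ 3 r^i g (U-j)` for `0 ≤ j < w` (`r^w ≤ 3`); average over `j`;
  `∑_{i ≥ 1} (rσ)^i ≤ 1/c`.
-/

set_option autoImplicit false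
open Finset

namespace Crest.Agent.R309

/-- positive log-concave sequences -/
def LC (φ : ℤ → ℝ) : Prop := (∀ n, 0 < φ n) ∧ ∀ n, φ (n - 1) * φ (n + 1) ≤ φ n ^ 2

/-- log-concavity in the form that survives limits -/
def SLC (g : ℤ → ℝ) : Prop := ∀ (m m' : ℤ) (i : ℕ), m ≤ m' → g (m - i) * g (m' + i) ≤ g m * g m'

theorem LC.ratio {φ : ℤ → ℝ} (h : LC φ) {n n' : ℤ} (hn : n ≤ n') :
    φ (n' + 1) * φ n ≤ φ (n + 1) * φ n' := by
  induction n', hn using Int.le_induction with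
  | base => exact le_rfl
  | succ m hm ih =>
    have h1 := h.2 (m + 1)
    rw [add_sub_cancel_right] at h1
    have p1 := h.1 m
    have p2 := h.1 (m + 1)
    have p3 := h.1 n
    have p4 := h.1 (n + 1)
    have p5 := h.1 (m + 1 + 1)
    refine le_of_mul_le_mul_left ?_ p1
    calc φ m * (φ (m + 1 + 1) * φ n) = (φ m * φ (m + 1 + 1)) * φ n := by ring
      _ ≤ φ (m + 1) ^ 2 * φ n := by gcongr
      _ = φ (m + 1) * (φ (m + 1) * φ n) := by ring
      _ ≤ φ (m + 1) * (φ (n + 1) * φ m) := by gcongr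
      _ = φ m * (φ (n + 1) * φ (m + 1)) := by ring

theorem LC.slc {φ : ℤ → ℝ} (h : LC φ) : SLC φ := by
  intro m m' i hm
  induction i with
  | zero => simp
  | succ i ih =>
    refine le_trans ?_ ih
    have := h.ratio (n := m - i - 1) (n' := m' + i) (by omega)
    rw [sub_add_cancel] at this
    push_cast
    rw [← sub_sub, ← add_assoc]
    linarith

theorem LC.min_le {φ : ℤ → ℝ} (h : LC φ) {l u b : ℤ} (hb : b ∈ Ico l u) :
    min (∑ i ∈ Icc l b, φ i) (∑ i ∈ Icc (b + 1) u, φ i) ≤ ((u - l : ℤ) : ℝ) * min (φ b) (φ (b + 1)) := by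
  obtain ⟨h1, h2⟩ := mem_Ico.1 hb
  rcases le_total (φ b) (φ (b + 1)) with hle | hle
  · rw [min_eq_left hle]
    refine (min_le_left _ _).trans ?_
    have key : ∀ i, i ≤ b → φ i ≤ φ b := by
      intro i hi
      induction i, hi using Int.le_induction_down with
      | base => exact le_rfl
      | pred i hi ih =>
        have := h.ratio (n := i - 1) (n' := b) (by omega)
        rw [sub_add_cancel] at this
        have p1 := h.1 b
        have p2 := h.1 (i - 1)
        have p3 := h.1 i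
        nlinarith
    refine (sum_le_card_nsmul _ _ _ fun i hi => key i (mem_Icc.1 hi).2).trans ?_
    rw [nsmul_eq_mul]
    refine mul_le_mul_of_nonneg_right ?_ (h.1 b).le
    have : ((#(Icc l b) : ℕ) : ℤ) ≤ u - l := by rw [Int.card_Icc]; omega
    exact_mod_cast this
  · rw [min_eq_right hle]
    refine (min_le_right _ _).trans ?_
    have key : ∀ i, b + 1 ≤ i → φ i ≤ φ (b + 1) := by
      intro i hi
      induction i, hi using Int.le_induction with
      | base => exact le_rfl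
      | succ i hi ih =>
        have := h.ratio (n := b) (n' := i) (by omega)
        have p1 := h.1 b
        have p2 := h.1 (i + 1)
        have p3 := h.1 i
        have p4 := h.1 (b + 1)
        nlinarith
    refine (sum_le_card_nsmul _ _ _ fun i hi => key i (mem_Icc.1 hi).1).trans ?_
    rw [nsmul_eq_mul]
    refine mul_le_mul_of_nonneg_right ?_ (h.1 _).le
    have : ((#(Icc (b + 1) u) : ℕ) : ℤ) ≤ u - l := by rw [Int.card_Icc]; omega
    exact_mod_cast this

theorem LC.mul {φ ψ : ℤ → ℝ} (h : LC φ) (h' : LC ψ) : LC (fun n => φ n * ψ n) := by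
  refine ⟨fun n => mul_pos (h.1 n) (h'.1 n), fun n => ?_⟩
  have := mul_le_mul (h.2 n) (h'.2 n) (mul_pos (h'.1 _) (h'.1 _)).le (sq_nonneg _)
  dsimp only
  linarith

theorem LC.pow {φ : ℤ → ℝ} (h : LC φ) (k : ℕ) : LC (fun n => φ n ^ k) := by
  refine ⟨fun n => pow_pos (h.1 n) k, fun n => ?_⟩
  dsimp only
  rw [← mul_pow, ← pow_mul, mul_comm k 2, pow_mul]
  exact pow_le_pow_left₀ (mul_pos (h.1 _) (h.1 _)).le (h.2 n) k

theorem LC.comp_sub {φ : ℤ → ℝ} (h : LC φ) (c : ℤ) : LC (fun n => φ (c - n)) := by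
  refine ⟨fun n => h.1 _, fun n => ?_⟩
  have := h.2 (c - n)
  dsimp only
  rw [show c - (n - 1) = c - n + 1 by ring, show c - (n + 1) = c - n - 1 by ring]
  linarith

theorem LC.comp_add {φ : ℤ → ℝ} (h : LC φ) (c : ℤ) : LC (fun n => φ (n + c)) := by
  refine ⟨fun n => h.1 _, fun n => ?_⟩
  have := h.2 (n + c)
  dsimp only
  rw [show n - 1 + c = n + c - 1 by ring, show n + 1 + c = n + c + 1 by ring]
  exact this

theorem lc_const {c : ℝ} (hc : 0 < c) : LC (fun _ => c) := by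
  exact ⟨fun _ => hc, fun _ => le_of_eq (by ring)⟩

theorem lc_abs {q : ℝ} (h0 : 0 < q) (h1 : q ≤ 1) : LC (fun n => q ^ n.natAbs) := by
  refine ⟨fun n => pow_pos h0 _, fun n => ?_⟩
  dsimp only
  rw [← pow_add, ← pow_mul]
  exact pow_le_pow_of_le_one h0.le h1 (by omega)

theorem SLC.comp_sub {g : ℤ → ℝ} (h : SLC g) (c : ℤ) : SLC (fun n => g (c - n)) := by
  intro m m' i hm
  have := h (c - m') (c - m) i (by omega)
  dsimp only
  rw [show c - (m - i) = c - m + i by ring, show c - (m' + i) = c - m' - i by ring]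
  linarith

theorem SLC.comp_add {g : ℤ → ℝ} (h : SLC g) (c : ℤ) : SLC (fun n => g (n + c)) := by
  intro m m' i hm
  have := h (m + c) (m' + c) i (by omega)
  dsimp only
  rw [show m - i + c = m + c - i by ring, show m' + i + c = m' + c + i by ring]
  exact this

theorem SLC.mul {g g' : ℤ → ℝ} (h : SLC g) (h' : SLC g') (h0 : ∀ n, 0 ≤ g n) (h0' : ∀ n, 0 ≤ g' n) :
    SLC (fun n => g n * g' n) := by
  intro m m' i hm
  have := mul_le_mul (h m m' i hm) (h' m m' i hm) (mul_nonneg (h0' _) (h0' _))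
    (mul_nonneg (h0 _) (h0 _))
  dsimp only
  linarith

/-- `A - d`, continued positively -/
noncomputable def gA (A : ℕ) (d : ℤ) : ℝ :=
  if d ≤ (A : ℤ) - 1 then (A : ℝ) - d else (1 / 2) ^ (d - A + 1).toNat

theorem lc_gA {A : ℕ} (hA : 2 ≤ A) : LC (fun n => gA A (max n 0)) := by
  have hA' : (2 : ℝ) ≤ A := by exact_mod_cast hA
  have hpos : ∀ d, 0 < gA A d := by
    intro d
    unfold gA
    split_ifs with h
    · have : (d : ℝ) ≤ A - 1 := by exact_mod_cast h
      linarith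
    · positivity
  have hlo : ∀ d : ℤ, d ≤ A - 1 → gA A d = A - d := fun d hd => if_pos hd
  have hhi : ∀ d : ℤ, A - 1 ≤ d → gA A d = (1 / 2) ^ (d - A + 1).toNat := by
    intro d hd
    unfold gA
    split_ifs with h
    · have : d = A - 1 := le_antisymm h hd
      subst this
      simp
    · rfl
  refine ⟨fun n => hpos _, fun n => ?_⟩
  dsimp only
  rcases lt_trichotomy n 0 with hn | rfl | hn
  · rw [max_eq_right (by omega), max_eq_right (by omega), max_eq_right (by omega), sq]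
  · rw [max_eq_right (by omega), max_eq_left (by omega), max_self, hlo 0 (by omega),
      hlo _ (by omega)]
    push_cast
    nlinarith
  · rw [max_eq_left (by omega), max_eq_left (by omega), max_eq_left (by omega)]
    rcases lt_trichotomy n (A - 1) with h | h | h
    · rw [hlo _ (by omega), hlo _ (by omega), hlo _ (by omega)]
      push_cast
      nlinarith
    · rw [hlo (n - 1) (by omega), hhi (n + 1) (by omega), hlo n (by omega),
        show (n + 1 - A + 1).toNat = 1 by omega, h]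
      push_cast
      ring_nf
      exact le_rfl
    · rw [hhi _ (by omega), hhi _ (by omega), hhi _ (by omega), ← pow_add, ← pow_mul]
      exact le_of_eq (by congr 1; omega)

theorem lc_geom {ρ : ℝ} (hρ : 0 ≤ ρ) (M : ℕ) :
    (1 - ρ) * ∑ k ∈ Icc (1 : ℤ) M, ρ ^ k.natAbs ≤ ρ := by
  have key : (1 - ρ) * ∑ k ∈ Icc (1 : ℤ) M, ρ ^ k.natAbs = ρ - ρ ^ (M + 1) := by
    induction M with
    | zero => simp
    | succ M ih =>
      have : Icc (1 : ℤ) ((M + 1 : ℕ) : ℤ) = insert ((M : ℤ) + 1) (Icc (1 : ℤ) (M : ℤ)) := by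
        ext x; simp only [mem_Icc, mem_insert]; omega
      rw [this, sum_insert (by simp), mul_add, ih, show ((M : ℤ) + 1).natAbs = M + 1 by omega]
      ring
  have : 0 ≤ ρ ^ (M + 1) := by positivity
  linarith

theorem pp_le {g : ℤ → ℝ} (h0 : ∀ n, 0 ≤ g n) (hs : SLC g) {θ : ℝ} (hθ : 0 ≤ θ) (hθ' : θ ≤ 1 / 2) (M : ℕ) :
    (∑ i ∈ Icc (1 : ℤ) M, g i * θ ^ i.natAbs) * (∑ i ∈ Icc (1 : ℤ) M, g (-i) * θ ^ i.natAbs) ≤
      2 * θ ^ 2 * (∑ i ∈ Icc (-(M : ℤ)) M, g i * θ ^ i.natAbs) ^ 2 := by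
  set p : ℤ → ℝ := fun n => g n * θ ^ n.natAbs with hp
  have hp0 : ∀ n, 0 ≤ p n := fun n => mul_nonneg (h0 n) (pow_nonneg hθ _)
  set Z := ∑ i ∈ Icc (-(M : ℤ)) M, p i with hZ
  have hZ0 : 0 ≤ Z := sum_nonneg fun i _ => hp0 i
  have key : ∀ i j : ℤ, 1 ≤ i → 1 ≤ j →
      g i * θ ^ i.natAbs * (g (-j) * θ ^ j.natAbs) ≤
        p 0 * (p (i - j) * (θ ^ 2) ^ (min i j).natAbs) := by
    intro i j hi hj
    have h1 : g i * g (-j) ≤ g 0 * g (i - j) := by
      rcases le_total i j with h | h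
      · have := hs (i - j) 0 i.toNat (by omega)
        rw [show i - j - (i.toNat : ℤ) = -j by omega, show 0 + (i.toNat : ℤ) = i by omega] at this
        linarith
      · have := hs 0 (i - j) j.toNat (by omega)
        rw [show 0 - (j.toNat : ℤ) = -j by omega, show i - j + (j.toNat : ℤ) = i by omega] at this
        linarith
    have h2 : θ ^ i.natAbs * θ ^ j.natAbs = θ ^ (i - j).natAbs * (θ ^ 2) ^ (min i j).natAbs := by
      rw [← pow_mul, ← pow_add, ← pow_add]; congr 1; omega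
    calc g i * θ ^ i.natAbs * (g (-j) * θ ^ j.natAbs)
        = (g i * g (-j)) * (θ ^ i.natAbs * θ ^ j.natAbs) := by ring
      _ ≤ (g 0 * g (i - j)) * (θ ^ i.natAbs * θ ^ j.natAbs) := by gcongr
      _ = _ := by rw [h2]; simp only [hp, Int.natAbs_zero]; ring
  rw [sum_mul_sum, ← sum_product']
  have hinj : Set.InjOn (fun x : ℤ × ℤ => (x.1 - x.2, min x.1 x.2))
      (Icc (1 : ℤ) M ×ˢ Icc (1 : ℤ) M : Finset (ℤ × ℤ)) := by
    rintro ⟨a, b⟩ _ ⟨c, d⟩ _ h
    simp only [Prod.mk.injEq] at h ⊢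
    omega
  have hp0Z : p 0 ≤ Z := single_le_sum (fun i _ => hp0 i) (by simp)
  have hgeo : ∑ k ∈ Icc (1 : ℤ) M, (θ ^ 2) ^ k.natAbs ≤ 2 * θ ^ 2 := by
    have := lc_geom (ρ := θ ^ 2) (sq_nonneg θ) M
    have h1 : 0 ≤ ∑ k ∈ Icc (1 : ℤ) M, (θ ^ 2) ^ k.natAbs := by positivity
    have h2 : θ ^ 2 ≤ 1 / 2 := by nlinarith
    nlinarith
  calc ∑ x ∈ Icc (1 : ℤ) M ×ˢ Icc (1 : ℤ) M, g x.1 * θ ^ x.1.natAbs * (g (-x.2) * θ ^ x.2.natAbs)
      ≤ ∑ x ∈ Icc (1 : ℤ) M ×ˢ Icc (1 : ℤ) M,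
          p 0 * (p (x.1 - x.2) * (θ ^ 2) ^ (min x.1 x.2).natAbs) := by
        refine sum_le_sum fun x hx => ?_
        obtain ⟨h1, h2⟩ := mem_product.1 hx
        exact key _ _ (mem_Icc.1 h1).1 (mem_Icc.1 h2).1
    _ = ∑ y ∈ (Icc (1 : ℤ) M ×ˢ Icc (1 : ℤ) M).image (fun x : ℤ × ℤ => (x.1 - x.2, min x.1 x.2)),
          p 0 * (p y.1 * (θ ^ 2) ^ y.2.natAbs) := by
        rw [sum_image hinj]
    _ ≤ ∑ y ∈ Icc (-(M : ℤ)) M ×ˢ Icc (1 : ℤ) M, p 0 * (p y.1 * (θ ^ 2) ^ y.2.natAbs) := by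
        refine sum_le_sum_of_subset_of_nonneg ?_ fun y _ _ => ?_
        · intro y hy
          obtain ⟨x, hx, rfl⟩ := mem_image.1 hy
          simp only [mem_product, mem_Icc] at hx ⊢
          omega
        · have := hp0 0
          have := hp0 y.1
          positivity
    _ = p 0 * (Z * ∑ k ∈ Icc (1 : ℤ) M, (θ ^ 2) ^ k.natAbs) := by
        rw [← mul_sum, hZ, sum_mul_sum, sum_product]
    _ ≤ Z * (Z * (2 * θ ^ 2)) := by gcongr
    _ = 2 * θ ^ 2 * Z ^ 2 := by ring

theorem tail_le {g : ℤ → ℝ} (h0 : ∀ n, 0 ≤ g n) (hs : SLC g) (m1 U : ℤ) (w t : ℕ) (hw : 1 ≤ w)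
    (hm : 1 ≤ g m1) (hN : ∀ n, g n ≤ 2 ^ t) (hU : m1 + w * (t + 2) ≤ U) {σ c : ℝ} (hσ : 0 ≤ σ) (hc : 0 < c)
    (hσc : σ * (1 + 1 / w) ≤ 1 - c) (n : ℕ) :
    ∑ i ∈ Icc (1 : ℤ) n, g (U + i) * σ ^ i.natAbs ≤ 3 / (w * c) * ∑ j ∈ Ico (0 : ℤ) w, g (U - j) := by
  have hw' : (1 : ℝ) ≤ w := by exact_mod_cast hw
  set r : ℝ := 1 + 1 / w with hr
  have hr1 : 1 ≤ r := by rw [hr]; have : (0 : ℝ) ≤ 1 / w := by positivity
                         linarith
  have hr2 : 2 ≤ r ^ w := by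
    have := one_add_mul_le_pow (a := (1 / w : ℝ)) (by
      have : (0 : ℝ) ≤ 1 / w := by positivity
      linarith) w
    rw [mul_one_div_cancel (by positivity)] at this
    linarith
  have hr3 : r ^ w ≤ 3 := by
    have h1 : r ≤ Real.exp (1 / w) := by rw [hr, add_comm]; exact Real.add_one_le_exp _
    calc r ^ w ≤ Real.exp (1 / w) ^ w := by gcongr
      _ = Real.exp 1 := by rw [← Real.exp_nat_mul, mul_one_div_cancel (by positivity)]
      _ ≤ 3 := by linarith [Real.exp_one_lt_d9]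
  have step : ∀ n : ℤ, U - w ≤ n → g (n + 1) ≤ r * g n := by
    intro n hn
    by_contra hlt
    push Not at hlt
    have hrn : 0 ≤ r * g n := mul_nonneg (by linarith) (h0 n)
    have hpos : 0 < g (n + 1) := by linarith
    have hrat : ∀ i, i ≤ n → g i * g (n + 1) ≤ g (i + 1) * g n := by
      intro i hi
      rcases eq_or_lt_of_le hi with rfl | hi
      · linarith
      · have := hs (i + 1) n 1 (by omega)
        simpa using this
    have hm1n : m1 + w * (t + 1) ≤ n := by linarith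
    have hwt : (0 : ℤ) ≤ w * (t + 1) := by positivity
    have hgn : 0 < g n := by
      have hdown : ∀ i, m1 ≤ i → i ≤ n → 0 < g n ∨ 0 < g i := by
        intro i hi
        induction i, hi using Int.le_induction with
        | base => intro _; right; linarith
        | succ i hi ih =>
          intro hin
          rcases ih (by omega) with h | h
          · exact Or.inl h
          · left
            have h1 := hrat i (by omega)
            have h2 := mul_pos h hpos
            by_contra hc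
            have h3 : g n = 0 := le_antisymm (not_lt.1 hc) (h0 n)
            rw [h3] at h1
            linarith
      rcases hdown n (by omega) le_rfl with h | h <;> exact h
    have hup : ∀ k : ℕ, m1 + k ≤ n + 1 → r ^ k ≤ g (m1 + k) := by
      intro k
      induction k with
      | zero => intro _; simpa using hm
      | succ k ih =>
        intro hk
        push_cast at hk ⊢
        have h1 := ih (by omega)
        have h2 := hrat (m1 + k) (by omega)
        have h3 : 0 ≤ r ^ k := by positivity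
        rw [← add_assoc, pow_succ]
        refine le_of_mul_le_mul_right ?_ hgn
        calc r ^ k * r * g n = r ^ k * (r * g n) := by ring
          _ ≤ g (m1 + k) * g (n + 1) := mul_le_mul h1 hlt.le hrn (h0 _)
          _ ≤ _ := h2
    have h1 := hup (w * (t + 1)) (by push_cast; omega)
    have h2 := hN (m1 + (w * (t + 1) : ℕ))
    have h3 : (2 : ℝ) ^ (t + 1) ≤ r ^ (w * (t + 1)) := by rw [pow_mul]; gcongr
    have h4 : (0 : ℝ) < 2 ^ t := by positivity
    rw [pow_succ] at h3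
    linarith
  have iter : ∀ (k : ℕ) (n : ℤ), U - w ≤ n → g (n + k) ≤ r ^ k * g n := by
    intro k n hn
    induction k with
    | zero => simp
    | succ k ih =>
      push_cast
      rw [← add_assoc, pow_succ']
      refine (step _ (by omega)).trans ?_
      rw [mul_assoc]
      gcongr
  set S := ∑ j ∈ Ico (0 : ℤ) w, g (U - j) with hS
  have hS0 : 0 ≤ S := sum_nonneg fun j _ => h0 _
  have hU0 : (w : ℝ) * g U ≤ 3 * S := by
    rw [hS, mul_sum]
    have := card_nsmul_le_sum (Ico (0 : ℤ) w) (fun j => 3 * g (U - j)) (g U) (fun j hj => by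
      obtain ⟨h1, h2⟩ := mem_Ico.1 hj
      have := iter j.toNat (U - j) (by omega)
      rw [show U - j + (j.toNat : ℤ) = U by omega] at this
      refine this.trans (mul_le_mul_of_nonneg_right ?_ (h0 _))
      exact (pow_le_pow_right₀ hr1 (by omega)).trans hr3)
    simpa using this
  have hρ0 : 0 ≤ σ * r := by positivity
  have hgeo := lc_geom hρ0 n
  have hG0 : 0 ≤ ∑ k ∈ Icc (1 : ℤ) n, (σ * r) ^ k.natAbs := by positivity
  have hgeo' : c * ∑ k ∈ Icc (1 : ℤ) n, (σ * r) ^ k.natAbs ≤ 1 := by nlinarith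
  calc ∑ i ∈ Icc (1 : ℤ) n, g (U + i) * σ ^ i.natAbs
      ≤ ∑ i ∈ Icc (1 : ℤ) n, g U * (σ * r) ^ i.natAbs := by
        refine sum_le_sum fun i hi => ?_
        have := iter i.natAbs U (by omega)
        rw [show (i.natAbs : ℤ) = i by have := (mem_Icc.1 hi).1; omega] at this
        calc g (U + i) * σ ^ i.natAbs ≤ (r ^ i.natAbs * g U) * σ ^ i.natAbs := by gcongr
          _ = _ := by rw [mul_pow]; ring
    _ = g U * ∑ k ∈ Icc (1 : ℤ) n, (σ * r) ^ k.natAbs := by rw [mul_sum]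
    _ ≤ 3 / (w * c) * S := by
        rw [div_mul_eq_mul_div, le_div_iff₀ (by positivity)]
        have := h0 U
        calc g U * (∑ k ∈ Icc (1 : ℤ) n, (σ * r) ^ k.natAbs) * (w * c)
            = (w * g U) * (c * ∑ k ∈ Icc (1 : ℤ) n, (σ * r) ^ k.natAbs) := by ring
          _ ≤ (w * g U) * 1 := by gcongr
          _ ≤ 3 * S := by linarith

end Crest.Agent.R309
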