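import Crest.Agent.R309.Core
import Crest.Agent.R309.LC

/-!
# R309: products of log-concave functions over a laminar family

PLAN.  `hL_lor`: with `r a = hL (α + e_a) / hL α` and `k s = φ s (n+2) φ s n / φ s (n+1)^2 ∈ (0,1]`
(`n = sv mem s α`): `hL (α+e_a+e_b) = hL α * r a * r b * B a b`, `B a b = ∏ s, if mem s a ∧ mem s b then k s else 1`.
`lam_psd`: for every finset `S` of indices, `∑∑ v a v b ∏_{s ∈ S} (..) ≤ (∑ v a)^2`.  Strong induction on `S`: take
`s0 ∈ S` whose set `{a | mem s0 a}` has least cardinality; every `s ∈ S` either contains that set or is disjoint from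
it, so on `mem s0 a ∧ mem s0 b` the product over `S.erase s0` is a constant `β ≥ 0`, and
`B_S a b = B_{S.erase s0} a b - (1 - k s0) β 1[mem s0 a] 1[mem s0 b]`.  Take `ℓ = r`.

`lcm`: if no variable lies in `s0` the sum vanishes for `m ≠ 0` and `SLC` is immediate (for `i ≥ 1` one of
`m - i < m' + i` is nonzero).  Otherwise add two variables: `V' = V ⊕ Bool`, `sup s := ∀ a, mem s0 a → mem s a`,
`mem' s (inl a) = mem s a`, `mem' s (inr true) = sup s`, `mem' s (inr false) = (s ≠ s0 ∧ sup s)`; this family is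
laminar.  For `0 < q ≤ 1` let `φq s = q^|n|` for `s = s0`, `q^|n - c s|` for `s ∈ H`, `φ s` otherwise (`lc_abs`),
`lam' (inr _) = 1`, `A q b = CC (inl ∘ px) (inl ∘ py) l u univ (hL mem' lam' φq) (b • dd (inr true) (inr false))`.
`CC_pos`, `CC_lor`, `Lor.lc2` (at `b • d - e_x - e_y`) make `A q` an `LC` sequence, so `SLC`; `A q b` is a polynomial
in `q` whose value at `q = 0` is the displayed sum at `m = -b` (`0^0 = 1`).  Let `q → 0+` (`le_of_tendsto_of_tendsto`,
continuity) and use `SLC.comp_sub`.
-/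

set_option autoImplicit false
open Finset

namespace Crest.Agent.R309

variable {V ι κ : Type} [Fintype V] [DecidableEq V] [Fintype ι] [DecidableEq ι] [Fintype κ] [DecidableEq κ]

/-- laminar families of sets of variables -/
def Lam (mem : κ → V → Prop) : Prop :=
  ∀ s t, (∃ a, mem s a ∧ mem t a) → (∀ a, mem s a → mem t a) ∨ (∀ a, mem t a → mem s a)

/-- sum of the variables in the set `s` -/
def sv (mem : κ → V → Prop) [∀ s a, Decidable (mem s a)] (s : κ) (α : V → ℤ) : ℤ :=
  ∑ a, if mem s a then α a else 0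

/-- product of a geometric factor and of one factor per set -/
noncomputable def hL (mem : κ → V → Prop) [∀ s a, Decidable (mem s a)] (lam : V → ℝ) (φ : κ → ℤ → ℝ)
    (α : V → ℤ) : ℝ :=
  (∏ a, lam a ^ α a) * ∏ s, φ s (sv mem s α)

omit [Fintype κ] [DecidableEq κ] in
theorem lam_sv_ee (mem : κ → V → Prop) [∀ s a, Decidable (mem s a)] (s : κ) (α : V → ℤ) (a : V) :
    sv mem s (α + ee a) = sv mem s α + if mem s a then 1 else 0 := by
  have : (if mem s a then (1 : ℤ) else 0) = ∑ b, if mem s b then ee a b else 0 := by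
    rw [sum_eq_single a]
    · simp [ee]
    · intro b _ hb; simp [ee, hb]
    · simp
  rw [this, sv, sv, ← sum_add_distrib]
  refine sum_congr rfl fun b _ => ?_
  split_ifs <;> simp

theorem lam_prod_ee {lam : V → ℝ} (hlam : ∀ a, 0 < lam a) (α : V → ℤ) (a : V) :
    ∏ b, lam b ^ (α + ee a) b = (∏ b, lam b ^ α b) * lam a := by
  have : lam a = ∏ b, lam b ^ ee a b := by
    rw [prod_eq_single a]
    · simp [ee]
    · intro b _ hb; simp [ee, hb]
    · simp
  rw [this, ← prod_mul_distrib]
  exact prod_congr rfl fun b _ => zpow_add₀ (hlam b).ne' _ _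

theorem lam_psd (mem : κ → V → Prop) [∀ s a, Decidable (mem s a)] (hm : Lam mem) (k : κ → ℝ)
    (h0 : ∀ s, 0 ≤ k s) (h1 : ∀ s, k s ≤ 1) (S : Finset κ) (v : V → ℝ) :
    ∑ a, ∑ b, v a * v b * ∏ s ∈ S, (if mem s a ∧ mem s b then k s else 1) ≤ (∑ a, v a) ^ 2 := by
  classical
  induction S using Finset.strongInduction with
  | H S ih =>
  rcases S.eq_empty_or_nonempty with rfl | hne
  · simp only [prod_empty, mul_one]
    rw [sq, sum_mul_sum]
  obtain ⟨s0, hs0, hmin⟩ := S.exists_min_image (fun s => #(univ.filter (mem s))) hne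
  have hdich : ∀ s ∈ S, ∀ a, mem s0 a → mem s a → ∀ b, mem s0 b → mem s b := by
    intro s hs a ha ha'
    rcases hm s0 s ⟨a, ha, ha'⟩ with h | h
    · exact h
    · have hsub : univ.filter (mem s) ⊆ univ.filter (mem s0) := by
        intro b hb
        simp only [mem_filter, mem_univ, true_and] at hb ⊢
        exact h b hb
      have heq := eq_of_subset_of_card_le hsub (hmin s hs)
      intro b hb
      have : b ∈ univ.filter (mem s0) := by simpa using hb
      rw [← heq] at this
      simpa using this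
  set β : ℝ := ∏ s ∈ S.erase s0, if (∀ b, mem s0 b → mem s b) then k s else 1 with hβ
  have hβ0 : 0 ≤ β := prod_nonneg fun s _ => by split_ifs; exacts [h0 s, zero_le_one]
  have key : ∀ a b, v a * v b * ∏ s ∈ S, (if mem s a ∧ mem s b then k s else 1) =
      v a * v b * ∏ s ∈ S.erase s0, (if mem s a ∧ mem s b then k s else 1) -
        (1 - k s0) * β * ((if mem s0 a then v a else 0) * (if mem s0 b then v b else 0)) := by
    intro a b
    rw [← mul_prod_erase S _ hs0]
    by_cases ha : mem s0 a
    · by_cases hb : mem s0 b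
      · have : ∏ s ∈ S.erase s0, (if mem s a ∧ mem s b then k s else 1) = β := by
          refine prod_congr rfl fun s hs => ?_
          have : (mem s a ∧ mem s b) ↔ ∀ b, mem s0 b → mem s b :=
            ⟨fun h => hdich s (mem_of_mem_erase hs) a ha h.1, fun h => ⟨h a ha, h b hb⟩⟩
          simp only [this]
        rw [this]
        simp only [ha, hb, and_self, if_true]
        ring
      · simp [hb]
    · simp [ha]
  simp only [key, sum_sub_distrib, ← mul_sum]
  have h2 := ih (S.erase s0) (erase_ssubset hs0)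
  rw [← sum_mul]
  have h3 : 0 ≤ (1 - k s0) * β *
      ((∑ a, if mem s0 a then v a else 0) * ∑ a, if mem s0 a then v a else 0) :=
    mul_nonneg (mul_nonneg (by linarith [h1 s0]) hβ0) (mul_self_nonneg _)
  linarith

theorem hL_pos (mem : κ → V → Prop) [∀ s a, Decidable (mem s a)] {lam : V → ℝ} (hlam : ∀ a, 0 < lam a)
    {φ : κ → ℤ → ℝ} (hφ : ∀ s, LC (φ s)) : Pos (hL mem lam φ) := by
  intro α
  exact mul_pos (prod_pos fun a _ => zpow_pos (hlam a) _) (prod_pos fun s _ => (hφ s).1 _)

theorem hL_lor (mem : κ → V → Prop) [∀ s a, Decidable (mem s a)] (hm : Lam mem) {lam : V → ℝ}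
    (hlam : ∀ a, 0 < lam a) {φ : κ → ℤ → ℝ} (hφ : ∀ s, LC (φ s)) : Lor (hL mem lam φ) := by
  intro α
  set n : κ → ℤ := fun s => sv mem s α with hn
  set r : V → ℝ := fun a => lam a * ∏ s, (φ s (n s + if mem s a then 1 else 0) / φ s (n s)) with hr
  set k : κ → ℝ := fun s => φ s (n s + 1 + 1) * φ s (n s) / φ s (n s + 1) ^ 2 with hk
  have hk0 : ∀ s, 0 ≤ k s := fun s =>
    div_nonneg (mul_pos ((hφ s).1 _) ((hφ s).1 _)).le (sq_nonneg _)
  have hk1 : ∀ s, k s ≤ 1 := by
    intro s
    have := (hφ s).2 (n s + 1)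
    rw [add_sub_cancel_right] at this
    simp only [hk]
    rw [div_le_one (pow_pos ((hφ s).1 _) 2)]
    linarith
  have key : ∀ a b, hL mem lam φ (α + ee a + ee b) =
      hL mem lam φ α * (r a * r b * ∏ s, (if mem s a ∧ mem s b then k s else 1)) := by
    intro a b
    have e1 : ∀ s, φ s (sv mem s (α + ee a + ee b)) = φ s (n s) *
        ((φ s (n s + if mem s a then 1 else 0) / φ s (n s)) *
          (φ s (n s + if mem s b then 1 else 0) / φ s (n s)) *
            (if mem s a ∧ mem s b then k s else 1)) := by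
      intro s
      rw [lam_sv_ee, lam_sv_ee]
      have p0 := ((hφ s).1 (n s)).ne'
      have p1 := ((hφ s).1 (n s + 1)).ne'
      change φ s ((n s + _) + _) = _
      by_cases ha : mem s a <;> by_cases hb : mem s b <;>
        simp only [ha, hb, hk, if_true, if_false, and_self, and_true, and_false, add_zero] <;>
        field_simp
    simp only [hL, lam_prod_ee hlam, e1, prod_mul_distrib, hr]
    ring
  refine ⟨r, fun v hv => ?_⟩
  have h1 := lam_psd mem hm k hk0 hk1 univ (fun a => r a * v a)
  rw [hv] at h1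
  have h2 : QF (hL mem lam φ) α v v = hL mem lam φ α * ∑ a, ∑ b,
      r a * v a * (r b * v b) * ∏ s, (if mem s a ∧ mem s b then k s else 1) := by
    simp only [QF, key, mul_sum]
    exact sum_congr rfl fun a _ => sum_congr rfl fun b _ => by ring
  rw [h2]
  exact mul_nonpos_of_nonneg_of_nonpos (hL_pos mem hlam hφ α).le (by simpa using h1)

/-- marginals of a set sum, under hard constraints on other set sums, are log-concave -/
theorem lcm (mem : κ → V → Prop) [∀ s a, Decidable (mem s a)] (hm : Lam mem) {lam : V → ℝ}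
    (hlam : ∀ a, 0 < lam a) {φ : κ → ℤ → ℝ} (hφ : ∀ s, LC (φ s)) (px py : ι → V) (l u : ι → ℤ)
    (hlu : ∀ j, l j ≤ u j) (s0 : κ) (H : Finset κ) (hs0 : s0 ∉ H) (c : κ → ℤ) :
    SLC (fun m => ∑ X ∈ Box l u,
      if sv mem s0 (emb px py X) = m ∧ ∀ s ∈ H, sv mem s (emb px py X) = c s then
        (∏ a, lam a ^ emb px py X a) * ∏ s ∈ (univ \ H).erase s0, φ s (sv mem s (emb px py X))
      else 0) := by
  classical
  have hw0 : ∀ X : ι → ℤ, 0 ≤ (∏ a, lam a ^ emb px py X a) *
      ∏ s ∈ (univ \ H).erase s0, φ s (sv mem s (emb px py X)) := fun X =>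
    (mul_pos (prod_pos fun a _ => zpow_pos (hlam a) _) (prod_pos fun s _ => (hφ s).1 _)).le
  by_cases hex : ¬ ∃ a, mem s0 a
  · intro m m' i hmm
    rcases Nat.eq_zero_or_pos i with rfl | hi
    · simp
    have hz : ∀ X : ι → ℤ, sv mem s0 (emb px py X) = 0 := fun X =>
      sum_eq_zero fun a _ => if_neg fun h => hex ⟨a, h⟩
    have hzero : ∀ m : ℤ, m ≠ 0 → ∑ X ∈ Box l u,
        (if sv mem s0 (emb px py X) = m ∧ ∀ s ∈ H, sv mem s (emb px py X) = c s then
          (∏ a, lam a ^ emb px py X a) * ∏ s ∈ (univ \ H).erase s0, φ s (sv mem s (emb px py X))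
        else 0) = 0 := fun m hm0 =>
      sum_eq_zero fun X _ => if_neg fun h => hm0 (by rw [← h.1, hz])
    have hnn : ∀ m : ℤ, 0 ≤ ∑ X ∈ Box l u,
        (if sv mem s0 (emb px py X) = m ∧ ∀ s ∈ H, sv mem s (emb px py X) = c s then
          (∏ a, lam a ^ emb px py X a) * ∏ s ∈ (univ \ H).erase s0, φ s (sv mem s (emb px py X))
        else 0) := fun m => sum_nonneg fun X _ => by split_ifs; exacts [hw0 X, le_rfl]
    refine le_trans (le_of_eq ?_) (mul_nonneg (hnn m) (hnn m'))
    by_cases h0 : m - i = 0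
    · exact mul_eq_zero_of_right _ (hzero _ (by omega))
    · exact mul_eq_zero_of_left (hzero _ h0) _
  obtain ⟨a0, ha0⟩ := not_not.1 hex
  let sup : κ → Prop := fun s => ∀ a, mem s0 a → mem s a
  let mem' : κ → V ⊕ Bool → Prop := fun s a =>
    match a with
    | .inl a => mem s a
    | .inr true => sup s
    | .inr false => s ≠ s0 ∧ sup s
  have hm' : Lam mem' := by
    have aux : ∀ s t, (∀ a, mem s a → mem t a) →
        (∀ a, mem' s a → mem' t a) ∨ (∀ a, mem' t a → mem' s a) := by
      intro s t hst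
      by_cases hc : t = s0 ∧ sup s
      · right
        rintro (a | _ | _) h
        · exact hc.2 a (hc.1 ▸ h)
        · exact absurd hc.1 h.1
        · exact hc.2
      · left
        rintro (a | _ | _) h
        · exact hst a h
        · exact ⟨fun h' => hc ⟨h', h.2⟩, fun a ha => hst a (h.2 a ha)⟩
        · exact fun a ha => hst a (h a ha)
    intro s t ⟨a, hs, ht⟩
    have : ∃ a, mem s a ∧ mem t a := by
      rcases a with a | _ | _
      · exact ⟨a, hs, ht⟩
      · exact ⟨a0, hs.2 a0 ha0, ht.2 a0 ha0⟩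
      · exact ⟨a0, hs a0 ha0, ht a0 ha0⟩
    rcases hm s t this with h | h
    · exact aux s t h
    · exact (aux t s h).symm
  let lam' : V ⊕ Bool → ℝ := Sum.elim lam fun _ => 1
  have hlam' : ∀ a, 0 < lam' a := by
    rintro (a | a)
    · exact hlam a
    · exact one_pos
  let φq : ℝ → κ → ℤ → ℝ := fun q s n =>
    if s = s0 then q ^ n.natAbs else if s ∈ H then q ^ (n + -c s).natAbs else φ s n
  have hφq : ∀ q, 0 < q → q ≤ 1 → ∀ s, LC (φq q s) := by
    intro q h0 h1 s
    by_cases e1 : s = s0
    · simpa only [φq, e1, if_true] using lc_abs h0 h1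
    · by_cases e2 : s ∈ H
      · simpa only [φq, e1, e2, if_true, if_false] using (lc_abs h0 h1).comp_add (-c s)
      · simpa only [φq, e1, e2, if_false] using hφ s
  let B : ℝ → ℤ → ℝ := fun q b => ∑ X ∈ Box l u,
    (q ^ (sv mem s0 (emb px py X) + b).natAbs *
      ∏ s ∈ H, q ^ (sv mem s (emb px py X) + -c s).natAbs) *
    ((∏ a, lam a ^ emb px py X a) * ∏ s ∈ (univ \ H).erase s0, φ s (sv mem s (emb px py X)))
  let d : V ⊕ Bool → ℤ := dd (.inr true) (.inr false)
  have hemb1 : ∀ (X : ι → ℤ) (a : V),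
      emb (fun j => (Sum.inl (px j) : V ⊕ Bool)) (fun j => Sum.inl (py j)) X (.inl a) =
        emb px py X a := by
    intro X a
    simp [emb, dd, ee, Pi.single_apply]
  have hemb2 : ∀ (X : ι → ℤ) (a : Bool),
      emb (fun j => (Sum.inl (px j) : V ⊕ Bool)) (fun j => Sum.inl (py j)) X (.inr a) = 0 := by
    intro X a
    simp [emb, dd, ee]
  have hB : ∀ q b, B q b = CC (fun j => (Sum.inl (px j) : V ⊕ Bool)) (fun j => Sum.inl (py j)) l u
      univ (hL mem' lam' (φq q)) (b • d) := by
    intro q b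
    rw [CC, bx_univ]
    refine sum_congr rfl fun X _ => ?_
    have hsv : ∀ s, sv mem' s (b • d + emb (fun j => (Sum.inl (px j) : V ⊕ Bool))
        (fun j => Sum.inl (py j)) X) = sv mem s (emb px py X) + if s = s0 then b else 0 := by
      intro s
      simp only [sv, Fintype.sum_sum_type, Fintype.sum_bool, Pi.add_apply, hemb1, hemb2]
      congr 1
      · refine sum_congr rfl fun a _ => ?_
        simp [mem', d, dd, ee]
      · by_cases e1 : s = s0
        · subst e1
          simp [mem', d, dd, ee, sup]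
        · by_cases e2 : sup s
          · simp [mem', d, dd, ee, e1, e2]
          · simp [mem', d, dd, ee, e1, e2]
    have hpl : ∏ a, lam' a ^ (b • d + emb (fun j => (Sum.inl (px j) : V ⊕ Bool))
        (fun j => Sum.inl (py j)) X) a = ∏ a, lam a ^ emb px py X a := by
      simp [Fintype.prod_sum_type, lam', hemb1, d, dd, ee]
    rw [hL, hpl]
    simp only [hsv]
    rw [← prod_sdiff (subset_univ H), ← mul_prod_erase (univ \ H) _ (a := s0) (by simpa using hs0)]
    have e1 : ∏ s ∈ H, φq q s (sv mem s (emb px py X) + if s = s0 then b else 0) =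
        ∏ s ∈ H, q ^ (sv mem s (emb px py X) + -c s).natAbs := by
      refine prod_congr rfl fun s hs => ?_
      have : s ≠ s0 := fun h => hs0 (h ▸ hs)
      simp only [φq, this, hs, if_true, if_false, add_zero]
    have e2 : ∏ s ∈ (univ \ H).erase s0,
        φq q s (sv mem s (emb px py X) + if s = s0 then b else 0) =
        ∏ s ∈ (univ \ H).erase s0, φ s (sv mem s (emb px py X)) := by
      refine prod_congr rfl fun s hs => ?_
      have a1 : s ≠ s0 := ne_of_mem_erase hs
      have a2 : s ∉ H := (mem_sdiff.1 (mem_of_mem_erase hs)).2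
      simp only [φq, a1, a2, if_false, add_zero]
    rw [e1, e2]
    simp only [φq, if_true]
    ring
  have hLC : ∀ q, 0 < q → q ≤ 1 → LC (B q) := by
    intro q h0 h1
    have p1 := hL_pos mem' hlam' (hφq q h0 h1)
    have p2 := hL_lor mem' hm' hlam' (hφq q h0 h1)
    have p3 := CC_pos (fun j => (Sum.inl (px j) : V ⊕ Bool)) (fun j => Sum.inl (py j)) l u hlu
      univ p1
    have p4 := CC_lor (fun j => (Sum.inl (px j) : V ⊕ Bool)) (fun j => Sum.inl (py j)) l u hlu
      univ p1 p2
    refine ⟨fun b => by rw [hB]; exact p3 _, fun b => ?_⟩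
    have := Lor.lc2 p3 p4 (b • d - ee (.inr true) - ee (.inr false)) (.inr false) (.inr true)
    rw [hB, hB, hB]
    convert this using 3
    · simp only [d, dd, sub_smul, one_smul]; abel
    · simp only [d, dd, add_smul, one_smul]; abel
    · abel
  have hS0 : SLC (B 0) := by
    intro m m' i hmm
    have hc : ∀ b, Continuous fun q => B q b := fun b => by simp only [B]; fun_prop
    have hcl : IsClosed {q : ℝ | B q (m - i) * B q (m' + i) ≤ B q m * B q m'} :=
      isClosed_le ((hc _).mul (hc _)) ((hc _).mul (hc _))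
    have hsub : Set.Ioc (0 : ℝ) 1 ⊆ {q : ℝ | B q (m - i) * B q (m' + i) ≤ B q m * B q m'} :=
      fun q hq => (hLC q hq.1 hq.2).slc m m' i hmm
    have := hcl.closure_subset_iff.2 hsub
    rw [closure_Ioc zero_ne_one] at this
    exact this ⟨le_rfl, zero_le_one⟩
  convert hS0.comp_sub 0 using 2 with m
  refine sum_congr rfl fun X _ => ?_
  split_ifs with hc
  · have e1 : ∏ s ∈ H, (0 : ℝ) ^ (sv mem s (emb px py X) + -c s).natAbs = 1 :=
      prod_eq_one fun s hs => by rw [hc.2 s hs]; simp
    rw [hc.1, e1]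
    simp
  · rw [not_and_or] at hc
    symm
    refine mul_eq_zero_of_left ?_ _
    rcases hc with hc | hc
    · exact mul_eq_zero_of_left (zero_pow (by omega)) _
    · push Not at hc
      obtain ⟨s, hs, hc⟩ := hc
      exact mul_eq_zero_of_right _ (prod_eq_zero hs (zero_pow (by omega)))

end Crest.Agent.R309
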