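import Crest.Agent.R309.ModGood

/-!
# R309: bounds on the features and the partition function

PLAN.  `(1 + 1/n)^n ∈ [2, 3]` (`one_add_mul_le_pow`; `Real.add_one_le_exp`, `Real.exp_one_lt_d9`, or
`Real.one_add_inv_pow_le_exp`-type lemmas).  For a vertex that is not a root, `viol_le` puts both factors in
`[3A/4, A]`.  `WW_bump`: `Finset.prod` differs only at `i` (`gn (bump p i) j = gn p j + [j = i]`).
`WW_le`: `∏ 3 ^ gn p i = 3 ^ p.sum`.  `Zs_good`: `WW = 1` on good points, `card_good`.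
-/

set_option autoImplicit false
open Finset Crest.Agent.PTime

namespace Crest.Agent.R309

variable {M : Mod}

theorem lam_pow_le {s : ℕ} (hs : 1 ≤ s) : lam s ^ MM s ≤ 3 := by
  have h1 : ((lam s ^ MM s : ℚ) : ℝ) ≤ 3 := by
    unfold lam
    push_cast
    rw [one_div]
    exact Real.one_add_inv_pow_le_exp.trans (Real.exp_one_lt_d9.le.trans (by norm_num))
  exact_mod_cast h1

theorem le_lam_pow {s : ℕ} (hs : 1 ≤ s) : 2 ≤ lam s ^ MM s := by
  have hM : (0 : ℚ) < MM s := by
    have : 0 < MM s := by unfold MM; positivity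
    exact_mod_cast this
  have h1 := one_add_mul_le_pow (a := 1 / (MM s : ℚ)) (le_trans (by norm_num) (by positivity : (0 : ℚ) ≤ _)) (MM s)
  rw [mul_one_div_cancel hM.ne'] at h1
  unfold lam
  linarith

theorem one_le_lam (s : ℕ) : 1 ≤ lam s := by
  unfold lam
  exact le_add_of_nonneg_right (by positivity)

theorem gn_bump {p : List ℕ} {i : ℕ} (hi : i < p.length) (j : ℕ) :
    gn (bump p i) j = gn p j + if j = i then 1 else 0 := by
  unfold bump
  by_cases hj : j = i
  · subst hj
    simp [gn, List.getD_eq_getElem?_getD, hi]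
  · simp [gn, List.getD_eq_getElem?_getD, List.getElem?_set_ne (Ne.symm hj), hj]

private theorem mf_sum_eq_gn (p : List ℕ) : p.sum = ∑ i ∈ range p.length, gn p i := by
  induction p with
  | nil => simp
  | cons a l ih => rw [List.sum_cons, List.length_cons, sum_range_succ', ih, add_comm]; rfl

theorem sum_bump {p : List ℕ} {i : ℕ} (hi : i < p.length) : (bump p i).sum = p.sum + 1 := by
  rw [mf_sum_eq_gn, mf_sum_eq_gn p, show (bump p i).length = p.length by simp [bump]]
  simp only [gn_bump hi, sum_add_distrib]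
  rw [sum_ite_eq' (range p.length) i, if_pos (mem_range.2 hi)]

theorem length_bump (p : List ℕ) (i : ℕ) : (bump p i).length = p.length := by
  simp [bump]

theorem sum_eq_gn (p : List ℕ) : p.sum = ∑ i ∈ range p.length, gn p i := by
  exact mf_sum_eq_gn p

theorem gn_le_sum (p : List ℕ) (i : ℕ) : gn p i ≤ p.sum := by
  by_cases hi : i < p.length
  · rw [sum_eq_gn]
    exact single_le_sum (f := gn p) (fun _ _ => Nat.zero_le _) (mem_range.2 hi)
  · rw [gn, List.getD_eq_default _ _ (not_lt.1 hi)]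
    exact Nat.zero_le _

private theorem om_pen (h : ModOK M) {X : List ℤ} (hX : X ∈ Om M) {v : ℕ} (hv : v < mN M) (hr : ¬ isRoot M v) :
    (9 / 16 : ℚ) ≤ (((AA M v : ℤ) - max (tv M X v - cap (mI M) (mpar M v)) 0 : ℤ) : ℚ) *
        (((AA M v : ℤ) - max (- tv M X v) 0 : ℤ) : ℚ) / (AA M v : ℚ) ^ 2 ∧
      (((AA M v : ℤ) - max (tv M X v - cap (mI M) (mpar M v)) 0 : ℤ) : ℚ) *
        (((AA M v : ℤ) - max (- tv M X v) 0 : ℤ) : ℚ) / (AA M v : ℚ) ^ 2 ≤ 1 := by
  obtain ⟨h1, h2⟩ := viol_le h hX hv hr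
  have hA : 0 < AA M v := lt_of_lt_of_le (by have := h.big; positivity) (AA_ge h hv hr)
  have hAq : (0 : ℚ) < AA M v := by exact_mod_cast hA
  have key : ∀ d : ℤ, 4 * d ≤ AA M v → 3 / 4 * (AA M v : ℚ) ≤ (((AA M v : ℤ) - max d 0 : ℤ) : ℚ) ∧
      (((AA M v : ℤ) - max d 0 : ℤ) : ℚ) ≤ AA M v := fun d hd => by
    have e1 : 4 * max d 0 ≤ AA M v := by omega
    have e2 : ((4 * max d 0 : ℤ) : ℚ) ≤ ((AA M v : ℤ) : ℚ) := by exact_mod_cast e1
    have e3 : (0 : ℚ) ≤ ((max d 0 : ℤ) : ℚ) := by exact_mod_cast le_max_right d 0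
    rw [Int.cast_mul] at e2
    rw [Int.cast_sub]
    simp only [Int.cast_natCast, Int.cast_ofNat] at e2 ⊢
    constructor <;> linarith
  obtain ⟨a1, a2⟩ := key _ h1
  obtain ⟨b1, b2⟩ := key _ h2
  rw [le_div_iff₀ (by positivity), div_le_one (by positivity)]
  constructor
  · exact le_trans (le_of_eq (by ring)) (mul_le_mul a1 b1 (by positivity) (le_trans (by positivity) a1))
  · rw [sq]
    exact mul_le_mul a2 b2 (le_trans (by positivity) b1) hAq.le

theorem om_ge (h : ModOK M) {X : List ℤ} (hX : X ∈ Om M) {i : ℕ} (hi : i < 3 * mN M) : 1 / 3 ≤ om M i X := by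
  have hs : 1 ≤ ms M := le_trans (by norm_num) h.big
  have h1 := one_le_lam (ms M)
  unfold om
  split_ifs with hr hc h0
  · exact le_trans (by norm_num) (one_le_pow₀ h1)
  · rw [inv_pow, one_div]
    exact inv_anti₀ (by positivity) ((pow_le_pow_right₀ h1 (min_le_right _ _)).trans (lam_pow_le hs))
  · exact le_trans (by norm_num) (om_pen h hX (by omega) hr).1
  · norm_num

theorem om_le (h : ModOK M) {X : List ℤ} (hX : X ∈ Om M) {i : ℕ} (hi : i < 3 * mN M) : om M i X ≤ 3 := by
  have hs : 1 ≤ ms M := le_trans (by norm_num) h.big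
  have h1 := one_le_lam (ms M)
  unfold om
  split_ifs with hr hc h0
  · exact (pow_le_pow_right₀ h1 (min_le_right _ _)).trans (lam_pow_le hs)
  · exact le_trans (pow_le_one₀ (by positivity) (inv_le_one_of_one_le₀ h1)) (by norm_num)
  · exact le_trans (om_pen h hX (by omega) hr).2 (by norm_num)
  · norm_num

theorem om_le_one (h : ModOK M) {X : List ℤ} (hX : X ∈ Om M) {i : ℕ} (hi : i < 3 * mN M) (h0 : i % 3 = 0) :
    om M i X ≤ 1 := by
  have h1 := one_le_lam (ms M)
  unfold om
  by_cases hr : isRoot M (i / 3)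
  · rw [if_pos hr, if_neg (fun hc => hc.1 h0)]
    exact pow_le_one₀ (by positivity) (inv_le_one_of_one_le₀ h1)
  · rw [if_neg hr, if_pos h0]
    exact (om_pen h hX (by omega) hr).2

theorem om_good (h : ModOK M) {X : List ℤ} (hg : good M X) {i : ℕ} (hi : i < 3 * mN M) : om M i X = 1 := by
  have hv : i / 3 < mN M := by omega
  unfold om
  rcases hg _ hv with ⟨hr, h0⟩ | ⟨hr, h1, h2⟩
  · rw [if_pos hr, h0]
    simp
  · rw [if_neg hr]
    split_ifs
    · have hA : 0 < AA M (i / 3) := lt_of_lt_of_le (by have := h.big; positivity) (AA_ge h hv hr)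
      have hAq : (0 : ℚ) < AA M (i / 3) := by exact_mod_cast hA
      rw [max_eq_right (by linarith), max_eq_right (by linarith)]
      push_cast
      field_simp
      ring
    · rfl

theorem om_root1 (h : ModOK M) {X : List ℤ} (hX : X ∈ Om M) {v : ℕ} (hv : v < mN M) (hr : isRoot M v) :
    om M (3 * v + 1) X = lam (ms M) ^ val M X v := by
  have h1 := val_root h hX hv hr
  have e1 : (3 * v + 1) / 3 = v := by omega
  have e2 : (3 * v + 1) % 3 = 1 := by omega
  unfold om
  rw [e1, e2, if_pos hr, min_eq_left h1]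
  by_cases h0 : 0 ≤ val M X v
  · rw [if_pos ⟨by norm_num, by simp [h0]⟩, ← zpow_natCast, Int.natAbs_of_nonneg h0]
  · rw [if_neg (by simp [h0]), inv_pow, ← zpow_natCast, ← zpow_neg, Int.ofNat_natAbs_of_nonpos (by omega), neg_neg]

theorem om_root2 (h : ModOK M) {X : List ℤ} (hX : X ∈ Om M) {v : ℕ} (hv : v < mN M) (hr : isRoot M v) :
    om M (3 * v + 2) X = lam (ms M) ^ (- val M X v) := by
  have h1 := val_root h hX hv hr
  have e1 : (3 * v + 2) / 3 = v := by omega
  have e2 : (3 * v + 2) % 3 = 2 := by omega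
  unfold om
  rw [e1, e2, if_pos hr, min_eq_left h1]
  by_cases h0 : 0 ≤ val M X v
  · rw [if_neg (by simp [h0]), inv_pow, ← zpow_natCast, ← zpow_neg, Int.natAbs_of_nonneg h0]
  · rw [if_pos ⟨by norm_num, by simp [h0]⟩, ← zpow_natCast, Int.ofNat_natAbs_of_nonpos (by omega)]

theorem WW_pos (h : ModOK M) (p : List ℕ) {X : List ℤ} (hX : X ∈ Om M) : 0 < WW M p X := by
  exact prod_pos fun i hi => pow_pos (lt_of_lt_of_le (by norm_num) (om_ge h hX (mem_range.1 hi))) _

theorem WW_good (h : ModOK M) (p : List ℕ) {X : List ℤ} (hg : good M X) : WW M p X = 1 := by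
  exact prod_eq_one fun i hi => by rw [om_good h hg (mem_range.1 hi), one_pow]

theorem WW_bump {p : List ℕ} (hp : p.length = 3 * mN M) {i : ℕ} (hi : i < 3 * mN M)
    (hlt : gn p i < LL (ms M)) (X : List ℤ) : WW M (bump p i) X = WW M p X * om M i X := by
  unfold WW
  rw [← prod_ite_eq' (range (3 * mN M)) i (fun j => om M j X) |>.trans (if_pos (mem_range.2 hi)),
    ← prod_mul_distrib]
  refine prod_congr rfl fun j _ => ?_
  rw [gn_bump (by omega)]
  split_ifs with hj
  · subst hj
    rw [min_eq_left hlt, min_eq_left hlt.le, pow_succ]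
  · rw [add_zero, mul_one]

theorem WW_zero (M : Mod) (n : ℕ) (X : List ℤ) : WW M (List.replicate n 0) X = 1 := by
  refine prod_eq_one fun i _ => ?_
  have : gn (List.replicate n 0) i = 0 := by
    simp only [gn, List.getD_eq_getElem?_getD, List.getElem?_replicate]
    split_ifs <;> rfl
  rw [this, Nat.zero_min, pow_zero]

theorem WW_le (h : ModOK M) {p : List ℕ} (hp : Adm M p) {X : List ℤ} (hX : X ∈ Om M) :
    WW M p X ≤ 3 ^ LL (ms M) := by
  calc WW M p X ≤ ∏ i ∈ range (3 * mN M), (3 : ℚ) ^ gn p i := by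
        refine prod_le_prod (fun i hi => ?_) fun i hi => ?_
        · exact pow_nonneg (le_trans (by norm_num) (om_ge h hX (mem_range.1 hi))) _
        · exact (pow_le_pow_left₀ (le_trans (by norm_num) (om_ge h hX (mem_range.1 hi)))
            (om_le h hX (mem_range.1 hi)) _).trans (pow_le_pow_right₀ (by norm_num) (min_le_left _ _))
    _ = 3 ^ p.sum := by rw [prod_pow_eq_pow_sum, sum_eq_gn, hp.1]
    _ ≤ _ := pow_le_pow_right₀ (by norm_num) hp.2.1

theorem WW_le_one (h : ModOK M) {p : List ℕ} (hp : ∀ i, i % 3 ≠ 0 → gn p i = 0) {X : List ℤ} (hX : X ∈ Om M) :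
    WW M p X ≤ 1 := by
  refine prod_le_one (fun i hi => ?_) fun i hi => ?_
  · exact pow_nonneg (le_trans (by norm_num) (om_ge h hX (mem_range.1 hi))) _
  · by_cases h0 : i % 3 = 0
    · exact pow_le_one₀ (le_trans (by norm_num) (om_ge h hX (mem_range.1 hi))) (om_le_one h hX (mem_range.1 hi) h0)
    · rw [hp i h0, Nat.zero_min, pow_zero]

theorem one_le_Zs (h : ModOK M) (p : List ℕ) : 1 ≤ Zs M p := by
  have := single_le_sum (f := fun X => (WW M p X : ℝ))
    (fun X hX => by exact_mod_cast (WW_pos h p hX).le) (X0_mem h)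
  rw [WW_good h p (X0_good h)] at this
  simpa [Zs] using this

theorem Zs_zero (M : Mod) (n : ℕ) : Zs M (List.replicate n 0) = (Om M).card := by
  simp [Zs, WW_zero]

theorem Zs_bump (h : ModOK M) {p : List ℕ} (hp : p.length = 3 * mN M) {i : ℕ} (hi : i < 3 * mN M)
    (hlt : gn p i < LL (ms M)) : Zs M (bump p i) = Zs M p * mu M p (fun X => om M i X) := by
  have h1 := one_le_Zs h p
  rw [mu, mul_div_cancel₀ _ (by linarith)]
  exact sum_congr rfl fun X _ => by rw [WW_bump hp hi hlt]; push_cast; rfl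

theorem Zs_good (h : ModOK M) (p : List ℕ) :
    Zs M p * mu M p (fun X => ind (good M X)) = (flows (mI M)).card := by
  have h1 := one_le_Zs h p
  rw [mu, mul_div_cancel₀ _ (by linarith), ← card_good h, card_filter]
  push_cast
  refine sum_congr rfl fun X _ => ?_
  split_ifs with hg
  · rw [WW_good h p hg, ind_true hg]
    simp
  · rw [ind_false hg, mul_zero]

theorem mu_mono (h : ModOK M) (p : List ℕ) {f g : List ℤ → ℝ} (hfg : ∀ X ∈ Om M, f X ≤ g X) :
    mu M p f ≤ mu M p g := by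
  have h1 := one_le_Zs h p
  refine div_le_div_of_nonneg_right (sum_le_sum fun X hX => ?_) (by linarith)
  exact mul_le_mul_of_nonneg_left (hfg X hX) (by exact_mod_cast (WW_pos h p hX).le)

theorem mu_const (h : ModOK M) (p : List ℕ) (c : ℝ) : mu M p (fun _ => c) = c := by
  have h1 := one_le_Zs h p
  rw [mu, ← sum_mul]
  exact mul_div_cancel_left₀ c (show Zs M p ≠ 0 by linarith)

theorem mu_add (M : Mod) (p : List ℕ) (f g : List ℤ → ℝ) :
    mu M p (fun X => f X + g X) = mu M p f + mu M p g := by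
  simp only [mu, mul_add, sum_add_distrib, add_div]

theorem mu_mul (M : Mod) (p : List ℕ) (c : ℝ) (f : List ℤ → ℝ) : mu M p (fun X => c * f X) = c * mu M p f := by
  simp only [mu, mul_left_comm _ c, ← mul_sum, mul_div_assoc]

theorem mu_sum (M : Mod) (p : List ℕ) {β : Type} (S : Finset β) (f : β → List ℤ → ℝ) :
    mu M p (fun X => ∑ b ∈ S, f b X) = ∑ b ∈ S, mu M p (f b) := by
  simp only [mu, mul_sum, ← sum_div]
  rw [sum_comm]

end Crest.Agent.R309
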