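import Crest.Agent.R309.Model

/-!
# R309: good configurations are the flows

PLAN.  `sgU_par`, `par_inj`: `ForestOK.cross`.  Box facts: `RangeOK` gives flows with values `x0 + up ≤ cap` and
`x0 - dn ≥ 0`.  `res_spec`: for a flow `x`, `sum_exc` gives `balU v = ∑_e sgU v e * x e`, so
`val (res x) v = ∑_{tree arcs e} sgU v e * x e`, and a tree arc `mpar w` has `sgU v (mpar w) ≠ 0` only for `v = w`
(not a root).  `ext_spec`: with `y = ext X`, for every `v < mN`: `∑_e sgU v e * y e = balU v` (roots: `val = 0`; otherwise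
the parent arc contributes `σ * tv = val`), i.e. `∑_{w : man w v} (exc y w - bal w) = 0` (`sum_exc`); strong induction on
the cardinality of `{w | man w v}` (`self`, `trans`, `anti`) gives `exc y v = bal v`.  `val_root`, `tv_near`: compare with
`X0`; `|X e - X0 e| ≤ 2 s DD e`, and `ForestOK.cut` bounds `DD e` for the arcs with `sgU v e ≠ 0`.
-/

set_option autoImplicit false
open Finset Crest.Agent.PTime

namespace Crest.Agent.R309

variable {M : Mod}

theorem par_lt (h : ModOK M) {v : ℕ} (hv : v < mN M) (hr : ¬ isRoot M v) : mpar M v < mE M := by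
  exact lt_of_le_of_ne (h.forest.par_le v hv) hr

theorem sgU_ne_iff (M : Mod) (v e : ℕ) :
    sgU M v e ≠ 0 ↔ man M (tl (mI M) e) v ≠ man M (hd (mI M) e) v := by
  unfold sgU sg
  by_cases h1 : man M (tl (mI M) e) v = true <;> by_cases h2 : man M (hd (mI M) e) v = true <;> simp [h1, h2]

theorem sgU_par (h : ModOK M) {v : ℕ} (hv : v < mN M) (hr : ¬ isRoot M v) (w : ℕ) :
    sgU M w (mpar M v) ≠ 0 ↔ w = v := by
  rw [sgU_ne_iff]
  exact h.forest.cross v hv (par_lt h hv hr) w

theorem sgU_cases (M : Mod) (v e : ℕ) : sgU M v e = 0 ∨ sgU M v e = 1 ∨ sgU M v e = -1 := by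
  unfold sgU sg
  by_cases h1 : man M (tl (mI M) e) v = true <;> by_cases h2 : man M (hd (mI M) e) v = true <;> simp [h1, h2]

theorem sgU_par_self (h : ModOK M) {v : ℕ} (hv : v < mN M) (hr : ¬ isRoot M v) :
    sgU M v (mpar M v) = 1 ∨ sgU M v (mpar M v) = -1 := by
  rcases sgU_cases M v (mpar M v) with h0 | h0
  · exact absurd h0 ((sgU_par h hv hr v).2 rfl)
  · exact h0

theorem par_inj (h : ModOK M) {v w : ℕ} (hv : v < mN M) (hw : w < mN M) (hr : ¬ isRoot M v)
    (e : mpar M v = mpar M w) : v = w := by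
  have hw' : ¬ isRoot M w := fun h0 => hr (e.trans h0)
  exact (sgU_par h hw hw' v).1 (e ▸ (sgU_par h hv hr v).2 rfl)

/-- a vertex lies below at most one root -/
theorem root_unique (h : ModOK M) {w v v' : ℕ} (hr : isRoot M v) (hr' : isRoot M v') (h1 : man M w v = true)
    (h2 : man M w v' = true) : v = v' := by
  rcases h.forest.chain w v v' h1 h2 with h3 | h3
  · exact (h.forest.top v (h.forest.lt w v h1).2 hr v' h3).symm
  · exact h.forest.top v' (h.forest.lt w v' h2).2 hr' v h3

theorem up_le (h : ModOK M) {e : ℕ} (he : e < mE M) : gz (mx M) e + mup M e ≤ cap (mI M) e := by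
  obtain ⟨f, hf, e1⟩ := (h.range e he).1
  exact e1 ▸ (hf.1.2 e he).2

theorem dn_le (h : ModOK M) {e : ℕ} (he : e < mE M) : (mdn M e : ℤ) ≤ gz (mx M) e := by
  obtain ⟨f, hf, e1⟩ := (h.range e he).2.1
  have := (hf.1.2 e he).1
  omega

theorem DD_le_cap (h : ModOK M) {e : ℕ} (he : e < mE M) : DD M e ≤ cap (mI M) e := by
  have h1 := up_le h he
  have h2 := dn_le h he
  unfold DD
  omega

theorem lo_nonneg (M : Mod) (e : ℕ) : 0 ≤ lo M e := by
  unfold lo
  split_ifs
  · exact le_rfl
  · exact le_max_left _ _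

theorem hi_le_cap (M : Mod) (e : ℕ) : hi M e ≤ cap (mI M) e := by
  unfold hi
  split_ifs
  · exact Int.natCast_nonneg _
  · exact min_le_left _ _

theorem lo_le_hi (h : ModOK M) {e : ℕ} (he : e < mE M) : lo M e ≤ hi M e := by
  have h1 := h.flow.1.2 e he
  have h2 : (0 : ℤ) ≤ 2 * ms M * mdn M e := by positivity
  have h3 : (0 : ℤ) ≤ 2 * ms M * mup M e := by positivity
  unfold lo hi
  split_ifs
  · exact le_rfl
  · exact le_trans (max_le h1.1 (by linarith)) (le_min h1.2 (by linarith))

theorem hi_sub_lo_le (M : Mod) (e : ℕ) : hi M e - lo M e ≤ 2 * ms M * DD M e := by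
  unfold lo hi
  split_ifs
  · positivity
  · have h1 := min_le_right (cap (mI M) e : ℤ) (gz (mx M) e + 2 * ms M * mup M e)
    have h2 := le_max_right (0 : ℤ) (gz (mx M) e - 2 * ms M * mdn M e)
    unfold DD
    push_cast
    linarith

theorem le_hi_sub_lo (h : ModOK M) {e : ℕ} (he : e < mE M) (ht : ¬ isTree M e) :
    (DD M e : ℤ) ≤ hi M e - lo M e := by
  have h1 := up_le h he
  have h2 := dn_le h he
  have hs : (100 : ℤ) ≤ ms M := by exact_mod_cast h.big
  have h3 : (mdn M e : ℤ) ≤ 2 * ms M * mdn M e := by nlinarith [Int.natCast_nonneg (mdn M e)]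
  have h4 : (mup M e : ℤ) ≤ 2 * ms M * mup M e := by nlinarith [Int.natCast_nonneg (mup M e)]
  unfold lo hi DD
  rw [if_neg ht, if_neg ht]
  have h5 : gz (mx M) e + mup M e ≤ min (cap (mI M) e : ℤ) (gz (mx M) e + 2 * ms M * mup M e) :=
    le_min h1 (by linarith)
  have h6 : max (0 : ℤ) (gz (mx M) e - 2 * ms M * mdn M e) ≤ gz (mx M) e - mdn M e :=
    max_le (by linarith) (by linarith)
  push_cast
  linarith

theorem sgU_sq (h : ModOK M) {v : ℕ} (hv : v < mN M) (hr : ¬ isRoot M v) :
    sgU M v (mpar M v) * sgU M v (mpar M v) = 1 := by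
  rcases sgU_par_self h hv hr with h0 | h0 <;> rw [h0] <;> rfl

theorem gz_res (x : List ℤ) {e : ℕ} (he : e < mE M) : gz (res M x) e = if isTree M e then 0 else gz x e :=
  gz_map_range _ _ he

theorem gz_ext_tree (h : ModOK M) (X : List ℤ) {w : ℕ} (hw : w < mN M) (hr : ¬ isRoot M w) :
    gz (ext M X) (mpar M w) = gz X (mpar M w) + tv M X w := by
  unfold ext
  rw [gz_map_range _ _ (par_lt h hw hr), sum_eq_single w, if_pos rfl]
  · intro v hv hne
    exact if_neg fun e => hne (par_inj h hw (mem_range.1 hv) hr e.symm).symm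
  · intro hw'
    exact absurd (mem_range.2 hw) hw'

theorem gz_ext_of_not_tree (X : List ℤ) {e : ℕ} (he : e < mE M) (ht : ¬ isTree M e) :
    gz (ext M X) e = gz X e := by
  unfold ext
  rw [gz_map_range _ _ he, sum_eq_zero, add_zero]
  intro v hv
  exact if_neg fun e1 => ht ⟨v, mem_range.1 hv, e1⟩

theorem sum_tree (h : ModOK M) {v : ℕ} (hv : v < mN M) (g : ℕ → ℤ)
    (hg : ∀ e < mE M, ¬ isTree M e → g e = 0) :
    ∑ e ∈ range (mE M), sgU M v e * g e = if isRoot M v then 0 else sgU M v (mpar M v) * g (mpar M v) := by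
  have key : ∀ e < mE M, sgU M v e * g e ≠ 0 → mpar M v = e := fun e he hne => by
    obtain ⟨h1, h2⟩ := mul_ne_zero_iff.1 hne
    obtain ⟨w, hw, rfl⟩ : isTree M e := by
      by_contra ht
      exact h2 (hg e he ht)
    rw [(sgU_par h hw he.ne v).1 h1]
  split_ifs with hr
  · refine sum_eq_zero fun e he => ?_
    by_contra hne
    exact (mem_range.1 he).ne ((key e (mem_range.1 he) hne).symm.trans hr)
  · refine sum_eq_single _ (fun e he hne => ?_) fun hn => absurd (mem_range.2 (par_lt h hv hr)) hn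
    by_contra hne'
    exact hne (key e (mem_range.1 he) hne').symm

theorem res_spec (h : ModOK M) {x : List ℤ} (hx : IsFlow (mI M) x) :
    res M x ∈ Om M ∧ good M (res M x) ∧ ext M (res M x) = x ∧
      ∀ v < mN M, ¬ isRoot M v → tv M (res M x) v = gz x (mpar M v) := by
  have hval : ∀ v < mN M, val M (res M x) v =
      if isRoot M v then 0 else sgU M v (mpar M v) * gz x (mpar M v) := fun v hv => by
    have e1 : balU M v = ∑ e ∈ range (mE M), sgU M v e * gz x e := by
      rw [← show _ = ∑ e ∈ range (mE M), sgU M v e * gz x e from sum_exc h.wf (fun w => man M w v) x]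
      exact sum_congr rfl fun w hw => by rw [hx.2 w (mem_range.1 hw)]
    unfold val
    rw [e1, ← sum_sub_distrib]
    simp only [← mul_sub]
    rw [sum_tree h hv (fun e => gz x e - gz (res M x) e) (fun e he ht => by rw [gz_res x he, if_neg ht, sub_self])]
    split_ifs with hr
    · rfl
    · rw [gz_res x (par_lt h hv hr), if_pos ⟨v, hv, rfl⟩, sub_zero]
  have htv : ∀ v < mN M, ¬ isRoot M v → tv M (res M x) v = gz x (mpar M v) := fun v hv hr => by
    unfold tv
    rw [hval v hv, if_neg hr, ← mul_assoc, sgU_sq h hv hr, one_mul]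
  refine ⟨mem_Om.2 ⟨by simp [res], fun e he => ?_⟩, fun v hv => ?_, ?_, htv⟩
  · rw [gz_res x he]
    unfold lo hi
    split_ifs
    · exact ⟨le_rfl, le_rfl⟩
    · have h1 := hx.1.2 e he
      have h2 := (h.range e he).2.2 x hx
      exact ⟨max_le h1.1 h2.1, le_min h1.2 h2.2⟩
  · by_cases hr : isRoot M v
    · exact Or.inl ⟨hr, by rw [hval v hv, if_pos hr]⟩
    · refine Or.inr ⟨hr, ?_⟩
      rw [htv v hv hr]
      exact hx.1.2 _ (par_lt h hv hr)
  · refine ext_gz (by rw [hx.1.1]; simp [ext, mE]) fun e he => ?_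
    have he' : e < mE M := by simpa [ext] using he
    by_cases ht : isTree M e
    · obtain ⟨w, hw, rfl⟩ := id ht
      have hr : ¬ isRoot M w := he'.ne
      rw [gz_ext_tree h _ hw hr, gz_res x he', if_pos ht, zero_add, htv w hw hr]
    · rw [gz_ext_of_not_tree _ he' ht, gz_res x he', if_neg ht]

theorem X0_mem (h : ModOK M) : X0 M ∈ Om M := (res_spec h h.flow).1

theorem X0_good (h : ModOK M) : good M (X0 M) := (res_spec h h.flow).2.1

theorem ext_spec (h : ModOK M) {X : List ℤ} (hX : X ∈ Om M) (hg : good M X) :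
    IsFlow (mI M) (ext M X) ∧ res M (ext M X) = X := by
  obtain ⟨hlen, hbox⟩ := mem_Om.1 hX
  have htree : ∀ e < mE M, isTree M e → gz X e = 0 := fun e he ht => by
    have := hbox e he
    unfold lo hi at this
    rw [if_pos ht, if_pos ht] at this
    exact le_antisymm this.2 this.1
  have hsum : ∀ v < mN M, ∑ w ∈ range (mN M),
      (if man M w v = true then exc (mI M) (ext M X) w - bal (mI M) w else 0) = 0 := fun v hv => by
    have e1 : ∑ w ∈ range (mN M), (if man M w v = true then exc (mI M) (ext M X) w else 0) =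
        ∑ e ∈ range (mE M), sgU M v e * gz (ext M X) e := sum_exc h.wf (fun w => man M w v) _
    have e2 := sum_tree h hv (fun e => gz (ext M X) e - gz X e)
      (fun e he ht => by rw [gz_ext_of_not_tree X he ht, sub_self])
    have e3 : ∑ e ∈ range (mE M), sgU M v e * (gz (ext M X) e - gz X e) = val M X v := by
      rw [e2]
      rcases hg v hv with ⟨hr, h0⟩ | ⟨hr, -⟩
      · rw [if_pos hr, h0]
      · rw [if_neg hr, gz_ext_tree h X hv hr, add_sub_cancel_left, tv, ← mul_assoc, sgU_sq h hv hr, one_mul]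
    simp only [mul_sub, sum_sub_distrib] at e3
    have e4 : ∀ w, (if man M w v = true then exc (mI M) (ext M X) w - bal (mI M) w else 0) =
        (if man M w v = true then exc (mI M) (ext M X) w else 0) - (if man M w v = true then bal (mI M) w else 0) :=
      fun w => by split_ifs <;> simp
    simp only [e4, sum_sub_distrib]
    rw [e1]
    unfold val balU at e3
    linarith
  have hbal : ∀ n, ∀ v < mN M, ((range (mN M)).filter fun w => man M w v = true).card = n →
      exc (mI M) (ext M X) v = bal (mI M) v := by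
    intro n
    induction n using Nat.strong_induction_on with
    | _ n ih =>
      intro v hv hn
      have := hsum v hv
      rw [sum_eq_single v, if_pos (h.forest.self v hv)] at this
      · linarith
      · intro w hw hne
        split_ifs with h1
        · rw [ih _ ?_ w (mem_range.1 hw) rfl, sub_self]
          rw [← hn]
          refine card_lt_card ⟨fun u hu => ?_, fun hsub => ?_⟩
          · exact mem_filter.2 ⟨(mem_filter.1 hu).1, h.forest.trans u w v (mem_filter.1 hu).2 h1⟩
          · have h2 := hsub (mem_filter.2 ⟨mem_range.2 hv, h.forest.self v hv⟩)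
            exact hne (h.forest.anti w v h1 (mem_filter.1 h2).2)
        · rfl
      · intro hv'
        exact absurd (mem_range.2 hv) hv'
  refine ⟨⟨⟨by simp [ext, mE], fun e he => ?_⟩, fun v hv => hbal _ v hv rfl⟩, ?_⟩
  · by_cases ht : isTree M e
    · obtain ⟨w, hw, rfl⟩ := id ht
      have hr : ¬ isRoot M w := he.ne
      rw [gz_ext_tree h X hw hr, htree _ he ht, zero_add]
      exact ((hg w hw).resolve_left fun h0 => hr h0.1).2
    · rw [gz_ext_of_not_tree X he ht]
      exact ⟨(lo_nonneg M e).trans (hbox e he).1, (hbox e he).2.trans (hi_le_cap M e)⟩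
  · refine ext_gz (by simp [res, hlen]) fun e he => ?_
    have he' : e < mE M := by simpa [res] using he
    rw [gz_res _ he']
    split_ifs with ht
    · exact (htree e he' ht).symm
    · exact gz_ext_of_not_tree X he' ht

theorem sum_good (h : ModOK M) (G : List ℤ → ℝ) :
    ∑ X ∈ (Om M).filter (good M), G (ext M X) = ∑ x ∈ flows (mI M), G x := by
  refine sum_nbij' (ext M) (res M) ?_ ?_ ?_ ?_ ?_
  · intro X hX
    exact mem_flows.2 (ext_spec h (mem_filter.1 hX).1 (mem_filter.1 hX).2).1
  · intro x hx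
    have := res_spec h (mem_flows.1 hx)
    exact mem_filter.2 ⟨this.1, this.2.1⟩
  · intro X hX
    exact (ext_spec h (mem_filter.1 hX).1 (mem_filter.1 hX).2).2
  · intro x hx
    exact (res_spec h (mem_flows.1 hx)).2.2.1
  · intro _ _
    rfl

theorem card_good (h : ModOK M) : ((Om M).filter (good M)).card = (flows (mI M)).card := by
  have := sum_good h (fun _ => 1)
  simpa using this

theorem card_Om (h : ModOK M) : (Om M).card ≤ 2 ^ ms M ^ 2 := by
  unfold Om
  rw [card_lbox]
  calc _ ≤ (2 ^ ms M) ^ (range (mE M)).card := by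
        refine prod_le_pow_card _ _ _ fun e he => ?_
        have h1 := lo_nonneg M e
        have h2 := hi_le_cap M e
        have h3 := h.sized.2.2 e (mem_range.1 he)
        omega
    _ ≤ _ := by
        rw [card_range, ← pow_mul, sq]
        exact Nat.pow_le_pow_right (by norm_num) (Nat.mul_le_mul_left _ h.sized.1)

theorem val_diff (h : ModOK M) {X Y : List ℤ} (hX : X ∈ Om M) (hY : Y ∈ Om M) (v D : ℕ)
    (hD : ∀ e < mE M, sgU M v e ≠ 0 → DD M e ≤ D) : |val M X v - val M Y v| ≤ 2 * ms M ^ 2 * D := by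
  have e1 : val M X v - val M Y v = ∑ e ∈ range (mE M), sgU M v e * (gz Y e - gz X e) := by
    simp only [val, mul_sub, sum_sub_distrib]
    ring
  rw [e1]
  refine (abs_sum_le_sum_abs _ _).trans ?_
  calc _ ≤ ∑ _e ∈ range (mE M), (2 * ms M * D : ℤ) := by
        refine sum_le_sum fun e he => ?_
        have he' := mem_range.1 he
        by_cases h0 : sgU M v e = 0
        · rw [h0, zero_mul, abs_zero]
          positivity
        · have h1 : |sgU M v e| = 1 := by
            rcases (sgU_cases M v e).resolve_left h0 with h1 | h1 <;> rw [h1] <;> rfl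
          have h2 := (mem_Om.1 hX).2 e he'
          have h3 := (mem_Om.1 hY).2 e he'
          have h4 := hi_sub_lo_le M e
          have h5 : (2 * ms M * DD M e : ℤ) ≤ 2 * ms M * D :=
            mul_le_mul_of_nonneg_left (by exact_mod_cast hD e he' h0) (by positivity)
          rw [abs_mul, h1, one_mul, abs_le]
          constructor <;> linarith
    _ = mE M * (2 * ms M * D) := by simp
    _ ≤ ms M * (2 * ms M * D) :=
        mul_le_mul_of_nonneg_right (by exact_mod_cast h.sized.1) (by positivity)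
    _ = _ := by ring

theorem val_root (h : ModOK M) {X : List ℤ} (hX : X ∈ Om M) {v : ℕ} (hv : v < mN M) (hr : isRoot M v) :
    (val M X v).natAbs ≤ MM (ms M) := by
  have h0 : val M (X0 M) v = 0 := ((X0_good h v hv).resolve_right fun h0 => h0.1 hr).2
  have h1 := val_diff h hX (X0_mem h) v (KK (ms M)) fun e he hne =>
    ((h.forest.cut e he v hv ((sgU_ne_iff M v e).1 hne)).2 hr).le
  rw [h0, sub_zero] at h1
  have h2 : ((val M X v).natAbs : ℤ) ≤ (MM (ms M) : ℕ) := by
    rw [Int.natCast_natAbs]
    refine h1.trans (le_of_eq ?_)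
    unfold KK MM
    push_cast
    ring
  exact_mod_cast h2

theorem tv_near (h : ModOK M) {X : List ℤ} (hX : X ∈ Om M) {v : ℕ} (hv : v < mN M) (hr : ¬ isRoot M v) :
    4 * |tv M X v - gz (mx M) (mpar M v)| ≤ AA M v := by
  have h0 : tv M (X0 M) v = gz (mx M) (mpar M v) := (res_spec h h.flow).2.2.2 v hv hr
  have h1 := val_diff h hX (X0_mem h) v (DD M (mpar M v)) fun e he hne =>
    (h.forest.cut e he v hv ((sgU_ne_iff M v e).1 hne)).1 (par_lt h hv hr)
  have h2 : |sgU M v (mpar M v)| = 1 := by
    rcases sgU_par_self h hv hr with h1 | h1 <;> rw [h1] <;> rfl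
  rw [← h0, tv, tv, ← mul_sub, abs_mul, h2, one_mul]
  unfold AA
  push_cast
  linarith

/-- the two violations are at most `AA / 4` -/
theorem viol_le (h : ModOK M) {X : List ℤ} (hX : X ∈ Om M) {v : ℕ} (hv : v < mN M) (hr : ¬ isRoot M v) :
    4 * (tv M X v - cap (mI M) (mpar M v)) ≤ AA M v ∧ 4 * (- tv M X v) ≤ AA M v := by
  have h1 := tv_near h hX hv hr
  have h2 := h.flow.1.2 _ (par_lt h hv hr)
  have h3 := le_abs_self (tv M X v - gz (mx M) (mpar M v))
  have h4 := neg_abs_le (tv M X v - gz (mx M) (mpar M v))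
  constructor <;> linarith

theorem AA_ge (h : ModOK M) {v : ℕ} (hv : v < mN M) (hr : ¬ isRoot M v) : 8 * ms M ^ 15 ≤ AA M v := by
  have h1 : KK (ms M) ≤ DD M (mpar M v) := h.forest.big v hv (par_lt h hv hr)
  unfold AA
  unfold KK at h1
  calc 8 * ms M ^ 15 = 8 * ms M ^ 2 * ms M ^ 13 := by ring
    _ ≤ _ := Nat.mul_le_mul_left _ h1

end Crest.Agent.R309
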