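import Crest.Agent.R309.ModRep

/-!
# R309: the weight changes slowly

PLAN.  `pen_ratio`: with `A = AA M v`, both violations at `t` and `t'` are `≤ A/2 ≤ A - 1`, so `gA A d = A - d ≥ A/2`,
and each of the two factors changes by at most `|t - t'|`: each ratio is `≤ 1 + 2|t-t'|/A ≤ exp (2|t-t'|/A)`.
`phi_cmp`: a root with `δ v ≠ 0` costs at most `lam ^ jj ≤ 3 ^ (11 size s) ≤ 2 ^ (18 size s) ≤ (2s)^18`
(`lam_pow_le`, `3^11 ≤ 2^18`, `2 ^ size s ≤ 2 s`), two of them `2^36 s^36 ≤ s^42`; any other vertex costs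
`exp (4/A)^kk ≤ exp (1/(2 s^7))` (`AA_ge`, `viol_le`), all of them together at most `2`.
`kappa`: `sv_lift`; `δ v = [man (hd j) v] - [man (hd k) v]`, `root_unique`, `lamv_prod`.
`small_step`: both `X` and `X + ee a` are in the box, `δ v = ± sgU v a`.
`smooth`: by `ForestOK.cut` a large arc has `sgU v a = 0` for all roots `v`, so `lamv (a,true) = 1` and the root
factors do not change; if `sgU v a ≠ 0` then `DD a ≤ DD (mpar v)` and `tv` changes by at most
`HH a ≤ DD a / PP ≤ AA v / (8 s^13)`, cost `exp (1/(2 s^13))^kk`; all together `exp (1/(2 s^4)) ≤ 1 + 1/s^4 ≤ 1 + 1/(E+1)`.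
-/

set_option autoImplicit false
open Finset Crest.Agent.PTime

namespace Crest.Agent.R309

variable {M : Mod}

private theorem mk_AA8 (h : ModOK M) {v : ℕ} (hv : v < mN M) (hr : ¬ isRoot M v) : 8 ≤ AA M v := by
  have h1 := AA_ge h hv hr
  have h2 : 1 ≤ ms M ^ 15 := Nat.one_le_pow _ _ (by have := h.big; omega)
  omega

private theorem mk_gA_ratio {A : ℕ} (hA : 2 ≤ A) {d d' : ℤ} (h : 2 * d ≤ A) (h' : 2 * d' ≤ A) :
    0 ≤ gA A (max d' 0) ∧ gA A (max d' 0) ≤ Real.exp (2 * |(d : ℝ) - d'| / A) * gA A (max d 0) := by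
  have hAR : (0 : ℝ) < A := by exact_mod_cast (by omega : 0 < A)
  have e1 : ((2 * max d 0 : ℤ) : ℝ) ≤ ((A : ℤ) : ℝ) := by exact_mod_cast (by omega : 2 * max d 0 ≤ A)
  have e2 : ((2 * max d' 0 : ℤ) : ℝ) ≤ ((A : ℤ) : ℝ) := by exact_mod_cast (by omega : 2 * max d' 0 ≤ A)
  have e3 : ((max d 0 - max d' 0 : ℤ) : ℝ) ≤ ((|d - d'| : ℤ) : ℝ) := by
    have := le_abs_self (d - d')
    have := abs_nonneg (d - d')
    exact_mod_cast (by omega : max d 0 - max d' 0 ≤ |d - d'|)
  rw [Int.cast_mul] at e1 e2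
  rw [Int.cast_sub, Int.cast_abs, Int.cast_sub] at e3
  simp only [Int.cast_ofNat, Int.cast_natCast] at e1 e2
  unfold gA
  rw [if_pos (by omega), if_pos (by omega)]
  refine ⟨by linarith, ?_⟩
  refine le_trans ?_ (mul_le_mul_of_nonneg_right (Real.add_one_le_exp _) (by linarith))
  have e4 : |(d : ℝ) - d'| ≤ 2 * |(d : ℝ) - d'| / A * (A - (max d 0 : ℤ)) := by
    rw [div_mul_eq_mul_div, le_div_iff₀ hAR]
    nlinarith [abs_nonneg ((d : ℝ) - d')]
  linarith

theorem pen_ratio (h : ModOK M) {v : ℕ} (hv : v < mN M) (hr : ¬ isRoot M v) {t t' : ℤ}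
    (h1 : 2 * (t - cap (mI M) (mpar M v)) ≤ AA M v) (h2 : 2 * (-t) ≤ AA M v)
    (h1' : 2 * (t' - cap (mI M) (mpar M v)) ≤ AA M v) (h2' : 2 * (-t') ≤ AA M v) :
    pen M v t' ≤ Real.exp (4 * |(t : ℝ) - t'| / AA M v) * pen M v t := by
  have hA := mk_AA8 h hv hr
  have hAR : (0 : ℝ) < AA M v := by exact_mod_cast (by omega : 0 < AA M v)
  obtain ⟨a0, a1⟩ := mk_gA_ratio (by omega) h1 h1'
  obtain ⟨b0, b1⟩ := mk_gA_ratio (by omega) h2 h2'
  have e1 : |((t - cap (mI M) (mpar M v) : ℤ) : ℝ) - (t' - cap (mI M) (mpar M v) : ℤ)| = |(t : ℝ) - t'| := by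
    push_cast; congr 1; ring
  have e2 : |((-t : ℤ) : ℝ) - (-t' : ℤ)| = |(t : ℝ) - t'| := by
    push_cast; rw [abs_sub_comm]; congr 1; ring
  rw [e1] at a1
  rw [e2] at b1
  have e3 : Real.exp (4 * |(t : ℝ) - t'| / AA M v) =
      Real.exp (2 * |(t : ℝ) - t'| / AA M v) * Real.exp (2 * |(t : ℝ) - t'| / AA M v) := by
    rw [← Real.exp_add]; congr 1; ring
  unfold pen
  rw [← mul_div_assoc]
  refine div_le_div_of_nonneg_right ?_ (by positivity)
  refine (mul_le_mul a1 b1 b0 (a0.trans a1)).trans (le_of_eq ?_)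
  rw [e3]; ring

private theorem mk_pen_pow (h : ModOK M) {v : ℕ} (hv : v < mN M) (hr : ¬ isRoot M v) {t t' : ℤ}
    (h1 : 2 * (t - cap (mI M) (mpar M v)) ≤ AA M v) (h2 : 2 * (-t) ≤ AA M v)
    (h1' : 2 * (t' - cap (mI M) (mpar M v)) ≤ AA M v) (h2' : 2 * (-t') ≤ AA M v) {g : ℕ} (hg : g ≤ kk (ms M))
    {η : ℝ} (hη : (ms M : ℝ) ^ 8 * (4 * |(t : ℝ) - t'| / AA M v) ≤ η) :
    pen M v t' ^ g ≤ Real.exp η * pen M v t ^ g := by
  have hp := (lc_pen h hv hr).1
  refine (pow_le_pow_left₀ (hp _).le (pen_ratio h hv hr h1 h2 h1' h2') g).trans ?_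
  rw [mul_pow, ← Real.exp_nat_mul]
  refine mul_le_mul_of_nonneg_right (Real.exp_le_exp.2 (le_trans ?_ hη)) (pow_pos (hp _) _).le
  refine mul_le_mul_of_nonneg_right ?_ (by positivity)
  unfold kk at hg
  exact_mod_cast hg

theorem phi_cmp (h : ModOK M) {p : List ℕ} (hp : Adm M p) {X : Fin (mE M) → ℤ} (hX : X ∈ Box (loF M) (hiF M))
    (δ : Fin (mN M) → ℤ) (h1 : ∀ v, |δ v| ≤ 1) (w1 w2 : ℕ)
    (h2 : ∀ v, δ v ≠ 0 → man M w1 v = true ∨ man M w2 v = true) :
    ∏ v, phi M p v (sv (mem M) v (lift X (-X)) + δ v) ≤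
      (ms M : ℝ) ^ 53 * ∏ v, phi M p v (sv (mem M) v (lift X (-X))) := by
  have hs := h.big
  have hsR : (100 : ℝ) ≤ ms M := by exact_mod_cast hs
  have hXO := ofFn_mem.2 hX
  set L : ℝ := (lam (ms M) : ℝ) ^ jj (ms M) with hL
  have hL1 : 1 ≤ L := one_le_pow₀ (one_le_lamR _)
  set η : ℝ := 1 / (2 * (ms M : ℝ) ^ 7) with hη
  have hη1 : 1 ≤ Real.exp η := Real.one_le_exp (by positivity)
  have hφ : ∀ v n, 0 < phi M p v n := fun v n => (lc_phi h p v).1 n
  have key : ∀ v : Fin (mN M), phi M p v (sv (mem M) v (lift X (-X)) + δ v) ≤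
      ((if isRoot M v ∧ δ v ≠ 0 then L else 1) * Real.exp η) * phi M p v (sv (mem M) v (lift X (-X))) := by
    intro v
    by_cases h0 : δ v = 0
    · rw [h0, add_zero, if_neg (by simp), one_mul]
      exact le_mul_of_one_le_left (hφ _ _).le hη1
    have hg := hp.2.2 v v.2
    have hd := abs_le.1 (h1 v)
    rw [sv_val]
    unfold phi
    unfold tgt at hg
    by_cases hr : isRoot M v
    · rw [if_pos hr] at hg
      rw [if_pos hr, if_pos hr, if_pos ⟨hr, h0⟩]
      set q : ℝ := ((lam (ms M) : ℝ))⁻¹ ^ gn p (3 * v) with hq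
      have hq0 : 0 < q := pow_pos (inv_pos.2 (lamR_pos _)) _
      have hq1 : q ≤ 1 := pow_le_one₀ (inv_pos.2 (lamR_pos _)).le (inv_le_one_of_one_le₀ (one_le_lamR _))
      have hqL : 1 ≤ L * q := by
        rw [hq, inv_pow, ← div_eq_mul_inv, le_div_iff₀ (pow_pos (lamR_pos _) _), one_mul]
        exact pow_le_pow_right₀ (one_le_lamR _) hg
      have e1 := pow_le_pow_of_le_one hq0.le hq1
        (show (balU M v - (balU M v - val M (List.ofFn X) v)).natAbs ≤
          (balU M v - (balU M v - val M (List.ofFn X) v + δ v)).natAbs + 1 by omega)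
      rw [pow_succ'] at e1
      calc _ ≤ (L * q) * q ^ (balU M v - (balU M v - val M (List.ofFn X) v + δ v)).natAbs :=
            le_mul_of_one_le_left (by positivity) hqL
        _ ≤ L * q ^ (balU M v - (balU M v - val M (List.ofFn X) v)).natAbs := by
            rw [mul_assoc]; exact mul_le_mul_of_nonneg_left e1 (by positivity)
        _ ≤ _ := mul_le_mul_of_nonneg_right (le_mul_of_one_le_right (by positivity) hη1) (by positivity)
    · rw [if_neg hr] at hg
      rw [if_neg hr, if_neg hr, if_neg (fun hc => hr hc.1), one_mul, sub_sub_cancel]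
      obtain ⟨v1, v2⟩ := viol_le h hXO v.2 hr
      have hA := mk_AA8 h v.2 hr
      have hd' : ∃ d : ℤ, -1 ≤ d ∧ d ≤ 1 ∧
          sgU M v (mpar M v) * (balU M v - (balU M v - val M (List.ofFn X) v + δ v)) = tv M (List.ofFn X) v + d := by
        unfold tv
        rcases sgU_par_self h v.2 hr with e | e <;> rw [e]
        · exact ⟨- δ v, by omega, by omega, by ring⟩
        · exact ⟨δ v, by omega, by omega, by ring⟩
      obtain ⟨d, d1, d2, e⟩ := hd'
      rw [e]
      refine mk_pen_pow h v.2 hr (t := tv M (List.ofFn X) v) (by omega) (by omega) (by omega) (by omega) hg ?_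
      have e1 : |((tv M (List.ofFn X) v : ℤ) : ℝ) - (tv M (List.ofFn X) v + d : ℤ)| ≤ 1 := by
        have : |(d : ℝ)| ≤ 1 := by exact_mod_cast abs_le.2 ⟨d1, d2⟩
        push_cast
        rwa [sub_add_cancel_left, abs_neg]
      have e2 : 8 * (ms M : ℝ) ^ 15 ≤ AA M v := by exact_mod_cast AA_ge h v.2 hr
      calc _ ≤ (ms M : ℝ) ^ 8 * (4 * 1 / (8 * (ms M : ℝ) ^ 15)) := by gcongr
        _ = η := by rw [hη]; field_simp; norm_num
  refine (prod_le_prod (fun v _ => (hφ _ _).le) fun v _ => key v).trans ?_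
  rw [prod_mul_distrib, prod_mul_distrib]
  refine mul_le_mul_of_nonneg_right ?_ (prod_nonneg fun v _ => (hφ _ _).le)
  have hcard : (univ.filter fun v : Fin (mN M) => isRoot M v ∧ δ v ≠ 0).card ≤ 2 := by
    have c1 : ∀ w, (univ.filter fun v : Fin (mN M) => isRoot M v ∧ man M w v = true).card ≤ 1 := fun w =>
      card_le_one.2 fun a ha b hb => Fin.ext (root_unique h (mem_filter.1 ha).2.1 (mem_filter.1 hb).2.1
        (mem_filter.1 ha).2.2 (mem_filter.1 hb).2.2)
    refine le_trans (card_le_card (t := (univ.filter fun v : Fin (mN M) => isRoot M v ∧ man M w1 v = true) ∪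
      (univ.filter fun v : Fin (mN M) => isRoot M v ∧ man M w2 v = true)) fun v hv => ?_)
      ((card_union_le _ _).trans (add_le_add (c1 w1) (c1 w2)))
    obtain ⟨-, hr, h0⟩ := mem_filter.1 hv
    rcases h2 v h0 with h3 | h3
    · exact mem_union_left _ (mem_filter.2 ⟨mem_univ _, hr, h3⟩)
    · exact mem_union_right _ (mem_filter.2 ⟨mem_univ _, hr, h3⟩)
  have hLle : L ≤ (2 * (ms M : ℝ)) ^ 18 := by
    have e1 : ((lam (ms M) : ℝ)) ^ MM (ms M) ≤ 3 := by exact_mod_cast lam_pow_le (s := ms M) (by omega)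
    have e3 : 0 < Nat.size (ms M) := Nat.size_pos.2 (by omega)
    have e4 : 2 ^ (Nat.size (ms M) - 1) ≤ ms M := Nat.lt_size.1 (by omega)
    have e5 : 2 ^ Nat.size (ms M) ≤ 2 * ms M := by
      calc 2 ^ Nat.size (ms M) = 2 ^ (Nat.size (ms M) - 1 + 1) := by congr 1; omega
        _ ≤ _ := by rw [pow_succ]; omega
    have e6 : (2 : ℝ) ^ Nat.size (ms M) ≤ 2 * ms M := by exact_mod_cast e5
    calc L = (((lam (ms M) : ℝ) ^ MM (ms M)) ^ 11) ^ Nat.size (ms M) := by
          rw [hL, jj, pow_mul, pow_mul]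
      _ ≤ ((3 : ℝ) ^ 11) ^ Nat.size (ms M) := by
          have := lamR_pos (ms M)
          gcongr
      _ ≤ ((2 : ℝ) ^ 18) ^ Nat.size (ms M) := by gcongr ?_ ^ _; norm_num
      _ = ((2 : ℝ) ^ Nat.size (ms M)) ^ 18 := by rw [← pow_mul, ← pow_mul, mul_comm]
      _ ≤ _ := by gcongr
  have hP1 : ∏ v : Fin (mN M), (if isRoot M v ∧ δ v ≠ 0 then L else 1) ≤ ((2 * (ms M : ℝ)) ^ 18) ^ 2 := by
    rw [← prod_filter, prod_const]
    exact (pow_le_pow_right₀ hL1 hcard).trans (pow_le_pow_left₀ (by positivity) hLle 2)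
  have hP2 : ∏ _v : Fin (mN M), Real.exp η ≤ 3 := by
    rw [prod_const, card_univ, Fintype.card_fin, ← Real.exp_nat_mul]
    refine (Real.exp_le_exp.2 ?_).trans (Real.exp_one_lt_d9.le.trans (by norm_num))
    have e1 : (mN M : ℝ) ≤ ms M := by exact_mod_cast h.sized.2.1
    have e2 : (ms M : ℝ) ≤ (ms M : ℝ) ^ 7 := le_self_pow₀ (by linarith) (by norm_num)
    rw [hη, mul_one_div, div_le_one (by positivity)]
    linarith
  refine (mul_le_mul hP1 hP2 (prod_nonneg fun _ _ => (Real.exp_pos _).le) (by positivity)).trans ?_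
  have e1 : (3 * 2 ^ 36 : ℝ) ≤ (ms M : ℝ) ^ 17 :=
    le_trans (by norm_num) (pow_le_pow_left₀ (by norm_num) hsR 17)
  calc _ = (3 * 2 ^ 36 : ℝ) * (ms M : ℝ) ^ 36 := by ring
    _ ≤ (ms M : ℝ) ^ 17 * (ms M : ℝ) ^ 36 := by gcongr
    _ = _ := by ring

theorem kappa (h : ModOK M) {p : List ℕ} (hp : Adm M p) {X : Fin (mE M) → ℤ} (hX : X ∈ Box (loF M) (hiF M))
    (j k : Fin (mE M)) : hh M p (lift X (-X + ee j - ee k)) ≤ (ms M : ℝ) ^ 53 * Wt (hh M p) X := by
  have e1 : ∀ v : Fin (mN M), sv (mem M) v (lift X (-X + ee j - ee k)) = sv (mem M) v (lift X (-X)) +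
      ((if man M (hd (mI M) j) v = true then 1 else 0) - (if man M (hd (mI M) k) v = true then 1 else 0)) := by
    intro v
    have e2 : ∀ a : Fin (mE M), ∑ e : Fin (mE M), (if man M (hd (mI M) e) v = true then ee a e else 0) =
        if man M (hd (mI M) a) v = true then 1 else 0 := fun a => by
      rw [sum_eq_single a (fun b _ hb => by simp [ee, hb]) (by simp)]
      simp [ee]
    rw [sv_lift, sv_lift, ← e2, ← e2, ← sum_sub_distrib, ← sum_add_distrib]
    refine sum_congr rfl fun e _ => ?_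
    simp only [Pi.add_apply, Pi.sub_apply]
    split_ifs <;> ring
  unfold Wt hh hL
  rw [lamv_prod, lamv_prod, mul_left_comm]
  refine mul_le_mul_of_nonneg_left ?_ (prod_nonneg fun e _ => (zpow_pos (lamv_pos M p _) _).le)
  simp only [e1]
  refine phi_cmp h hp hX _ (fun v => ?_) (hd (mI M) j) (hd (mI M) k) fun v hv => ?_
  · split_ifs <;> simp
  · by_contra hc
    rw [not_or] at hc
    exact hv (by rw [if_neg hc.1, if_neg hc.2, sub_self])

private theorem mk_update_mem {X : Fin (mE M) → ℤ} (hX : X ∈ Box (loF M) (hiF M)) (a : Fin (mE M)) {y : ℤ}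
    (hy : y ∈ Icc (loF M a) (hiF M a)) : Function.update X a y ∈ Box (loF M) (hiF M) := by
  refine mem_Box.2 fun e => ?_
  by_cases he : e = a
  · subst he
    rw [Function.update_self]
    exact mem_Icc.1 hy
  · rw [Function.update_of_ne he]
    exact mem_Box.1 hX e

private theorem mk_val_update (X : Fin (mE M) → ℤ) (a : Fin (mE M)) (y : ℤ) (v : ℕ) :
    val M (List.ofFn (Function.update X a y)) v = val M (List.ofFn X) v - sgU M v a * (y - X a) := by
  unfold val
  rw [← Fin.sum_univ_eq_sum_range (fun e => sgU M v e * gz (List.ofFn X) e),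
    ← Fin.sum_univ_eq_sum_range (fun e => sgU M v e * gz (List.ofFn (Function.update X a y)) e)]
  simp only [gz_ofFn]
  rw [← add_sum_erase _ _ (mem_univ a), ← add_sum_erase _ _ (mem_univ a), Function.update_self,
    sum_congr rfl fun e he => by rw [Function.update_of_ne (ne_of_mem_erase he)]]
  ring

theorem small_step (h : ModOK M) {p : List ℕ} (hp : Adm M p) {X : Fin (mE M) → ℤ}
    (hX : X ∈ Box (loF M) (hiF M)) (a : Fin (mE M)) (hlt : X a < hiF M a) :
    lamv M p (a, true) * Wt (hh M p) X ≤ (ms M : ℝ) ^ 53 * Wt (hh M p) (X + ee a) ∧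
      Wt (hh M p) (X + ee a) ≤ (ms M : ℝ) ^ 53 * lamv M p (a, true) * Wt (hh M p) X := by
  have e0 : X + ee a = Function.update X a (X a + 1) := by
    funext e
    by_cases he : e = a
    · subst he; simp [ee]
    · simp [ee, he]
  have hX' : X + ee a ∈ Box (loF M) (hiF M) := by
    rw [e0]
    exact mk_update_mem hX a (mem_Icc.2 ⟨by have := (mem_Box.1 hX a).1; omega, by omega⟩)
  have e1 : ∀ v : Fin (mN M), sv (mem M) v (lift (X + ee a) (-(X + ee a))) =
      sv (mem M) v (lift X (-X)) + sgU M v a := fun v => by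
    rw [sv_val, sv_val, e0, mk_val_update]; ring
  have e2 : ∏ e, lamv M p (e, true) ^ (X + ee a : Fin (mE M) → ℤ) e =
      (∏ e, lamv M p (e, true) ^ X e) * lamv M p (a, true) :=
    lam_prod_ee (lam := fun e => lamv M p (e, true)) (fun e => lamv_pos M p _) X a
  have hab : ∀ v : Fin (mN M), |sgU M v a| ≤ 1 := fun v => by
    rcases sgU_cases M v a with h0 | h0 | h0 <;> rw [h0] <;> simp
  have hne : ∀ v : Fin (mN M), sgU M v a ≠ 0 →
      man M (tl (mI M) a) v = true ∨ man M (hd (mI M) a) v = true := fun v hv => by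
    have := (sgU_ne_iff M v a).1 hv
    by_contra hc
    rw [not_or, Bool.not_eq_true, Bool.not_eq_true] at hc
    exact this (hc.1.trans hc.2.symm)
  have k1 := phi_cmp h hp hX (fun v => sgU M v a) hab _ _ hne
  have k2 := phi_cmp h hp hX' (fun v => - sgU M v a) (fun v => by rw [abs_neg]; exact hab v) _ _
    (fun v hv => hne v (neg_ne_zero.1 hv))
  simp only [e1, add_neg_cancel_right] at k2
  have hl : 0 ≤ (∏ e, lamv M p (e, true) ^ X e) * lamv M p (a, true) :=
    mul_nonneg (prod_nonneg fun e _ => (zpow_pos (lamv_pos M p _) _).le) (lamv_pos M p _).le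
  unfold Wt hh hL
  rw [lamv_prod, lamv_prod, e2]
  simp only [e1]
  constructor
  · refine le_trans (le_of_eq (by ring)) ((mul_le_mul_of_nonneg_left k2 hl).trans (le_of_eq (by ring)))
  · exact (mul_le_mul_of_nonneg_left k1 hl).trans (le_of_eq (by ring))

theorem HH_le (h : ModOK M) {e : ℕ} (hl : large M e) : HH M e ≤ DD M e / PP (ms M) := by
  have hs := h.big
  have hP : 0 < PP (ms M) := by unfold PP; positivity
  have hK : PP (ms M) ≤ DD M e := by
    refine le_trans ?_ hl.2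
    unfold PP KK
    exact Nat.pow_le_pow_right (by omega) (by norm_num)
  have hn : 0 < Nat.size (DD M e / PP (ms M)) := Nat.size_pos.2 (Nat.div_pos hK hP)
  unfold HH
  rw [if_pos hl]
  exact Nat.lt_size.1 (by omega)

theorem smooth (h : ModOK M) {p : List ℕ} (hp : Adm M p) {X : Fin (mE M) → ℤ} (hX : X ∈ Box (loF M) (hiF M))
    (a : Fin (mE M)) (ha : large M a) {y : ℤ} (hy : y ∈ Icc (loF M a) (hiF M a)) (hya : |y - X a| ≤ HH M a) :
    Wt (hh M p) X ≤ (1 + 1 / ((Fintype.card (Fin (mE M)) : ℝ) + 1)) * Wt (hh M p) (Function.update X a y) := by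
  have hs := h.big
  have hsR : (100 : ℝ) ≤ ms M := by exact_mod_cast hs
  have hY := mk_update_mem hX a hy
  have hXO := ofFn_mem.2 hX
  have hYO := ofFn_mem.2 hY
  have hroot : ∀ v < mN M, isRoot M v → sgU M v a = 0 := fun v hv hr => by
    by_contra hne
    exact absurd ((h.forest.cut a a.2 v hv ((sgU_ne_iff M v a).1 hne)).2 hr) (not_lt.2 ha.2)
  have hlam : lamv M p (a, true) = 1 := by
    unfold lamv
    rw [if_pos rfl]
    refine prod_eq_one fun v hv => ?_
    by_cases hr : isRoot M v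
    · simp only [hroot v (mem_range.1 hv) hr, neg_zero, zpow_zero]
    · simp only [fld, if_neg hr, one_zpow]
  have e2 : ∏ e, lamv M p (e, true) ^ Function.update X a y e = ∏ e, lamv M p (e, true) ^ X e := by
    refine prod_congr rfl fun e _ => ?_
    by_cases he : e = a
    · subst he
      rw [hlam, one_zpow, one_zpow]
    · rw [Function.update_of_ne he]
  set η : ℝ := 1 / (2 * (ms M : ℝ) ^ 5) with hη
  have hη1 : 1 ≤ Real.exp η := Real.one_le_exp (by positivity)
  have hφ : ∀ v n, 0 < phi M p v n := fun v n => (lc_phi h p v).1 n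
  have key : ∀ v : Fin (mN M), phi M p v (sv (mem M) v (lift X (-X))) ≤
      Real.exp η * phi M p v (sv (mem M) v (lift (Function.update X a y) (-(Function.update X a y)))) := by
    intro v
    rw [sv_val, sv_val]
    by_cases h0 : sgU M v a = 0
    · rw [mk_val_update, h0, zero_mul, sub_zero]
      exact le_mul_of_one_le_left (hφ _ _).le hη1
    have hr : ¬ isRoot M v := fun hr => h0 (hroot v v.2 hr)
    have hg := hp.2.2 v v.2
    unfold tgt at hg
    rw [if_neg hr] at hg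
    unfold phi
    rw [if_neg hr, if_neg hr, sub_sub_cancel, sub_sub_cancel]
    obtain ⟨v1, v2⟩ := viol_le h hXO v.2 hr
    obtain ⟨w1, w2⟩ := viol_le h hYO v.2 hr
    refine mk_pen_pow h v.2 hr (t := tv M (List.ofFn (Function.update X a y)) v) (t' := tv M (List.ofFn X) v)
      (by omega) (by omega) (by omega) (by omega) hg ?_
    have hD : DD M a ≤ DD M (mpar M v) :=
      (h.forest.cut a a.2 v v.2 ((sgU_ne_iff M v a).1 h0)).1 (par_lt h v.2 hr)
    have e1 : |tv M (List.ofFn (Function.update X a y)) v - tv M (List.ofFn X) v| ≤ HH M a := by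
      have s1 : |sgU M v (mpar M v)| = 1 := by
        rcases sgU_par_self h v.2 hr with h1 | h1 <;> rw [h1] <;> rfl
      have s2 : |sgU M v a| = 1 := by
        rcases (sgU_cases M v a).resolve_left h0 with h1 | h1 <;> rw [h1] <;> rfl
      rw [tv, tv, ← mul_sub, mk_val_update, sub_sub_cancel_left, abs_mul, abs_neg, abs_mul, s1, s2, one_mul, one_mul]
      exact hya
    have e1R : |((tv M (List.ofFn (Function.update X a y)) v : ℤ) : ℝ) - (tv M (List.ofFn X) v : ℤ)| ≤ HH M a := by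
      exact_mod_cast e1
    have e3 : HH M a * ms M ^ 11 ≤ DD M (mpar M v) :=
      ((Nat.mul_le_mul_right _ (HH_le h ha)).trans (Nat.div_mul_le_self _ _)).trans hD
    have e3R : (HH M a : ℝ) * (ms M : ℝ) ^ 11 ≤ DD M (mpar M v) := by exact_mod_cast e3
    have hA : (0 : ℝ) < AA M v := by exact_mod_cast (by have := mk_AA8 h v.2 hr; omega : 0 < AA M v)
    have e4 : (AA M v : ℝ) = 8 * (ms M : ℝ) ^ 2 * DD M (mpar M v) := by unfold AA; push_cast; rfl
    rw [hη, ← mul_div_assoc, div_le_div_iff₀ hA (by positivity), e4]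
    calc _ ≤ (ms M : ℝ) ^ 8 * (4 * HH M a) * (2 * (ms M : ℝ) ^ 5) := by gcongr
      _ = 8 * (ms M : ℝ) ^ 2 * (HH M a * (ms M : ℝ) ^ 11) := by ring
      _ ≤ _ := by rw [one_mul]; gcongr
  have hP2 : ∏ _v : Fin (mN M), Real.exp η ≤ 1 + 1 / ((Fintype.card (Fin (mE M)) : ℝ) + 1) := by
    rw [prod_const, card_univ, Fintype.card_fin, Fintype.card_fin, ← Real.exp_nat_mul]
    have e1 : (mN M : ℝ) ≤ ms M := by exact_mod_cast h.sized.2.1
    have e2 : (mE M : ℝ) ≤ ms M := by exact_mod_cast h.sized.1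
    have e3 : (mN M : ℝ) * η ≤ 1 / ((mE M : ℝ) + 2) := by
      rw [hη, mul_one_div, div_le_div_iff₀ (by positivity) (by positivity)]
      have e4 : (ms M : ℝ) ^ 2 ≤ (ms M : ℝ) ^ 5 := pow_le_pow_right₀ (by linarith) (by norm_num)
      have e5 : (mN M : ℝ) * (mE M + 2) ≤ ms M * (2 * ms M) := by gcongr; linarith
      nlinarith
    have e4 : (0 : ℝ) ≤ mE M := Nat.cast_nonneg _
    refine (Real.exp_le_exp.2 e3).trans ((Real.exp_bound_div_one_sub_of_interval (by positivity) ?_).trans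
      (le_of_eq ?_))
    · rw [div_lt_one (by positivity)]; linarith
    · have : (mE M : ℝ) + 2 - 1 ≠ 0 := by linarith
      field_simp
      ring
  unfold Wt hh hL
  rw [lamv_prod, lamv_prod, e2, mul_left_comm]
  refine mul_le_mul_of_nonneg_left ?_ (prod_nonneg fun e _ => (zpow_pos (lamv_pos M p _) _).le)
  refine (prod_le_prod (fun v _ => (hφ _ _).le) fun v _ => key v).trans ?_
  rw [prod_mul_distrib]
  exact mul_le_mul_of_nonneg_right hP2 (prod_nonneg fun v _ => (hφ _ _).le)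

end Crest.Agent.R309
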