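import Crest.Agent.R309.ModPoin

/-!
# R309: the chain of the model mixes

PLAN.  Write `i < 2^b0` as `i = j + 2^b a + 4^b w`, `j, a < 2^b`, `w < 2^s` (`sum_b0`).  `mv X i = X + δ`, and swapping
`j, a` negates `δ`.  `prp_symm`: the map `(X, j, a, w) ↦ (X + δ, a, j, w)` if `X + δ ∈ Om`, identity otherwise, is an
involution of `Om × …` (`Finset.sum_involution`/`sum_nbij'`); or prove for fixed `w, j, a`:
`∑_X G X (prp X (j,a,w)) - ∑_X G (prp X (a,j,w)) X = ∑_{X, X+δ ∉ Om} G X X - ∑_{X, X-δ ∉ Om} G X X` and sum over `(j,a)`.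
`dp_ge`: all terms of `Dp` are nonnegative; `mE < 2^b` (`Nat.lt_size_self`), the index `mE` plays the role of `none`.
Keep the pairs `(j,a)` with both indices small or `mE` (then `HH = 1`, `δ = oe a - oe j`, every `w` gives `Mv`), and the
pairs `(mE, a)` with `a` large: `∑_{w < 2^s} F (w % H) = (2^s / H) ∑_{w < H} F w` as `H ∣ 2^s` (`H = 2^k ≤ DD ≤ cap < 2^s`).
`mixes`: `γ = s^300`, `z = 3 LL`; `sum_Om`, `WW_eq`, `Vr_smul`, `poincare`, `dp_ge` (`min (c x) (c y) = c min x y`),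
`4^b ≤ 4 s^2` (`Nat.size`: `2^size n ≤ 2n` for `n ≥ 1`); `card_Om`, `WW_le`, `WW_good`.
-/

set_option autoImplicit false
open Finset Crest.Agent.PTime

namespace Crest.Agent.R309

variable {M : Mod}

private theorem mm_sum_mul (m n : ℕ) (G : ℕ → ℕ → ℝ) :
    ∑ i ∈ range (m * n), G (i % m) (i / m) = ∑ j ∈ range m, ∑ k ∈ range n, G j k := by
  induction n with
  | zero => simp
  | succ n ih =>
    rw [Nat.mul_succ, sum_range_add, ih, ← sum_add_distrib]
    refine sum_congr rfl fun j hj => ?_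
    have hj' := mem_range.1 hj
    rw [sum_range_succ, Nat.mul_add_mod, Nat.mod_eq_of_lt hj', Nat.mul_add_div (by omega),
      Nat.div_eq_of_lt hj', add_zero]

theorem sum_b0 (b s : ℕ) (F : ℕ → ℕ → ℕ → ℝ) :
    ∑ i ∈ range (2 ^ (2 * b + s)), F (i % 2 ^ b) (i / 2 ^ b % 2 ^ b) (i / 4 ^ b) =
      ∑ j ∈ range (2 ^ b), ∑ a ∈ range (2 ^ b), ∑ w ∈ range (2 ^ s), F j a w := by
  have e1 : 2 ^ (2 * b + s) = 2 ^ b * (2 ^ b * 2 ^ s) := by ring
  have e2 : ∀ i : ℕ, i / 4 ^ b = i / 2 ^ b / 2 ^ b := fun i => by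
    rw [Nat.div_div_eq_div_mul, ← mul_pow, show (2 : ℕ) * 2 = 4 from rfl]
  simp only [e2]
  rw [e1, mm_sum_mul _ _ (fun j k => F j (k % 2 ^ b) (k / 2 ^ b))]
  exact sum_congr rfl fun j _ => mm_sum_mul _ _ (fun a w => F j a w)

theorem prp_mem {X : List ℤ} (hX : X ∈ Om M) (i : ℕ) : prp M X i ∈ Om M := by
  unfold prp
  split_ifs with h1
  · exact mem_Om.2 h1
  · exact hX

/-- the move with explicit indices -/
private def mvv (M : Mod) (X : List ℤ) (j a w : ℕ) : List ℤ :=
  (List.range (mE M)).map fun e =>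
    gz X e + (if e = a then ((w % HH M e + 1 : ℕ) : ℤ) else 0) - (if e = j then ((w % HH M e + 1 : ℕ) : ℤ) else 0)

private def prpp (M : Mod) (X : List ℤ) (j a w : ℕ) : List ℤ :=
  if inB M (mvv M X j a w) then mvv M X j a w else X

private theorem mvv_mvv {X : List ℤ} (hX : X.length = mE M) (j a w : ℕ) :
    mvv M (mvv M X j a w) a j w = X := by
  refine ext_gz (by simp [mvv, hX]) fun e he => ?_
  have he' : e < mE M := by simpa [mvv] using he
  unfold mvv
  rw [gz_map_range _ _ he', gz_map_range _ _ he']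
  ring

private theorem mm_sum_prp (M : Mod) (G : List ℤ → List ℤ → ℝ) :
    ∑ x ∈ Om M, ∑ i ∈ range (2 ^ b0 M), G x (prp M x i) =
      ∑ j ∈ range (2 ^ bb M), ∑ a ∈ range (2 ^ bb M), ∑ w ∈ range (2 ^ ms M), ∑ x ∈ Om M,
        G x (prpp M x j a w) := by
  rw [sum_comm, ← sum_b0 (bb M) (ms M) (fun j a w => ∑ x ∈ Om M, G x (prpp M x j a w))]
  rfl

theorem prp_symm (M : Mod) (G : List ℤ → List ℤ → ℝ) :
    ∑ x ∈ Om M, ∑ i ∈ range (2 ^ b0 M), G x (prp M x i) = ∑ x ∈ Om M, ∑ i ∈ range (2 ^ b0 M), G (prp M x i) x := by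
  have key : ∀ j a w, ∑ x ∈ Om M, (if inB M (mvv M x j a w) then G x (mvv M x j a w) else 0) =
      ∑ x ∈ Om M, (if inB M (mvv M x a j w) then G (mvv M x a j w) x else 0) := fun j a w => by
    rw [← sum_filter, ← sum_filter]
    refine sum_nbij' (fun x => mvv M x j a w) (fun x => mvv M x a j w) ?_ ?_ ?_ ?_ ?_
    · intro x hx
      obtain ⟨h1, h2⟩ := mem_filter.1 hx
      refine mem_filter.2 ⟨mem_Om.2 h2, ?_⟩
      rw [mvv_mvv (mem_Om.1 h1).1]
      exact mem_Om.1 h1
    · intro x hx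
      obtain ⟨h1, h2⟩ := mem_filter.1 hx
      refine mem_filter.2 ⟨mem_Om.2 h2, ?_⟩
      rw [mvv_mvv (mem_Om.1 h1).1]
      exact mem_Om.1 h1
    · intro x hx
      exact mvv_mvv (mem_Om.1 (mem_filter.1 hx).1).1 _ _ _
    · intro x hx
      exact mvv_mvv (mem_Om.1 (mem_filter.1 hx).1).1 _ _ _
    · intro x hx
      rw [mvv_mvv (mem_Om.1 (mem_filter.1 hx).1).1]
  have L := mm_sum_prp M G
  have R := mm_sum_prp M (fun x y => G y x)
  rw [L, R]
  have s1 : ∀ (G : List ℤ → List ℤ → ℝ) j a w, ∑ x ∈ Om M, G x (prpp M x j a w) =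
      ∑ x ∈ Om M, (if inB M (mvv M x j a w) then G x (mvv M x j a w) else 0) +
        ∑ x ∈ Om M, (if inB M (mvv M x j a w) then 0 else G x x) := fun G j a w => by
    rw [← sum_add_distrib]
    refine sum_congr rfl fun x _ => ?_
    unfold prpp
    split_ifs <;> simp
  simp only [s1 G, s1 (fun x y => G y x), sum_add_distrib]
  congr 1
  rw [sum_comm]
  exact sum_congr rfl fun a _ => sum_congr rfl fun j _ => sum_congr rfl fun w _ => key j a w

/-- the displacement of a move -/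
private def dl (M : Mod) (j a w : ℕ) : Fin (mE M) → ℤ := fun e =>
  (if (e : ℕ) = a then ((w % HH M e + 1 : ℕ) : ℤ) else 0) - (if (e : ℕ) = j then ((w % HH M e + 1 : ℕ) : ℤ) else 0)

private theorem mvv_ofFn (X : Fin (mE M) → ℤ) (j a w : ℕ) :
    mvv M (List.ofFn X) j a w = List.ofFn (X + dl M j a w) := by
  refine ext_gz (by simp [mvv]) fun e he => ?_
  have he' : e < mE M := by simpa [mvv] using he
  unfold mvv
  rw [gz_map_range _ _ he', gz_ofFn X ⟨e, he'⟩, gz_ofFn _ ⟨e, he'⟩]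
  simp only [dl, Pi.add_apply]
  ring

/-- the index of an optional coordinate -/
private def oi (M : Mod) : Option (Fin (mE M)) → ℕ
  | none => mE M
  | some a => a

private theorem oe_small {o : Option (Fin (mE M))} (ho : sml (fun a : Fin (mE M) => large M a) o) (w : ℕ)
    (e : Fin (mE M)) : (if (e : ℕ) = oi M o then ((w % HH M e + 1 : ℕ) : ℤ) else 0) = oe o e := by
  rcases o with _ | a
  · rw [if_neg (by simp only [oi]; exact e.2.ne)]
    rfl
  · simp only [oi, oe, ee, Pi.single_apply, Fin.val_inj]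
    split_ifs with h1
    · subst h1
      have : HH M e = 1 := by unfold HH; exact if_neg ho
      rw [this, Nat.mod_one]
      rfl
    · rfl

private theorem dl_small {j a : Option (Fin (mE M))} (hj : sml (fun a : Fin (mE M) => large M a) j)
    (ha : sml (fun a : Fin (mE M) => large M a) a) (w : ℕ) : dl M (oi M j) (oi M a) w = oe a - oe j := by
  funext e
  rw [dl, oe_small hj, oe_small ha]
  rfl

private theorem dl_large (a : Fin (mE M)) (w : ℕ) :
    dl M (oi M none) (oi M (some a)) w = (((w % HH M a : ℕ) : ℤ) + 1) • ee a := by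
  funext e
  rw [dl, if_neg (show ¬ (e : ℕ) = oi M none from e.2.ne)]
  simp only [oi, ee, Pi.smul_apply, Pi.single_apply, Fin.val_inj]
  split_ifs with h1
  · subst h1; simp
  · simp

private theorem HH_dvd (h : ModOK M) {e : ℕ} (he : e < mE M) : HH M e ∣ 2 ^ ms M := by
  unfold HH
  split_ifs
  · refine pow_dvd_pow 2 (le_trans (Nat.sub_le _ _) (Nat.size_le.2 ?_))
    exact lt_of_le_of_lt ((Nat.div_le_self _ _).trans (DD_le_cap h he)) (h.sized.2.2 e he)
  · exact one_dvd _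

theorem dp_ge (h : ModOK M) (W f : List ℤ → ℝ) (hW : ∀ x ∈ Om M, 0 ≤ W x) :
    Sm (fun X => W (List.ofFn X)) (loF M) (hiF M) (fun a => large M a) (fun X => f (List.ofFn X)) +
      ∑ a ∈ univ.filter (fun a : Fin (mE M) => large M a),
        Jp (fun X => W (List.ofFn X)) (loF M) (hiF M) a (HH M a) (fun X => f (List.ofFn X)) ≤
      4 ^ bb M * Dp (Om M) W (prp M) (b0 M) f := by
  set W' : (Fin (mE M) → ℤ) → ℝ := fun X => W (List.ofFn X) with hW'
  set f' : (Fin (mE M) → ℤ) → ℝ := fun X => f (List.ofFn X) with hf'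
  have hMv : ∀ δ, 0 ≤ Mv W' (loF M) (hiF M) δ f' := fun δ => by
    refine sum_nonneg fun X hX => ?_
    split_ifs with h1
    · exact mul_nonneg (le_min (hW _ (ofFn_mem.2 hX)) (hW _ (ofFn_mem.2 h1))) (sq_nonneg _)
    · exact le_rfl
  set U : ℕ → ℕ → ℝ := fun j a =>
    (∑ w ∈ range (2 ^ ms M), Mv W' (loF M) (hiF M) (dl M j a w) f') / 2 ^ ms M with hU
  have hU0 : ∀ j a, 0 ≤ U j a := fun j a => div_nonneg (sum_nonneg fun _ _ => hMv _) (by positivity)
  have hD : 4 ^ bb M * Dp (Om M) W (prp M) (b0 M) f =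
      ∑ j ∈ range (2 ^ bb M), ∑ a ∈ range (2 ^ bb M), U j a := by
    unfold Dp
    rw [← sum_div, mm_sum_prp M (fun x y => min (W x) (W y) * (f x - f y) ^ 2)]
    have e1 : ∀ j a w, ∑ x ∈ Om M, min (W x) (W (prpp M x j a w)) * (f x - f (prpp M x j a w)) ^ 2 =
        Mv W' (loF M) (hiF M) (dl M j a w) f' := fun j a w => by
      rw [sum_Om]
      refine sum_congr rfl fun X _ => ?_
      unfold prpp
      rw [mvv_ofFn]
      by_cases h1 : X + dl M j a w ∈ Box (loF M) (hiF M)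
      · rw [if_pos h1, if_pos (mem_Om.1 (ofFn_mem.2 h1))]
      · rw [if_neg h1, if_neg (fun h2 => h1 (ofFn_mem.1 (mem_Om.2 h2)))]
        simp
    simp only [e1, hU, ← sum_div]
    unfold b0
    have : (2 : ℝ) ^ (2 * bb M + ms M) = 4 ^ bb M * 2 ^ ms M := by
      rw [pow_add, pow_mul]; norm_num
    rw [this]
    field_simp
  rw [hD]
  have hinj : Function.Injective (oi M) := by
    rintro (_ | a) (_ | b) hab
    · rfl
    · exact absurd hab (by simp only [oi]; have := b.2; omega)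
    · exact absurd hab (by simp only [oi]; have := a.2; omega)
    · simp only [oi] at hab
      rw [Fin.ext hab]
  have hsub : univ.image (oi M) ⊆ range (2 ^ bb M) := by
    intro k hk
    obtain ⟨o, -, rfl⟩ := mem_image.1 hk
    have : mE M < 2 ^ bb M := Nat.lt_size_self _
    rcases o with _ | a
    · exact mem_range.2 this
    · exact mem_range.2 (a.2.trans this)
  have hle : ∀ g : ℕ → ℝ, (∀ k, 0 ≤ g k) → ∑ o, g (oi M o) ≤ ∑ k ∈ range (2 ^ bb M), g k := fun g hg => by
    rw [← sum_image (f := g) (fun x _ y _ hxy => hinj hxy)]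
    exact sum_le_sum_of_subset_of_nonneg hsub fun k _ _ => hg k
  refine le_trans ?_ (hle (fun j => ∑ a ∈ range (2 ^ bb M), U j a) fun j => sum_nonneg fun a _ => hU0 j a)
  refine le_trans ?_ (sum_le_sum fun j _ => hle (U (oi M j)) (hU0 _))
  have hsmall : ∀ j a, sml (fun a : Fin (mE M) => large M a) j → sml (fun a : Fin (mE M) => large M a) a →
      U (oi M j) (oi M a) = Mv W' (loF M) (hiF M) (oe a - oe j) f' := fun j a hj ha => by
    simp only [hU, dl_small hj ha, sum_const, card_range, nsmul_eq_mul]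
    push_cast
    field_simp
  have hlarge : ∀ a : Fin (mE M), large M a →
      U (oi M none) (oi M (some a)) = Jp W' (loF M) (hiF M) a (HH M a) f' := fun a ha => by
    obtain ⟨n, hn⟩ := HH_dvd h a.2
    have hn' : (2 : ℝ) ^ ms M = HH M a * n := by exact_mod_cast hn
    have hpos : (0 : ℝ) < HH M a * n := by rw [← hn']; positivity
    have hn0 : (n : ℝ) ≠ 0 := fun h0 => by simp [h0] at hpos
    have hH0 : (HH M a : ℝ) ≠ 0 := fun h0 => by simp [h0] at hpos
    simp only [hU, dl_large]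
    rw [hn', hn, mm_sum_mul _ _ (fun w _ => Mv W' (loF M) (hiF M) (((w : ℤ) + 1) • ee a) f')]
    simp only [sum_const, card_range, nsmul_eq_mul, ← mul_sum, Jp]
    field_simp
  have hrow : ∀ j, sml (fun a : Fin (mE M) => large M a) j →
      ∑ a ∈ univ.filter (sml (fun a : Fin (mE M) => large M a)), Mv W' (loF M) (hiF M) (oe a - oe j) f' +
        ∑ a ∈ univ.filter (fun a : Fin (mE M) => large M a), U (oi M j) (oi M (some a)) =
      ∑ o, U (oi M j) (oi M o) := fun j hj => by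
    rw [← sum_filter_add_sum_filter_not univ (sml (fun a : Fin (mE M) => large M a))]
    congr 1
    · exact sum_congr rfl fun a ha => (hsmall j a hj (mem_filter.1 ha).2).symm
    · rw [sum_filter, sum_filter, Fintype.sum_option]
      simp [sml]
  calc _ ≤ ∑ j ∈ univ.filter (sml (fun a : Fin (mE M) => large M a)), ∑ o, U (oi M j) (oi M o) := by
        rw [← sum_congr rfl fun j hj => hrow j (mem_filter.1 hj).2, sum_add_distrib]
        refine add_le_add le_rfl ?_
        rw [← sum_congr rfl fun a ha => hlarge a (mem_filter.1 ha).2]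
        exact single_le_sum (f := fun j => ∑ a ∈ univ.filter (fun a : Fin (mE M) => large M a),
          U (oi M j) (oi M (some a))) (fun j _ => sum_nonneg fun a _ => hU0 _ _)
          (mem_filter.2 ⟨mem_univ none, trivial⟩)
    _ ≤ _ := sum_le_sum_of_subset_of_nonneg (filter_subset _ _) fun j _ _ => sum_nonneg fun a _ => hU0 _ _

theorem mixes (h : ModOK M) {p : List ℕ} (hp : Adm M p) (J : ℕ) :
    Mixes (Om M) (WW M p) (prp M) (b0 M) (BB (ms M) J) (TT (ms M) J) (JJ (ms M) J) (X0 M) := by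
  have hs := h.big
  have hsR : (100 : ℝ) ≤ ms M := by exact_mod_cast hs
  have hs1 : (1 : ℝ) ≤ ms M := by linarith
  have hpos : ∀ x ∈ Om M, 0 < WW M p x := fun x hx => WW_pos h p hx
  refine ⟨hpos, fun x hx i => prp_mem hx i, prp_symm M, X0_mem h,
    ⟨ms M ^ 300, 3 * LL (ms M), Nat.one_le_pow _ _ (lt_of_lt_of_le (by norm_num) hs), fun f => ?_, ?_, le_rfl⟩, ?_⟩
  · have hW0 : ∀ x ∈ Om M, (0 : ℝ) ≤ (WW M p x : ℝ) := fun x hx => by exact_mod_cast (hpos x hx).le
    have h1 := dp_ge h (fun x => (WW M p x : ℝ)) f hW0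
    have h2 := poincare h hp (fun X => f (List.ofFn X))
    have hc := cst_pos M p
    have hMv : ∀ δ, Mv (fun X => (WW M p (List.ofFn X) : ℝ)) (loF M) (hiF M) δ (fun X => f (List.ofFn X)) =
        cst M p * Mv (Wt (hh M p)) (loF M) (hiF M) δ (fun X => f (List.ofFn X)) := fun δ => by
      unfold Mv
      rw [mul_sum]
      refine sum_congr rfl fun X hX => ?_
      split_ifs with h3
      · simp only []
        rw [WW_eq h hp hX, WW_eq h hp h3, ← mul_min_of_nonneg _ _ hc.le, mul_assoc]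
      · simp
    have hV : Vr (Om M) (fun x => (WW M p x : ℝ)) f =
        cst M p * Vr (Box (loF M) (hiF M)) (Wt (hh M p)) (fun X => f (List.ofFn X)) := by
      rw [← Vr_smul, ← Vr_congr (Box (loF M) (hiF M)) (W := fun X => (WW M p (List.ofFn X) : ℝ))
        (f := fun X => f (List.ofFn X)) (fun X hX => WW_eq h hp hX) (fun _ _ => rfl)]
      simp only [Vr, sum_Om]
    have hD : 0 ≤ Dp (Om M) (fun x => (WW M p x : ℝ)) (prp M) (b0 M) f :=
      sum_nonneg fun x hx => div_nonneg (sum_nonneg fun i _ =>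
        mul_nonneg (le_min (hW0 x hx) (hW0 _ (prp_mem hx i))) (sq_nonneg _)) (by positivity)
    have hb : (4 : ℝ) ^ bb M ≤ (ms M : ℝ) ^ 10 := by
      have e1 : 2 ^ bb M ≤ 2 * ms M := by
        have e2 : bb M ≤ Nat.size (ms M) := Nat.size_le_size h.sized.1
        have e3 : 0 < Nat.size (ms M) := Nat.size_pos.2 (by omega)
        have e4 : 2 ^ (Nat.size (ms M) - 1) ≤ ms M := Nat.lt_size.1 (by omega)
        calc 2 ^ bb M ≤ 2 ^ (Nat.size (ms M) - 1 + 1) := Nat.pow_le_pow_right (by norm_num) (by omega)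
          _ ≤ _ := by rw [pow_succ]; omega
      have e1R : (2 : ℝ) ^ bb M ≤ 2 * ms M := by exact_mod_cast e1
      calc (4 : ℝ) ^ bb M = (2 ^ bb M) ^ 2 := by rw [← pow_mul, mul_comm, pow_mul]; norm_num
        _ ≤ (2 * (ms M : ℝ)) ^ 2 := by gcongr
        _ ≤ ((ms M : ℝ) * (ms M : ℝ)) ^ 2 := by gcongr; linarith
        _ = (ms M : ℝ) ^ 4 := by ring
        _ ≤ _ := pow_le_pow_right₀ hs1 (by norm_num)
    simp only [Sm, Jp, hMv, ← mul_sum, mul_div_assoc, ← mul_add] at h1
    simp only [Sm, Jp] at h2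
    rw [hV]
    calc _ ≤ cst M p * ((ms M : ℝ) ^ 290 * _) := mul_le_mul_of_nonneg_left h2 hc.le
      _ = (ms M : ℝ) ^ 290 * (cst M p * _) := mul_left_comm _ _ _
      _ ≤ (ms M : ℝ) ^ 290 * (4 ^ bb M * _) := mul_le_mul_of_nonneg_left h1 (by positivity)
      _ ≤ (ms M : ℝ) ^ 290 * ((ms M : ℝ) ^ 10 * _) :=
          mul_le_mul_of_nonneg_left (mul_le_mul_of_nonneg_right hb hD) (by positivity)
      _ = _ := by push_cast; ring
  · rw [WW_good h p (X0_good h)]
    have h1 : ((Om M).card : ℝ) ≤ 2 ^ ms M ^ 2 := by exact_mod_cast card_Om h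
    have h2 : ms M ^ 2 ≤ LL (ms M) := Nat.pow_le_pow_right (by omega) (by norm_num)
    calc _ ≤ ∑ _x ∈ Om M, (3 : ℝ) ^ LL (ms M) :=
          sum_le_sum fun x hx => by exact_mod_cast WW_le h hp hx
      _ = (Om M).card * (3 : ℝ) ^ LL (ms M) := by simp
      _ ≤ 2 ^ LL (ms M) * (4 : ℝ) ^ LL (ms M) := by
          gcongr
          · exact h1.trans (pow_le_pow_right₀ (by norm_num) h2)
          · norm_num
      _ = _ := by rw [← mul_pow, pow_mul]; norm_num
  · unfold BB
    rw [add_assoc, pow_add 2 (TT (ms M) J)]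
    exact Nat.mul_le_mul_right _ Nat.lt_two_pow_self.le

theorem b0_le (h : ModOK M) : b0 M ≤ 3 * ms M := by
  have : bb M ≤ ms M := Nat.size_le.2 (lt_of_le_of_lt h.sized.1 Nat.lt_two_pow_self)
  unfold b0
  omega

theorem xl_le (h : ModOK M) (J : ℕ) : TT (ms M) J * (b0 M + 1 + BB (ms M) J) ≤ slen (ms M) J :=
  Nat.mul_le_mul_left _ (by have := b0_le h; omega)

theorem smp_mem (h : ModOK M) (p : List ℕ) (J : ℕ) (t : List Bool) : smp M p J t ∈ Om M :=
  sample_mem _ _ _ (fun _ hx i => prp_mem hx i) _ _ _ (X0_mem h) t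

theorem smp_mix (h : ModOK M) {p : List ℕ} (hp : Adm M p) (J : ℕ) {len : ℕ} (hlen : slen (ms M) J ≤ len)
    (f : List ℤ → ℝ) (c : ℝ) (hf : ∀ x ∈ Om M, 0 ≤ f x ∧ f x ≤ c) :
    |Ex len (fun t => f (smp M p J t)) - mu M p f| ≤ c / 2 ^ JJ (ms M) J :=
  mix (mixes h hp J) ((xl_le h J).trans hlen) f c hf

theorem smp_tv (h : ModOK M) {p : List ℕ} (hp : Adm M p) (J : ℕ) {len : ℕ} (hlen : slen (ms M) J ≤ len) :
    ∑ y ∈ Om M, |Ex len (fun t => ind (smp M p J t = y)) - (WW M p y : ℝ) / Zs M p| ≤ 2 / 2 ^ JJ (ms M) J :=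
  mix_tv (mixes h hp J) ((xl_le h J).trans hlen)

end Crest.Agent.R309
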