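import Crest.Agent.R309.P2

/-!
# R309: from unit increments to long jumps (smoothing)

PLAN.  `ker l u R x y` is the triangular kernel of width `R` reflected at both ends of `[l,u]`.  `ker_sum`: the three
sums are the sums of `tri R (y' - x)` over the three adjacent intervals `[l,u]`, `[2l-1-u, l-1]`, `[u+1, 2u+1-l]`
(reindex `y ↦ 2l-1-y`, `y ↦ 2u+1-y`, `tri` is even), which together contain `[x-R, x+R]`; `∑_d tri R d = R^2`.
`Sa a f X = ∑ y ∈ Icc (l a) (u a), ker (X a) y * f (update X a y)`.  By symmetry of `ker`, `ker_sum`, `ker_supp` and the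
smoothness hypothesis, `∑_X ω X * Sa G X ≤ β ∑_X ω X * G X` for `G ≥ 0` and every weight `ω` with
`ω X ≤ β ω (update X a y)` for `|y - X a| ≤ H a`; with Jensen this gives `Mv δ (Sa f) ≤ β Mv δ f` for `δ a = 0`
and `Gr b (Sa f) ≤ β Gr b f` for `b ≠ a`.  With `R = H a - 1`:
`Gr a (Sa f) ≤ β (9/R^4)(2R+1) * 2 H Jp ≤ 108 β Jp / R^2` (`ker_grad`, Cauchy–Schwarz over `|y - x| ≤ R`, subtract
`f ξ`; `∑_ξ ∑_{|y - ξ a| ≤ H} min(..)(..)^2 ≤ 2 H Jp`: up-jumps and down-jumps, the latter reindexed), and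
`∑ W (f - Sa f)^2 ≤ β (3/R) 2 H Jp ≤ 12 β Jp`.  `P3`: `Finset.induction_on` over `Q ⊆ filter lg`, with `n = card ι + 1`,
`β = 1 + 1/n`, `Vr_add_le` with `ε = 1/n`:
`∀ f, Vr f ≤ C β^(2|Q|) (Sm f + ∑_{a ∈ Q} cJ Jp a f + ∑_{a ∈ lg \ Q} Λ_a^2 Gr a f)`, `cJ = 108 ϱ^2 + 12 (n+1)`;
finally `β^(2 card) ≤ 9` (`(1+1/n)^n ≤ e ≤ 3`).
-/

set_option autoImplicit false
open Finset

namespace Crest.Agent.R309

noncomputable def tri (R : ℕ) (d : ℤ) : ℝ := max ((R : ℝ) - |(d : ℝ)|) 0

noncomputable def ker (l u : ℤ) (R : ℕ) (x y : ℤ) : ℝ :=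
  (tri R (y - x) + tri R (y + x - 2 * l + 1) + tri R (2 * u + 1 - y - x)) / (R : ℝ) ^ 2

namespace P3a

theorem tri_nonneg (R : ℕ) (d : ℤ) : 0 ≤ tri R d := le_max_right _ _

theorem tri_neg (R : ℕ) (d : ℤ) : tri R (-d) = tri R d := by simp [tri]

theorem tri_le (R : ℕ) (d : ℤ) : tri R d ≤ R :=
  max_le (by linarith [abs_nonneg (d : ℝ)]) (Nat.cast_nonneg _)

theorem tri_zero {R : ℕ} {d : ℤ} (h : (R : ℤ) ≤ |d|) : tri R d = 0 := by
  have : (R : ℝ) ≤ |(d : ℝ)| := by exact_mod_cast h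
  exact max_eq_right (by linarith)

theorem tri_lip (R : ℕ) (d d' : ℤ) (h : |d - d'| = 1) : |tri R d - tri R d'| ≤ 1 := by
  have h1 : |(d : ℝ) - d'| = 1 := by exact_mod_cast h
  refine (abs_max_sub_max_le_abs _ _ _).trans ?_
  rw [sub_sub_sub_cancel_left, abs_sub_comm, ← h1]
  exact abs_abs_sub_abs_le_abs_sub _ _

theorem tri_succ (R : ℕ) (d : ℤ) : tri (R + 1) d = tri R d + if |d| ≤ R then 1 else 0 := by
  split_ifs with h
  · have : |(d : ℝ)| ≤ R := by exact_mod_cast h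
    unfold tri
    rw [max_eq_left (by push_cast; linarith), max_eq_left (by linarith)]
    push_cast; ring
  · rw [tri_zero (by push_cast; omega), tri_zero (by omega), add_zero]

theorem sum_tri (x A B : ℤ) (R : ℕ) (h1 : A ≤ x - R) (h2 : x + R ≤ B) :
    ∑ y ∈ Icc A B, tri R (y - x) = (R : ℝ) ^ 2 := by
  induction R with
  | zero => simpa using sum_eq_zero fun y _ => tri_zero (R := 0) (abs_nonneg _)
  | succ R ih =>
    push_cast at h1 h2
    have e : (Icc A B).filter (fun y => |y - x| ≤ R) = Icc (x - R) (x + R) := by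
      ext y; simp only [mem_filter, mem_Icc, abs_le]; omega
    simp only [tri_succ]
    rw [sum_add_distrib, ih (by omega) (by omega), ← sum_filter, e, sum_const, Int.card_Icc,
      show x + R + 1 - (x - R) = ((2 * R + 1 : ℕ) : ℤ) by push_cast; ring, Int.toNat_natCast]
    simp; ring

end P3a

theorem ker_nonneg (l u : ℤ) (R : ℕ) (x y : ℤ) : 0 ≤ ker l u R x y := by
  exact div_nonneg (add_nonneg (add_nonneg (P3a.tri_nonneg _ _) (P3a.tri_nonneg _ _))
    (P3a.tri_nonneg _ _)) (sq_nonneg _)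

theorem ker_symm (l u : ℤ) (R : ℕ) (x y : ℤ) : ker l u R x y = ker l u R y x := by
  unfold ker
  rw [← P3a.tri_neg R (y - x), neg_sub, add_comm y x, sub_right_comm]

theorem ker_sum (l u : ℤ) (R : ℕ) (hR : 1 ≤ R) (hR' : (R : ℤ) ≤ u - l + 1) {x : ℤ} (hx : x ∈ Icc l u) :
    ∑ y ∈ Icc l u, ker l u R x y = 1 := by
  have hx' := mem_Icc.1 hx
  have h1 : ∑ y ∈ Icc l u, tri R (y + x - 2 * l + 1) = ∑ y ∈ Icc (2 * l - 1 - u) (l - 1), tri R (y - x) :=
    sum_nbij' (fun y => 2 * l - 1 - y) (fun y => 2 * l - 1 - y)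
      (fun y hy => by simp only [mem_Icc] at *; omega) (fun y hy => by simp only [mem_Icc] at *; omega)
      (fun y _ => by ring) (fun y _ => by ring)
      fun y _ => by rw [← P3a.tri_neg]; congr 1; ring
  have h2 : ∑ y ∈ Icc l u, tri R (2 * u + 1 - y - x) = ∑ y ∈ Icc (u + 1) (2 * u + 1 - l), tri R (y - x) :=
    sum_nbij' (fun y => 2 * u + 1 - y) (fun y => 2 * u + 1 - y)
      (fun y hy => by simp only [mem_Icc] at *; omega) (fun y hy => by simp only [mem_Icc] at *; omega)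
      (fun y _ => by ring) (fun y _ => by ring) fun y _ => rfl
  have h3 : Icc (2 * l - 1 - u) (2 * u + 1 - l) =
      (Icc l u ∪ Icc (2 * l - 1 - u) (l - 1)) ∪ Icc (u + 1) (2 * u + 1 - l) := by
    ext y; simp only [mem_union, mem_Icc]; omega
  have h4 := P3a.sum_tri x (2 * l - 1 - u) (2 * u + 1 - l) R (by omega) (by omega)
  rw [h3, sum_union (disjoint_left.2 fun y hy hy' => by simp only [mem_union, mem_Icc] at *; omega),
    sum_union (disjoint_left.2 fun y hy hy' => by simp only [mem_Icc] at *; omega)] at h4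
  unfold ker
  rw [← sum_div, sum_add_distrib, sum_add_distrib, h1, h2, h4]
  have : (0 : ℝ) < R := by exact_mod_cast hR
  exact div_self (by positivity)

theorem ker_supp (l u : ℤ) (R : ℕ) {x y : ℤ} (hx : x ∈ Icc l u) (hy : y ∈ Icc l u)
    (h : ker l u R x y ≠ 0) : |y - x| < R := by
  by_contra hh
  have hx' := mem_Icc.1 hx
  have hy' := mem_Icc.1 hy
  have h1 := not_lt.1 hh
  refine h ?_
  unfold ker
  rw [P3a.tri_zero h1, P3a.tri_zero (h1.trans (abs_le.2 ⟨?_, ?_⟩)),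
    P3a.tri_zero (h1.trans (abs_le.2 ⟨?_, ?_⟩))]
  · simp
  all_goals rw [abs_of_nonneg (by omega)]; omega

theorem ker_le (l u : ℤ) (R : ℕ) (hR : 1 ≤ R) (x y : ℤ) : ker l u R x y ≤ 3 / R := by
  have : (0 : ℝ) < R := by exact_mod_cast hR
  unfold ker
  rw [div_le_div_iff₀ (by positivity) this]
  nlinarith [P3a.tri_le R (y - x), P3a.tri_le R (y + x - 2 * l + 1), P3a.tri_le R (2 * u + 1 - y - x)]

theorem ker_grad (l u : ℤ) (R : ℕ) (x y : ℤ) : |ker l u R (x + 1) y - ker l u R x y| ≤ 3 / (R : ℝ) ^ 2 := by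
  unfold ker
  rw [← sub_div, abs_div, abs_of_nonneg (sq_nonneg (R : ℝ))]
  refine div_le_div_of_nonneg_right ?_ (sq_nonneg _)
  have h1 := abs_le.1 (P3a.tri_lip R (y - (x + 1)) (y - x) (by ring_nf; rfl))
  have h2 := abs_le.1 (P3a.tri_lip R (y + (x + 1) - 2 * l + 1) (y + x - 2 * l + 1) (by ring_nf; rfl))
  have h3 := abs_le.1 (P3a.tri_lip R (2 * u + 1 - y - (x + 1)) (2 * u + 1 - y - x) (by ring_nf; rfl))
  exact abs_le.2 ⟨by linarith, by linarith⟩

variable {ι : Type} [Fintype ι] [DecidableEq ι]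

/-- average over the jump lengths `1, …, H` in direction `a` -/
noncomputable def Jp (W : (ι → ℤ) → ℝ) (l u : ι → ℤ) (a : ι) (H : ℕ) (f : (ι → ℤ) → ℝ) : ℝ :=
  (∑ w ∈ range H, Mv W l u (((w : ℤ) + 1) • ee a) f) / H

namespace P3a

open Function

variable {W : (ι → ℤ) → ℝ} {l u : ι → ℤ} {a : ι} {R : ℕ} {β : ℝ}

theorem upd_mem {X : ι → ℤ} (hX : X ∈ Box l u) {y : ℤ} (hy : y ∈ Icc (l a) (u a)) :
    update X a y ∈ Box l u := by
  refine mem_Box.2 fun j => ?_
  by_cases h : j = a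
  · subst h; rw [update_self]; exact mem_Icc.1 hy
  · rw [update_of_ne h]; exact mem_Box.1 hX j

theorem crd_mem {X : ι → ℤ} (hX : X ∈ Box l u) (a : ι) : X a ∈ Icc (l a) (u a) :=
  mem_Icc.2 (mem_Box.1 hX a)

theorem ee_mem {X : ι → ℤ} (hX : X ∈ Box l u) {b : ι} (hb : X b < u b) : X + ee b ∈ Box l u := by
  refine mem_Box.2 fun j => ?_
  have := mem_Box.1 hX j
  by_cases h : j = b
  · subst h; simp only [ee, Pi.add_apply, Pi.single_eq_same]; omega
  · simpa only [ee, Pi.add_apply, Pi.single_eq_of_ne h, add_zero] using this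

theorem swap (l u : ι → ℤ) (a : ι) (F : (ι → ℤ) → ℤ → ℝ) :
    ∑ X ∈ Box l u, ∑ y ∈ Icc (l a) (u a), F X y =
      ∑ X ∈ Box l u, ∑ y ∈ Icc (l a) (u a), F (update X a y) (X a) := by
  rw [← sum_product', ← sum_product' (f := fun X y => F (update X a y) (X a))]
  exact sum_nbij' (fun p => (update p.1 a p.2, p.1 a)) (fun p => (update p.1 a p.2, p.1 a))
    (fun p hp => mem_product.2 ⟨upd_mem (mem_product.1 hp).1 (mem_product.1 hp).2,
      crd_mem (mem_product.1 hp).1 a⟩)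
    (fun p hp => mem_product.2 ⟨upd_mem (mem_product.1 hp).1 (mem_product.1 hp).2,
      crd_mem (mem_product.1 hp).1 a⟩) (fun p _ => by simp) (fun p _ => by simp) fun p _ => by simp

/-- smoothing in direction `a` -/
noncomputable def Sa (l u : ι → ℤ) (a : ι) (R : ℕ) (f : (ι → ℤ) → ℝ) (X : ι → ℤ) : ℝ :=
  ∑ y ∈ Icc (l a) (u a), ker (l a) (u a) R (X a) y * f (update X a y)

theorem jensen {s : Finset ℤ} {k g : ℤ → ℝ} (hk : ∀ y, 0 ≤ k y) (h1 : ∑ y ∈ s, k y = 1) :
    (∑ y ∈ s, k y * g y) ^ 2 ≤ ∑ y ∈ s, k y * g y ^ 2 := by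
  have h : 0 ≤ ∑ y ∈ s, k y * (g y - ∑ z ∈ s, k z * g z) ^ 2 :=
    sum_nonneg fun y _ => mul_nonneg (hk y) (sq_nonneg _)
  have e : ∀ c : ℝ, ∑ y ∈ s, k y * (g y - c) ^ 2 =
      ∑ y ∈ s, k y * g y ^ 2 - 2 * c * ∑ y ∈ s, k y * g y + c ^ 2 * ∑ y ∈ s, k y := fun c => by
    rw [mul_sum, mul_sum, ← sum_sub_distrib, ← sum_add_distrib]
    exact sum_congr rfl fun y _ => by ring
  rw [e, h1] at h
  nlinarith

theorem transfer (hR : 1 ≤ R) (hR' : (R : ℤ) ≤ u a - l a + 1) {ω G : (ι → ℤ) → ℝ} (hG : ∀ X, 0 ≤ G X)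
    (hω : ∀ X ∈ Box l u, ∀ y ∈ Icc (l a) (u a), |y - X a| ≤ (R + 1 : ℕ) → ω X ≤ β * ω (update X a y)) :
    ∑ X ∈ Box l u, ω X * Sa l u a R G X ≤ β * ∑ X ∈ Box l u, ω X * G X := by
  calc _ ≤ ∑ X ∈ Box l u, ∑ y ∈ Icc (l a) (u a),
        β * ω (update X a y) * (ker (l a) (u a) R (X a) y * G (update X a y)) := by
        refine sum_le_sum fun X hX => ?_
        rw [Sa, mul_sum]
        refine sum_le_sum fun y hy => ?_
        by_cases hk : ker (l a) (u a) R (X a) y = 0
        · simp [hk]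
        · have := ker_supp _ _ _ (crd_mem hX a) hy hk
          exact mul_le_mul_of_nonneg_right (hω X hX y hy (by push_cast; omega))
            (mul_nonneg (ker_nonneg _ _ _ _ _) (hG _))
    _ = _ := by
        rw [swap, mul_sum]
        refine sum_congr rfl fun X hX => ?_
        simp only [update_idem, update_self, update_eq_self]
        rw [← mul_sum, ← sum_mul, sum_congr rfl fun y _ => ker_symm _ _ _ y (X a),
          ker_sum _ _ _ hR hR' (crd_mem hX a)]
        ring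

theorem upd_add (X δ : ι → ℤ) (h : δ a = 0) (y : ℤ) : update (X + δ) a y = update X a y + δ := by
  funext j
  by_cases hj : j = a
  · subst hj; simp [h]
  · simp [update_of_ne hj]

theorem Sa_sub (hR : 1 ≤ R) (hR' : (R : ℤ) ≤ u a - l a + 1) {X : ι → ℤ} (hX : X ∈ Box l u) {δ : ι → ℤ}
    (h : δ a = 0) (f : (ι → ℤ) → ℝ) : (Sa l u a R f X - Sa l u a R f (X + δ)) ^ 2 ≤
      Sa l u a R (fun Y => (f Y - f (Y + δ)) ^ 2) X := by
  unfold Sa
  rw [Pi.add_apply, h, add_zero, ← sum_sub_distrib]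
  simp only [upd_add X δ h, ← mul_sub]
  exact jensen (ker_nonneg _ _ _ _) (ker_sum _ _ _ hR hR' (crd_mem hX a))

theorem Mv_nonneg (hW : ∀ X ∈ Box l u, 0 < W X) (δ : ι → ℤ) (f : (ι → ℤ) → ℝ) : 0 ≤ Mv W l u δ f :=
  sum_nonneg fun X hX => by
    split_ifs with h
    exacts [mul_nonneg (le_min (hW _ hX).le (hW _ h).le) (sq_nonneg _), le_rfl]

theorem Gr_nonneg (hW : ∀ X ∈ Box l u, 0 < W X) (b : ι) (f : (ι → ℤ) → ℝ) : 0 ≤ Gr W l u b f :=
  sum_nonneg fun X hX => by
    split_ifs with h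
    exacts [mul_nonneg (hW _ (ee_mem hX h)).le (sq_nonneg _), le_rfl]

theorem Mv_Sa (hW : ∀ X ∈ Box l u, 0 < W X) (hR : 1 ≤ R) (hR' : (R : ℤ) ≤ u a - l a + 1) (hβ : 1 ≤ β)
    (hs : ∀ X ∈ Box l u, ∀ y ∈ Icc (l a) (u a), |y - X a| ≤ (R + 1 : ℕ) → W X ≤ β * W (update X a y))
    (δ : ι → ℤ) (h : δ a = 0) (f : (ι → ℤ) → ℝ) : Mv W l u δ (Sa l u a R f) ≤ β * Mv W l u δ f := by
  have := transfer (β := β) hR hR' (ω := fun X => if X + δ ∈ Box l u then min (W X) (W (X + δ)) else 0)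
    (G := fun Y => (f Y - f (Y + δ)) ^ 2) (fun _ => sq_nonneg _) fun X hX y hy hd => by
      by_cases h1 : X + δ ∈ Box l u
      · rw [if_pos h1, ← upd_add X δ h, if_pos (upd_mem h1 hy), mul_min_of_nonneg _ _ (by linarith)]
        exact min_le_min (hs X hX y hy hd) (hs _ h1 y hy (by rwa [Pi.add_apply, h, add_zero]))
      · rw [if_neg h1]
        split_ifs with h2
        exacts [mul_nonneg (by linarith) (le_min (hW _ (upd_mem hX hy)).le (hW _ h2).le), by simp]
  simp only [ite_mul, zero_mul] at this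
  refine le_trans (sum_le_sum fun X hX => ?_) this
  split_ifs with h1
  exacts [mul_le_mul_of_nonneg_left (Sa_sub hR hR' hX h f) (le_min (hW _ hX).le (hW _ h1).le), le_rfl]

theorem Gr_Sa (hW : ∀ X ∈ Box l u, 0 < W X) (hR : 1 ≤ R) (hR' : (R : ℤ) ≤ u a - l a + 1) (hβ : 1 ≤ β)
    (hs : ∀ X ∈ Box l u, ∀ y ∈ Icc (l a) (u a), |y - X a| ≤ (R + 1 : ℕ) → W X ≤ β * W (update X a y))
    {b : ι} (hb : b ≠ a) (f : (ι → ℤ) → ℝ) : Gr W l u b (Sa l u a R f) ≤ β * Gr W l u b f := by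
  have h : ee b a = 0 := Pi.single_eq_of_ne hb.symm _
  have := transfer (β := β) hR hR' (ω := fun X => if X b < u b then W (X + ee b) else 0)
    (G := fun Y => (f Y - f (Y + ee b)) ^ 2) (fun _ => sq_nonneg _) fun X hX y hy hd => by
      rw [update_of_ne hb]
      split_ifs with h1
      · rw [← upd_add X _ h]
        exact hs _ (ee_mem hX h1) y hy (by rwa [Pi.add_apply, h, add_zero])
      · simp
  simp only [ite_mul, zero_mul] at this
  unfold Gr
  simp only [← sub_sq_comm (f _) (f (_ + ee b))]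
  refine le_trans (sum_le_sum fun X hX => ?_) this
  split_ifs with h1
  · rw [sub_sq_comm]
    exact mul_le_mul_of_nonneg_left (Sa_sub hR hR' hX h f) (hW _ (ee_mem hX h1)).le
  · exact le_rfl

theorem oe_zero {lg : ι → Prop} (ha : lg a) {o : Option ι} (ho : sml lg o) : oe o a = 0 := by
  cases o with
  | none => rfl
  | some b => exact Pi.single_eq_of_ne (fun e : a = b => ho (e ▸ ha)) _

/-- all jumps of length at most `H` -/
noncomputable def DD (W : (ι → ℤ) → ℝ) (l u : ι → ℤ) (a : ι) (H : ℕ) (f : (ι → ℤ) → ℝ) : ℝ :=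
  ∑ X ∈ Box l u, ∑ y ∈ Icc (l a) (u a), if |y - X a| ≤ H then
    min (W X) (W (update X a y)) * (f X - f (update X a y)) ^ 2 else 0

theorem DD_nonneg (hW : ∀ X ∈ Box l u, 0 < W X) (a : ι) (H : ℕ) (f : (ι → ℤ) → ℝ) :
    0 ≤ DD W l u a H f :=
  sum_nonneg fun X hX => sum_nonneg fun y hy => by
    split_ifs
    exacts [mul_nonneg (le_min (hW _ hX).le (hW _ (upd_mem hX hy)).le) (sq_nonneg _), le_rfl]

theorem add_smul_ee (X : ι → ℤ) (a : ι) (w : ℤ) : X + w • ee a = update X a (X a + w) := by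
  funext j
  by_cases hj : j = a
  · subst hj; simp [ee]
  · simp [ee, update_of_ne hj, Pi.single_eq_of_ne hj]

theorem DD_eq (W : (ι → ℤ) → ℝ) (l u : ι → ℤ) (a : ι) (H : ℕ) (f : (ι → ℤ) → ℝ) :
    DD W l u a H f = 2 * ∑ w ∈ range H, Mv W l u (((w : ℤ) + 1) • ee a) f := by
  let φ : (ι → ℤ) → ℤ → ℝ := fun X y => min (W X) (W (update X a y)) * (f X - f (update X a y)) ^ 2
  have h1 : ∑ X ∈ Box l u, ∑ y ∈ Icc (l a) (u a), (if X a < y ∧ y ≤ X a + H then φ X y else 0) =
      ∑ w ∈ range H, Mv W l u (((w : ℤ) + 1) • ee a) f := by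
    unfold Mv
    rw [sum_comm (s := range H)]
    refine sum_congr rfl fun X hX => ?_
    rw [← sum_filter, ← sum_filter]
    have hX' := mem_Box.1 hX a
    refine (sum_nbij' (fun w : ℕ => X a + (w + 1)) (fun y => (y - X a - 1).toNat) (fun w hw => ?_)
      (fun y hy => ?_) (fun w _ => by simp) (fun y hy => ?_) fun w _ => ?_).symm
    · obtain ⟨h1, h2⟩ := mem_filter.1 hw
      have h3 := mem_Box.1 h2 a
      rw [add_smul_ee, update_self] at h3
      have := mem_range.1 h1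
      exact mem_filter.2 ⟨mem_Icc.2 h3, by omega, by omega⟩
    · obtain ⟨h1, h2, h3⟩ := mem_filter.1 hy
      refine mem_filter.2 ⟨mem_range.2 (by omega), ?_⟩
      rw [add_smul_ee, show X a + (((y - X a - 1).toNat : ℤ) + 1) = y by omega]
      exact upd_mem hX h1
    · obtain ⟨h1, h2, h3⟩ := mem_filter.1 hy
      omega
    · simp only [φ, add_smul_ee]
  have h2 : ∑ X ∈ Box l u, ∑ y ∈ Icc (l a) (u a), (if y < X a ∧ X a ≤ y + H then φ X y else 0) =
      ∑ X ∈ Box l u, ∑ y ∈ Icc (l a) (u a), (if X a < y ∧ y ≤ X a + H then φ X y else 0) := by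
    rw [swap]
    refine sum_congr rfl fun X _ => sum_congr rfl fun y _ => ?_
    simp only [φ, update_self, update_idem, update_eq_self]
    rw [min_comm, sub_sq_comm]
  rw [two_mul, ← h1]
  nth_rewrite 1 [← h2]
  rw [← sum_add_distrib]
  refine sum_congr rfl fun X _ => ?_
  rw [← sum_add_distrib]
  refine sum_congr rfl fun y _ => ?_
  rcases lt_trichotomy y (X a) with h | h | h
  · rw [if_neg (fun h' : X a < y ∧ _ => by omega), add_zero]
    exact if_congr (by rw [abs_le]; omega) rfl rfl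
  · subst h; simp
  · rw [if_neg (fun h' : y < X a ∧ _ => by omega), zero_add]
    exact if_congr (by rw [abs_le]; omega) rfl rfl

theorem Gr_self (hW : ∀ X ∈ Box l u, 0 < W X) (hR : 1 ≤ R) (hR' : (R : ℤ) ≤ u a - l a + 1) (hβ : 1 ≤ β)
    (hs : ∀ X ∈ Box l u, ∀ y ∈ Icc (l a) (u a), |y - X a| ≤ (R + 1 : ℕ) → W X ≤ β * W (update X a y))
    (f : (ι → ℤ) → ℝ) : Gr W l u a (Sa l u a R f) ≤
      β * ((2 * R + 1) * (3 / (R : ℝ) ^ 2) ^ 2 * DD W l u a (R + 1) f) := by
  unfold Gr DD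
  rw [mul_sum, mul_sum]
  refine sum_le_sum fun X hX => ?_
  have hn : ∀ y ∈ Icc (l a) (u a), 0 ≤ (if |y - X a| ≤ (R + 1 : ℕ) then
      min (W X) (W (update X a y)) * (f X - f (update X a y)) ^ 2 else 0) := fun y hy => by
    split_ifs
    exacts [mul_nonneg (le_min (hW _ hX).le (hW _ (upd_mem hX hy)).le) (sq_nonneg _), le_rfl]
  split_ifs with h
  swap
  · exact mul_nonneg (by linarith) (mul_nonneg (by positivity) (sum_nonneg hn))
  have hX1 := ee_mem hX h
  have e1 : X + ee a = update X a (X a + 1) := by rw [← add_smul_ee, one_smul]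
  have e2 : (X + ee a) a = X a + 1 := by rw [e1, update_self]
  have e3 : ∀ y, update (X + ee a) a y = update X a y := fun y => by rw [e1, update_idem]
  let T := (Icc (l a) (u a)).filter fun y => |y - X a| ≤ R
  let k : ℤ → ℝ := fun y => ker (l a) (u a) R (X a + 1) y - ker (l a) (u a) R (X a) y
  have e4 : Sa l u a R f (X + ee a) - Sa l u a R f X = ∑ y ∈ T, k y * (f (update X a y) - f X) := by
    have a1 : ∑ y ∈ Icc (l a) (u a), k y = 0 := by
      rw [sum_sub_distrib, ker_sum _ _ _ hR hR' (e2 ▸ crd_mem hX1 a), ker_sum _ _ _ hR hR' (crd_mem hX a),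
        sub_self]
    rw [sum_filter_of_ne fun y hy hne => ?_]
    · simp only [mul_sub]
      rw [sum_sub_distrib, ← sum_mul, a1, zero_mul, sub_zero]
      simp only [Sa, e2, e3, k, sub_mul, sum_sub_distrib]
    · by_contra hh
      refine hne ?_
      have b1 : ker (l a) (u a) R (X a + 1) y = 0 := by
        by_contra b; have := ker_supp _ _ _ (e2 ▸ crd_mem hX1 a) hy b
        rw [abs_lt] at this; rw [abs_le] at hh; omega
      have b2 : ker (l a) (u a) R (X a) y = 0 := by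
        by_contra b; exact hh (ker_supp _ _ _ (crd_mem hX a) hy b).le
      simp [k, b1, b2]
  have hT : (T.card : ℝ) ≤ 2 * R + 1 := by
    have : T.card ≤ (Icc (X a - R) (X a + R)).card := card_le_card fun y hy => by
      have := abs_le.1 (mem_filter.1 hy).2
      exact mem_Icc.2 ⟨by omega, by omega⟩
    rw [Int.card_Icc, show X a + R + 1 - (X a - R) = ((2 * R + 1 : ℕ) : ℤ) by push_cast; ring,
      Int.toNat_natCast] at this
    exact_mod_cast this
  have hW1 := (hW _ hX1).le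
  calc _ ≤ W (X + ee a) * ((2 * R + 1) * ∑ y ∈ T, (k y * (f (update X a y) - f X)) ^ 2) := by
        rw [e4]
        exact mul_le_mul_of_nonneg_left (sq_sum_le_card_mul_sum_sq.trans
          (mul_le_mul_of_nonneg_right hT (sum_nonneg fun _ _ => sq_nonneg _))) hW1
    _ = (2 * R + 1) * ∑ y ∈ T, k y ^ 2 * (W (X + ee a) * (f X - f (update X a y)) ^ 2) := by
        rw [mul_left_comm, mul_sum]
        congr 1
        exact sum_congr rfl fun y _ => by ring
    _ ≤ (2 * R + 1) * ∑ y ∈ T, (3 / (R : ℝ) ^ 2) ^ 2 * (β * if |y - X a| ≤ (R + 1 : ℕ) then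
        min (W X) (W (update X a y)) * (f X - f (update X a y)) ^ 2 else 0) := by
        refine mul_le_mul_of_nonneg_left (sum_le_sum fun y hy => ?_) (by positivity)
        obtain ⟨hy1, hy2⟩ := mem_filter.1 hy
        refine mul_le_mul (sq_le_sq' (abs_le.1 (ker_grad _ _ _ _ _)).1 (abs_le.1 (ker_grad _ _ _ _ _)).2)
          ?_ (mul_nonneg hW1 (sq_nonneg _)) (sq_nonneg _)
        rw [if_pos (by push_cast; omega), ← mul_assoc, mul_min_of_nonneg _ _ (by linarith)]
        refine mul_le_mul_of_nonneg_right (le_min ?_ ?_) (sq_nonneg _)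
        · have := hs _ hX1 (X a) (crd_mem hX a) (by rw [e2]; simp)
          rwa [e3, update_eq_self] at this
        · have := hs _ hX1 y hy1 (by rw [e2, abs_le]; rw [abs_le] at hy2; push_cast; omega)
          rwa [e3] at this
    _ ≤ _ := by
        rw [← mul_sum, ← mul_sum, mul_left_comm β, mul_assoc]
        refine mul_le_mul_of_nonneg_left (mul_le_mul_of_nonneg_left (mul_le_mul_of_nonneg_left
          (sum_le_sum_of_subset_of_nonneg (filter_subset _ _) fun y hy _ => hn y hy) (by linarith))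
          (sq_nonneg _)) (by positivity)

theorem sub_Sa (hW : ∀ X ∈ Box l u, 0 < W X) (hR : 1 ≤ R) (hR' : (R : ℤ) ≤ u a - l a + 1) (hβ : 1 ≤ β)
    (hs : ∀ X ∈ Box l u, ∀ y ∈ Icc (l a) (u a), |y - X a| ≤ (R + 1 : ℕ) → W X ≤ β * W (update X a y))
    (f : (ι → ℤ) → ℝ) : ∑ X ∈ Box l u, W X * (f X - Sa l u a R f X) ^ 2 ≤
      β * (3 / R * DD W l u a (R + 1) f) := by
  unfold DD
  rw [mul_sum, mul_sum]
  refine sum_le_sum fun X hX => ?_
  have h1 := ker_sum _ _ _ hR hR' (crd_mem hX a)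
  have e : f X - Sa l u a R f X =
      ∑ y ∈ Icc (l a) (u a), ker (l a) (u a) R (X a) y * (f X - f (update X a y)) := by
    simp only [mul_sub]
    rw [sum_sub_distrib, ← sum_mul, h1, one_mul]; rfl
  rw [e]
  refine (mul_le_mul_of_nonneg_left (jensen (ker_nonneg _ _ _ _) h1) (hW X hX).le).trans ?_
  rw [mul_sum, mul_sum, mul_sum]
  refine sum_le_sum fun y hy => ?_
  have hm := le_min (hW _ hX).le (hW _ (upd_mem hX hy)).le
  by_cases hk : ker (l a) (u a) R (X a) y = 0
  · rw [hk, zero_mul, mul_zero]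
    refine mul_nonneg (by linarith) (mul_nonneg (by positivity) ?_)
    split_ifs
    exacts [mul_nonneg hm (sq_nonneg _), le_rfl]
  · have h2 := ker_supp _ _ _ (crd_mem hX a) hy hk
    have h3 : |y - X a| ≤ (R + 1 : ℕ) := by push_cast; omega
    rw [if_pos h3, mul_left_comm, mul_left_comm β]
    refine mul_le_mul (ker_le _ _ _ hR _ _) ?_ (mul_nonneg (hW X hX).le (sq_nonneg _)) (by positivity)
    rw [← mul_assoc, mul_min_of_nonneg _ _ (by linarith)]
    exact mul_le_mul_of_nonneg_right (le_min (le_mul_of_one_le_left (hW X hX).le hβ)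
      (hs X hX y hy h3)) (sq_nonneg _)

end P3a

theorem P3 (W : (ι → ℤ) → ℝ) (l u : ι → ℤ) (hW : ∀ X ∈ Box l u, 0 < W X) (lg : ι → Prop) [DecidablePred lg]
    (Λ : ι → ℝ) (C ϱ : ℝ) (hC : 1 ≤ C) (H : ι → ℕ)
    (hH : ∀ a, lg a → 2 ≤ H a ∧ (H a : ℤ) ≤ u a - l a + 2 ∧ 0 ≤ Λ a ∧ Λ a ≤ ϱ * ((H a : ℝ) - 1))
    (hsm : ∀ X ∈ Box l u, ∀ a, lg a → ∀ y ∈ Icc (l a) (u a), |y - X a| ≤ H a →
      W X ≤ (1 + 1 / ((Fintype.card ι : ℝ) + 1)) * W (Function.update X a y))
    (hP : ∀ f, Vr (Box l u) W f ≤ C * (Sm W l u lg f + ∑ a ∈ univ.filter lg, Λ a ^ 2 * Gr W l u a f))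
    (f : (ι → ℤ) → ℝ) :
    Vr (Box l u) W f ≤ 9 * C * (108 * ϱ ^ 2 + 12 * (Fintype.card ι + 2)) *
      (Sm W l u lg f + ∑ a ∈ univ.filter lg, Jp W l u a (H a) f) := by
  set β : ℝ := 1 + 1 / ((Fintype.card ι : ℝ) + 1) with hβ
  set cJ : ℝ := 108 * ϱ ^ 2 + 12 * (Fintype.card ι + 2) with hcJ
  have hn : (0 : ℝ) < (Fintype.card ι : ℝ) + 1 := by positivity
  have hβ1 : 1 ≤ β := le_add_of_nonneg_right (by positivity)
  have hcJ1 : 1 ≤ cJ := by
    have : (0 : ℝ) ≤ Fintype.card ι := by positivity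
    nlinarith [sq_nonneg ϱ]
  have hSm : ∀ f, 0 ≤ Sm W l u lg f := fun f =>
    sum_nonneg fun _ _ => sum_nonneg fun _ _ => P3a.Mv_nonneg hW _ _
  have hJ : ∀ a f, 0 ≤ Jp W l u a (H a) f := fun a f =>
    div_nonneg (sum_nonneg fun _ _ => P3a.Mv_nonneg hW _ _) (Nat.cast_nonneg _)
  have key : ∀ Q : Finset ι, Q ⊆ univ.filter lg → ∀ f, Vr (Box l u) W f ≤ C * β ^ (2 * Q.card) *
      (Sm W l u lg f + ∑ a ∈ Q, cJ * Jp W l u a (H a) f +
        ∑ a ∈ univ.filter lg \ Q, Λ a ^ 2 * Gr W l u a f) := by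
    intro Q
    induction Q using Finset.induction_on with
    | empty => intro _ f; simpa using hP f
    | insert a Q haQ ih =>
      intro hQ f
      have hla : lg a := (mem_filter.1 (hQ (mem_insert_self _ _))).2
      obtain ⟨H2, H3, L0, L1⟩ := hH a hla
      obtain ⟨R, hR⟩ : ∃ R, H a = R + 1 := ⟨H a - 1, by omega⟩
      have hR1 : 1 ≤ R := by omega
      have hR2 : (R : ℤ) ≤ u a - l a + 1 := by rw [hR] at H3; push_cast at H3; omega
      have hR0 : (0 : ℝ) < R := by exact_mod_cast hR1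
      have hs : ∀ X ∈ Box l u, ∀ y ∈ Icc (l a) (u a), |y - X a| ≤ (R + 1 : ℕ) →
          W X ≤ β * W (Function.update X a y) := fun X hX y hy h => hsm X hX a hla y hy (hR ▸ h)
      set g := P3a.Sa l u a R f with hg
      have h1 := Vr_add_le (Box l u) W f g hW (ε := 1 / ((Fintype.card ι : ℝ) + 1)) (by positivity)
      have h2 := ih ((subset_insert _ _).trans hQ) g
      have h3 : Sm W l u lg g ≤ β * Sm W l u lg f := by
        unfold Sm
        rw [mul_sum]
        refine sum_le_sum fun j hj => ?_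
        rw [mul_sum]
        refine sum_le_sum fun b hb => P3a.Mv_Sa hW hR1 hR2 hβ1 hs _ ?_ f
        rw [Pi.sub_apply, P3a.oe_zero hla (mem_filter.1 hj).2, P3a.oe_zero hla (mem_filter.1 hb).2,
          sub_zero]
      have h4 : ∑ b ∈ Q, cJ * Jp W l u b (H b) g ≤ β * ∑ b ∈ Q, cJ * Jp W l u b (H b) f := by
        rw [mul_sum]
        refine sum_le_sum fun b hb => ?_
        rw [mul_left_comm]
        refine mul_le_mul_of_nonneg_left ?_ (by linarith)
        unfold Jp
        rw [← mul_div_assoc, mul_sum]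
        refine div_le_div_of_nonneg_right (sum_le_sum fun w _ => P3a.Mv_Sa hW hR1 hR2 hβ1 hs _ ?_ f)
          (Nat.cast_nonneg _)
        have : a ≠ b := fun e => haQ (e ▸ hb)
        simp [ee, this]
      have e1 : univ.filter lg \ Q = insert a (univ.filter lg \ insert a Q) := by
        ext b; simp only [mem_sdiff, mem_insert, mem_filter, mem_univ, true_and]
        by_cases hb : b = a
        · subst hb; simp [hla, haQ]
        · simp [hb]
      have h5 : ∑ b ∈ univ.filter lg \ insert a Q, Λ b ^ 2 * Gr W l u b g ≤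
          β * ∑ b ∈ univ.filter lg \ insert a Q, Λ b ^ 2 * Gr W l u b f := by
        rw [mul_sum]
        refine sum_le_sum fun b hb => ?_
        rw [mul_left_comm]
        refine mul_le_mul_of_nonneg_left (P3a.Gr_Sa hW hR1 hR2 hβ1 hs ?_ f) (sq_nonneg _)
        exact fun e => (mem_sdiff.1 hb).2 (e ▸ mem_insert_self _ _)
      have hD : P3a.DD W l u a (R + 1) f ≤ 2 * (R + 1) * Jp W l u a (H a) f := by
        rw [P3a.DD_eq, Jp, hR]
        push_cast
        exact le_of_eq (by field_simp)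
      have hD0 := P3a.DD_nonneg hW a (R + 1) f
      have hJa := hJ a f
      have hR1' : (1 : ℝ) ≤ R := by exact_mod_cast hR1
      have h6 : Λ a ^ 2 * Gr W l u a g ≤ β * (108 * ϱ ^ 2 * Jp W l u a (H a) f) := by
        have a1 : Λ a ^ 2 ≤ ϱ ^ 2 * R ^ 2 := by
          rw [← mul_pow]
          refine pow_le_pow_left₀ L0 ?_ 2
          rw [hR] at L1; push_cast at L1; linarith
        have a2 := P3a.Gr_self hW hR1 hR2 hβ1 hs f
        have a3 : (2 * R + 1) * (3 / (R : ℝ) ^ 2) ^ 2 * P3a.DD W l u a (R + 1) f ≤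
            108 / R ^ 2 * Jp W l u a (H a) f := by
          refine (mul_le_mul_of_nonneg_left hD (by positivity)).trans ?_
          rw [← mul_assoc]
          refine mul_le_mul_of_nonneg_right ?_ hJa
          rw [le_div_iff₀ (by positivity)]
          field_simp
          nlinarith
        calc Λ a ^ 2 * Gr W l u a g ≤ ϱ ^ 2 * R ^ 2 * (β * (108 / R ^ 2 * Jp W l u a (H a) f)) :=
              mul_le_mul a1 (a2.trans (mul_le_mul_of_nonneg_left a3 (by linarith)))
                (P3a.Gr_nonneg hW _ _) (by positivity)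
          _ = _ := by field_simp
      have h7 : ∑ X ∈ Box l u, W X * (f X - g X) ^ 2 ≤ β * (12 * Jp W l u a (H a) f) := by
        refine (P3a.sub_Sa hW hR1 hR2 hβ1 hs f).trans (mul_le_mul_of_nonneg_left ?_ (by linarith))
        refine (mul_le_mul_of_nonneg_left hD (by positivity)).trans ?_
        rw [← mul_assoc]
        refine mul_le_mul_of_nonneg_right ?_ hJa
        rw [div_mul_eq_mul_div, div_le_iff₀ hR0]
        linarith
      rw [e1, sum_insert (by simp)] at h2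
      rw [sum_insert haQ, card_insert_of_notMem haQ]
      have hq : 1 ≤ C * β ^ (2 * Q.card) := one_le_mul_of_one_le_of_one_le hC (one_le_pow₀ hβ1)
      have e2 : C * β ^ (2 * (Q.card + 1)) = β * β * (C * β ^ (2 * Q.card)) := by ring
      have e3 : 1 + 1 / (1 / ((Fintype.card ι : ℝ) + 1)) = Fintype.card ι + 2 := by
        rw [one_div_one_div]; ring
      rw [e3, ← hβ] at h1
      rw [e2]
      set q := C * β ^ (2 * Q.card)
      set J := Jp W l u a (H a) f
      set S1 := ∑ b ∈ Q, cJ * Jp W l u b (H b) f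
      set S2 := ∑ b ∈ univ.filter lg \ insert a Q, Λ b ^ 2 * Gr W l u b f
      have h8 : Vr (Box l u) W g ≤ q * (β * (Sm W l u lg f + S1 + 108 * ϱ ^ 2 * J + S2)) :=
        h2.trans (mul_le_mul_of_nonneg_left (by linarith) (by linarith))
      have h9 : ((Fintype.card ι : ℝ) + 2) * ∑ X ∈ Box l u, W X * (f X - g X) ^ 2 ≤
          β * β * q * (12 * (Fintype.card ι + 2) * J) := by
        refine (mul_le_mul_of_nonneg_left h7 (by positivity)).trans ?_
        have : β ≤ β * β * q := by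
          rw [mul_assoc]
          exact le_mul_of_one_le_right (by linarith) (one_le_mul_of_one_le_of_one_le hβ1 hq)
        calc _ = β * (12 * (Fintype.card ι + 2) * J) := by ring
          _ ≤ _ := mul_le_mul_of_nonneg_right this (by positivity)
      have h10 := mul_le_mul_of_nonneg_left h8 (by linarith : 0 ≤ β)
      calc _ ≤ _ := h1
        _ ≤ β * (q * (β * (Sm W l u lg f + S1 + 108 * ϱ ^ 2 * J + S2))) +
          β * β * q * (12 * (Fintype.card ι + 2) * J) := add_le_add h10 h9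
        _ = _ := by rw [hcJ]; ring
  have h1 := key _ Subset.rfl f
  rw [sdiff_self, bot_eq_empty, sum_empty, add_zero, ← mul_sum] at h1
  have h2 : β ^ (2 * (univ.filter lg).card) ≤ 9 := by
    have a1 : β ^ (Fintype.card ι + 1) ≤ 3 := by
      have := Real.one_add_inv_pow_le_exp (n := Fintype.card ι + 1)
      push_cast at this
      rw [hβ, one_div]
      linarith [Real.exp_one_lt_d9]
    have a2 : (univ.filter lg).card ≤ Fintype.card ι + 1 := (card_le_univ _).trans (Nat.le_succ _)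
    calc β ^ (2 * (univ.filter lg).card) ≤ β ^ (2 * (Fintype.card ι + 1)) :=
          pow_le_pow_right₀ hβ1 (by omega)
      _ = (β ^ (Fintype.card ι + 1)) ^ 2 := by ring
      _ ≤ 3 ^ 2 := pow_le_pow_left₀ (by positivity) a1 2
      _ = 9 := by norm_num
  have h3 : 0 ≤ ∑ a ∈ univ.filter lg, Jp W l u a (H a) f := sum_nonneg fun a _ => hJ a f
  refine h1.trans ?_
  calc _ ≤ C * 9 * (cJ * (Sm W l u lg f + ∑ a ∈ univ.filter lg, Jp W l u a (H a) f)) :=
        mul_le_mul (mul_le_mul_of_nonneg_left h2 (by linarith)) (by nlinarith [hSm f])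
          (add_nonneg (hSm f) (mul_nonneg (by linarith) h3)) (by linarith)
    _ = _ := by ring

end Crest.Agent.R309
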