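import Crest.Agent.R309.ModKap
import Crest.Agent.R309.P3

/-!
# R309: Poincaré inequality for the model

PLAN.  `κ = κ1 = s^53`, `Λ a = max 1 (hi a - lo a)`, `nb = s^2` (`hi - lo + 1 ≤ cap + 1 ≤ 2^s`, `E ≤ s`), `P1` with
`kappa`: constant `≤ 6 s^109`.  `P2` with `Λs = 2 s^14` (`hi_sub_lo_le`; `DD < KK` or tree arc), `lam a = lamv (a,true)`,
`small_step`: constant `≤ s^246` (the bracket is nonnegative).  `P3` with `C = s^246`, `ϱ = 16 s^12`, `smooth`:
for `n = DD / PP ≥ s^2`, `H = 2^(size n - 1)` satisfies `H ≤ n < 2H` (`Nat.lt_size_self`, `Nat.lt_size`), so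
`DD < PP (n+1) ≤ 2 PP H ≤ 4 PP (H-1)`, and `H ≤ DD ≤ hi - lo` (`le_hi_sub_lo`).
-/

set_option autoImplicit false
open Finset Crest.Agent.PTime

namespace Crest.Agent.R309

variable {M : Mod}

private theorem mp_HH (h : ModOK M) {e : ℕ} (hl : large M e) :
    2 ≤ HH M e ∧ HH M e ≤ DD M e ∧ DD M e ≤ 2 * PP (ms M) * HH M e := by
  have hs := h.big
  have hP : 0 < PP (ms M) := by unfold PP; positivity
  have hK : PP (ms M) * 4 ≤ DD M e := by
    refine le_trans ?_ hl.2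
    unfold PP KK
    calc ms M ^ 11 * 4 ≤ ms M ^ 11 * ms M ^ 2 := Nat.mul_le_mul_left _ (by nlinarith)
      _ = ms M ^ 13 := by ring
  set n := DD M e / PP (ms M) with hn
  have hn4 : 4 ≤ n := (Nat.le_div_iff_mul_le hP).2 (by linarith)
  have hsz : 2 < Nat.size n := Nat.lt_size.2 (by norm_num; exact hn4)
  have hH : HH M e = 2 ^ (Nat.size n - 1) := by unfold HH; rw [if_pos hl]
  have h1 : n < 2 * HH M e := by
    rw [hH, ← pow_succ', Nat.sub_add_cancel (by omega)]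
    exact Nat.lt_size_self n
  have h2 : HH M e ≤ n := HH_le h hl
  have h3 : DD M e < PP (ms M) * (n + 1) := by
    rw [hn]; exact Nat.lt_mul_div_succ _ hP
  refine ⟨by omega, h2.trans (Nat.div_le_self _ _), ?_⟩
  calc DD M e ≤ PP (ms M) * (n + 1) := h3.le
    _ ≤ PP (ms M) * (2 * HH M e) := Nat.mul_le_mul_left _ (by omega)
    _ = _ := by ring

private theorem mp_Mv_nonneg {ι : Type} [Fintype ι] [DecidableEq ι] {W : (ι → ℤ) → ℝ} {l u : ι → ℤ}
    (hW : ∀ X ∈ Box l u, 0 < W X) (δ : ι → ℤ) (f : (ι → ℤ) → ℝ) : 0 ≤ Mv W l u δ f := by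
  refine sum_nonneg fun X hX => ?_
  split_ifs with h1
  · exact mul_nonneg (le_min (hW X hX).le (hW _ h1).le) (sq_nonneg _)
  · exact le_rfl

private theorem mp_c1 {s E : ℝ} (hs : 100 ≤ s) (hE : E ≤ s) :
    (2 + 4 * s ^ 53 * E) * s ^ 53 * s ^ 2 ≤ 6 * s ^ 109 := by
  have h1 : (1 : ℝ) ≤ s := by linarith
  have h2 : (1 : ℝ) ≤ s ^ 54 := one_le_pow₀ h1
  have h3 : s ^ 53 * E ≤ s ^ 54 := by
    rw [pow_succ s 53]; exact mul_le_mul_of_nonneg_left hE (by positivity)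
  have h4 : 2 + 4 * s ^ 53 * E ≤ 6 * s ^ 54 := by linarith
  calc _ ≤ 6 * s ^ 54 * s ^ 53 * s ^ 2 := by gcongr
    _ = _ := by ring

private theorem mp_c2 {s E : ℝ} (hs : 100 ≤ s) (hE : E ≤ s) :
    2 * s ^ 53 + 4 * (6 * s ^ 109) * (2 * s ^ 14) ^ 2 * (s ^ 53) ^ 2 * (E + 1) ≤ s ^ 246 := by
  have h1 : (1 : ℝ) ≤ s := by linarith
  have h2 : s ^ 53 ≤ s ^ 244 := pow_le_pow_right₀ h1 (by norm_num)
  have h3 : 4 * (6 * s ^ 109) * (2 * s ^ 14) ^ 2 * (s ^ 53) ^ 2 * (E + 1) ≤ 192 * s ^ 244 := by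
    calc _ ≤ 4 * (6 * s ^ 109) * (2 * s ^ 14) ^ 2 * (s ^ 53) ^ 2 * (2 * s) := by gcongr; linarith
      _ = _ := by ring
  have h4 : 194 * s ^ 244 ≤ s ^ 246 := by
    calc _ ≤ s ^ 2 * s ^ 244 := by gcongr; nlinarith
      _ = _ := by ring
  linarith

private theorem mp_c3 {s E : ℝ} (hs : 100 ≤ s) (hE : E ≤ s) :
    9 * s ^ 246 * (108 * (16 * s ^ 12) ^ 2 + 12 * (E + 2)) ≤ s ^ 290 := by
  have h1 : (1 : ℝ) ≤ s := by linarith
  have h2 : s ≤ s ^ 24 := by
    calc s = s ^ 1 := (pow_one s).symm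
      _ ≤ s ^ 24 := pow_le_pow_right₀ h1 (by norm_num)
  have h3 : 108 * (16 * s ^ 12) ^ 2 + 12 * (E + 2) ≤ 30000 * s ^ 24 := by
    have : (16 * s ^ 12) ^ 2 = 256 * s ^ 24 := by ring
    rw [this]; linarith
  have h4 : (270000 : ℝ) ≤ s ^ 20 := by
    calc (270000 : ℝ) ≤ 100 ^ 3 := by norm_num
      _ ≤ s ^ 3 := by gcongr
      _ ≤ s ^ 20 := pow_le_pow_right₀ h1 (by norm_num)
  calc _ ≤ 9 * s ^ 246 * (30000 * s ^ 24) := by gcongr
    _ = 270000 * s ^ 270 := by ring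
    _ ≤ s ^ 20 * s ^ 270 := by gcongr
    _ = _ := by ring

theorem poincare (h : ModOK M) {p : List ℕ} (hp : Adm M p) (f : (Fin (mE M) → ℤ) → ℝ) :
    Vr (Box (loF M) (hiF M)) (Wt (hh M p)) f ≤ (ms M : ℝ) ^ 290 *
      (Sm (Wt (hh M p)) (loF M) (hiF M) (fun a => large M a) f +
        ∑ a ∈ univ.filter (fun a : Fin (mE M) => large M a), Jp (Wt (hh M p)) (loF M) (hiF M) a (HH M a) f) := by
  have hs := h.big
  have hsR : (100 : ℝ) ≤ ms M := by exact_mod_cast hs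
  have hs1 : (1 : ℝ) ≤ ms M := by linarith
  have hE : mE M ≤ ms M := h.sized.1
  have hER : (Fintype.card (Fin (mE M)) : ℝ) ≤ ms M := by
    rw [Fintype.card_fin]; exact_mod_cast hE
  have hW : ∀ X ∈ Box (loF M) (hiF M), 0 < Wt (hh M p) X := fun X _ => hh_pos h p _
  set Λ : Fin (mE M) → ℝ := fun a => max 1 ((hiF M a - loF M a : ℤ) : ℝ) with hΛ
  have hGr : ∀ a m, 0 ≤ Gr (Wt (hh M p)) (loF M) (hiF M) a m := fun a m =>
    sum_nonneg fun ξ _ => by
      split_ifs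
      · exact mul_nonneg (hh_pos h p _).le (sq_nonneg _)
      · exact le_rfl
  have hSm : ∀ m, 0 ≤ Sm (Wt (hh M p)) (loF M) (hiF M) (fun a => large M a) m := fun m =>
    sum_nonneg fun _ _ => sum_nonneg fun _ _ => mp_Mv_nonneg hW _ _
  have hnb : ∑ j, Nat.clog 2 (hiF M j - loF M j + 1).toNat ≤ ms M ^ 2 := by
    calc _ ≤ ∑ _j : Fin (mE M), ms M := by
          refine sum_le_sum fun j _ => Nat.clog_le_of_le_pow ?_
          have h1 := lo_nonneg M j
          have h2 := hi_le_cap M j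
          have h3 := h.sized.2.2 j j.2
          simp only [hiF, loF]
          omega
      _ = mE M * ms M := by simp
      _ ≤ ms M ^ 2 := by rw [sq]; exact Nat.mul_le_mul_right _ hE
  have hP1 : ∀ m, Vr (Box (loF M) (hiF M)) (Wt (hh M p)) m ≤
      6 * (ms M : ℝ) ^ 109 * ∑ a, Λ a ^ 2 * Gr (Wt (hh M p)) (loF M) (hiF M) a m := fun m => by
    refine (P1 (hh_pos h p) (hh_lor h p) Λ (fun j => le_max_left _ _) ((ms M : ℝ) ^ 53) m (ms M ^ 2) _ _
      (loF_le h) (fun j => le_max_right _ _) (fun X hX j k => kappa h hp hX j k) hnb).trans ?_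
    refine mul_le_mul_of_nonneg_right ?_ (sum_nonneg fun a _ => mul_nonneg (sq_nonneg _) (hGr a m))
    push_cast
    exact mp_c1 hsR hER
  have hDD : ∀ a : Fin (mE M), ((hiF M a - loF M a : ℤ) : ℝ) ≤ 2 * ms M * DD M a := fun a => by
    have := hi_sub_lo_le M a
    simp only [hiF, loF]
    exact_mod_cast this
  have hΛs1 : (1 : ℝ) ≤ 2 * (ms M : ℝ) ^ 14 := by
    have : (1 : ℝ) ≤ (ms M : ℝ) ^ 14 := one_le_pow₀ hs1
    linarith
  have hP2 : ∀ m, Vr (Box (loF M) (hiF M)) (Wt (hh M p)) m ≤ (ms M : ℝ) ^ 246 *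
      (Sm (Wt (hh M p)) (loF M) (hiF M) (fun a => large M a) m +
        ∑ a ∈ univ.filter (fun a : Fin (mE M) => large M a),
          Λ a ^ 2 * Gr (Wt (hh M p)) (loF M) (hiF M) a m) := fun m => by
    refine (P2 (Wt (hh M p)) (loF M) (hiF M) hW (fun a => large M a) Λ (6 * (ms M : ℝ) ^ 109)
      (2 * (ms M : ℝ) ^ 14) ((ms M : ℝ) ^ 53) (by positivity) hΛs1 (one_le_pow₀ hs1) ?_
      (fun a => lamv M p (a, true)) (fun a => lamv_pos M p _)
      (fun X hX a _ hlt => small_step h hp hX a hlt) hP1 m).trans ?_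
    · intro a ha
      refine pow_le_pow_left₀ (le_trans zero_le_one (le_max_left _ _)) (max_le hΛs1 ?_) 2
      by_cases ht : isTree M a
      · have : hiF M a - loF M a = 0 := by simp [hiF, loF, hi, lo, ht]
        rw [this]; push_cast; positivity
      · have h1 : DD M a < KK (ms M) := by
          by_contra hc
          exact ha ⟨ht, not_lt.1 hc⟩
        have h2 : (DD M a : ℝ) ≤ (ms M : ℝ) ^ 13 := by
          unfold KK at h1; exact_mod_cast h1.le
        calc _ ≤ 2 * (ms M : ℝ) * DD M a := hDD a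
          _ ≤ 2 * (ms M : ℝ) * (ms M : ℝ) ^ 13 := by gcongr
          _ = _ := by ring
    · refine mul_le_mul_of_nonneg_right (mp_c2 hsR hER) (add_nonneg (hSm m) ?_)
      exact sum_nonneg fun a _ => mul_nonneg (sq_nonneg _) (hGr a m)
  refine (P3 (Wt (hh M p)) (loF M) (hiF M) hW (fun a => large M a) Λ ((ms M : ℝ) ^ 246)
    (16 * (ms M : ℝ) ^ 12) (one_le_pow₀ hs1) (fun a => HH M a) ?_
    (fun X hX a ha y hy hya => smooth h hp hX a ha hy hya) hP2 f).trans ?_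
  · intro a ha
    obtain ⟨h1, h2, h3⟩ := mp_HH h ha
    have h4 := le_hi_sub_lo h a.2 ha.1
    refine ⟨h1, ?_, le_trans zero_le_one (le_max_left _ _), ?_⟩
    · simp only [hiF, loF]
      omega
    · have h1R : (2 : ℝ) ≤ HH M a := by exact_mod_cast h1
      have h3R : (DD M a : ℝ) ≤ 2 * (ms M : ℝ) ^ 11 * HH M a := by
        unfold PP at h3; exact_mod_cast h3
      have h12 : (1 : ℝ) ≤ (ms M : ℝ) ^ 12 := one_le_pow₀ hs1
      refine max_le (by nlinarith) ?_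
      calc _ ≤ 2 * (ms M : ℝ) * DD M a := hDD a
        _ ≤ 2 * (ms M : ℝ) * (2 * (ms M : ℝ) ^ 11 * HH M a) := by gcongr
        _ = 4 * (ms M : ℝ) ^ 12 * HH M a := by ring
        _ ≤ _ := by nlinarith
  · refine mul_le_mul_of_nonneg_right (mp_c3 hsR hER) (add_nonneg (hSm f) ?_)
    exact sum_nonneg fun a _ => div_nonneg (sum_nonneg fun _ _ => mp_Mv_nonneg hW _ _) (Nat.cast_nonneg _)

end Crest.Agent.R309
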