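import Crest.Agent.R309.ModFeat
import Crest.Agent.R309.Lam

/-!
# R309: the weight as a laminar product

The variables are `(e, true)` (value `X e`, sitting at the tail of `e`) and `(e, false)` (value `-X e`, at the head).

PLAN.  `lam_mem`: `ForestOK.chain`, `trans`.  `lc_phi`: roots `lc_abs` and `LC.comp_sub`; otherwise `σ = ±1`
(`sgU_par_self`), `lc_gA` (`2 ≤ AA` by `AA_ge`), `LC.comp_sub`/`comp_add`, `LC.mul`, `lc_const`, `LC.pow`.
`fld_eq`: `∏_a lamv a ^ lift X (-X) a = ∏_e ∏_v fld v ^ (-(sgU v e) * X e)`, `zpow_sum`-type lemma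
(`Finset.prod_zpow`, `zpow_add₀`).  `WW_eq`: regroup `∏ i ∈ range (3 N)` as `∏_v` of three factors (induction on `N`,
`Finset.prod_range_succ`); `min (gn p i) LL = gn p i` by `gn_le_sum`; `om_root1`, `om_root2`, `val_root`; for other
vertices `gA A d = A - d` since `d ≤ A/4 ≤ A - 1` (`viol_le`).
-/

set_option autoImplicit false
open Finset Crest.Agent.PTime

namespace Crest.Agent.R309

def mem (M : Mod) (v : Fin (mN M)) (a : Fin (mE M) × Bool) : Prop :=
  man M (if a.2 = true then tl (mI M) a.1 else hd (mI M) a.1) v = true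

instance (M : Mod) (v : Fin (mN M)) (a : Fin (mE M) × Bool) : Decidable (mem M v a) := by
  unfold mem; infer_instance

/-- the field at a root -/
noncomputable def fld (M : Mod) (p : List ℕ) (v : ℕ) : ℝ :=
  if isRoot M v then (lam (ms M) : ℝ) ^ ((gn p (3 * v + 1) : ℤ) - gn p (3 * v + 2)) else 1

noncomputable def lamv (M : Mod) (p : List ℕ) (a : Fin (mE M) × Bool) : ℝ :=
  if a.2 = true then ∏ v ∈ range (mN M), fld M p v ^ (- sgU M v a.1) else 1

/-- the penalty for the value `t` on the parent arc -/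
noncomputable def pen (M : Mod) (v : ℕ) (t : ℤ) : ℝ :=
  gA (AA M v) (max (t - cap (mI M) (mpar M v)) 0) * gA (AA M v) (max (-t) 0) / (AA M v : ℝ) ^ 2

noncomputable def phi (M : Mod) (p : List ℕ) (v : Fin (mN M)) (n : ℤ) : ℝ :=
  if isRoot M v then (((lam (ms M) : ℝ))⁻¹ ^ gn p (3 * v)) ^ (balU M v - n).natAbs
  else pen M v (sgU M v (mpar M v) * (balU M v - n)) ^ gn p (3 * v)

noncomputable def cst (M : Mod) (p : List ℕ) : ℝ := ∏ v ∈ range (mN M), fld M p v ^ balU M v

noncomputable def hh (M : Mod) (p : List ℕ) : (Fin (mE M) × Bool → ℤ) → ℝ := hL (mem M) (lamv M p) (phi M p)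

def loF (M : Mod) : Fin (mE M) → ℤ := fun e => lo M e
def hiF (M : Mod) : Fin (mE M) → ℤ := fun e => hi M e

variable {M : Mod}

theorem ofFn_mem {X : Fin (mE M) → ℤ} : List.ofFn X ∈ Om M ↔ X ∈ Box (loF M) (hiF M) := by
  rw [mem_Om, mem_Box]
  constructor
  · intro h1 e
    have := h1.2 e e.2
    rwa [gz_ofFn] at this
  · intro h1
    exact ⟨by simp, fun e he => by rw [gz_ofFn X ⟨e, he⟩]; exact h1 ⟨e, he⟩⟩

theorem sum_Om (M : Mod) (G : List ℤ → ℝ) : ∑ x ∈ Om M, G x = ∑ X ∈ Box (loF M) (hiF M), G (List.ofFn X) :=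
  sum_lbox _ _ _ G

theorem loF_le (h : ModOK M) (e : Fin (mE M)) : loF M e ≤ hiF M e := lo_le_hi h e.2

theorem lam_mem (h : ModOK M) : Lam (mem M) := by
  rintro s t ⟨a, h1, h2⟩
  rcases h.forest.chain _ _ _ h1 h2 with h3 | h3
  · exact Or.inl fun b hb => h.forest.trans _ _ _ hb h3
  · exact Or.inr fun b hb => h.forest.trans _ _ _ hb h3

theorem one_le_lamR (s : ℕ) : (1 : ℝ) ≤ (lam s : ℝ) := by exact_mod_cast one_le_lam s

theorem lamR_pos (s : ℕ) : (0 : ℝ) < (lam s : ℝ) := lt_of_lt_of_le one_pos (one_le_lamR s)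

theorem fld_pos (M : Mod) (p : List ℕ) (v : ℕ) : 0 < fld M p v := by
  unfold fld
  split_ifs
  · exact zpow_pos (lamR_pos _) _
  · exact one_pos

theorem lamv_pos (M : Mod) (p : List ℕ) (a : Fin (mE M) × Bool) : 0 < lamv M p a := by
  unfold lamv
  split_ifs
  · exact prod_pos fun v _ => zpow_pos (fld_pos M p v) _
  · exact one_pos

theorem cst_pos (M : Mod) (p : List ℕ) : 0 < cst M p := by
  exact prod_pos fun v _ => zpow_pos (fld_pos M p v) _

theorem lc_pen (h : ModOK M) {v : ℕ} (hv : v < mN M) (hr : ¬ isRoot M v) : LC (pen M v) := by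
  have hA : 2 ≤ AA M v := by
    have h1 := AA_ge h hv hr
    have h2 : 1 ≤ ms M ^ 15 := Nat.one_le_pow _ _ (by have := h.big; omega)
    omega
  have hAR : (0 : ℝ) < AA M v := by exact_mod_cast (by omega : 0 < AA M v)
  have h1 := (lc_gA hA).comp_add (- (cap (mI M) (mpar M v) : ℤ))
  have h2 := (lc_gA hA).comp_sub 0
  have h3 := (h1.mul h2).mul (lc_const (c := ((AA M v : ℝ) ^ 2)⁻¹) (by positivity))
  have e : pen M v = fun n => gA (AA M v) (max (n + - (cap (mI M) (mpar M v) : ℤ)) 0) *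
      gA (AA M v) (max (0 - n) 0) * ((AA M v : ℝ) ^ 2)⁻¹ := by
    funext n
    rw [pen, div_eq_mul_inv, zero_sub, sub_eq_add_neg]
  rw [e]
  exact h3

theorem lc_phi (h : ModOK M) (p : List ℕ) (v : Fin (mN M)) : LC (phi M p v) := by
  by_cases hr : isRoot M v
  · have e : phi M p v = fun n => (((lam (ms M) : ℝ))⁻¹ ^ gn p (3 * v)) ^ (balU M v - n).natAbs := by
      funext n
      exact if_pos hr
    rw [e]
    exact (lc_abs (pow_pos (inv_pos.2 (lamR_pos _)) _)
      (pow_le_one₀ (inv_pos.2 (lamR_pos _)).le (inv_le_one_of_one_le₀ (one_le_lamR _)))).comp_sub _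
  · have e : phi M p v = fun n => pen M v (sgU M v (mpar M v) * (balU M v - n)) ^ gn p (3 * v) := by
      funext n
      exact if_neg hr
    rw [e]
    refine LC.pow ?_ _
    have h1 := lc_pen h v.2 hr
    rcases sgU_par_self h v.2 hr with h0 | h0 <;> rw [h0]
    · simpa only [one_mul] using h1.comp_sub (balU M v)
    · have := h1.comp_add (- balU M v)
      simpa only [neg_mul, one_mul, neg_sub, sub_eq_add_neg, neg_add_rev, neg_neg] using this

theorem hh_pos (h : ModOK M) (p : List ℕ) : Pos (hh M p) := hL_pos _ (lamv_pos M p) (lc_phi h p)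

theorem hh_lor (h : ModOK M) (p : List ℕ) : Lor (hh M p) := hL_lor _ (lam_mem h) (lamv_pos M p) (lc_phi h p)

theorem sv_lift (M : Mod) (v : Fin (mN M)) (X Y : Fin (mE M) → ℤ) :
    sv (mem M) v (lift X Y) = ∑ e : Fin (mE M), ((if man M (tl (mI M) e) v = true then X e else 0) +
      (if man M (hd (mI M) e) v = true then Y e else 0)) := by
  unfold sv
  rw [Fintype.sum_prod_type]
  refine sum_congr rfl fun e _ => ?_
  rw [Fintype.sum_bool]
  rfl

theorem sv_val (M : Mod) (v : Fin (mN M)) (X : Fin (mE M) → ℤ) :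
    sv (mem M) v (lift X (-X)) = balU M v - val M (List.ofFn X) v := by
  rw [sv_lift, val, sub_sub_cancel, ← Fin.sum_univ_eq_sum_range (fun e => sgU M v e * gz (List.ofFn X) e)]
  refine sum_congr rfl fun e _ => ?_
  rw [gz_ofFn]
  unfold sgU sg
  by_cases h1 : man M (tl (mI M) e) v = true <;> by_cases h2 : man M (hd (mI M) e) v = true <;> simp [h1, h2]

theorem lamv_prod (M : Mod) (p : List ℕ) (X Y : Fin (mE M) → ℤ) :
    ∏ a, lamv M p a ^ lift X Y a = ∏ e, lamv M p (e, true) ^ X e := by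
  rw [Fintype.prod_prod_type]
  refine prod_congr rfl fun e _ => ?_
  rw [Fintype.prod_bool]
  simp [lamv, lift]

theorem fld_eq (M : Mod) (p : List ℕ) (X : Fin (mE M) → ℤ) :
    cst M p * ∏ a, lamv M p a ^ lift X (-X) a = ∏ v ∈ range (mN M), fld M p v ^ val M (List.ofFn X) v := by
  have hz : ∀ (a : ℝ), 0 < a → ∀ (S : Finset (Fin (mE M))) (g : Fin (mE M) → ℤ),
      ∏ e ∈ S, a ^ g e = a ^ ∑ e ∈ S, g e := fun a ha S g => by
    induction S using Finset.induction_on with
    | empty => simp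
    | insert e S he ih => rw [prod_insert he, sum_insert he, ih, zpow_add₀ ha.ne']
  rw [lamv_prod]
  simp only [lamv, if_true, ← prod_zpow, ← zpow_mul]
  rw [prod_comm, cst, ← prod_mul_distrib]
  refine prod_congr rfl fun v _ => ?_
  rw [hz _ (fld_pos M p v), ← zpow_add₀ (fld_pos M p v).ne', val,
    ← Fin.sum_univ_eq_sum_range (fun e => sgU M v e * gz (List.ofFn X) e)]
  simp only [gz_ofFn, neg_mul, sum_neg_distrib, sub_eq_add_neg]

theorem pen_eq (h : ModOK M) {X : List ℤ} (hX : X ∈ Om M) {v : ℕ} (hv : v < mN M) (hr : ¬ isRoot M v) :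
    pen M v (tv M X v) = om M (3 * v) X := by
  obtain ⟨h1, h2⟩ := viol_le h hX hv hr
  have hA : 8 ≤ AA M v := by
    have h1 := AA_ge h hv hr
    have h2 : 1 ≤ ms M ^ 15 := Nat.one_le_pow _ _ (by have := h.big; omega)
    omega
  have e1 : 3 * v / 3 = v := by omega
  unfold om pen gA
  rw [e1, if_neg hr, if_pos (Nat.mul_mod_right 3 v), if_pos (by omega), if_pos (by omega)]
  simp only [Rat.cast_div, Rat.cast_mul, Rat.cast_pow, Rat.cast_intCast, Rat.cast_natCast, Int.cast_sub,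
    Int.cast_natCast, Rat.cast_sub]

theorem WW_eq (h : ModOK M) {p : List ℕ} (hp : Adm M p) {X : Fin (mE M) → ℤ} (hX : X ∈ Box (loF M) (hiF M)) :
    (WW M p (List.ofFn X) : ℝ) = cst M p * Wt (hh M p) X := by
  have hXO := ofFn_mem.2 hX
  have hg : ∀ (g : ℕ → ℝ) (N : ℕ), ∏ i ∈ range (3 * N), g i =
      ∏ v ∈ range N, g (3 * v) * g (3 * v + 1) * g (3 * v + 2) := fun g N => by
    induction N with
    | zero => simp
    | succ N ih =>
      rw [show 3 * (N + 1) = 3 * N + 1 + 1 + 1 by ring, prod_range_succ, prod_range_succ, prod_range_succ,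
        prod_range_succ, ih]
      ring
  have hmin : ∀ i, min (gn p i) (LL (ms M)) = gn p i := fun i => min_eq_left ((gn_le_sum p i).trans hp.2.1)
  unfold WW Wt hh hL
  rw [← mul_assoc, fld_eq, ← Fin.prod_univ_eq_prod_range (fun v => fld M p v ^ val M (List.ofFn X) v),
    ← prod_mul_distrib]
  simp only [hmin]
  push_cast
  rw [hg, ← Fin.prod_univ_eq_prod_range (fun v => (om M (3 * v) (List.ofFn X) : ℝ) ^ gn p (3 * v) *
    (om M (3 * v + 1) (List.ofFn X) : ℝ) ^ gn p (3 * v + 1) * (om M (3 * v + 2) (List.ofFn X) : ℝ) ^ gn p (3 * v + 2))]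
  refine prod_congr rfl fun v _ => ?_
  rw [sv_val]
  unfold phi fld
  rw [sub_sub_cancel]
  by_cases hr : isRoot M v
  · have e0 : om M (3 * v) (List.ofFn X) = (lam (ms M))⁻¹ ^ (val M (List.ofFn X) v).natAbs := by
      have e1 : 3 * (v : ℕ) / 3 = v := by omega
      unfold om
      rw [e1, if_pos hr, if_neg (fun hc => hc.1 (Nat.mul_mod_right 3 v)), min_eq_left (val_root h hXO v.2 hr)]
    rw [if_pos hr, if_pos hr, e0, om_root1 h hXO v.2 hr, om_root2 h hXO v.2 hr]
    push_cast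
    rw [← pow_mul, ← pow_mul, mul_comm (gn p (3 * v)), ← zpow_natCast (_ ^ val M (List.ofFn X) v),
      ← zpow_natCast (_ ^ (- val M (List.ofFn X) v)), ← zpow_mul, ← zpow_mul, ← zpow_mul, mul_assoc,
      ← zpow_add₀ (lamR_pos _).ne', mul_comm]
    congr 2
    ring
  · have e1 : ∀ c, c = 1 ∨ c = 2 → om M (3 * v + c) (List.ofFn X) = 1 := fun c hc => by
      have e1 : (3 * (v : ℕ) + c) / 3 = v := by omega
      unfold om
      rw [e1, if_neg hr, if_neg (by omega)]
    rw [if_neg hr, if_neg hr, e1 1 (Or.inl rfl), e1 2 (Or.inr rfl), ← pen_eq h hXO v.2 hr]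
    simp [tv]

end Crest.Agent.R309
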