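import Crest.Agent.R309.Range

/-!
# R309: a maximum-weight spanning forest among the arcs of weight `≥ K`

The state is `(anc, par)`: `an anc w v` says that `v` is an ancestor of `w` (`w` lies in the subtree of `v`),
`gn par v` is the arc to the parent, or `nE` for a root.  A vertex `w` is visited iff `an anc w w`.

PLAN.  Invariant (both lists have length `nV`, rows of visited vertices have length `nV`): `an w v → ` both `w, v`
visited and `< nV`; `trans`, `anti`, `chain`, `top` as below; `gn par v ≤ nE` for `v < nV`; for visited `v` with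
`gn par v < nE` both endpoints of the arc are visited, and `cross`, `big`; and with
`Sep a b d := ∀ v, an a v ≠ an b v → gn par v < nE ∧ d ≤ D (gn par v)` (reflexive, symmetric, transitive, antitone in `d`):
(A) for every arc `e` with `K ≤ D e` and both endpoints visited, `Sep (tl e) (hd e) (D e)`;
(B) for any two candidate arcs `e, e'` with visited endpoints `a, a'`: `Sep a a' (min (D e) (D e'))`.
In a step with the best candidate `e*` from `u` to the new vertex `w`: `Sep u w (D e*)` (only `v = w` separates), old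
rows do not change and do not contain `w`, so old `Sep` facts persist, and `Sep a w (D e)` for every old candidate `e`
at `a` by (B) and transitivity.  A new root is made only if there is no candidate (a nonempty candidate list has a best
element).  Each step visits a new vertex as long as there is one, so after `nV` steps all are visited; `cut` is (A) if
`K ≤ D e` and `big` otherwise.  `PT.prim`: `PT.iterate`; rows have length `≤ nV`, entries of `par` are `≤ nE`.
-/

set_option autoImplicit false
open Finset Crest.Agent.PTime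

namespace Crest.Agent.R309

def an (anc : List (List Bool)) (w v : ℕ) : Bool := (anc.getD w []).getD v false

def cands (I : Inst) (D : List ℕ) (K : ℕ) (anc : List (List Bool)) : List ℕ :=
  (List.range (nE I)).filter fun e =>
    decide (K ≤ gn D e ∧ an anc (tl I e) (tl I e) ≠ an anc (hd I e) (hd I e))

/-- attach the unvisited endpoint of `e` -/
def attach (I : Inst) (st : List (List Bool) × List ℕ) (e : ℕ) : List (List Bool) × List ℕ :=
  if an st.1 (tl I e) (tl I e) = true then
    (st.1.set (hd I e) ((st.1.getD (tl I e) []).set (hd I e) true), st.2.set (hd I e) e)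
  else (st.1.set (tl I e) ((st.1.getD (hd I e) []).set (tl I e) true), st.2.set (tl I e) e)

/-- make the first unvisited vertex a root -/
def newRoot (I : Inst) (st : List (List Bool) × List ℕ) : List (List Bool) × List ℕ :=
  ((List.range (nV I)).find? fun w => !an st.1 w w).elim st
    fun w => (st.1.set w ((List.range (nV I)).map fun v => decide (v = w)), st.2.set w (nE I))

def primStep (I : Inst) (D : List ℕ) (K : ℕ) (st : List (List Bool) × List ℕ) : List (List Bool) × List ℕ :=
  ((cands I D K st.1).find? fun e => (cands I D K st.1).all fun e' => decide (gn D e' ≤ gn D e)).elim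
    (newRoot I st) (attach I st)

def prim (I : Inst) (D : List ℕ) (K : ℕ) : List (List Bool) × List ℕ :=
  (primStep I D K)^[nV I] (List.replicate (nV I) [], List.replicate (nV I) (nE I))

structure ForestOK (I : Inst) (D : ℕ → ℕ) (K : ℕ) (a : ℕ → ℕ → Bool) (par : ℕ → ℕ) : Prop where
  self : ∀ v < nV I, a v v = true
  lt : ∀ w v, a w v = true → w < nV I ∧ v < nV I
  trans : ∀ w v u, a w v = true → a v u = true → a w u = true
  anti : ∀ w v, a w v = true → a v w = true → w = v
  chain : ∀ w v u, a w v = true → a w u = true → a v u = true ∨ a u v = true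
  par_le : ∀ v < nV I, par v ≤ nE I
  top : ∀ v < nV I, par v = nE I → ∀ u, a v u = true → u = v
  cross : ∀ v < nV I, par v < nE I → ∀ w, (a (tl I (par v)) w ≠ a (hd I (par v)) w ↔ w = v)
  big : ∀ v < nV I, par v < nE I → K ≤ D (par v)
  cut : ∀ e < nE I, ∀ v < nV I, a (tl I e) v ≠ a (hd I e) v →
    (par v < nE I → D e ≤ D (par v)) ∧ (par v = nE I → D e < K)

private def Sep (I : Inst) (D : ℕ → ℕ) (a : ℕ → ℕ → Bool) (par : ℕ → ℕ) (x y d : ℕ) : Prop :=
  ∀ v, a x v ≠ a y v → par v < nE I ∧ d ≤ D (par v)

private def Cand (I : Inst) (D : ℕ → ℕ) (K : ℕ) (a : ℕ → ℕ → Bool) (e x w : ℕ) : Prop :=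
  e < nE I ∧ K ≤ D e ∧ a x x = true ∧ a w w = false ∧ ((x = tl I e ∧ w = hd I e) ∨ (x = hd I e ∧ w = tl I e))

private theorem Sep.refl (I : Inst) (D : ℕ → ℕ) (a : ℕ → ℕ → Bool) (par : ℕ → ℕ) (x d : ℕ) :
    Sep I D a par x x d := fun _ h => (h rfl).elim

private theorem Sep.symm {I : Inst} {D : ℕ → ℕ} {a : ℕ → ℕ → Bool} {par : ℕ → ℕ} {x y d : ℕ}
    (h : Sep I D a par x y d) : Sep I D a par y x d := fun v hv => h v (Ne.symm hv)

private theorem Sep.trans {I : Inst} {D : ℕ → ℕ} {a : ℕ → ℕ → Bool} {par : ℕ → ℕ} {x y z d : ℕ}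
    (h : Sep I D a par x y d) (h' : Sep I D a par y z d) : Sep I D a par x z d := fun v hv => by
  by_cases hh : a x v = a y v
  · exact h' v (hh ▸ hv)
  · exact h v hh

private theorem Sep.mono {I : Inst} {D : ℕ → ℕ} {a : ℕ → ℕ → Bool} {par : ℕ → ℕ} {x y d d' : ℕ}
    (h : Sep I D a par x y d) (hd : d' ≤ d) : Sep I D a par x y d' := fun v hv =>
  ⟨(h v hv).1, hd.trans (h v hv).2⟩

private structure Inv (I : Inst) (D : ℕ → ℕ) (K : ℕ) (a : ℕ → ℕ → Bool) (par : ℕ → ℕ) : Prop where
  vis : ∀ w v, a w v = true → a w w = true ∧ a v v = true ∧ w < nV I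
  trans : ∀ w v u, a w v = true → a v u = true → a w u = true
  anti : ∀ w v, a w v = true → a v w = true → w = v
  chain : ∀ w v u, a w v = true → a w u = true → a v u = true ∨ a u v = true
  par_le : ∀ v < nV I, par v ≤ nE I
  top : ∀ v, par v = nE I → ∀ u, a v u = true → u = v
  cross : ∀ v, a v v = true → par v < nE I → a (tl I (par v)) (tl I (par v)) = true ∧
    a (hd I (par v)) (hd I (par v)) = true ∧ (∀ w, (a (tl I (par v)) w ≠ a (hd I (par v)) w ↔ w = v)) ∧
    K ≤ D (par v)
  sepA : ∀ e < nE I, K ≤ D e → a (tl I e) (tl I e) = true → a (hd I e) (hd I e) = true →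
    Sep I D a par (tl I e) (hd I e) (D e)
  sepB : ∀ e x w e' x' w', Cand I D K a e x w → Cand I D K a e' x' w' → Sep I D a par x x' (min (D e) (D e'))

private theorem Inv.attach {I : Inst} {D : ℕ → ℕ} {K : ℕ} {a a' : ℕ → ℕ → Bool} {par par' : ℕ → ℕ}
    (h : Inv I D K a par) {e u w : ℕ} (hc : Cand I D K a e u w) (hw : w < nV I)
    (hb : ∀ e' x' w', Cand I D K a e' x' w' → D e' ≤ D e)
    (ha : ∀ x v, a' x v = if x = w then (if v = w then true else a u v) else a x v)
    (hp : ∀ v, par' v = if v = w then e else par v) : Inv I D K a' par' := by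
  have hww : a w w = false := hc.2.2.2.1
  have hxw : ∀ x, a x w = false := fun x => by
    by_contra hn
    have := (h.vis x w (by simpa using hn)).2.1
    rw [hww] at this; cases this
  have hne : ∀ x v, a x v = true → x ≠ w ∧ v ≠ w := fun x v hv => by
    constructor
    · rintro rfl
      have := (h.vis _ _ hv).1
      rw [hww] at this; cases this
    · rintro rfl
      rw [hxw] at hv; cases hv
  have hold : ∀ x v, x ≠ w → a' x v = a x v := fun x v hx => by rw [ha, if_neg hx]
  have hnew : ∀ v, v ≠ w → a' w v = a u v := fun v hv => by rw [ha, if_pos rfl, if_neg hv]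
  have hnw : a' w w = true := by rw [ha, if_pos rfl, if_pos rfl]
  have hu : u ≠ w := (hne u u hc.2.2.1).1
  have hpers : ∀ x y d, x ≠ w → y ≠ w → Sep I D a par x y d → Sep I D a' par' x y d := by
    intro x y d hx hy hs v hv
    rw [hold _ _ hx, hold _ _ hy] at hv
    have hvw : v ≠ w := by
      rintro rfl
      exact hv (by rw [hxw, hxw])
    rw [hp, if_neg hvw]
    exact hs v hv
  have huw : Sep I D a' par' u w (D e) := by
    intro v hv
    by_cases hvw : v = w
    · rw [hp, if_pos hvw]; exact ⟨hc.1, le_rfl⟩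
    · rw [hold _ _ hu, hnew _ hvw] at hv; exact (hv rfl).elim
  have hcw : ∀ e' x' w', Cand I D K a e' x' w' → Sep I D a' par' x' w (D e') := by
    intro e' x' w' hc'
    have h1 := h.sepB _ _ _ _ _ _ hc' hc
    rw [min_eq_left (hb _ _ _ hc')] at h1
    exact (hpers _ _ _ (hne _ _ hc'.2.2.1).1 hu h1).trans (huw.mono (hb _ _ _ hc'))
  have hcold : ∀ e' x' w', Cand I D K a' e' x' w' → x' ≠ w → Cand I D K a e' x' w' := by
    intro e' x' w' hc' hx
    have hw' : w' ≠ w := by
      rintro rfl
      have := hc'.2.2.2.1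
      rw [hnw] at this; cases this
    exact ⟨hc'.1, hc'.2.1, by rw [← hold _ _ hx]; exact hc'.2.2.1, by rw [← hold _ _ hw']; exact hc'.2.2.2.1,
      hc'.2.2.2.2⟩
  refine ⟨fun x v hv => ?_, fun x v z h1 h2 => ?_, fun x v h1 h2 => ?_, fun x v z h1 h2 => ?_,
    fun v hv => ?_, fun v h1 z h2 => ?_, fun v h1 h2 => ?_, fun e' he' h1 h2 h3 => ?_,
    fun e1 x1 w1 e2 x2 w2 h1 h2 => ?_⟩
  · by_cases hx : x = w
    · subst hx
      refine ⟨hnw, ?_, hw⟩
      by_cases hv' : v = x
      · rw [hv']; exact hnw
      · rw [hnew _ hv'] at hv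
        rw [hold _ _ hv']; exact (h.vis _ _ hv).2.1
    · rw [hold _ _ hx] at hv
      rw [hold _ _ hx, hold _ _ (hne _ _ hv).2]
      exact h.vis _ _ hv
  · by_cases hx : x = w
    · subst hx
      by_cases hv' : v = x
      · rw [hv'] at h2; exact h2
      · rw [hnew _ hv'] at h1
        rw [hold _ _ hv'] at h2
        rw [hnew _ (hne _ _ h2).2]
        exact h.trans _ _ _ h1 h2
    · rw [hold _ _ hx] at h1 ⊢
      rw [hold _ _ (hne _ _ h1).2] at h2
      exact h.trans _ _ _ h1 h2
  · by_cases hx : x = w
    · by_cases hv' : v = w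
      · rw [hx, hv']
      · rw [hold _ _ hv', hx, hxw] at h2; cases h2
    · rw [hold _ _ hx] at h1
      rw [hold _ _ (hne _ _ h1).2] at h2
      exact h.anti _ _ h1 h2
  · by_cases hx : x = w
    · subst hx
      by_cases hv' : v = x
      · rw [hv']; exact Or.inl h2
      · by_cases hz : z = x
        · rw [hz]; exact Or.inr h1
        · rw [hnew _ hv'] at h1
          rw [hnew _ hz] at h2
          rw [hold _ _ hv', hold _ _ hz]
          exact h.chain _ _ _ h1 h2
    · rw [hold _ _ hx] at h1 h2
      rw [hold _ _ (hne _ _ h1).2, hold _ _ (hne _ _ h2).2]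
      exact h.chain _ _ _ h1 h2
  · rw [hp]
    split_ifs
    · exact hc.1.le
    · exact h.par_le v hv
  · by_cases hv : v = w
    · rw [hp, if_pos hv] at h1
      exact (hc.1.ne h1).elim
    · rw [hp, if_neg hv] at h1
      rw [hold _ _ hv] at h2
      exact h.top v h1 z h2
  · by_cases hv : v = w
    · subst hv
      rw [hp, if_pos rfl]
      have huu : a' u u = true := by rw [hold _ _ hu]; exact hc.2.2.1
      have hk : ∀ z, a' u z ≠ a' v z ↔ z = v := fun z => by
        constructor
        · intro hz
          by_contra hn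
          exact hz (by rw [hold _ _ hu, hnew _ hn])
        · rintro rfl
          rw [hold _ _ hu, hxw, hnw]; simp
      rcases hc.2.2.2.2 with ⟨h3, h4⟩ | ⟨h3, h4⟩
      · rw [← h3, ← h4]
        exact ⟨huu, hnw, hk, hc.2.1⟩
      · rw [← h3, ← h4]
        exact ⟨hnw, huu, fun z => ne_comm.trans (hk z), hc.2.1⟩
    · rw [hp, if_neg hv] at h2 ⊢
      rw [hold _ _ hv] at h1
      obtain ⟨g1, g2, g3, g4⟩ := h.cross v h1 h2
      simp only [hold _ _ (hne _ _ g1).1, hold _ _ (hne _ _ g2).1]
      exact ⟨g1, g2, g3, g4⟩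
  · by_cases ht : tl I e' = w
    · by_cases hh : hd I e' = w
      · rw [ht, hh]; exact Sep.refl _ _ _ _ _ _
      · rw [hold _ _ hh] at h3
        rw [ht]
        exact (hcw e' _ w ⟨he', h1, h3, hww, Or.inr ⟨rfl, ht.symm⟩⟩).symm
    · rw [hold _ _ ht] at h2
      by_cases hh : hd I e' = w
      · rw [hh]
        exact hcw e' _ w ⟨he', h1, h2, hww, Or.inl ⟨rfl, hh.symm⟩⟩
      · rw [hold _ _ hh] at h3
        exact hpers _ _ _ ht hh (h.sepA e' he' h1 h2 h3)
  · by_cases g1 : x1 = w
    · by_cases g2 : x2 = w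
      · rw [g1, g2]; exact Sep.refl _ _ _ _ _ _
      · rw [g1]
        exact ((hcw _ _ _ (hcold _ _ _ h2 g2)).mono (min_le_right _ _)).symm
    · by_cases g2 : x2 = w
      · rw [g2]
        exact (hcw _ _ _ (hcold _ _ _ h1 g1)).mono (min_le_left _ _)
      · exact hpers _ _ _ g1 g2 (h.sepB _ _ _ _ _ _ (hcold _ _ _ h1 g1) (hcold _ _ _ h2 g2))

private theorem Inv.root {I : Inst} {D : ℕ → ℕ} {K : ℕ} {a a' : ℕ → ℕ → Bool} {par par' : ℕ → ℕ}
    (h : Inv I D K a par) {w : ℕ} (hww : a w w = false) (hw : w < nV I)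
    (hb : ∀ e' x' w', ¬ Cand I D K a e' x' w')
    (ha : ∀ x v, a' x v = if x = w then decide (v = w) else a x v)
    (hp : ∀ v, par' v = if v = w then nE I else par v) : Inv I D K a' par' := by
  have hxw : ∀ x, a x w = false := fun x => by
    by_contra hn
    have := (h.vis x w (by simpa using hn)).2.1
    rw [hww] at this; cases this
  have hne : ∀ x v, a x v = true → x ≠ w ∧ v ≠ w := fun x v hv => by
    constructor
    · rintro rfl
      have := (h.vis _ _ hv).1
      rw [hww] at this; cases this
    · rintro rfl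
      rw [hxw] at hv; cases hv
  have hold : ∀ x v, x ≠ w → a' x v = a x v := fun x v hx => by rw [ha, if_neg hx]
  have hnew : ∀ v, a' w v = true → v = w := fun v hv => by
    rw [ha, if_pos rfl] at hv
    simpa using hv
  have hnw : a' w w = true := by rw [ha, if_pos rfl]; simp
  have hpers : ∀ x y d, x ≠ w → y ≠ w → Sep I D a par x y d → Sep I D a' par' x y d := by
    intro x y d hx hy hs v hv
    rw [hold _ _ hx, hold _ _ hy] at hv
    have hvw : v ≠ w := by
      rintro rfl
      exact hv (by rw [hxw, hxw])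
    rw [hp, if_neg hvw]
    exact hs v hv
  have hcold : ∀ e' x' w', Cand I D K a' e' x' w' → x' = w := by
    intro e' x' w' hc'
    by_contra hx
    have hw' : w' ≠ w := by
      rintro rfl
      have := hc'.2.2.2.1
      rw [hnw] at this; cases this
    exact hb e' x' w' ⟨hc'.1, hc'.2.1, by rw [← hold _ _ hx]; exact hc'.2.2.1,
      by rw [← hold _ _ hw']; exact hc'.2.2.2.1, hc'.2.2.2.2⟩
  refine ⟨fun x v hv => ?_, fun x v z h1 h2 => ?_, fun x v h1 h2 => ?_, fun x v z h1 h2 => ?_,
    fun v hv => ?_, fun v h1 z h2 => ?_, fun v h1 h2 => ?_, fun e' he' h1 h2 h3 => ?_,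
    fun e1 x1 w1 e2 x2 w2 h1 h2 => ?_⟩
  · by_cases hx : x = w
    · subst hx
      rw [hnew _ hv]
      exact ⟨hnw, hnw, hw⟩
    · rw [hold _ _ hx] at hv
      rw [hold _ _ hx, hold _ _ (hne _ _ hv).2]
      exact h.vis _ _ hv
  · by_cases hx : x = w
    · subst hx
      rw [hnew _ h1] at h2; exact h2
    · rw [hold _ _ hx] at h1 ⊢
      rw [hold _ _ (hne _ _ h1).2] at h2
      exact h.trans _ _ _ h1 h2
  · by_cases hx : x = w
    · subst hx
      exact (hnew _ h1).symm
    · rw [hold _ _ hx] at h1
      rw [hold _ _ (hne _ _ h1).2] at h2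
      exact h.anti _ _ h1 h2
  · by_cases hx : x = w
    · subst hx
      rw [hnew _ h1]; exact Or.inl h2
    · rw [hold _ _ hx] at h1 h2
      rw [hold _ _ (hne _ _ h1).2, hold _ _ (hne _ _ h2).2]
      exact h.chain _ _ _ h1 h2
  · rw [hp]
    split_ifs
    · exact le_rfl
    · exact h.par_le v hv
  · by_cases hv : v = w
    · subst hv
      exact hnew _ h2
    · rw [hp, if_neg hv] at h1
      rw [hold _ _ hv] at h2
      exact h.top v h1 z h2
  · by_cases hv : v = w
    · rw [hp, if_pos hv] at h2
      exact (lt_irrefl _ h2).elim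
    · rw [hp, if_neg hv] at h2 ⊢
      rw [hold _ _ hv] at h1
      obtain ⟨g1, g2, g3, g4⟩ := h.cross v h1 h2
      simp only [hold _ _ (hne _ _ g1).1, hold _ _ (hne _ _ g2).1]
      exact ⟨g1, g2, g3, g4⟩
  · by_cases ht : tl I e' = w
    · by_cases hh : hd I e' = w
      · rw [ht, hh]; exact Sep.refl _ _ _ _ _ _
      · rw [hold _ _ hh] at h3
        exact (hb e' _ w ⟨he', h1, h3, hww, Or.inr ⟨rfl, ht.symm⟩⟩).elim
    · rw [hold _ _ ht] at h2
      by_cases hh : hd I e' = w
      · exact (hb e' _ w ⟨he', h1, h2, hww, Or.inl ⟨rfl, hh.symm⟩⟩).elim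
      · rw [hold _ _ hh] at h3
        exact hpers _ _ _ ht hh (h.sepA e' he' h1 h2 h3)
  · rw [hcold _ _ _ h1, hcold _ _ _ h2]; exact Sep.refl _ _ _ _ _ _

private theorem getD_set' {β : Type} (l : List β) (u v : ℕ) (o d : β) (h : u < l.length) :
    (l.set u o).getD v d = if v = u then o else l.getD v d := by
  simp only [List.getD_eq_getElem?_getD, List.getElem?_set]
  by_cases h' : v = u
  · subst h'; simp [h]
  · simp [h', Ne.symm h']

private theorem mem_cands {I : Inst} {D : List ℕ} {K : ℕ} {anc : List (List Bool)} {e : ℕ} :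
    e ∈ cands I D K anc ↔ ∃ x w, Cand I (gn D) K (an anc) e x w := by
  simp only [cands, List.mem_filter, List.mem_range, decide_eq_true_eq, Cand]
  constructor
  · rintro ⟨h1, h2, h3⟩
    cases h : an anc (tl I e) (tl I e)
    · refine ⟨hd I e, tl I e, h1, h2, ?_, h, Or.inr ⟨rfl, rfl⟩⟩
      rw [h] at h3; simpa using h3
    · refine ⟨tl I e, hd I e, h1, h2, h, ?_, Or.inl ⟨rfl, rfl⟩⟩
      rw [h] at h3; simpa using h3
  · rintro ⟨x, w, h1, h2, h3, h4, ⟨rfl, rfl⟩ | ⟨rfl, rfl⟩⟩
    · exact ⟨h1, h2, by rw [h3, h4]; simp⟩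
    · exact ⟨h1, h2, by rw [h3, h4]; simp⟩

private theorem step_cases (I : Inst) (D : List ℕ) (K : ℕ) (st : List (List Bool) × List ℕ) :
    (∃ e u w, Cand I (gn D) K (an st.1) e u w ∧ (∀ e' x' w', Cand I (gn D) K (an st.1) e' x' w' → gn D e' ≤ gn D e) ∧
      primStep I D K st = (st.1.set w ((st.1.getD u []).set w true), st.2.set w e)) ∨
    (∃ w < nV I, an st.1 w w = false ∧ (∀ e' x' w', ¬ Cand I (gn D) K (an st.1) e' x' w') ∧
      primStep I D K st = (st.1.set w ((List.range (nV I)).map fun v => decide (v = w)), st.2.set w (nE I))) ∨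
    ((∀ w < nV I, an st.1 w w = true) ∧ primStep I D K st = st) := by
  unfold primStep
  cases h : (cands I D K st.1).find? fun e => (cands I D K st.1).all fun e' => decide (gn D e' ≤ gn D e) with
  | some e =>
    left
    obtain ⟨u, w, hc⟩ := mem_cands.1 (List.mem_of_find?_eq_some h)
    have h1 := List.find?_some h
    simp only [List.all_eq_true, decide_eq_true_eq] at h1
    refine ⟨e, u, w, hc, fun e' x' w' hc' => h1 e' (mem_cands.2 ⟨_, _, hc'⟩), ?_⟩
    change attach I st e = _
    unfold attach
    obtain ⟨-, -, h3, h4, ⟨rfl, rfl⟩ | ⟨rfl, rfl⟩⟩ := hc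
    · rw [if_pos h3]
    · rw [if_neg (by rw [h4]; simp)]
  | none =>
    right
    have hb : ∀ e' x' w', ¬ Cand I (gn D) K (an st.1) e' x' w' := by
      intro e' x' w' hc
      obtain ⟨e, he, hm⟩ := exists_max_image (cands I D K st.1).toFinset (gn D)
        ⟨e', List.mem_toFinset.2 (mem_cands.2 ⟨_, _, hc⟩)⟩
      have := List.find?_eq_none.1 h e (List.mem_toFinset.1 he)
      apply this
      simp only [List.all_eq_true, decide_eq_true_eq]
      exact fun e' he' => hm e' (List.mem_toFinset.2 he')
    change _ ∨ (_ ∧ newRoot I st = st)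
    change (∃ w < nV I, an st.1 w w = false ∧ _ ∧ newRoot I st = _) ∨ _
    unfold newRoot
    cases h' : (List.range (nV I)).find? fun w => !an st.1 w w with
    | some w =>
      left
      have h1 := List.find?_some h'
      exact ⟨w, List.mem_range.1 (List.mem_of_find?_eq_some h'), by simpa using h1, hb, rfl⟩
    | none =>
      right
      refine ⟨fun w hw => ?_, rfl⟩
      simpa using List.find?_eq_none.1 h' w (List.mem_range.2 hw)

private def Good (I : Inst) (D : List ℕ) (K n : ℕ) (st : List (List Bool) × List ℕ) : Prop :=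
  st.1.length = nV I ∧ st.2.length = nV I ∧ (∀ x, an st.1 x x = true → (st.1.getD x []).length = nV I) ∧
    Inv I (gn D) K (an st.1) (gn st.2) ∧ ((range (nV I)).filter fun v => an st.1 v v = false).card ≤ nV I - n

private theorem cnt_step {n N w : ℕ} {a a' : ℕ → ℕ → Bool} (hw : w < N) (h1 : a w w = false) (h2 : a' w w = true)
    (h3 : ∀ x, x ≠ w → a' x x = a x x) (h : ((range N).filter fun v => a v v = false).card ≤ N - n) :
    ((range N).filter fun v => a' v v = false).card ≤ N - (n + 1) := by
  have : ((range N).filter fun v => a' v v = false).card < ((range N).filter fun v => a v v = false).card := by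
    refine card_lt_card ⟨fun u hu => ?_, fun hsub => ?_⟩
    · rw [mem_filter] at hu ⊢
      refine ⟨hu.1, ?_⟩
      by_cases hh : u = w
      · rw [hh]; exact h1
      · rw [← h3 u hh]; exact hu.2
    · have := (mem_filter.1 (hsub (mem_filter.2 ⟨mem_range.2 hw, h1⟩))).2
      rw [h2] at this; cases this
  omega

private theorem Good.step {I : Inst} (hI : WF I) {D : List ℕ} {K n : ℕ} {st : List (List Bool) × List ℕ}
    (h : Good I D K n st) : Good I D K (n + 1) (primStep I D K st) := by
  obtain ⟨h1, h2, h3, h4, h5⟩ := h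
  rcases step_cases I D K st with ⟨e, u, w, hc, hb, hs⟩ | ⟨w, hw, hww, hb, hs⟩ | ⟨hv, hs⟩
  · have hw : w < nV I := by
      rcases hc.2.2.2.2 with ⟨-, rfl⟩ | ⟨-, rfl⟩
      · exact (hI e hc.1).2
      · exact (hI e hc.1).1
    have hu := h3 u hc.2.2.1
    have ha : ∀ x v, an (st.1.set w ((st.1.getD u []).set w true)) x v =
        if x = w then (if v = w then true else an st.1 u v) else an st.1 x v := by
      intro x v
      unfold an
      rw [getD_set' _ _ _ _ _ (by omega)]
      split_ifs with g1 g2
      · rw [getD_set' _ _ _ _ _ (by omega), if_pos g2]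
      · rw [getD_set' _ _ _ _ _ (by omega), if_neg g2]
      · rfl
    rw [hs]
    refine ⟨by simp [h1], by simp [h2], fun x hx => ?_, h4.attach hc hw hb ha fun v => ?_,
      cnt_step hw hc.2.2.2.1 (by simp only [ha, if_true]) (fun x hx => by simp only [ha, if_neg hx]) h5⟩
    · simp only [ha] at hx
      simp only
      rw [getD_set' _ _ _ _ _ (by omega)]
      split_ifs with g1
      · rw [List.length_set, hu]
      · rw [if_neg g1] at hx
        exact h3 x hx
    · exact getD_set' _ _ _ _ _ (by omega)
  · have ha : ∀ x v, an (st.1.set w ((List.range (nV I)).map fun v => decide (v = w))) x v =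
        if x = w then decide (v = w) else an st.1 x v := by
      intro x v
      unfold an
      rw [getD_set' _ _ _ _ _ (by omega)]
      split_ifs with g1
      · by_cases hv : v < nV I
        · simp [List.getD_eq_getElem?_getD, hv]
        · have : v ≠ w := by omega
          simp [List.getD_eq_getElem?_getD, hv, this]
      · rfl
    rw [hs]
    refine ⟨by simp [h1], by simp [h2], fun x hx => ?_, h4.root hww hw hb ha fun v => ?_,
      cnt_step hw hww (by simp [ha]) (fun x hx => by simp [ha, hx]) h5⟩
    · simp only [ha] at hx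
      simp only
      rw [getD_set' _ _ _ _ _ (by omega)]
      split_ifs with g1
      · simp
      · rw [if_neg g1] at hx
        exact h3 x hx
    · exact getD_set' _ _ _ _ _ (by omega)
  · rw [hs]
    refine ⟨h1, h2, h3, h4, ?_⟩
    rw [filter_false_of_mem fun v hv' => by rw [hv v (mem_range.1 hv')]; simp]
    simp

private theorem good_iter {I : Inst} (hI : WF I) (D : List ℕ) (K n : ℕ) :
    Good I D K n ((primStep I D K)^[n] (List.replicate (nV I) [], List.replicate (nV I) (nE I))) := by
  induction n with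
  | succ n ih => rw [Function.iterate_succ_apply']; exact ih.step hI
  | zero =>
    have ha : ∀ x v, an (List.replicate (nV I) []) x v = false := by
      intro x v
      unfold an
      by_cases hx : x < nV I <;> simp [List.getD_eq_getElem?_getD, hx]
    refine ⟨by simp, by simp, fun x hx => ?_, ?_, ?_⟩
    · simp [ha] at hx
    · refine ⟨?_, ?_, ?_, ?_, fun v hv => ?_, ?_, ?_, ?_, ?_⟩
      any_goals simp [ha]
      · simp [gn, List.getD_eq_getElem?_getD, hv]
      · intro e x w e' x' w' h
        have := h.2.2.1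
        simp [ha] at this
    · simpa using card_filter_le (range (nV I)) _

theorem prim_ok {I : Inst} (hI : WF I) (D : List ℕ) (K : ℕ) :
    ForestOK I (gn D) K (an (prim I D K).1) (gn (prim I D K).2) := by
  obtain ⟨-, -, -, h, h5⟩ : Good I D K (nV I) (prim I D K) := good_iter hI D K (nV I)
  have hv : ∀ v < nV I, an (prim I D K).1 v v = true := by
    intro v hv
    by_contra hn
    have : v ∈ (range (nV I)).filter fun v => an (prim I D K).1 v v = false :=
      mem_filter.2 ⟨mem_range.2 hv, by simpa using hn⟩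
    have := card_pos.2 ⟨v, this⟩
    omega
  refine ⟨hv, fun w v h1 => ⟨(h.vis _ _ h1).2.2, (h.vis _ _ (h.vis _ _ h1).2.1).2.2⟩, h.trans, h.anti, h.chain,
    h.par_le, fun v _ => h.top v, fun v h1 h2 => (h.cross v (hv v h1) h2).2.2.1,
    fun v h1 h2 => (h.cross v (hv v h1) h2).2.2.2, fun e he v h1 h2 => ?_⟩
  by_cases hK : K ≤ gn D e
  · have := h.sepA e he hK (hv _ (hI e he).1) (hv _ (hI e he).2) v h2
    exact ⟨fun _ => this.2, fun h3 => (this.1.ne h3).elim⟩
  · refine ⟨fun h3 => ?_, fun _ => by omega⟩
    have := (h.cross v (hv v h1) h3).2.2.2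
    omega

private theorem iter_sz (I : Inst) (D : List ℕ) (K n : ℕ) :
    sz ((primStep I D K)^[n] (List.replicate (nV I) [], List.replicate (nV I) (nE I))) ≤
      (nV I * (nV I * (3 + 1) + 1 + 1) + 1) + (nV I * (4 * nE I + 1 + 1) + 1) + 1 := by
  have key : ∀ n, ∀ st, st = (primStep I D K)^[n] (List.replicate (nV I) [], List.replicate (nV I) (nE I)) →
      st.1.length = nV I ∧ st.2.length = nV I ∧ (∀ r ∈ st.1, r.length ≤ nV I) ∧ ∀ p ∈ st.2, p ≤ nE I := by
    intro n
    induction n with
    | zero =>
      rintro st rfl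
      refine ⟨by simp, by simp, fun r hr => ?_, fun p hp => ?_⟩
      · rw [List.eq_of_mem_replicate hr]; simp
      · rw [List.eq_of_mem_replicate hp]
    | succ n ih =>
      rintro st rfl
      rw [Function.iterate_succ_apply']
      obtain ⟨h1, h2, h3, h4⟩ := ih _ rfl
      generalize (primStep I D K)^[n] (List.replicate (nV I) [], List.replicate (nV I) (nE I)) = st at *
      rcases step_cases I D K st with ⟨e, u, w, hc, -, hs⟩ | ⟨w, -, -, -, hs⟩ | ⟨-, hs⟩
      · rw [hs]
        refine ⟨by simp [h1], by simp [h2], fun r hr => ?_, fun p hp => ?_⟩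
        · rcases List.mem_or_eq_of_mem_set hr with hr | rfl
          · exact h3 r hr
          · rw [List.length_set]
            by_cases hu : u < st.1.length
            · rw [List.getD_eq_getElem _ _ hu]; exact h3 _ (List.getElem_mem hu)
            · rw [List.getD_eq_default _ _ (by omega)]; simp
        · rcases List.mem_or_eq_of_mem_set hp with hp | rfl
          · exact h4 p hp
          · exact hc.1.le
      · rw [hs]
        refine ⟨by simp [h1], by simp [h2], fun r hr => ?_, fun p hp => ?_⟩
        · rcases List.mem_or_eq_of_mem_set hr with hr | rfl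
          · exact h3 r hr
          · simp
        · rcases List.mem_or_eq_of_mem_set hp with hp | rfl
          · exact h4 p hp
          · exact le_rfl
      · rw [hs]; exact ⟨h1, h2, h3, h4⟩
  obtain ⟨h1, h2, h3, h4⟩ := key n _ rfl
  generalize (primStep I D K)^[n] (List.replicate (nV I) [], List.replicate (nV I) (nE I)) = st at *
  have a1 := sz_list_le (l := st.1) (B := nV I * (3 + 1) + 1) fun r hr => by
    have := sz_list_le (l := r) (B := 3) fun b _ => sz_bool b
    have := Nat.mul_le_mul_right (3 + 1) (h3 r hr)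
    omega
  have a2 := sz_list_le (l := st.2) (B := 4 * nE I + 1) fun p hp =>
    sz_le_of_lt ((h4 p hp).trans_lt Nat.lt_two_pow_self)
  rw [h1] at a1
  rw [h2] at a2
  rw [sz_prod]
  omega

section pt
variable {α : Type} [Enc α]

@[fun_prop] theorem PT.an {A : α → List (List Bool)} {w v : α → ℕ} (h : PT A) (hw : PT w) (hv : PT v) :
    PT (fun a => an (A a) (w a) (v a)) := by
  unfold R309.an; fun_prop

@[fun_prop] theorem PT.cands {I : α → Inst} {D : α → List ℕ} {K : α → ℕ} {A : α → List (List Bool)} (hI : PT I)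
    (hD : PT D) (hK : PT K) (hA : PT A) : PT (fun a => cands (I a) (D a) (K a) (A a)) := by
  unfold R309.cands; fun_prop

@[fun_prop] theorem PT.attach {I : α → Inst} {st : α → List (List Bool) × List ℕ} {e : α → ℕ} (hI : PT I)
    (hs : PT st) (he : PT e) : PT (fun a => attach (I a) (st a) (e a)) := by
  unfold R309.attach; fun_prop

@[fun_prop] theorem PT.newRoot {I : α → Inst} {st : α → List (List Bool) × List ℕ} (hI : PT I)
    (hs : PT st) : PT (fun a => newRoot (I a) (st a)) := by
  unfold R309.newRoot; fun_prop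

@[fun_prop] theorem PT.primStep {I : α → Inst} {D : α → List ℕ} {K : α → ℕ} {st : α → List (List Bool) × List ℕ}
    (hI : PT I) (hD : PT D) (hK : PT K) (hs : PT st) : PT (fun a => primStep (I a) (D a) (K a) (st a)) := by
  unfold R309.primStep
  exact PT.option_elim (f := fun a e => R309.attach (I a) (st a) e) (by fun_prop) (by fun_prop) (by fun_prop)

@[fun_prop] theorem PT.prim {I : α → Inst} {D : α → List ℕ} {K : α → ℕ} (hI : PT I) (hD : PT D) (hK : PT K) :
    PT (fun a => prim (I a) (D a) (K a)) := by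
  unfold R309.prim
  exact PT.iterate (f := fun a => R309.primStep (I a) (D a) (K a)) (by fun_prop) (by fun_prop) (by fun_prop)
    (by fun_prop)
    (B := fun a => (R309.nV (I a) * (R309.nV (I a) * (3 + 1) + 1 + 1) + 1) +
      (R309.nV (I a) * (4 * R309.nE (I a) + 1 + 1) + 1) + 1) (by fun_prop) fun a i _ => iter_sz _ _ _ _

end pt

end Crest.Agent.R309
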