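import Crest.Agent.R309.Flow
import Crest.Agent.R309.Prim
import Crest.Agent.R309.Chain

/-!
# R309: the softened model

A model consists of an instance, a size parameter `s`, a flow `x0`, approximate ranges `up`, `dn` of the arc values
and a spanning forest.  A configuration `X` gives values to the arcs outside the forest (`0` on forest arcs).  For a
vertex `v`, `val M X v` is the amount that still has to leave the subtree of `v`; `X` is `good` if this vanishes for
roots and fits the parent arc otherwise; `ext M X` is then a flow.  The weight `WW M p X` is a product of powers of the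
features `om M i X`, `i = 3 v + c`.
-/

set_option autoImplicit false
open Finset Crest.Agent.PTime

namespace Crest.Agent.R309

abbrev Mod : Type := Inst × U × List ℤ × List ℕ × List ℕ × List (List Bool) × List ℕ

def mI (M : Mod) : Inst := M.1
def ms (M : Mod) : ℕ := M.2.1.val
def mx (M : Mod) : List ℤ := M.2.2.1
def mup (M : Mod) (e : ℕ) : ℕ := gn M.2.2.2.1 e
def mdn (M : Mod) (e : ℕ) : ℕ := gn M.2.2.2.2.1 e
def man (M : Mod) (w v : ℕ) : Bool := an M.2.2.2.2.2.1 w v
def mpar (M : Mod) (v : ℕ) : ℕ := gn M.2.2.2.2.2.2 v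
def mE (M : Mod) : ℕ := nE (mI M)
def mN (M : Mod) : ℕ := nV (mI M)
def DD (M : Mod) (e : ℕ) : ℕ := mup M e + mdn M e

/-! parameters -/
def kk (s : ℕ) : ℕ := s ^ 8
def PP (s : ℕ) : ℕ := s ^ 11
def KK (s : ℕ) : ℕ := s ^ 13
def MM (s : ℕ) : ℕ := 2 * s ^ 15
def jj (s : ℕ) : ℕ := MM s * (11 * Nat.size s)
def LL (s : ℕ) : ℕ := s ^ 21
def mm (s : ℕ) : ℕ := s ^ 69
def JJ (s J : ℕ) : ℕ := J + 23 * s
def TT (s J : ℕ) : ℕ := 4 * s ^ 300 * (3 * LL s + 2 * JJ s J + 2)
def BB (s J : ℕ) : ℕ := TT s J + JJ s J + 1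
def slen (s J : ℕ) : ℕ := TT s J * (3 * s + 1 + BB s J)
def lam (s : ℕ) : ℚ := 1 + 1 / (MM s : ℚ)

structure ModOK (M : Mod) : Prop where
  wf : WF (mI M)
  sized : Sized (mI M) (ms M)
  big : 100 ≤ ms M
  flow : IsFlow (mI M) (mx M)
  range : RangeOK (mI M) (ms M) (mx M) (mup M) (mdn M)
  forest : ForestOK (mI M) (DD M) (KK (ms M)) (man M) (mpar M)

def isRoot (M : Mod) (v : ℕ) : Prop := mpar M v = mE M
def isTree (M : Mod) (e : ℕ) : Prop := ∃ v < mN M, mpar M v = e
instance (M : Mod) (v : ℕ) : Decidable (isRoot M v) := by unfold isRoot; infer_instance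
instance (M : Mod) (e : ℕ) : Decidable (isTree M e) := by unfold isTree; infer_instance

def lo (M : Mod) (e : ℕ) : ℤ := if isTree M e then 0 else max 0 (gz (mx M) e - 2 * ms M * mdn M e)
def hi (M : Mod) (e : ℕ) : ℤ :=
  if isTree M e then 0 else min (cap (mI M) e : ℤ) (gz (mx M) e + 2 * ms M * mup M e)

def large (M : Mod) (e : ℕ) : Prop := ¬ isTree M e ∧ KK (ms M) ≤ DD M e
instance (M : Mod) (e : ℕ) : Decidable (large M e) := by unfold large; infer_instance

/-- the largest jump length -/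
def HH (M : Mod) (e : ℕ) : ℕ := if large M e then 2 ^ (Nat.size (DD M e / PP (ms M)) - 1) else 1

def sgU (M : Mod) (v e : ℕ) : ℤ := sg (mI M) (fun w => man M w v) e
def balU (M : Mod) (v : ℕ) : ℤ := ∑ w ∈ range (mN M), if man M w v = true then bal (mI M) w else 0
def val (M : Mod) (X : List ℤ) (v : ℕ) : ℤ := balU M v - ∑ e ∈ range (mE M), sgU M v e * gz X e
/-- the value forced on the parent arc -/
def tv (M : Mod) (X : List ℤ) (v : ℕ) : ℤ := sgU M v (mpar M v) * val M X v
def AA (M : Mod) (v : ℕ) : ℕ := 8 * ms M ^ 2 * DD M (mpar M v)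

def ext (M : Mod) (X : List ℤ) : List ℤ :=
  (List.range (mE M)).map fun e => gz X e + ∑ v ∈ range (mN M), if mpar M v = e then tv M X v else 0

def res (M : Mod) (x : List ℤ) : List ℤ := (List.range (mE M)).map fun e => if isTree M e then 0 else gz x e

def X0 (M : Mod) : List ℤ := res M (mx M)

def good (M : Mod) (X : List ℤ) : Prop :=
  ∀ v < mN M, (isRoot M v ∧ val M X v = 0) ∨
    (¬ isRoot M v ∧ 0 ≤ tv M X v ∧ tv M X v ≤ cap (mI M) (mpar M v))
instance (M : Mod) (X : List ℤ) : Decidable (good M X) := by unfold good; infer_instance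

/-- the features -/
def om (M : Mod) (i : ℕ) (X : List ℤ) : ℚ :=
  if isRoot M (i / 3) then
    (if i % 3 ≠ 0 ∧ (i % 3 = 1 ↔ 0 ≤ val M X (i / 3)) then lam (ms M) else (lam (ms M))⁻¹) ^
      min (val M X (i / 3)).natAbs (MM (ms M))
  else if i % 3 = 0 then
    (((AA M (i / 3) : ℤ) - max (tv M X (i / 3) - cap (mI M) (mpar M (i / 3))) 0 : ℤ) : ℚ) *
      (((AA M (i / 3) : ℤ) - max (- tv M X (i / 3)) 0 : ℤ) : ℚ) / (AA M (i / 3) : ℚ) ^ 2
  else 1

def tgt (M : Mod) (v : ℕ) : ℕ := if isRoot M v then jj (ms M) else kk (ms M)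

def WW (M : Mod) (p : List ℕ) (X : List ℤ) : ℚ :=
  ∏ i ∈ range (3 * mN M), om M i X ^ min (gn p i) (LL (ms M))

/-- admissible exponents -/
def Adm (M : Mod) (p : List ℕ) : Prop :=
  p.length = 3 * mN M ∧ p.sum ≤ LL (ms M) ∧ ∀ v < mN M, gn p (3 * v) ≤ tgt M v

/-- all penalties are switched on -/
def Full (M : Mod) (p : List ℕ) : Prop := ∀ v < mN M, gn p (3 * v) = tgt M v

/-- raise one exponent -/
def bump (p : List ℕ) (i : ℕ) : List ℕ := p.set i (gn p i + 1)

def inB (M : Mod) (X : List ℤ) : Prop := X.length = mE M ∧ ∀ e < mE M, lo M e ≤ gz X e ∧ gz X e ≤ hi M e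
instance (M : Mod) (X : List ℤ) : Decidable (inB M X) := by unfold inB; infer_instance

def bb (M : Mod) : ℕ := Nat.size (mE M)
def b0 (M : Mod) : ℕ := 2 * bb M + ms M

/-- lower coordinate `i % 2^b`, raise coordinate `i / 2^b % 2^b`, by lengths read from `i / 4^b` -/
def mv (M : Mod) (X : List ℤ) (i : ℕ) : List ℤ :=
  (List.range (mE M)).map fun e =>
    gz X e + (if e = i / 2 ^ bb M % 2 ^ bb M then ((i / 4 ^ bb M % HH M e + 1 : ℕ) : ℤ) else 0)
      - (if e = i % 2 ^ bb M then ((i / 4 ^ bb M % HH M e + 1 : ℕ) : ℤ) else 0)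

def prp (M : Mod) (X : List ℤ) (i : ℕ) : List ℤ := if inB M (mv M X i) then mv M X i else X

noncomputable def Om (M : Mod) : Finset (List ℤ) := lbox (mE M) (lo M) (hi M)

noncomputable def Zs (M : Mod) (p : List ℕ) : ℝ := ∑ X ∈ Om M, (WW M p X : ℝ)

noncomputable def mu (M : Mod) (p : List ℕ) (f : List ℤ → ℝ) : ℝ :=
  (∑ X ∈ Om M, (WW M p X : ℝ) * f X) / Zs M p

def smp (M : Mod) (p : List ℕ) (J : ℕ) (t : List Bool) : List ℤ :=
  sample (WW M p) (prp M) (b0 M) (BB (ms M) J) (TT (ms M) J) (X0 M) t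

theorem mem_Om {M : Mod} {X : List ℤ} : X ∈ Om M ↔ inB M X := mem_lbox

def mkMod (I : Inst) (s : ℕ) : Mod :=
  (I, ⟨s⟩, maxflow I s, upL I s (maxflow I s), dnL I s (maxflow I s),
    prim I ((List.range (nE I)).map fun e => gn (upL I s (maxflow I s)) e + gn (dnL I s (maxflow I s)) e) (KK s))

theorem mI_mkMod (I : Inst) (s : ℕ) : mI (mkMod I s) = I := rfl
theorem ms_mkMod (I : Inst) (s : ℕ) : ms (mkMod I s) = s := rfl

theorem mkMod_ok {I : Inst} (hI : WF I) {s : ℕ} (hs : Sized I s) (h100 : 100 ≤ s) {f : List ℤ} (hf : IsFlow I f) :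
    ModOK (mkMod I s) := by
  have hx := maxflow_flow hI hs hf
  refine ⟨hI, hs, h100, hx, range_ok hI hs hx, ?_⟩
  have h := prim_ok hI
    ((List.range (nE I)).map fun e => gn (upL I s (maxflow I s)) e + gn (dnL I s (maxflow I s)) e) (KK s)
  have hD : gn ((List.range (nE I)).map fun e => gn (upL I s (maxflow I s)) e + gn (dnL I s (maxflow I s)) e) =
      DD (mkMod I s) := by
    funext e
    change _ = gn (upL I s (maxflow I s)) e + gn (dnL I s (maxflow I s)) e
    by_cases he : e < nE I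
    · simp [gn, List.getD_eq_getElem?_getD, List.getElem?_range he]
    · have h1 : ∀ g : ℕ → ℕ, gn ((List.range (nE I)).map g) e = 0 := fun g =>
        List.getD_eq_default _ _ (by simpa using he)
      rw [h1]; unfold upL dnL; rw [h1, h1]
  rw [hD] at h
  exact h

end Crest.Agent.R309
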