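import Crest.Agent.R309.P1

/-!
# R309: from one-sided increments to exchange moves

PLAN.  For `X` let `S X` be the set of `o : Option ι` that are `none` or `some a` with `¬ lg a` and `X a < u a`;
`st X ∈ S X` maximises `o.elim 1 lam` (choose it as a function of the finset `S X`, so that `S X = S Y → st X = st Y`),
`up X = X + oe (st X) ∈ Box`, `m X = f (up X)`.  `Vr f ≤ 2 Vr m + 2 ∑ W (f - m)^2` (`Vr_add_le`, `ε = 1`).
(i) `W X ≤ κ1 W (up X)` (`lam (st X) ≥ 1`), so `W X ≤ κ1 min (W X) (W (up X))` and `∑ W (f-m)^2 ≤ κ1 Sm` (the term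
`j = none`, `a = st X`).  (ii) `a` not large, `ξ a < u a`: `some a ∈ S ξ`, `W (ξ+e_a) ≤ κ1 lam a W ξ ≤ κ1^2 W (up ξ)`,
`(m (ξ+e_a) - m ξ)^2 ≤ 2 (f (up (ξ+e_a)) - f (ξ+e_a))^2 + 2 (f (ξ+e_a) - f (up ξ))^2`, the last is the term `j = some a`,
`st ξ` at `X = ξ+e_a`; so `∑_{a small} Λ_a^2 Gr a m ≤ Λs^2 (2 card κ1 + 2 κ1^2) Sm`.  (iii) `a` large: `S (ξ+e_a) = S ξ`,
`up (ξ+e_a) = up ξ + e_a`, `W (ξ+e_a) ≤ κ1 W (up ξ + e_a)`, and `ξ ↦ up ξ` is injective on each fibre of `st`, so
`Gr a m ≤ κ1 (card + 1) Gr a f`.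
-/

set_option autoImplicit false
open Finset

namespace Crest.Agent.R309

variable {ι : Type} [Fintype ι] [DecidableEq ι]

/-- unit vector or zero -/
def oe : Option ι → ι → ℤ
  | none => 0
  | some a => ee a

/-- `none` or a coordinate that is not large -/
def sml (lg : ι → Prop) : Option ι → Prop
  | none => True
  | some a => ¬ lg a

instance (lg : ι → Prop) [DecidablePred lg] : DecidablePred (sml lg)
  | none => isTrue trivial
  | some a => inferInstanceAs (Decidable (¬ lg a))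

/-- squared increments along the displacement `δ`, weighted by the smaller endpoint -/
noncomputable def Mv (W : (ι → ℤ) → ℝ) (l u δ : ι → ℤ) (f : (ι → ℤ) → ℝ) : ℝ :=
  ∑ X ∈ Box l u, if X + δ ∈ Box l u then min (W X) (W (X + δ)) * (f X - f (X + δ)) ^ 2 else 0

/-- all unit exchange moves between small coordinates -/
noncomputable def Sm (W : (ι → ℤ) → ℝ) (l u : ι → ℤ) (lg : ι → Prop) [DecidablePred lg]
    (f : (ι → ℤ) → ℝ) : ℝ :=
  ∑ j ∈ univ.filter (sml lg), ∑ a ∈ univ.filter (sml lg), Mv W l u (oe a - oe j) f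

/-- one term of `Mv` -/
private noncomputable def p2tm (W : (ι → ℤ) → ℝ) (l u δ : ι → ℤ) (f : (ι → ℤ) → ℝ) (X : ι → ℤ) : ℝ :=
  if X + δ ∈ Box l u then min (W X) (W (X + δ)) * (f X - f (X + δ)) ^ 2 else 0

private theorem p2tm_nonneg {W : (ι → ℤ) → ℝ} {l u : ι → ℤ} (hW : ∀ X ∈ Box l u, 0 < W X) (δ : ι → ℤ)
    (f : (ι → ℤ) → ℝ) {X : ι → ℤ} (hX : X ∈ Box l u) : 0 ≤ p2tm W l u δ f X := by
  unfold p2tm
  split_ifs with h
  · exact mul_nonneg (le_min (hW _ hX).le (hW _ h).le) (sq_nonneg _)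
  · exact le_rfl

private theorem p2_Mv_eq (W : (ι → ℤ) → ℝ) (l u δ : ι → ℤ) (f : (ι → ℤ) → ℝ) :
    Mv W l u δ f = ∑ X ∈ Box l u, p2tm W l u δ f X := rfl

private theorem p2_Mv_nonneg {W : (ι → ℤ) → ℝ} {l u : ι → ℤ} (hW : ∀ X ∈ Box l u, 0 < W X) (δ : ι → ℤ)
    (f : (ι → ℤ) → ℝ) : 0 ≤ Mv W l u δ f :=
  sum_nonneg fun _ hX => p2tm_nonneg hW δ f hX

private theorem p2_shift (B : Finset (ι → ℤ)) (δ : ι → ℤ) (g : (ι → ℤ) → ℝ) (hg : ∀ X ∈ B, 0 ≤ g X) :
    ∑ ξ ∈ B, (if ξ + δ ∈ B then g (ξ + δ) else 0) ≤ ∑ X ∈ B, g X := by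
  rw [← sum_filter]
  rw [← sum_image (s := B.filter fun ξ => ξ + δ ∈ B) (g := fun ξ => ξ + δ) (f := g)
    (fun x _ y _ h => add_right_cancel h)]
  refine sum_le_sum_of_subset_of_nonneg ?_ fun X hX _ => hg X hX
  intro X hX
  obtain ⟨ξ, hξ, rfl⟩ := mem_image.1 hX
  exact (mem_filter.1 hξ).2

private theorem p2_step {l u X : ι → ℤ} (hX : X ∈ Box l u) {a : ι} (ha : X a < u a) :
    X + ee a ∈ Box l u := by
  rw [mem_Box] at hX ⊢
  intro j
  have := hX j
  by_cases hj : j = a
  · subst hj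
    simp only [ee, Pi.add_apply, Pi.single_eq_same]
    omega
  · simp only [ee, Pi.add_apply, Pi.single_eq_of_ne hj, add_zero]
    exact this

/-- admissible upward steps -/
private def p2ok (lg : ι → Prop) (u X : ι → ℤ) : Option ι → Prop
  | none => True
  | some a => ¬ lg a ∧ X a < u a

private theorem p2_exists_st (lg : ι → Prop) (u : ι → ℤ) (L : Option ι → ℝ) :
    ∃ st : (ι → ℤ) → Option ι, (∀ X, p2ok lg u X (st X)) ∧ (∀ X o, p2ok lg u X o → L o ≤ L (st X)) ∧
      ∀ X Y, (∀ o, p2ok lg u X o ↔ p2ok lg u Y o) → st X = st Y := by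
  classical
  have h : ∀ P : Option ι → Prop, ∃ o, P none → P o ∧ ∀ o', P o' → L o' ≤ L o := by
    intro P
    by_cases h0 : P none
    · obtain ⟨o, ho, hmax⟩ := exists_max_image (univ.filter P) L ⟨none, by simpa using h0⟩
      exact ⟨o, fun _ => ⟨(mem_filter.1 ho).2, fun o' ho' => hmax o' (by simpa using ho')⟩⟩
    · exact ⟨none, fun h => absurd h h0⟩
  choose pick hpick using h
  refine ⟨fun X => pick (p2ok lg u X), fun X => (hpick _ trivial).1,
    fun X o ho => (hpick _ trivial).2 o ho, fun X Y hXY => ?_⟩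
  have : p2ok lg u X = p2ok lg u Y := funext fun o => propext (hXY o)
  simp only [this]

theorem P2 (W : (ι → ℤ) → ℝ) (l u : ι → ℤ) (hW : ∀ X ∈ Box l u, 0 < W X) (lg : ι → Prop) [DecidablePred lg]
    (Λ : ι → ℝ) (C Λs κ1 : ℝ) (hC : 0 ≤ C) (hΛs : 1 ≤ Λs) (hκ1 : 1 ≤ κ1)
    (hΛ : ∀ a, ¬ lg a → Λ a ^ 2 ≤ Λs ^ 2) (lam : ι → ℝ) (hlam : ∀ a, 0 < lam a)
    (hW1 : ∀ X ∈ Box l u, ∀ a, ¬ lg a → X a < u a →
      lam a * W X ≤ κ1 * W (X + ee a) ∧ W (X + ee a) ≤ κ1 * lam a * W X)
    (hP : ∀ m, Vr (Box l u) W m ≤ C * ∑ a, Λ a ^ 2 * Gr W l u a m) (f : (ι → ℤ) → ℝ) :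
    Vr (Box l u) W f ≤ (2 * κ1 + 4 * C * Λs ^ 2 * κ1 ^ 2 * (Fintype.card ι + 1)) *
      (Sm W l u lg f + ∑ a ∈ univ.filter lg, Λ a ^ 2 * Gr W l u a f) := by
  classical
  obtain ⟨st, hok, hmax, hcongr⟩ := p2_exists_st lg u (fun o => o.elim 1 lam)
  set up : (ι → ℤ) → (ι → ℤ) := fun X => X + oe (st X) with hup
  have hκ0 : 0 ≤ κ1 := by linarith
  have hsml : ∀ X, st X ∈ univ.filter (sml lg) := by
    intro X
    have := hok X
    refine mem_filter.2 ⟨mem_univ _, ?_⟩
    cases h : st X with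
    | none => trivial
    | some a => rw [h] at this; exact this.1
  have hupB : ∀ X ∈ Box l u, up X ∈ Box l u := by
    intro X hX
    have := hok X
    simp only [hup]
    cases h : st X with
    | none => simpa [oe] using hX
    | some a => rw [h] at this; exact p2_step hX this.2
  have hA : ∀ X ∈ Box l u, ∀ o, p2ok lg u X o → o.elim 1 lam * W X ≤ κ1 * W (up X) := by
    intro X hX o ho
    refine (mul_le_mul_of_nonneg_right (hmax X o ho) (hW X hX).le).trans ?_
    have := hok X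
    simp only [hup]
    cases h : st X with
    | none =>
      simp only [oe, add_zero, Option.elim_none]
      exact mul_le_mul_of_nonneg_right hκ1 (hW X hX).le
    | some a => rw [h] at this; exact (hW1 X hX a this.1 this.2).1
  have hA0 : ∀ X ∈ Box l u, W X ≤ κ1 * W (up X) := by
    intro X hX
    have := hA X hX none trivial
    simpa using this
  have hnone : (none : Option ι) ∈ univ.filter (sml lg) := mem_filter.2 ⟨mem_univ _, trivial⟩
  set R : Option ι → ℝ := fun j => ∑ a ∈ univ.filter (sml lg), Mv W l u (oe a - oe j) f with hR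
  have hR0 : ∀ j, 0 ≤ R j := fun j => sum_nonneg fun a _ => p2_Mv_nonneg hW _ f
  have hSm : Sm W l u lg f = ∑ j ∈ univ.filter (sml lg), R j := rfl
  have hSm0 : 0 ≤ Sm W l u lg f := by rw [hSm]; exact sum_nonneg fun j _ => hR0 j
  have hRX : ∀ j, R j = ∑ X ∈ Box l u, ∑ a ∈ univ.filter (sml lg), p2tm W l u (oe a - oe j) f X := by
    intro j
    simp only [hR, p2_Mv_eq]
    rw [sum_comm]
  -- (i)
  have hi : ∑ X ∈ Box l u, W X * (f X - f (up X)) ^ 2 ≤ κ1 * Sm W l u lg f := by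
    have h1 : R none ≤ Sm W l u lg f := by
      rw [hSm]; exact single_le_sum (fun j _ => hR0 j) hnone
    refine le_trans ?_ (mul_le_mul_of_nonneg_left h1 hκ0)
    rw [hRX, mul_sum]
    refine sum_le_sum fun X hX => ?_
    have h2 := single_le_sum (f := fun a => p2tm W l u (oe a - oe none) f X)
      (fun a _ => p2tm_nonneg hW _ f hX) (hsml X)
    refine le_trans ?_ (mul_le_mul_of_nonneg_left h2 hκ0)
    have h3 : X + (oe (st X) - oe none) = up X := by simp [hup, oe]
    simp only [p2tm, h3, if_pos (hupB X hX)]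
    rw [← mul_assoc]
    refine mul_le_mul_of_nonneg_right ?_ (sq_nonneg _)
    rw [mul_min_of_nonneg _ _ hκ0]
    exact le_min (le_mul_of_one_le_left (hW X hX).le hκ1) (hA0 X hX)
  -- (ii)
  have hii : ∀ a, ¬ lg a → Gr W l u a (fun X => f (up X)) ≤
      2 * (κ1 * Sm W l u lg f) + 2 * κ1 ^ 2 * R (some a) := by
    intro a ha
    have h1 := p2_shift (Box l u) (ee a) (fun X => W X * (f X - f (up X)) ^ 2)
      (fun X hX => mul_nonneg (hW X hX).le (sq_nonneg _))
    have h2 := p2_shift (Box l u) (ee a)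
      (fun X => ∑ b ∈ univ.filter (sml lg), p2tm W l u (oe b - oe (some a)) f X)
      (fun X hX => sum_nonneg fun b _ => p2tm_nonneg hW _ f hX)
    rw [← hRX] at h2
    have h3 := h1.trans hi
    have hk2 : 0 ≤ 2 * κ1 ^ 2 := by positivity
    refine le_trans ?_ (add_le_add (mul_le_mul_of_nonneg_left h3 (by norm_num))
      (mul_le_mul_of_nonneg_left h2 hk2))
    rw [mul_sum, mul_sum, ← sum_add_distrib]
    unfold Gr
    refine sum_le_sum fun ξ hξ => ?_
    by_cases hξa : ξ a < u a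
    · have hX := p2_step hξ hξa
      rw [if_pos hξa, if_pos hX, if_pos hX]
      have h4 := single_le_sum (f := fun b => p2tm W l u (oe b - oe (some a)) f (ξ + ee a))
        (fun b _ => p2tm_nonneg hW _ f hX) (hsml ξ)
      refine le_trans ?_ (add_le_add le_rfl (mul_le_mul_of_nonneg_left h4 hk2))
      have h5 : ξ + ee a + (oe (st ξ) - oe (some a)) = up ξ := by
        simp only [hup, oe]; abel
      simp only [p2tm, h5, if_pos (hupB ξ hξ)]
      have hWX := hW _ hX
      have h6 : W (ξ + ee a) ≤ κ1 ^ 2 * min (W (ξ + ee a)) (W (up ξ)) := by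
        rw [mul_min_of_nonneg _ _ (sq_nonneg κ1)]
        refine le_min (le_mul_of_one_le_left hWX.le (one_le_pow₀ hκ1)) ?_
        have h7 := (hW1 ξ hξ a ha hξa).2
        have h8 := hA ξ hξ (some a) ⟨ha, hξa⟩
        simp only [Option.elim_some] at h8
        have h9 := mul_le_mul_of_nonneg_left h8 hκ0
        nlinarith
      have h7 : (f (up (ξ + ee a)) - f (up ξ)) ^ 2 ≤
          2 * (f (ξ + ee a) - f (up (ξ + ee a))) ^ 2 + 2 * (f (ξ + ee a) - f (up ξ)) ^ 2 := by
        nlinarith [sq_nonneg (f (ξ + ee a) - f (up (ξ + ee a)) + (f (ξ + ee a) - f (up ξ)))]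
      have h8 := mul_le_mul_of_nonneg_left h7 hWX.le
      have h9 := mul_le_mul_of_nonneg_right h6 (sq_nonneg (f (ξ + ee a) - f (up ξ)))
      nlinarith
    · rw [if_neg hξa]
      refine add_nonneg (mul_nonneg (by norm_num) ?_) (mul_nonneg hk2 ?_)
      · split_ifs with hX
        · exact mul_nonneg (hW _ hX).le (sq_nonneg _)
        · exact le_rfl
      · split_ifs with hX
        · exact sum_nonneg fun b _ => p2tm_nonneg hW _ f hX
        · exact le_rfl
  -- (iii)
  have hg0 : ∀ a, ∀ η ∈ Box l u,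
      0 ≤ (if η a < u a then W (η + ee a) * (f (η + ee a) - f η) ^ 2 else 0) := by
    intro a η hη
    split_ifs with h
    · exact mul_nonneg (hW _ (p2_step hη h)).le (sq_nonneg _)
    · exact le_rfl
  have hGr0 : ∀ a, 0 ≤ Gr W l u a f := fun a => sum_nonneg (hg0 a)
  have hiii : ∀ a, lg a → Gr W l u a (fun X => f (up X)) ≤
      κ1 * ((Fintype.card ι + 1) * Gr W l u a f) := by
    intro a ha
    set g : (ι → ℤ) → ℝ := fun η => if η a < u a then W (η + ee a) * (f (η + ee a) - f η) ^ 2 else 0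
      with hg
    have h1 : ∑ o : Option ι, ∑ ξ ∈ Box l u, (if ξ + oe o ∈ Box l u then g (ξ + oe o) else 0) ≤
        (Fintype.card ι + 1) * Gr W l u a f := by
      refine (sum_le_sum fun o _ => p2_shift (Box l u) (oe o) g (hg0 a)).trans (le_of_eq ?_)
      rw [sum_const, card_univ, Fintype.card_option, nsmul_eq_mul]
      push_cast
      rfl
    refine le_trans ?_ (mul_le_mul_of_nonneg_left h1 hκ0)
    rw [sum_comm, mul_sum]
    unfold Gr
    refine sum_le_sum fun ξ hξ => ?_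
    have h2 : ∀ o ∈ (univ : Finset (Option ι)),
        0 ≤ (if ξ + oe o ∈ Box l u then g (ξ + oe o) else 0) := by
      intro o _
      split_ifs with h
      · exact hg0 a _ h
      · exact le_rfl
    by_cases hξa : ξ a < u a
    · rw [if_pos hξa]
      have h3 := single_le_sum (f := fun o => if ξ + oe o ∈ Box l u then g (ξ + oe o) else 0) h2
        (mem_univ (st ξ))
      refine le_trans ?_ (mul_le_mul_of_nonneg_left h3 hκ0)
      have hst : st (ξ + ee a) = st ξ := by
        refine hcongr _ _ fun o => ?_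
        cases o with
        | none => exact Iff.rfl
        | some b =>
          refine and_congr_right fun hb => ?_
          have hba : b ≠ a := fun h => hb (h ▸ ha)
          simp only [ee, Pi.add_apply, Pi.single_eq_of_ne hba, add_zero]
      have hupa : up (ξ + ee a) = up ξ + ee a := by
        simp only [hup, hst]; abel
      have hupc : up ξ a = ξ a := by
        have := hok ξ
        simp only [hup]
        cases h : st ξ with
        | none => simp [oe]
        | some b =>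
          rw [h] at this
          have hba : a ≠ b := fun h => this.1 (h ▸ ha)
          simp only [oe, ee, Pi.add_apply, Pi.single_eq_of_ne hba, add_zero]
      have h4 : ξ + oe (st ξ) = up ξ := rfl
      rw [h4, if_pos (hupB ξ hξ)]
      simp only [hg]
      rw [if_pos (by rw [hupc]; exact hξa), hupa, ← mul_assoc]
      refine mul_le_mul_of_nonneg_right ?_ (sq_nonneg _)
      rw [← hupa]
      exact hA0 _ (p2_step hξ hξa)
    · rw [if_neg hξa]
      exact mul_nonneg hκ0 (sum_nonneg h2)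
  -- assembly
  set G : ℝ := ∑ a ∈ univ.filter lg, Λ a ^ 2 * Gr W l u a f with hG
  have hG0 : 0 ≤ G := sum_nonneg fun a _ => mul_nonneg (sq_nonneg _) (hGr0 a)
  set n : ℝ := (Fintype.card ι : ℝ) with hn
  have hn0 : 0 ≤ n := Nat.cast_nonneg _
  have hL : ∑ a ∈ univ.filter lg, Λ a ^ 2 * Gr W l u a (fun X => f (up X)) ≤ κ1 * (n + 1) * G := by
    rw [hG, mul_sum]
    refine sum_le_sum fun a ha => ?_
    have := mul_le_mul_of_nonneg_left (hiii a (mem_filter.1 ha).2) (sq_nonneg (Λ a))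
    refine this.trans (le_of_eq ?_)
    ring
  have hRs : ∑ a ∈ univ.filter (fun a => ¬ lg a), R (some a) ≤ Sm W l u lg f := by
    rw [hSm, ← sum_image (s := univ.filter fun a => ¬ lg a) (g := some) (f := R)
      (fun x _ y _ h => Option.some_injective _ h)]
    refine sum_le_sum_of_subset_of_nonneg ?_ fun j _ _ => hR0 j
    intro j hj
    obtain ⟨a, ha, rfl⟩ := mem_image.1 hj
    exact mem_filter.2 ⟨mem_univ _, (mem_filter.1 ha).2⟩
  have hS : ∑ a ∈ univ.filter (fun a => ¬ lg a), Λ a ^ 2 * Gr W l u a (fun X => f (up X)) ≤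
      Λs ^ 2 * (2 * κ1 ^ 2 * (n + 1) * Sm W l u lg f) := by
    have h1 : ∑ a ∈ univ.filter (fun a => ¬ lg a), Λ a ^ 2 * Gr W l u a (fun X => f (up X)) ≤
        ∑ a ∈ univ.filter (fun a => ¬ lg a),
          Λs ^ 2 * (2 * (κ1 * Sm W l u lg f) + 2 * κ1 ^ 2 * R (some a)) := by
      refine sum_le_sum fun a ha => ?_
      have ha' := (mem_filter.1 ha).2
      refine (mul_le_mul_of_nonneg_left (hii a ha') (sq_nonneg _)).trans ?_
      refine mul_le_mul_of_nonneg_right (hΛ a ha') ?_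
      have := hR0 (some a)
      positivity
    refine h1.trans ?_
    rw [← mul_sum, sum_add_distrib, ← mul_sum (a := 2 * κ1 ^ 2), sum_const, nsmul_eq_mul]
    refine mul_le_mul_of_nonneg_left ?_ (sq_nonneg _)
    have h2 : ((univ.filter fun a => ¬ lg a).card : ℝ) ≤ n := by
      rw [hn]; exact_mod_cast card_le_univ _
    have h3 : κ1 * Sm W l u lg f ≤ κ1 ^ 2 * Sm W l u lg f :=
      mul_le_mul_of_nonneg_right (by nlinarith) hSm0
    have h4 : ((univ.filter fun a => ¬ lg a).card : ℝ) * (2 * (κ1 * Sm W l u lg f)) ≤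
        n * (2 * (κ1 ^ 2 * Sm W l u lg f)) :=
      mul_le_mul h2 (by linarith) (by positivity) hn0
    have h5 := mul_le_mul_of_nonneg_left hRs (show 0 ≤ 2 * κ1 ^ 2 by positivity)
    nlinarith
  have h1 := Vr_add_le (Box l u) W f (fun X => f (up X)) hW one_pos
  have h2 := hP (fun X => f (up X))
  rw [← sum_filter_add_sum_filter_not univ lg] at h2
  have h3 := h2.trans (mul_le_mul_of_nonneg_left (add_le_add hL hS) hC)
  have h4 : κ1 * (n + 1) * G ≤ 2 * Λs ^ 2 * κ1 ^ 2 * (n + 1) * G := by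
    refine mul_le_mul_of_nonneg_right (mul_le_mul_of_nonneg_right ?_ (by linarith)) hG0
    have h5 : 1 ≤ Λs ^ 2 := one_le_pow₀ hΛs
    have h6 : κ1 ≤ κ1 ^ 2 := by nlinarith
    nlinarith [mul_le_mul_of_nonneg_right h5 (sq_nonneg κ1)]
  have h5 := mul_le_mul_of_nonneg_left h4 hC
  have h6 : 0 ≤ κ1 * G := mul_nonneg hκ0 hG0
  norm_num at h1
  nlinarith

end Crest.Agent.R309
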