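import Crest.Agent.R309.PTModel
import Crest.Agent.R309.Exact

/-!
# R309: the algorithms run in polynomial time

PLAN.  `PT.aStep` by `fun_prop`-style composition (`PT.draws`, `PT.option_elim`, `PT.filter`, `PT.range`).
`PT.anneal`: `PT.runL`.  Size of the state after `i ≤ LL` steps: `p` has length `3 mN` and entries `≤ i`; the rational is
a product of `vol` and `i` factors `est …`, each the value of a polynomial-time function
`F (M, p, l) : ℚ` of an argument of size `≤ R := sz M + (size bound for p) + sz t + 2`, so of size `≤ q R`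
(`PT.pb_sz`, `eval_mono`); `Ht z (sz vol + i * q R)` by `Ht.mul`, `ht_sz`, and `Ht.sz_le`.  (Write
`aStep M st l = (.., st.2.1 * F (M, st.1, l), ..)` or `st`; use `runL_succ'`.)
`PT.round`: `PT.cntv` (`min pad (2^b0) ≤ 2^b0`), `PT.pick`, `PT.foldl_bdd`/`PT.foldl` for the maximum (the running
maximum is `0` or a member of the list), `PT.map_range` (the index is unary there, so `2 ^ (s * e)` is fine).
-/

set_option autoImplicit false
open Finset Crest.Agent.PTime

namespace Crest.Agent.R309

variable {α : Type} [Enc α]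

@[fun_prop] theorem PT.alen {s : α → ℕ} (h : PT s) : PT (fun a => alen (s a)) := by
  unfold R309.alen R309.aseg; fun_prop
@[fun_prop] theorem PB.alen {s : α → ℕ} (h : PB s) : PB (fun a => alen (s a)) := by
  unfold R309.alen R309.aseg; fun_prop
@[fun_prop] theorem PB.clen {s : α → ℕ} (h : PB s) : PB (fun a => clen (s a)) := by
  unfold R309.clen; fun_prop
@[fun_prop] theorem PT.tlen {s : α → ℕ} (h : PT s) : PT (fun a => tlen (s a)) := by
  unfold R309.tlen; fun_prop
@[fun_prop] theorem PB.tlen {s : α → ℕ} (h : PB s) : PB (fun a => tlen (s a)) := by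
  unfold R309.tlen; fun_prop
@[fun_prop] theorem PT.qq {s : α → ℕ} (h : PT s) : PT (fun a => qq (s a)) := by unfold R309.qq; fun_prop
@[fun_prop] theorem PB.qq {s : α → ℕ} (h : PB s) : PB (fun a => qq (s a)) := by unfold R309.qq; fun_prop
@[fun_prop] theorem PT.rlen {s J : α → ℕ} (h : PT s) (h' : PT J) : PT (fun a => rlen (s a) (J a)) := by
  unfold R309.rlen R309.JX; fun_prop
@[fun_prop] theorem PB.rlen {s J : α → ℕ} (h : PB s) (h' : PB J) : PB (fun a => rlen (s a) (J a)) := by
  unfold R309.rlen R309.JX; fun_prop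

theorem PT.est {S : α → List (List ℤ)} {φ : α → List ℤ → ℚ} (hS : PT S)
    (hφ : PT (fun p : α × List ℤ => φ p.1 p.2)) : PT (fun a => est (S a) (φ a)) := by
  unfold R309.est
  exact (PT.map hφ hS).rat_list_sum.rat_div hS.length.natCast_rat

theorem PT.posq {M : α → Mod} {v : α → ℕ} {X : α → List ℤ} (h : PT M) (hv : PT v) (hX : PT X) :
    PT (fun a => posq (M a) (v a) (X a)) := by
  unfold R309.posq
  exact PT.ite ((PT.const 0).int_lt (PT.mval h hX hv)) (PT.const 1) (PT.const 0)

theorem PT.negq {M : α → Mod} {v : α → ℕ} {X : α → List ℤ} (h : PT M) (hv : PT v) (hX : PT X) :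
    PT (fun a => negq (M a) (v a) (X a)) := by
  unfold R309.negq
  exact PT.ite ((PT.mval h hX hv).int_lt (PT.const 0)) (PT.const 1) (PT.const 0)

theorem PT.goodq {M : α → Mod} {X : α → List ℤ} (h : PT M) (hX : PT X) : PT (fun a => goodq (M a) (X a)) := by
  unfold R309.goodq
  exact PT.ite (PT.good h hX) (PT.const 1) (PT.const 0)

theorem PT.nxt {M : α → Mod} {p : α → List ℕ} {S : α → List (List ℤ)} (h : PT M) (hp : PT p) (hS : PT S) :
    PT (fun a => nxt (M a) (p a) (S a)) := by
  have hR := PT.range (PT.mN h) (PB.mN h)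
  have hM : PT (fun q : α × ℕ => M q.1) := h.comp PT.id.fst
  have hp' : PT (fun q : α × ℕ => p q.1) := hp.comp PT.id.fst
  have hS' : PT (fun q : α × ℕ => S q.1) := hS.comp PT.id.fst
  have hv : PT (fun q : α × ℕ => q.2) := PT.id.snd
  have h3 : PT (fun q : α × ℕ => 3 * q.2) := (PT.const 3).mul hv
  have hc : PT (fun q : α × ℕ => 2 / (R309.ms (M q.1) : ℚ) ^ 2) :=
    (PT.const 2).rat_div ((PT.ms hM).natCast_rat.rat_pow (PT.const 2) (PB.const 2))
  have hM2 : PT (fun q : (α × ℕ) × List ℤ => M q.1.1) := hM.comp PT.id.fst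
  have h1 := PT.est (φ := fun q : α × ℕ => R309.posq (M q.1) q.2) hS' (PT.posq hM2 PT.id.fst.snd PT.id.snd)
  have h2 := PT.est (φ := fun q : α × ℕ => R309.negq (M q.1) q.2) hS' (PT.negq hM2 PT.id.fst.snd PT.id.snd)
  unfold R309.nxt
  exact (((PT.map (f := fun _ v => 3 * v) h3
    (PT.filter ((PT.gn hp' h3).lt (PT.tgt hM hv)).decide hR)).append
    (PT.map (f := fun _ v => 3 * v + 2) (h3.add (PT.const 2))
      (PT.filter ((PT.isRoot hM hv).and (hc.rat_le h1)).decide hR))).append
    (PT.map (f := fun _ v => 3 * v + 1) (h3.add (PT.const 1))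
      (PT.filter ((PT.isRoot hM hv).and (hc.rat_le h2)).decide hR))).head?

theorem PT.smps {M : α → Mod} {p : α → List ℕ} {l : α → List Bool} (h : PT M) (hp : PT p) (hl : PT l) :
    PT (fun a => smps (M a) (p a) (l a)) := by
  unfold R309.smps
  exact PT.draws (g := fun a => R309.smp (M a) (p a) 0)
    (PT.smp (h.comp PT.id.fst) (hp.comp PT.id.fst) (PT.const 0) (PB.const 0) PT.id.snd)
    (PT.slen (PT.ms h) (PT.const 0)) (PT.mm (PT.ms h)) (PB.mm (PB.ms h)) hl

/-- the factor of one annealing step -/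
def afac (M : Mod) (p : List ℕ) (S : List (List ℤ)) : ℚ :=
  (nxt M p S).elim (est S (goodq M)) fun i => est S (om M i)

theorem PT.afac {M : α → Mod} {p : α → List ℕ} {S : α → List (List ℤ)} (h : PT M) (hp : PT p) (hS : PT S) :
    PT (fun a => afac (M a) (p a) (S a)) := by
  unfold R309.afac
  exact PT.option_elim (f := fun a i => R309.est (S a) (R309.om (M a) i)) (PT.nxt h hp hS)
    (PT.est hS (PT.goodq (h.comp PT.id.fst) PT.id.snd))
    (PT.est (φ := fun q : α × ℕ => R309.om (M q.1) q.2) (hS.comp PT.id.fst)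
      (PT.om (h.comp PT.id.fst.fst) PT.id.fst.snd PT.id.snd))

theorem aUpd_eq (M : Mod) (st : ASt) (S : List (List ℤ)) :
    aUpd M st S = ((nxt M st.1 S).elim st.1 (bump st.1), st.2.1 * afac M st.1 S, (nxt M st.1 S).isNone) := by
  unfold aUpd afac
  cases nxt M st.1 S <;> rfl

theorem PT.aUpd {M : α → Mod} {st : α → ASt} {S : α → List (List ℤ)} (h : PT M) (hs : PT st) (hS : PT S) :
    PT (fun a => aUpd (M a) (st a) (S a)) := by
  have hn := PT.nxt h hs.fst hS
  exact ((PT.option_elim (f := fun a i => R309.bump (st a).1 i) hn hs.fst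
    (PT.bump (hs.fst.comp PT.id.fst) PT.id.snd)).pair
    ((hs.snd.fst.rat_mul (PT.afac h hs.fst hS)).pair hn.isNone)).congr fun a => aUpd_eq _ _ _

theorem PT.aStep {M : α → Mod} {st : α → ASt} {l : α → List Bool} (h : PT M) (hs : PT st) (hl : PT l) :
    PT (fun a => aStep (M a) (st a) (l a)) := by
  unfold R309.aStep
  exact PT.ite (hs.snd.snd.eq (PT.const true)) hs (PT.aUpd h hs (PT.smps h hs.fst hl))

theorem PT.vol {M : α → Mod} (h : PT M) : PT (fun a => vol (M a)) := by
  have hM : PT (fun p : α × U => M p.1) := h.comp PT.id.fst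
  have he : PT (fun p : α × U => p.2.val) := PT.id.snd.val
  unfold R309.vol
  exact PT.prod_range (PT.mE h) (PB.mE h) (((PT.hi hM he).int_sub (PT.lo hM he)).int_add (PT.const 1)).toNat

@[fun_prop] theorem PT.anneal {M : α → Mod} {t : α → List Bool} (h : PT M) (ht : PT t) :
    PT (fun a => anneal (M a) (t a)) := by
  have hF : PT (fun x : Mod × List ℕ × List Bool => R309.afac x.1 x.2.1 (R309.smps x.1 x.2.1 x.2.2)) :=
    PT.afac PT.id.fst PT.id.snd.fst (PT.smps PT.id.fst PT.id.snd.fst PT.id.snd.snd)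
  obtain ⟨q, hq⟩ := hF.pb_sz
  have hv : PT (fun a => (R309.vol (M a) : ℚ)) := (PT.vol h).natCast_rat
  have hN : PB (fun a => 3 * R309.mN (M a)) := (PB.const 3).mul (PB.mN h)
  have hL : PB (fun a => R309.LL (R309.ms (M a))) := PB.LL (PB.ms h)
  have hP : PB (fun a => 3 * R309.mN (M a) * (4 * R309.LL (R309.ms (M a)) + 1 + 1) + 1) :=
    (hN.mul ((((PB.const 4).mul hL).add (PB.const 1)).add (PB.const 1))).add (PB.const 1)
  have hQ := PB.poly_eval q (((h.pb_sz.add hP).add ht.pb_sz).add (PB.const 2))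
  have hB := ((hP.add (((PB.const 8).mul (hv.pb_sz.add (hL.mul hQ))).add (PB.const 15))).add (PB.const 5))
  unfold R309.anneal
  refine PT.runL (step := fun a => R309.aStep (M a))
    (PT.aStep (h.comp PT.id.fst) PT.id.snd.fst PT.id.snd.snd)
    (by unfold R309.aseg; exact (PT.mm (PT.ms h)).mul (PT.slen (PT.ms h) (PT.const 0)))
    (PT.LL (PT.ms h)) hL ((PT.replicate ((PT.const 3).mul (PT.mN h)) hN (PT.const 0)).pair
      (hv.pair (PT.const false))) ht hB fun a i hi => ?_
  generalize M a = M at hi ⊢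
  generalize t a = t
  have hsz : ∀ (p : List ℕ) (j : ℕ), p.length = 3 * R309.mN M → (∀ x ∈ p, x ≤ j) → j ≤ R309.LL (R309.ms M) →
      sz p ≤ 3 * R309.mN M * (4 * R309.LL (R309.ms M) + 1 + 1) + 1 := fun p j h1 h2 h3 => by
    rw [← h1]
    exact sz_list_le fun x hx => (sz_le_self x).trans (by have := h2 x hx; omega)
  set Q := q.eval (sz M + (3 * R309.mN M * (4 * R309.LL (R309.ms M) + 1 + 1) + 1) + sz t + 2) with hQd
  obtain ⟨k1, k2, k3⟩ := runL_inv_sub (R309.aStep M) (R309.aseg (R309.ms M)) t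
    (fun j (st : ASt) => st.1.length = 3 * R309.mN M ∧ (∀ x ∈ st.1, x ≤ j) ∧
      (j ≤ R309.LL (R309.ms M) → Ht st.2.1 (sz (R309.vol M : ℚ) + j * Q)))
    (fun j st l hl ⟨h1, h2, h3⟩ => by
      unfold R309.aStep
      split_ifs
      · refine ⟨h1, fun x hx => (h2 x hx).trans (Nat.le_succ _), fun hj => (h3 (by omega)).mono ?_⟩
        rw [Nat.succ_mul]; omega
      · rw [aUpd_eq]
        refine ⟨?_, ?_, fun hj => ?_⟩
        · cases R309.nxt M st.1 (R309.smps M st.1 l) with
          | none => exact h1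
          | some i => simpa [R309.bump] using h1
        · cases R309.nxt M st.1 (R309.smps M st.1 l) with
          | none => exact fun x hx => (h2 x hx).trans (Nat.le_succ _)
          | some i =>
            intro x hx
            rcases List.mem_or_eq_of_mem_set hx with hx | rfl
            · exact (h2 x hx).trans (Nat.le_succ _)
            · refine Nat.succ_le_succ ?_
              unfold R309.gn
              by_cases hi : i < st.1.length
              · rw [List.getD_eq_getElem _ _ hi]; exact h2 _ (List.getElem_mem hi)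
              · rw [List.getD_eq_default _ _ (by omega)]; exact Nat.zero_le _
        · have a1 := hsz st.1 j h1 h2 (by omega)
          have a2 := sz_sublist hl
          have a3 : sz (R309.afac M st.1 (R309.smps M st.1 l)) ≤ Q :=
            (hq (M, st.1, l)).trans (eval_mono q (by simp only [sz_pair]; omega))
          refine ((h3 (by omega)).mul ((ht_sz _).mono a3)).mono ?_
          rw [Nat.succ_mul]; omega)
    i (List.replicate (3 * R309.mN M) 0, (R309.vol M : ℚ), false)
    ⟨by simp, fun x hx => (List.eq_of_mem_replicate hx).le, fun _ => (ht_sz _).mono (by simp)⟩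
  have a1 := hsz _ i k1 k2 hi
  have a2 := ((k3 hi).mono (m := sz (R309.vol M : ℚ) + R309.LL (R309.ms M) * Q) (by gcongr)).sz_le
  generalize R309.runL (R309.aStep M) (R309.aseg (R309.ms M)) i
    (List.replicate (3 * R309.mN M) 0, (R309.vol M : ℚ), false) t = st at a1 a2
  have a3 := sz_bool st.2.2
  rw [sz_prod, sz_prod]
  omega

@[fun_prop] theorem PT.cntA {I : α → Inst} {s : α → ℕ} {t : α → List Bool} (h : PT I) (hs : PT s) (hs' : PB s)
    (ht : PT t) : PT (fun a => cntA (I a) (s a) (t a)) := by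
  have hM := PT.mkMod h hs hs'
  unfold R309.cntA
  exact PT.ite (PT.isFlow h (PT.maxflow h hs hs'))
    (PT.median (PT.draws (g := fun a l => (R309.anneal (R309.mkMod (I a) (s a)) l).2.1)
      (PT.anneal (hM.comp PT.id.fst) PT.id.snd).snd.fst (PT.alen hs) (((PT.const 2).mul hs).add (PT.const 1))
      (((PB.const 2).mul hs').add (PB.const 1)) ht)) (PT.const 0)

theorem PT.keep {M : α → Mod} {X : α → List ℤ} (h : PT M) (hX : PT X) : PT (fun a => keep (M a) (X a)) := by
  unfold R309.keep
  exact PT.ite (PT.good h hX) hX.some (PT.const none)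

theorem PT.att {M : α → Mod} {J : α → ℕ} {t : α → List Bool} (h : PT M) (hJ : PT J) (hJ' : PB J) (ht : PT t) :
    PT (fun a => att (M a) (J a) (t a)) := by
  have ha := PT.alen (PT.ms h)
  unfold R309.att
  exact PT.option_map (f := fun a => R309.ext (M a)) (PT.ext (h.comp PT.id.fst) PT.id.snd)
    (PT.keep h (PT.smp h (PT.anneal h (ha.take ht)).fst hJ hJ' (ha.drop ht)))

@[fun_prop] theorem PT.smpA {I : α → Inst} {s : α → ℕ} {t : α → List Bool} (h : PT I) (hs : PT s) (hs' : PB s)
    (ht : PT t) : PT (fun a => smpA (I a) (s a) (t a)) := by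
  have hM := PT.mkMod h hs hs'
  unfold R309.smpA
  exact (PT.firstSome (g := fun a => R309.att (R309.mkMod (I a) (s a)) (s a))
    (PT.att (hM.comp PT.id.fst) (hs.comp PT.id.fst) (hs'.comp PT.id.fst) PT.id.snd) (PT.tlen hs)
    ((PT.const 5).mul hs) ((PB.const 5).mul hs') ht).getD_option (PT.maxflow h hs hs')

theorem PT.JX {s J : α → ℕ} (h : PT s) (h' : PT J) : PT (fun a => JX (s a) (J a)) := by
  unfold R309.JX; fun_prop

theorem PB.JX {s J : α → ℕ} (h : PB s) (h' : PB J) : PB (fun a => JX (s a) (J a)) := by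
  unfold R309.JX; fun_prop

theorem PT.enum {M : α → Mod} {pad : α → ℕ} (h : PT M) (hp : PT pad) (hp' : PB pad) :
    PT (fun a => enum (M a) (pad a)) := by
  have hM : PT (fun q : (α × U) × U => M q.1.1) := h.comp PT.id.fst.fst
  have h2 := (PT.const 2).pow ((PT.ms hM).mul PT.id.snd.val) ((PB.ms hM).mul (PB.val PT.id.snd))
  have h3 := (PT.const 2).pow (PT.ms hM) (PB.ms hM)
  unfold R309.enum
  refine PT.filter (PT.inB (h.comp PT.id.fst) PT.id.snd).decide
    (PT.map_range (hp.min ((PT.const 2).pow ((PT.ms h).mul (PT.mE h)) ((PB.ms h).mul (PB.mE h))))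
      (PB.min_left hp') ?_)
  exact PT.map_range (PT.mE (h.comp PT.id.fst)) (PB.mE (h.comp PT.id.fst))
    ((PT.id.fst.snd.val.div h2).mod h3).natCast_int

theorem PT.cnt {M : α → Mod} {J pad : α → ℕ} {p : α → List ℕ} {y : α → List ℤ} (h : PT M) (hJ : PT J)
    (hJ' : PB J) (hq : PT p) (hp : PT pad) (hp' : PB pad) (hy : PT y) :
    PT (fun a => cnt (M a) (J a) (p a) (pad a) (y a)) := by
  have h1 := PT.JX (PT.ms h) hJ
  have h2 := PB.JX (PB.ms h) hJ'
  unfold R309.cnt
  exact PT.cntv (W := fun a => R309.WW (M a) (p a)) (prop := fun a => R309.prp (M a))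
    (PT.WW (h.comp PT.id.fst) (hq.comp PT.id.fst) PT.id.snd)
    (PT.prp (h.comp PT.id.fst) PT.id.snd.fst PT.id.snd.snd) (PT.b0 h) (PB.b0 h) (PT.BB (PT.ms h) h1)
    (PB.BB (PB.ms h) h2) (hp.min ((PT.const 2).pow (PT.b0 h) (PB.b0 h))) (PB.min_left hp')
    (fun a => min_le_right _ _) (PT.TT (PT.ms h) h1) (PB.TT (PB.ms h) h2) (PT.enum h hp hp') (PT.X0 h) hy

theorem PT.genum {M : α → Mod} {pad : α → ℕ} (h : PT M) (hp : PT pad) (hp' : PB pad) :
    PT (fun a => genum (M a) (pad a)) := by
  unfold R309.genum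
  exact PT.filter (PT.good (h.comp PT.id.fst) PT.id.snd).decide (PT.enum h hp hp')

theorem foldl_max_mem (l : List ℕ) (c : ℕ) : l.foldl max c = c ∨ l.foldl max c ∈ l := by
  induction l generalizing c with
  | nil => exact .inl rfl
  | cons b l ih =>
    rw [List.foldl_cons]
    rcases ih (max c b) with h | h
    · rw [h]
      rcases max_choice c b with h' | h'
      · exact .inl h'
      · exact .inr (by rw [h']; exact List.mem_cons_self)
    · exact .inr (List.mem_cons_of_mem _ h)

theorem PT.foldl_max {l : α → List ℕ} (hl : PT l) : PT (fun a => (l a).foldl max 0) := by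
  refine PT.foldl (f := fun (_ : α) (s b : ℕ) => Max.max s b) (init := fun _ => 0)
    (PT.id.snd.fst.max PT.id.snd.snd) (PT.const 0) hl (B := fun a => sz (l a) + 1)
    (hl.pb_sz.add (PB.const 1)) fun a i => ?_
  rcases foldl_max_mem ((l a).take i) 0 with h | h
  · exact (congrArg sz h).trans_le ((sz_le_self 0).trans (by omega))
  · exact (sz_mem (List.mem_of_mem_take h)).le.trans (Nat.le_succ _)

theorem PT.cmax {M : α → Mod} {J pad : α → ℕ} {p : α → List ℕ} (h : PT M) (hJ : PT J)
    (hJ' : PB J) (hq : PT p) (hp : PT pad) (hp' : PB pad) : PT (fun a => cmax (M a) (J a) (p a) (pad a)) := by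
  unfold R309.cmax
  exact PT.foldl_max (PT.map (f := fun a => R309.cnt (M a) (J a) (p a) (pad a))
    (PT.cnt (h.comp PT.id.fst) (hJ.comp PT.id.fst) (hJ'.comp PT.id.fst) (hq.comp PT.id.fst) (hp.comp PT.id.fst)
      (hp'.comp PT.id.fst) PT.id.snd) (PT.genum h hp hp'))

theorem PT.excb {M : α → Mod} {J pad : α → ℕ} {p : α → List ℕ} {u : α → List Bool} (h : PT M) (hJ : PT J)
    (hJ' : PB J) (hq : PT p) (hp : PT pad) (hp' : PB pad) (hu : PT u) :
    PT (fun a => excb (M a) (J a) (p a) (pad a) (u a)) := by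
  have h1 := PT.JX (PT.ms h) hJ
  have hx : PT (fun a => R309.xl (M a) (J a)) := by
    unfold R309.xl
    exact (PT.TT (PT.ms h) h1).mul (((PT.b0 h).add (PT.const 1)).add (PT.BB (PT.ms h) h1))
  have hc := PT.cnt (h.comp (PT.id (α := α × List ℤ)).fst) (hJ.comp PT.id.fst) (hJ'.comp PT.id.fst)
    (hq.comp PT.id.fst) (hp.comp PT.id.fst) (hp'.comp PT.id.fst) PT.id.snd
  have hm := (PT.cmax h hJ hJ' hq hp hp').comp (PT.id (α := α × List ℤ)).fst
  have h2 := (((PT.const 2).pow hJ hJ').sub (PT.const 1)).comp (PT.id (α := α × List ℤ)).fst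
  unfold R309.excb
  exact PT.pick (PT.map (PT.id.snd.pair (h2.mul (hm.sub hc))) (PT.genum h hp hp')) (hx.take hu).ofBits

@[fun_prop] theorem PT.round {M : α → Mod} {J pad : α → ℕ} {t : α → List Bool} (h : PT M) (hJ : PT J) (hJ' : PB J)
    (hp : PT pad) (hp' : PB pad) (ht : PT t) : PT (fun a => round (M a) (J a) (pad a) (t a)) := by
  have ha := PT.alen (PT.ms h)
  have hA := (PT.anneal h (ha.take ht)).fst
  have hd := (ha.add hJ).drop ht
  unfold R309.round
  refine PT.option_map (f := fun a => R309.ext (M a)) (PT.ext (h.comp PT.id.fst) PT.id.snd)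
    (PT.ite (PT.eq ?_ (PT.const true)) (PT.excb h hJ hJ' hA hp hp' hd)
      (PT.keep h (PT.smp h hA (PT.JX (PT.ms h) hJ) (PB.JX (PB.ms h) hJ') hd)))
  unfold R309.coin
  exact PT.all (f := fun _ b => !b) PT.id.snd.bnot (hJ.take (ha.drop ht))

end Crest.Agent.R309
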