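import Crest.Agent.R309.Model
import Crest.Agent.R309.Dp

/-!
# R309: the model is computable in polynomial time

PLAN.  Unfold and use `fun_prop` (or the lemmas by hand): `PT.sum_range`, `PT.prod_range`, `PT.map_range`,
`PT.exists_lt`, `PT.forall_lt`, `PT.ite`, `PT.pow`/`PT.rat_pow` with exponents bounded by `PB.min_right`, `PB.size`.
`PT.smp`: `PT.sample` with the invariant `x = X0 M ∨ inB M x`; in the second case the entries lie in `[0, cap e]`
(`0 ≤ lo`, `hi ≤ cap`), so `sz x ≤ mE * (4 * sz M + 6) + 1` (`sz_list_le`, `sz_int_le`, `lt_two_pow_sz`, `sz_mem`).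
-/

set_option autoImplicit false
open Finset Crest.Agent.PTime

namespace Crest.Agent.R309

variable {α : Type} [Enc α]

@[fun_prop] theorem PT.mI {M : α → Mod} (h : PT M) : PT (fun a => mI (M a)) := by unfold R309.mI; fun_prop
@[fun_prop] theorem PT.ms {M : α → Mod} (h : PT M) : PT (fun a => ms (M a)) := by unfold R309.ms; fun_prop
@[fun_prop] theorem PB.ms {M : α → Mod} (h : PT M) : PB (fun a => ms (M a)) := by unfold R309.ms; fun_prop
@[fun_prop] theorem PT.mE {M : α → Mod} (h : PT M) : PT (fun a => mE (M a)) := by unfold R309.mE; fun_prop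
@[fun_prop] theorem PB.mE {M : α → Mod} (h : PT M) : PB (fun a => mE (M a)) := by unfold R309.mE; fun_prop
@[fun_prop] theorem PT.mN {M : α → Mod} (h : PT M) : PT (fun a => mN (M a)) := by unfold R309.mN; fun_prop
@[fun_prop] theorem PB.mN {M : α → Mod} (h : PT M) : PB (fun a => mN (M a)) := by unfold R309.mN; fun_prop
@[fun_prop] theorem PT.b0 {M : α → Mod} (h : PT M) : PT (fun a => b0 (M a)) := by
  unfold R309.b0 R309.bb; fun_prop
@[fun_prop] theorem PB.b0 {M : α → Mod} (h : PT M) : PB (fun a => b0 (M a)) := by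
  unfold R309.b0 R309.bb; fun_prop

@[fun_prop] theorem PT.LL {s : α → ℕ} (h : PT s) : PT (fun a => LL (s a)) := by unfold R309.LL; fun_prop
@[fun_prop] theorem PB.LL {s : α → ℕ} (h : PB s) : PB (fun a => LL (s a)) := by unfold R309.LL; fun_prop
@[fun_prop] theorem PT.mm {s : α → ℕ} (h : PT s) : PT (fun a => mm (s a)) := by unfold R309.mm; fun_prop
@[fun_prop] theorem PB.mm {s : α → ℕ} (h : PB s) : PB (fun a => mm (s a)) := by unfold R309.mm; fun_prop
@[fun_prop] theorem PT.TT {s J : α → ℕ} (h : PT s) (h' : PT J) : PT (fun a => TT (s a) (J a)) := by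
  unfold R309.TT R309.JJ; fun_prop
@[fun_prop] theorem PB.TT {s J : α → ℕ} (h : PB s) (h' : PB J) : PB (fun a => TT (s a) (J a)) := by
  unfold R309.TT R309.JJ; fun_prop
@[fun_prop] theorem PT.BB {s J : α → ℕ} (h : PT s) (h' : PT J) : PT (fun a => BB (s a) (J a)) := by
  unfold R309.BB R309.JJ; fun_prop
@[fun_prop] theorem PB.BB {s J : α → ℕ} (h : PB s) (h' : PB J) : PB (fun a => BB (s a) (J a)) := by
  unfold R309.BB R309.JJ; fun_prop
@[fun_prop] theorem PT.slen {s J : α → ℕ} (h : PT s) (h' : PT J) : PT (fun a => slen (s a) (J a)) := by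
  unfold R309.slen; fun_prop
@[fun_prop] theorem PB.slen {s J : α → ℕ} (h : PB s) (h' : PB J) : PB (fun a => slen (s a) (J a)) := by
  unfold R309.slen; fun_prop

@[fun_prop] theorem PT.mx {M : α → Mod} (h : PT M) : PT (fun a => mx (M a)) := by unfold R309.mx; fun_prop
@[fun_prop] theorem PT.mup {M : α → Mod} {e : α → ℕ} (h : PT M) (he : PT e) : PT (fun a => mup (M a) (e a)) := by
  unfold R309.mup; fun_prop
@[fun_prop] theorem PT.mdn {M : α → Mod} {e : α → ℕ} (h : PT M) (he : PT e) : PT (fun a => mdn (M a) (e a)) := by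
  unfold R309.mdn; fun_prop
@[fun_prop] theorem PT.man {M : α → Mod} {w v : α → ℕ} (h : PT M) (hw : PT w) (hv : PT v) :
    PT (fun a => man (M a) (w a) (v a)) := by
  unfold R309.man; fun_prop
@[fun_prop] theorem PT.mpar {M : α → Mod} {v : α → ℕ} (h : PT M) (hv : PT v) : PT (fun a => mpar (M a) (v a)) := by
  unfold R309.mpar; fun_prop
@[fun_prop] theorem PT.DD {M : α → Mod} {e : α → ℕ} (h : PT M) (he : PT e) : PT (fun a => DD (M a) (e a)) := by
  unfold R309.DD; fun_prop
@[fun_prop] theorem PT.kk {s : α → ℕ} (h : PT s) : PT (fun a => kk (s a)) := by unfold R309.kk; fun_prop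
@[fun_prop] theorem PT.PP {s : α → ℕ} (h : PT s) : PT (fun a => PP (s a)) := by unfold R309.PP; fun_prop
@[fun_prop] theorem PT.KK {s : α → ℕ} (h : PT s) : PT (fun a => KK (s a)) := by unfold R309.KK; fun_prop
@[fun_prop] theorem PT.MM {s : α → ℕ} (h : PT s) : PT (fun a => MM (s a)) := by unfold R309.MM; fun_prop
@[fun_prop] theorem PB.MM {s : α → ℕ} (h : PB s) : PB (fun a => MM (s a)) := by unfold R309.MM; fun_prop
@[fun_prop] theorem PT.jj {s : α → ℕ} (h : PT s) : PT (fun a => jj (s a)) := by unfold R309.jj; fun_prop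
@[fun_prop] theorem PT.lam {s : α → ℕ} (h : PT s) : PT (fun a => lam (s a)) := by unfold R309.lam; fun_prop
@[fun_prop] theorem PT.isTree {M : α → Mod} {e : α → ℕ} (h : PT M) (he : PT e) :
    PT (fun a => isTree (M a) (e a)) := by
  unfold R309.isTree
  exact PT.exists_lt (by fun_prop) (by fun_prop) (by fun_prop)
@[fun_prop] theorem PT.isRoot {M : α → Mod} {v : α → ℕ} (h : PT M) (hv : PT v) :
    PT (fun a => isRoot (M a) (v a)) := by
  unfold R309.isRoot; fun_prop
@[fun_prop] theorem PT.lo {M : α → Mod} {e : α → ℕ} (h : PT M) (he : PT e) : PT (fun a => lo (M a) (e a)) := by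
  unfold R309.lo; fun_prop
@[fun_prop] theorem PT.hi {M : α → Mod} {e : α → ℕ} (h : PT M) (he : PT e) : PT (fun a => hi (M a) (e a)) := by
  unfold R309.hi; fun_prop
@[fun_prop] theorem PT.large {M : α → Mod} {e : α → ℕ} (h : PT M) (he : PT e) :
    PT (fun a => large (M a) (e a)) := by
  unfold R309.large; fun_prop
@[fun_prop] theorem PT.HH {M : α → Mod} {e : α → ℕ} (h : PT M) (he : PT e) : PT (fun a => HH (M a) (e a)) := by
  unfold R309.HH; fun_prop
@[fun_prop] theorem PT.sgU {M : α → Mod} {v e : α → ℕ} (h : PT M) (hv : PT v) (he : PT e) :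
    PT (fun a => sgU (M a) (v a) (e a)) := by
  unfold R309.sgU R309.sg; fun_prop
@[fun_prop] theorem PT.balU {M : α → Mod} {v : α → ℕ} (h : PT M) (hv : PT v) : PT (fun a => balU (M a) (v a)) := by
  unfold R309.balU; fun_prop
@[fun_prop] theorem PT.mval {M : α → Mod} {X : α → List ℤ} {v : α → ℕ} (h : PT M) (hX : PT X) (hv : PT v) :
    PT (fun a => val (M a) (X a) (v a)) := by
  unfold R309.val; fun_prop
@[fun_prop] theorem PT.tv {M : α → Mod} {X : α → List ℤ} {v : α → ℕ} (h : PT M) (hX : PT X) (hv : PT v) :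
    PT (fun a => tv (M a) (X a) (v a)) := by
  unfold R309.tv; fun_prop
@[fun_prop] theorem PT.AA {M : α → Mod} {v : α → ℕ} (h : PT M) (hv : PT v) : PT (fun a => AA (M a) (v a)) := by
  unfold R309.AA; fun_prop
@[fun_prop] theorem PT.ext {M : α → Mod} {X : α → List ℤ} (h : PT M) (hX : PT X) :
    PT (fun a => ext (M a) (X a)) := by
  unfold R309.ext; fun_prop
@[fun_prop] theorem PT.X0 {M : α → Mod} (h : PT M) : PT (fun a => X0 (M a)) := by
  unfold R309.X0 R309.res; fun_prop
@[fun_prop] theorem PT.good {M : α → Mod} {X : α → List ℤ} (h : PT M) (hX : PT X) :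
    PT (fun a => good (M a) (X a)) := by
  unfold R309.good
  exact PT.forall_lt (by fun_prop) (by fun_prop) (by fun_prop)
@[fun_prop] theorem PT.om {M : α → Mod} {i : α → ℕ} {X : α → List ℤ} (h : PT M) (hi : PT i) (hX : PT X) :
    PT (fun a => om (M a) (i a) (X a)) := by
  have h3 : PT (fun a => i a / 3) := hi.div (PT.const 3)
  have h4 : PT (fun a => i a % 3) := hi.mod (PT.const 3)
  have hv := PT.mval h hX h3
  have ht := PT.tv h hX h3
  have hA := PT.AA h h3
  have hl := PT.lam (PT.ms h)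
  have hM := PT.MM (PT.ms h)
  have hM' := PB.MM (PB.ms h)
  have hp := PT.cap (PT.mI h) (PT.mpar h h3)
  unfold R309.om
  refine PT.ite (PT.isRoot h h3) (PT.rat_pow (PT.ite ?_ hl hl.rat_inv) (hv.natAbs.min hM) (PB.min_right hM'))
    (PT.ite (h4.eq (PT.const 0)) ?_ (PT.const 1))
  · exact (h4.ne (PT.const 0)).and ((h4.eq (PT.const 1)).iff ((PT.const 0).int_le hv))
  · exact ((hA.natCast_int.int_sub ((ht.int_sub hp.natCast_int).int_max (PT.const 0))).intCast_rat.rat_mul
      (hA.natCast_int.int_sub (ht.int_neg.int_max (PT.const 0))).intCast_rat).rat_div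
      (hA.natCast_rat.rat_pow (PT.const 2) (PB.const 2))
@[fun_prop] theorem PT.tgt {M : α → Mod} {v : α → ℕ} (h : PT M) (hv : PT v) : PT (fun a => tgt (M a) (v a)) := by
  unfold R309.tgt; fun_prop
@[fun_prop] theorem PT.WW {M : α → Mod} {p : α → List ℕ} {X : α → List ℤ} (h : PT M) (hp : PT p) (hX : PT X) :
    PT (fun a => WW (M a) (p a) (X a)) := by
  unfold R309.WW; fun_prop
@[fun_prop] theorem PT.bump {p : α → List ℕ} {i : α → ℕ} (hp : PT p) (hi : PT i) :
    PT (fun a => bump (p a) (i a)) := by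
  unfold R309.bump; fun_prop
@[fun_prop] theorem PT.inB {M : α → Mod} {X : α → List ℤ} (h : PT M) (hX : PT X) :
    PT (fun a => inB (M a) (X a)) := by
  unfold R309.inB
  exact PT.and (by fun_prop) (PT.forall_lt (by fun_prop) (by fun_prop) (by fun_prop))
@[fun_prop] theorem PT.bb {M : α → Mod} (h : PT M) : PT (fun a => bb (M a)) := by unfold R309.bb; fun_prop
@[fun_prop] theorem PB.bb {M : α → Mod} (h : PT M) : PB (fun a => bb (M a)) := by unfold R309.bb; fun_prop
@[fun_prop] theorem PT.mv {M : α → Mod} {X : α → List ℤ} {i : α → ℕ} (h : PT M) (hX : PT X) (hi : PT i) :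
    PT (fun a => mv (M a) (X a) (i a)) := by
  have hM : PT (fun p : α × U => M p.1) := h.comp PT.id.fst
  have hX' : PT (fun p : α × U => X p.1) := hX.comp PT.id.fst
  have hi' : PT (fun p : α × U => i p.1) := hi.comp PT.id.fst
  have he : PT (fun p : α × U => p.2.val) := PT.id.snd.val
  have h2 := (PT.const 2).pow (PT.bb hM) (PB.bb hM)
  have h4 := (PT.const 4).pow (PT.bb hM) (PB.bb hM)
  have hH := (((hi'.div h4).mod (PT.HH hM he)).add (PT.const 1)).natCast_int
  unfold R309.mv
  exact PT.map_range (PT.mE h) (PB.mE h) (((PT.gz hX' he).int_add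
    (PT.ite (he.eq ((hi'.div h2).mod h2)) hH (PT.const 0))).int_sub (PT.ite (he.eq (hi'.mod h2)) hH (PT.const 0)))
@[fun_prop] theorem PT.prp {M : α → Mod} {X : α → List ℤ} {i : α → ℕ} (h : PT M) (hX : PT X) (hi : PT i) :
    PT (fun a => prp (M a) (X a) (i a)) := by
  unfold R309.prp; fun_prop

theorem cap_lt_sz (M : Mod) (e : ℕ) : cap (mI M) e < 2 ^ sz M := by
  obtain ⟨⟨a, b, c, d⟩, r⟩ := M
  change c.getD e 0 < _
  by_cases he : e < c.length
  · rw [List.getD_eq_getElem _ _ he]
    refine (lt_two_pow_sz _).trans_le (Nat.pow_le_pow_right (by norm_num) ?_)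
    have := sz_mem (List.getElem_mem he)
    simp only [sz_pair]
    omega
  · rw [List.getD_eq_default _ _ (by omega)]
    positivity

theorem sz_inB {M : Mod} {x : List ℤ} (hx : inB M x) : sz x ≤ mE M * (4 * sz M + 5 + 1) + 1 := by
  rw [← hx.1]
  refine sz_list_le fun z hz => sz_int_le ?_
  obtain ⟨e, he, rfl⟩ := List.getElem_of_mem hz
  have h1 := hx.2 e (hx.1 ▸ he)
  have h2 : gz x e = x[e] := List.getD_eq_getElem _ _ he
  have h3 : 0 ≤ lo M e := by unfold lo; split_ifs; exacts [le_rfl, le_max_left _ _]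
  have h4 : hi M e ≤ cap (mI M) e := by
    unfold hi; split_ifs; exacts [Int.natCast_nonneg _, min_le_left _ _]
  have h5 := cap_lt_sz M e
  rw [h2] at h1
  omega

@[fun_prop] theorem PT.smp {M : α → Mod} {p : α → List ℕ} {J : α → ℕ} {t : α → List Bool} (h : PT M) (hp : PT p)
    (hJ : PT J) (hJ' : PB J) (ht : PT t) : PT (fun a => smp (M a) (p a) (J a) (t a)) := by
  unfold R309.smp
  refine PT.sample (W := fun a => R309.WW (M a) (p a)) (prop := fun a => R309.prp (M a)) (by fun_prop)
    (by fun_prop) (by fun_prop) (by fun_prop) (by fun_prop) (by fun_prop) (by fun_prop) (by fun_prop)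
    (by fun_prop) ht (fun a x => x = R309.X0 (M a) ∨ R309.inB (M a) x) (fun a => .inl rfl) (fun a x i hx => ?_)
    (Bd := fun a => sz (R309.X0 (M a)) + (R309.mE (M a) * (4 * sz (M a) + 5 + 1) + 1)) (by fun_prop)
    fun a x hx => ?_
  · unfold R309.prp
    split_ifs with h1
    · exact .inr h1
    · exact hx
  · rcases hx with rfl | hx
    · omega
    · exact (sz_inB hx).trans (Nat.le_add_left _ _)
@[fun_prop] theorem PT.mkMod {I : α → Inst} {s : α → ℕ} (h : PT I) (hs : PT s) (hs' : PB s) :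
    PT (fun a => mkMod (I a) (s a)) := by
  unfold R309.mkMod; fun_prop

end Crest.Agent.R309
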