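import Crest.Agent.R309.Inst

/-!
# R309: labelling search for a path along which `Δ` units can be pushed

An arc direction is a number `a < 2 * nE`: the arc `a / 2`, forwards if `a` is even, backwards if `a` is odd.
The label of a vertex is the modified vector obtained by pushing `Δ` units along a path from a start vertex.

PLAN.  Invariant of the iteration for the label list `L` (length `nV`): start vertices are labelled; if
`lab L v = some y` then `InCap I y`, `gz y forb = gz x forb`, the formula for `exc`, and `gz y e = gz x e` for every arc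
`e < nE` with an unlabelled endpoint.  (When `a` is used, `dst a` is unlabelled, so `gz y (a/2) = gz x (a/2)` and the
new label differs from `y` by `±Δ` at `a/2` only: `exc` changes by `sg (· = w) (a/2) * (±Δ)`, `gz_set`.)
`push_incap` needs only the first part and no `WF` (`List.getD` of `List.set`: either the new or an old entry).
`push_closed`: a step either changes nothing (then `find?` failed, and all later steps change nothing) or lowers the
number of `v < nV` with `lab L v = none`; after `nV` steps `find?` fails or there is no unlabelled vertex.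
`PT.push`: `PT.iterate`; every label has length `x.length` and entries of absolute value `≤ |gz x e| + Δ`
(simplest: every entry of a label lies in the list `x ++ x.map (· + Δ) ++ x.map (· - Δ) ++ [Δ, -Δ]`, `sz_mem`,
`sz_list_le`).
-/

set_option autoImplicit false
open Finset Crest.Agent.PTime

namespace Crest.Agent.R309

def src (I : Inst) (a : ℕ) : ℕ := if a % 2 = 0 then tl I (a / 2) else hd I (a / 2)
def dst (I : Inst) (a : ℕ) : ℕ := if a % 2 = 0 then hd I (a / 2) else tl I (a / 2)

/-- the new value on the arc `a / 2` -/
def shv (x : List ℤ) (Δ a : ℕ) : ℤ := if a % 2 = 0 then gz x (a / 2) + Δ else gz x (a / 2) - Δ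

abbrev Labs : Type := List (Option (List ℤ))

def lab (L : Labs) (v : ℕ) : Option (List ℤ) := L.getD v none

/-- the arc direction `a` extends the labelling -/
def extd (I : Inst) (x : List ℤ) (Δ forb : ℕ) (L : Labs) (a : ℕ) : Bool :=
  decide (a / 2 ≠ forb ∧ 0 ≤ shv x Δ a ∧ shv x Δ a ≤ cap I (a / 2)) && (lab L (src I a)).isSome &&
    (lab L (dst I a)).isNone

def pushStep (I : Inst) (x : List ℤ) (Δ forb : ℕ) (L : Labs) : Labs :=
  ((List.range (2 * nE I)).find? (extd I x Δ forb L)).elim L
    (fun a => L.set (dst I a) ((lab L (src I a)).map fun y => y.set (a / 2) (shv x Δ a)))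

def push (I : Inst) (x : List ℤ) (Δ forb : ℕ) (init : ℕ → Bool) : Labs :=
  (pushStep I x Δ forb)^[nV I] ((List.range (nV I)).map fun v => if init v = true then some x else none)

private theorem lab_set (L : Labs) (u v : ℕ) (o : Option (List ℤ)) :
    lab (L.set u o) v = if v = u ∧ u < L.length then o else lab L v := by
  simp only [lab, List.getD_eq_getElem?_getD, List.getElem?_set]
  by_cases h : v = u
  · subst h
    by_cases h' : v < L.length
    · simp [h']
    · simp [h']
  · simp [h, Ne.symm h]

private theorem lab_init (n : ℕ) (x : List ℤ) (init : ℕ → Bool) (v : ℕ) :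
    lab ((List.range n).map fun v => if init v = true then some x else none) v =
      if v < n ∧ init v = true then some x else none := by
  simp only [lab, List.getD_eq_getElem?_getD, List.getElem?_map]
  by_cases h : v < n
  · simp [h]
  · simp [h]

private theorem extd_iff {I : Inst} {x : List ℤ} {Δ forb : ℕ} {L : Labs} {a : ℕ} :
    extd I x Δ forb L a = true ↔ a / 2 ≠ forb ∧ 0 ≤ shv x Δ a ∧ shv x Δ a ≤ cap I (a / 2) ∧
      (∃ y, lab L (src I a) = some y) ∧ lab L (dst I a) = none := by
  simp only [extd, Bool.and_eq_true, decide_eq_true_eq, Option.isSome_iff_exists, Option.isNone_iff_eq_none]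
  tauto

private theorem step_cases (I : Inst) (x : List ℤ) (Δ forb : ℕ) (L : Labs) :
    ((∀ a < 2 * nE I, extd I x Δ forb L a = false) ∧ pushStep I x Δ forb L = L) ∨
    ∃ a < 2 * nE I, ∃ y, a / 2 ≠ forb ∧ 0 ≤ shv x Δ a ∧ shv x Δ a ≤ cap I (a / 2) ∧
      lab L (src I a) = some y ∧ lab L (dst I a) = none ∧
      pushStep I x Δ forb L = L.set (dst I a) (some (y.set (a / 2) (shv x Δ a))) := by
  unfold pushStep
  cases h : (List.range (2 * nE I)).find? (extd I x Δ forb L) with
  | none =>
    refine Or.inl ⟨fun a ha => ?_, rfl⟩
    have := List.find?_eq_none.1 h a (List.mem_range.2 ha)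
    simpa using this
  | some a =>
    have h1 := List.mem_range.1 (List.mem_of_find?_eq_some h)
    obtain ⟨h2, h3, h4, ⟨y, h5⟩, h6⟩ := extd_iff.1 (List.find?_some h)
    exact Or.inr ⟨a, h1, y, h2, h3, h4, h5, h6, by simp [h5]⟩

private theorem iter_ind (I : Inst) (x : List ℤ) (Δ forb : ℕ) (P : Labs → Prop) {L₀ : Labs} (h0 : P L₀)
    (hs : ∀ L a y, P L → a < 2 * nE I → a / 2 ≠ forb → 0 ≤ shv x Δ a → shv x Δ a ≤ cap I (a / 2) →
      lab L (src I a) = some y → lab L (dst I a) = none →
      P (L.set (dst I a) (some (y.set (a / 2) (shv x Δ a))))) (n : ℕ) :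
    P ((pushStep I x Δ forb)^[n] L₀) := by
  induction n with
  | zero => exact h0
  | succ n ih =>
    rw [Function.iterate_succ_apply']
    rcases step_cases I x Δ forb ((pushStep I x Δ forb)^[n] L₀) with h | ⟨a, ha, y, h1, h2, h3, h4, h5, h6⟩
    · rw [h.2]; exact ih
    · rw [h6]; exact hs _ a y ih ha h1 h2 h3 h4 h5

theorem push_init {I : Inst} (x : List ℤ) (Δ forb : ℕ) (init : ℕ → Bool) {v : ℕ} (hv : v < nV I)
    (h : init v = true) : (lab (push I x Δ forb init) v).isSome = true := by
  refine iter_ind I x Δ forb (fun L => (lab L v).isSome = true) ?_ ?_ _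
  · rw [lab_init, if_pos ⟨hv, h⟩]; rfl
  · intro L a y hL _ _ _ _ _ _
    rw [lab_set]
    split_ifs
    · rfl
    · exact hL

theorem push_incap {I : Inst} {x : List ℤ} (hx : InCap I x) (Δ forb : ℕ) (init : ℕ → Bool) {v : ℕ} {y : List ℤ}
    (h : lab (push I x Δ forb init) v = some y) : InCap I y := by
  refine iter_ind I x Δ forb (fun L => ∀ v y, lab L v = some y → InCap I y) ?_ ?_ _ v y h
  · intro v y h
    rw [lab_init] at h
    split_ifs at h
    cases h; exact hx
  · intro L a y0 hL ha _ h1 h2 h3 _ v y h
    rw [lab_set] at h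
    split_ifs at h
    · cases h
      have h0 := hL _ _ h3
      refine ⟨by rw [List.length_set, h0.1], fun e he => ?_⟩
      rw [gz_set _ _ _ _ (by rw [h0.1]; omega)]
      split_ifs with hh
      · subst hh; exact ⟨h1, h2⟩
      · exact h0.2 e he
    · exact hL _ _ h

private theorem exc_set {I : Inst} {y : List ℤ} (hy : y.length = nE I) {e : ℕ} (he : e < nE I) (t : ℤ) (w : ℕ) :
    exc I (y.set e t) w = exc I y w + sg I (fun u => decide (u = w)) e * (t - gz y e) := by
  unfold exc
  have : ∀ e' ∈ range (nE I), sg I (fun u => decide (u = w)) e' * gz (y.set e t) e' =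
      sg I (fun u => decide (u = w)) e' * gz y e' +
        if e' = e then sg I (fun u => decide (u = w)) e * (t - gz y e) else 0 := by
    intro e' _
    rw [gz_set _ _ _ _ (by rw [hy]; exact he)]
    split_ifs with h
    · subst h; ring
    · ring
  rw [sum_congr rfl this, sum_add_distrib, sum_ite_eq' (range (nE I)) e, if_pos (mem_range.2 he)]

private theorem dst_lt {I : Inst} (hI : WF I) {a : ℕ} (ha : a < 2 * nE I) : dst I a < nV I := by
  have := hI (a / 2) (by omega)
  unfold dst
  split_ifs
  · exact this.2
  · exact this.1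

theorem push_lab {I : Inst} (hI : WF I) {x : List ℤ} (hx : InCap I x) (Δ forb : ℕ) (init : ℕ → Bool) {v : ℕ}
    {y : List ℤ} (h : lab (push I x Δ forb init) v = some y) :
    gz y forb = gz x forb ∧ ∃ a < nV I, init a = true ∧
      ∀ w, exc I y w = exc I x w + Δ * ((if w = a then 1 else 0) - (if w = v then 1 else 0)) := by
  have key := iter_ind I x Δ forb (fun L => L.length = nV I ∧ ∀ v y, lab L v = some y → y.length = nE I ∧
      (gz y forb = gz x forb ∧ ∃ a < nV I, init a = true ∧
        ∀ w, exc I y w = exc I x w + Δ * ((if w = a then 1 else 0) - (if w = v then 1 else 0))) ∧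
      ∀ e < nE I, (lab L (tl I e) = none ∨ lab L (hd I e) = none) → gz y e = gz x e)
    (L₀ := (List.range (nV I)).map fun v => if init v = true then some x else none) ?_ ?_ (nV I)
  · exact (key.2 v y h).2.1
  · refine ⟨by simp, fun v y h => ?_⟩
    rw [lab_init] at h
    split_ifs at h with hh
    cases h
    exact ⟨hx.1, ⟨rfl, v, hh.1, hh.2, fun w => by simp⟩, fun _ _ _ => rfl⟩
  · intro L a y0 hL ha hf _ _ h3 h4
    have hd' : dst I a < L.length := by rw [hL.1]; exact dst_lt hI ha
    have hmono : ∀ u, lab (L.set (dst I a) (some (y0.set (a / 2) (shv x Δ a)))) u = none → lab L u = none := by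
      intro u hu
      rw [lab_set] at hu
      split_ifs at hu
      exact hu
    refine ⟨by rw [List.length_set, hL.1], fun v y h => ?_⟩
    have h' := h
    rw [lab_set] at h'
    split_ifs at h' with hh
    · cases h'
      obtain ⟨g1, ⟨g2, a0, g3, g4, g5⟩, g6⟩ := hL.2 _ _ h3
      have he : a / 2 < nE I := by omega
      have hg : gz y0 (a / 2) = gz x (a / 2) := by
        refine g6 _ he ?_
        unfold dst at h4
        split_ifs at h4
        · exact Or.inr h4
        · exact Or.inl h4
      refine ⟨by rw [List.length_set, g1], ⟨?_, a0, g3, g4, fun w => ?_⟩, fun e he' hu => ?_⟩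
      · rw [gz_set _ _ _ _ (by rw [g1]; exact he), if_neg (Ne.symm hf), g2]
      · rw [exc_set g1 he, g5 w, hg, hh.1]
        unfold src dst shv sg
        by_cases hp : a % 2 = 0
        · simp only [hp, if_true, decide_eq_true_eq, eq_comm (a := w)]
          ring
        · simp only [hp, if_false, decide_eq_true_eq, eq_comm (a := w)]
          ring
      · have hne : e ≠ a / 2 := by
          rintro rfl
          have e1 : lab (L.set (dst I a) (some (y0.set (a / 2) (shv x Δ a)))) (src I a) ≠ none := fun hn => by
            rw [hmono _ hn] at h3; cases h3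
          have e2 : lab (L.set (dst I a) (some (y0.set (a / 2) (shv x Δ a)))) (dst I a) ≠ none := by
            rw [lab_set, if_pos ⟨rfl, hd'⟩]; simp
          generalize L.set (dst I a) (some (y0.set (a / 2) (shv x Δ a))) = L' at hu e1 e2
          unfold src at e1
          unfold dst at e2
          split_ifs at e1 e2 <;> tauto
        rw [gz_set _ _ _ _ (by rw [g1]; exact he), if_neg hne]
        exact g6 e he' (hu.imp (hmono _) (hmono _))
    · obtain ⟨g1, g2, g6⟩ := hL.2 _ _ h'
      exact ⟨g1, g2, fun e he' hu => g6 e he' (hu.imp (hmono _) (hmono _))⟩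

private theorem closed_or {I : Inst} (hI : WF I) (x : List ℤ) (Δ forb : ℕ) {L₀ : Labs} (h0 : L₀.length = nV I)
    (n : ℕ) : (∀ a < 2 * nE I, extd I x Δ forb ((pushStep I x Δ forb)^[n] L₀) a = false) ∨
      ((range (nV I)).filter fun v => lab ((pushStep I x Δ forb)^[n] L₀) v = none).card + n ≤ nV I := by
  induction n with
  | zero =>
    right
    have := card_filter_le (range (nV I)) fun v => lab ((pushStep I x Δ forb)^[0] L₀) v = none
    simpa using this
  | succ n ih =>
    have hlen : ((pushStep I x Δ forb)^[n] L₀).length = nV I :=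
      iter_ind I x Δ forb (fun L => L.length = nV I) h0 (fun L a y hL _ _ _ _ _ _ => by
        rw [List.length_set, hL]) n
    rw [Function.iterate_succ_apply']
    generalize (pushStep I x Δ forb)^[n] L₀ = L at ih hlen
    rcases step_cases I x Δ forb L with h | ⟨a, ha, y, h1, h2, h3, h4, h5, h6⟩
    · rw [h.2]; exact Or.inl h.1
    · rcases ih with ih | ih
      · have := ih a ha
        rw [extd_iff.2 ⟨h1, h2, h3, ⟨y, h4⟩, h5⟩] at this
        cases this
      · right
        rw [h6]
        have hd' := dst_lt hI ha
        have : ((range (nV I)).filter fun v =>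
            lab (L.set (dst I a) (some (y.set (a / 2) (shv x Δ a)))) v = none).card <
            ((range (nV I)).filter fun v => lab L v = none).card := by
          refine card_lt_card ⟨fun u hu => ?_, fun hsub => ?_⟩
          · rw [mem_filter] at hu ⊢
            refine ⟨hu.1, ?_⟩
            have := hu.2
            rw [lab_set] at this
            split_ifs at this
            exact this
          · have := (mem_filter.1 (hsub (mem_filter.2 ⟨mem_range.2 hd', h5⟩))).2
            rw [lab_set, if_pos ⟨rfl, by rw [hlen]; exact hd'⟩] at this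
            cases this
        omega

theorem push_closed {I : Inst} (hI : WF I) {x : List ℤ} (hx : InCap I x) (Δ forb : ℕ) (init : ℕ → Bool)
    {e : ℕ} (he : e < nE I) (hf : e ≠ forb) :
    ((lab (push I x Δ forb init) (tl I e)).isSome = true → (lab (push I x Δ forb init) (hd I e)).isSome = false →
      (cap I e : ℤ) < gz x e + Δ) ∧
    ((lab (push I x Δ forb init) (hd I e)).isSome = true → (lab (push I x Δ forb init) (tl I e)).isSome = false →
      gz x e < Δ) := by
  have key := closed_or hI x Δ forb
    (L₀ := (List.range (nV I)).map fun v => if init v = true then some x else none) (by simp) (nV I)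
  change (∀ a < 2 * nE I, extd I x Δ forb (push I x Δ forb init) a = false) ∨
    ((range (nV I)).filter fun v => lab (push I x Δ forb init) v = none).card + nV I ≤ nV I at key
  generalize push I x Δ forb init = L at key ⊢
  have hc := hx.2 e he
  rcases key with key | key
  · constructor
    · intro h1 h2
      by_contra hn
      have := key (2 * e) (by omega)
      have e1 : 2 * e / 2 = e := by omega
      have e2 : 2 * e % 2 = 0 := by omega
      rw [extd_iff.2] at this
      · cases this
      · unfold shv src dst
        simp only [e1, e2, if_true]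
        refine ⟨hf, by omega, by omega, Option.isSome_iff_exists.1 h1, by simpa using h2⟩
    · intro h1 h2
      by_contra hn
      have := key (2 * e + 1) (by omega)
      have e1 : (2 * e + 1) / 2 = e := by omega
      have e2 : ¬ (2 * e + 1) % 2 = 0 := by omega
      rw [extd_iff.2] at this
      · cases this
      · unfold shv src dst
        simp only [e1, e2, if_false]
        refine ⟨hf, by omega, by omega, Option.isSome_iff_exists.1 h1, by simpa using h2⟩
  · have h0 : ((range (nV I)).filter fun v => lab L v = none) = ∅ := card_eq_zero.1 (by omega)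
    have hall : ∀ v < nV I, ¬ lab L v = none := fun v hv hn => by
      have : v ∈ (range (nV I)).filter fun v => lab L v = none := mem_filter.2 ⟨mem_range.2 hv, hn⟩
      rw [h0] at this
      simp at this
    constructor
    · intro _ h2
      exact (hall _ (hI e he).2 (by simpa using h2)).elim
    · intro _ h2
      exact (hall _ (hI e he).1 (by simpa using h2)).elim

/-- across the labelled set any two vectors within the capacities differ little -/
theorem push_cut {I : Inst} (hI : WF I) {x : List ℤ} (hx : InCap I x) {Δ : ℕ} (hΔ : 1 ≤ Δ) (forb : ℕ)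
    (init : ℕ → Bool) {f : List ℤ} (hf : InCap I f) {e : ℕ} (he : e < nE I) (hef : e ≠ forb) :
    sg I (fun v => (lab (push I x Δ forb init) v).isSome) e * (gz f e - gz x e) ≤ (Δ : ℤ) - 1 := by
  obtain ⟨h1, h2⟩ := push_closed hI hx Δ forb init he hef
  have h3 := hf.2 e he
  unfold sg
  cases ha : (lab (push I x Δ forb init) (tl I e)).isSome <;>
    cases hb : (lab (push I x Δ forb init) (hd I e)).isSome
  · simp only [ha, hb]; simp; omega
  · have := h2 hb ha
    simp only [ha, hb]; simp; omega
  · have := h1 ha hb
    simp only [ha, hb]; simp; omega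
  · simp only [ha, hb]; simp; omega

private theorem natAbs_gz (x : List ℤ) (e : ℕ) : (gz x e).natAbs < 2 ^ sz x := by
  unfold gz
  by_cases h : e < x.length
  · rw [List.getD_eq_getElem _ _ h]
    exact (natAbs_lt_two_pow_sz _).trans_le
      (Nat.pow_le_pow_right (by norm_num) (sz_mem (List.getElem_mem h)).le)
  · rw [List.getD_eq_default _ _ (by omega)]
    exact Nat.two_pow_pos _

private theorem iter_sz (I : Inst) (x : List ℤ) (Δ forb : ℕ) (init : ℕ → Bool) (n : ℕ) :
    sz ((pushStep I x Δ forb)^[n] ((List.range (nV I)).map fun v => if init v = true then some x else none)) ≤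
      nV I * (x.length * (4 * (sz x + sz Δ + 1) + 5 + 1) + 1 + 2 + 1) + 1 := by
  have key := iter_ind I x Δ forb (fun L => L.length = nV I ∧ ∀ v y, lab L v = some y → y.length = x.length ∧
      ∀ z ∈ y, z.natAbs < 2 ^ (sz x + sz Δ + 1))
    (L₀ := (List.range (nV I)).map fun v => if init v = true then some x else none) ?_ ?_ n
  · generalize (pushStep I x Δ forb)^[n] _ = L at key
    rw [← key.1]
    refine sz_list_le fun o ho => ?_
    obtain ⟨v, hv, rfl⟩ := List.getElem_of_mem ho
    have hl : lab L v = L[v] := List.getD_eq_getElem _ _ hv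
    cases ho' : L[v] with
    | none => change 1 ≤ _; omega
    | some y =>
      obtain ⟨g1, g2⟩ := key.2 v y (hl.trans ho')
      have := sz_list_le (l := y) (B := 4 * (sz x + sz Δ + 1) + 5) fun z hz => sz_int_le (g2 z hz)
      rw [g1] at this
      change sz [y] ≤ _
      rw [sz_cons, sz_nil]
      omega
  · refine ⟨by simp, fun v y h => ?_⟩
    rw [lab_init] at h
    split_ifs at h
    cases h
    refine ⟨rfl, fun z hz => (natAbs_lt_two_pow_sz _).trans_le (Nat.pow_le_pow_right (by norm_num) ?_)⟩
    have := sz_mem hz
    omega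
  · intro L a y0 hL _ _ _ _ h3 _
    refine ⟨by rw [List.length_set, hL.1], fun v y h => ?_⟩
    rw [lab_set] at h
    split_ifs at h
    · cases h
      obtain ⟨g1, g2⟩ := hL.2 _ _ h3
      refine ⟨by rw [List.length_set, g1], fun z hz => ?_⟩
      rcases List.mem_or_eq_of_mem_set hz with hz | rfl
      · exact g2 z hz
      · have e1 := natAbs_gz x (a / 2)
        have e2 := lt_two_pow_sz Δ
        have e3 : 2 ^ sz x ≤ 2 ^ (sz x + sz Δ) := Nat.pow_le_pow_right (by norm_num) (by omega)
        have e4 : 2 ^ sz Δ ≤ 2 ^ (sz x + sz Δ) := Nat.pow_le_pow_right (by norm_num) (by omega)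
        rw [pow_succ]
        unfold shv
        split_ifs <;> omega
    · exact hL.2 _ _ h

section pt
variable {α : Type} [Enc α]

@[fun_prop] theorem PT.lab {L : α → Labs} {v : α → ℕ} (h : PT L) (hv : PT v) : PT (fun a => lab (L a) (v a)) := by
  unfold R309.lab; fun_prop

@[fun_prop] theorem PT.src {I : α → Inst} {e : α → ℕ} (h : PT I) (he : PT e) : PT (fun a => src (I a) (e a)) := by
  unfold R309.src; fun_prop

@[fun_prop] theorem PT.dst {I : α → Inst} {e : α → ℕ} (h : PT I) (he : PT e) : PT (fun a => dst (I a) (e a)) := by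
  unfold R309.dst; fun_prop

@[fun_prop] theorem PT.shv {x : α → List ℤ} {Δ e : α → ℕ} (h : PT x) (hΔ : PT Δ) (he : PT e) :
    PT (fun a => shv (x a) (Δ a) (e a)) := by
  unfold R309.shv; fun_prop

@[fun_prop] theorem PT.extd {I : α → Inst} {x : α → List ℤ} {Δ forb e : α → ℕ} {L : α → Labs} (hI : PT I)
    (hx : PT x) (hΔ : PT Δ) (hf : PT forb) (hL : PT L) (he : PT e) :
    PT (fun a => extd (I a) (x a) (Δ a) (forb a) (L a) (e a)) := by
  unfold R309.extd; fun_prop

@[fun_prop] theorem PT.pushStep {I : α → Inst} {x : α → List ℤ} {Δ forb : α → ℕ} {L : α → Labs} (hI : PT I)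
    (hx : PT x) (hΔ : PT Δ) (hf : PT forb) (hL : PT L) :
    PT (fun a => pushStep (I a) (x a) (Δ a) (forb a) (L a)) := by
  unfold R309.pushStep; fun_prop

theorem PT.push {I : α → Inst} {x : α → List ℤ} {Δ forb : α → ℕ} {init : α → ℕ → Bool} (hI : PT I) (hx : PT x)
    (hΔ : PT Δ) (hf : PT forb) (hi : PT (fun p : α × ℕ => init p.1 p.2)) :
    PT (fun a => push (I a) (x a) (Δ a) (forb a) (init a)) := by
  unfold R309.push
  refine PT.iterate (f := fun a => R309.pushStep (I a) (x a) (Δ a) (forb a)) (by fun_prop) ?_ (by fun_prop)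
    (by fun_prop)
    (B := fun a => R309.nV (I a) * ((x a).length * (4 * (sz (x a) + sz (Δ a) + 1) + 5 + 1) + 1 + 2 + 1) + 1)
    (by fun_prop) fun a i _ => iter_sz _ _ _ _ _ _
  refine PT.map (f := fun a v => if init a v = true then some (x a) else none) ?_ (by fun_prop)
  exact PT.ite (hi.eq (PT.const true)) (by fun_prop) (by fun_prop)

end pt

end Crest.Agent.R309
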