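import Crest.Agent.Lib.PT.Code
import Crest.Prelude.Def_WordRAM

/-!
# R309: compiling stack programs to the word RAM

The four stacks are interleaved in memory from address `base` on: cell `j` (from the bottom) of stack `k` is at
`base + ix k + 4 j`.  Registers: `sp k` next free cell, `bot k` bottom cell, `10` holds `4`, `12` holds `1`, `11` is scratch.

PLAN.  `sim`: induction on the derivation `Ev p x y n`, generalising `o c`.  Use `At.append` to split the code,
`Ev.len_le` and `St.len_set` for the size hypothesis (`(x.get k).length ≤ x.len`), `step_of` style one-step lemmas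
(`simp [step, hc, hcode]`), `Function.iterate_add_apply`.  A push writes at `sp k`, which differs from all represented
cells (`omega` modulo `4`); `List.reverse_cons`, `List.getD_append`.  A pop only lowers `sp k`.
-/

set_option autoImplicit false
open Crest.Agent.PTime Crest.WordRAM

namespace Crest.Agent.R309

def sp : K → Fin 16 | .s => 2 | .a => 3 | .b => 4 | .c => 5
def bot : K → Fin 16 | .s => 6 | .a => 7 | .b => 8 | .c => 9
def ix : K → ℕ | .s => 0 | .a => 1 | .b => 2 | .c => 3

/-- length of the compiled code -/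
def plen : P → ℕ
  | .skip => 0
  | .push _ _ => 3
  | .seq p q => plen p + plen q
  | .case _ pn pf pt => 4 + plen pt + 1 + plen pf + 1 + plen pn
  | .loop _ pf pt => 4 + plen pt + 1 + plen pf + 1

/-- the code of `p`, placed at position `o` -/
def comp : P → ℕ → List (Instr 16)
  | .skip, _ => []
  | .push k b, _ => [.const 11 b.toNat, .store 11 (sp k), .add (sp k) (sp k) 10]
  | .seq p q, o => comp p o ++ comp q (o + plen p)
  | .case k pn pf pt, o =>
      [.jumpIfEq (sp k) (bot k) (o + 4 + plen pt + 1 + plen pf + 1), .sub (sp k) (sp k) 10, .load 11 (sp k),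
        .jumpIfZero 11 (o + 4 + plen pt + 1)] ++
      comp pt (o + 4) ++ [.jump (o + 4 + plen pt + 1 + plen pf + 1 + plen pn)] ++
      comp pf (o + 4 + plen pt + 1) ++ [.jump (o + 4 + plen pt + 1 + plen pf + 1 + plen pn)] ++
      comp pn (o + 4 + plen pt + 1 + plen pf + 1)
  | .loop k pf pt, o =>
      [.jumpIfEq (sp k) (bot k) (o + 4 + plen pt + 1 + plen pf + 1), .sub (sp k) (sp k) 10, .load 11 (sp k),
        .jumpIfZero 11 (o + 4 + plen pt + 1)] ++
      comp pt (o + 4) ++ [.jump o] ++ comp pf (o + 4 + plen pt + 1) ++ [.jump o]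

theorem length_comp (p : P) : ∀ o, (comp p o).length = plen p := by
  induction p with
  | skip => intro o; rfl
  | push k b => intro o; rfl
  | seq p q ihp ihq => intro o; simp [comp, plen, ihp, ihq]
  | case k pn pf pt i1 i2 i3 => intro o; simp [comp, plen, i1, i2, i3]; omega
  | loop k pf pt i1 i2 => intro o; simp [comp, plen, i1, i2]; omega

/-- the fragment `frag` occurs in `code` at position `o` -/
def At (code : List (Instr 16)) (o : ℕ) (frag : List (Instr 16)) : Prop :=
  ∀ i < frag.length, code[o + i]? = frag[i]?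

theorem At.append {code : List (Instr 16)} {o : ℕ} {f g : List (Instr 16)} :
    At code o (f ++ g) ↔ At code o f ∧ At code (o + f.length) g := by
  constructor
  · intro h
    refine ⟨fun i hi => ?_, fun i hi => ?_⟩
    · rw [h i (by simp; omega), List.getElem?_append_left hi]
    · rw [Nat.add_assoc, h (f.length + i) (by simp; omega), List.getElem?_append_right (by omega)]; simp
  · rintro ⟨h1, h2⟩ i hi
    by_cases h : i < f.length
    · rw [h1 i h, List.getElem?_append_left h]
    · have := h2 (i - f.length) (by simp at hi; omega)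
      rw [List.getElem?_append_right (by omega), ← this]; congr 1; omega

theorem At.self (code : List (Instr 16)) : At code 0 code := fun i _ => by simp

/-- the configuration `c` is running and holds the stacks `x` -/
structure Rep (base : ℕ) (c : Cfg 16) (x : St) : Prop where
  run : c.halted = false
  hsp : ∀ k, c.regs (sp k) = base + ix k + 4 * (x.get k).length
  hbot : ∀ k, c.regs (bot k) = base + ix k
  four : c.regs 10 = 4
  one : c.regs 12 = 1
  hmem : ∀ k j, j < (x.get k).length → c.mem (base + ix k + 4 * j) = ((x.get k).reverse.getD j false).toNat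

theorem At.head {code : List (Instr 16)} {o : ℕ} {a : Instr 16} {f : List (Instr 16)} (h : At code o (a :: f)) :
    code[o]? = some a := by simpa using h 0 (by simp)

theorem At.tail {code : List (Instr 16)} {o : ℕ} {a : Instr 16} {f : List (Instr 16)} (h : At code o (a :: f)) :
    At code (o + 1) f := (At.append (f := [a]) |>.1 h).2

theorem get_set (x : St) (k k' : K) (l : List Bool) : (x.set k l).get k' = if k' = k then l else x.get k' := by
  cases k <;> cases k' <;> simp [St.set, St.get]

theorem len_get_le (x : St) (k : K) : (x.get k).length ≤ x.len := by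
  cases k <;> simp [St.get, St.len] <;> omega

theorem ix_lt (k : K) : ix k < 4 := by cases k <;> simp [ix]

theorem ix_inj {k k' : K} (h : ix k = ix k') : k = k' := by cases k <;> cases k' <;> simp_all [ix]

theorem sp_inj {k k' : K} : sp k = sp k' ↔ k = k' := by cases k <;> cases k' <;> simp [sp]

theorem bot_ne_sp (k k' : K) : bot k ≠ sp k' := by cases k <;> cases k' <;> simp [sp, bot]

/-- registers outside the representation -/
def Free (d : Fin 16) : Prop := (∀ k, sp k ≠ d) ∧ (∀ k, bot k ≠ d) ∧ (10 : Fin 16) ≠ d ∧ (12 : Fin 16) ≠ d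

theorem free_of {d : Fin 16} (h : d = 0 ∨ d = 1 ∨ d = 11 ∨ d = 13 ∨ d = 14 ∨ d = 15) : Free d := by
  refine ⟨fun k => ?_, fun k => ?_, ?_, ?_⟩
  · rcases h with rfl | rfl | rfl | rfl | rfl | rfl <;> cases k <;> simp [sp]
  · rcases h with rfl | rfl | rfl | rfl | rfl | rfl <;> cases k <;> simp [bot]
  · rcases h with rfl | rfl | rfl | rfl | rfl | rfl <;> decide
  · rcases h with rfl | rfl | rfl | rfl | rfl | rfl <;> decide

theorem Rep.pc {base : ℕ} {c : Cfg 16} {x : St} (h : Rep base c x) (p : ℕ) : Rep base { c with pc := p } x :=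
  ⟨h.run, h.hsp, h.hbot, h.four, h.one, h.hmem⟩

theorem Rep.write {base : ℕ} {c : Cfg 16} {x : St} (h : Rep base c x) {d : Fin 16} (hd : Free d) (p v n : ℕ) :
    Rep base { c with pc := p, regs := writeReg c.regs d v, drawn := n } x :=
  ⟨h.run, fun k => by simp [writeReg, hd.1 k, h.hsp], fun k => by simp [writeReg, hd.2.1 k, h.hbot],
    by simp [writeReg, hd.2.2.1, h.four], by simp [writeReg, hd.2.2.2, h.one], h.hmem⟩

theorem Rep.pushed {base : ℕ} {c : Cfg 16} {x : St} (h : Rep base c x) (k : K) (b : Bool) (p : ℕ) :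
    Rep base ⟨p, c.halted, writeReg c.regs (sp k) (c.regs (sp k) + 4), writeMem c.mem (c.regs (sp k)) b.toNat,
      c.drawn⟩ (x.set k (b :: x.get k)) := by
  refine ⟨h.run, fun k' => ?_, fun k' => ?_, ?_, ?_, fun k' j hj => ?_⟩
  · simp only [writeReg, sp_inj, get_set]
    split_ifs with e
    · subst e; rw [h.hsp]; simp; ring
    · exact h.hsp k'
  · simp [writeReg, bot_ne_sp, h.hbot]
  · have : (10 : Fin 16) ≠ sp k := by cases k <;> simp [sp]
    simp [writeReg, this, h.four]
  · have : (12 : Fin 16) ≠ sp k := by cases k <;> simp [sp]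
    simp [writeReg, this, h.one]
  · simp only [writeMem, h.hsp, get_set] at hj ⊢
    by_cases e : k' = k
    · subst e
      simp only [if_true, List.length_cons] at hj ⊢
      rw [List.reverse_cons]
      split_ifs with e2
      · have : j = (x.get k').length := by omega
        subst this
        rw [List.getD_append_right _ _ _ _ (by simp)]; simp
      · have hj' : j < (x.get k').length := by omega
        rw [List.getD_append _ _ _ _ (by simpa using hj'), h.hmem k' j hj']
    · simp only [if_neg e] at hj ⊢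
      rw [if_neg, h.hmem k' j hj]
      intro e2
      have h1 := ix_lt k
      have h2 := ix_lt k'
      exact e (ix_inj (by omega))

theorem Rep.popped {base : ℕ} {c : Cfg 16} {x : St} (h : Rep base c x) {k : K} {b : Bool} {r : List Bool}
    (hx : x.get k = b :: r) (p : ℕ) :
    Rep base { c with pc := p, regs := writeReg c.regs (sp k) (c.regs (sp k) - 4) } (x.set k r) ∧
      c.mem (c.regs (sp k) - 4) = b.toNat := by
  refine ⟨⟨h.run, fun k' => ?_, fun k' => ?_, ?_, ?_, fun k' j hj => ?_⟩, ?_⟩
  · simp only [writeReg, sp_inj, get_set]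
    split_ifs with e
    · subst e; rw [h.hsp, hx]; simp; omega
    · exact h.hsp k'
  · simp [writeReg, bot_ne_sp, h.hbot]
  · have : (10 : Fin 16) ≠ sp k := by cases k <;> simp [sp]
    simp [writeReg, this, h.four]
  · have : (12 : Fin 16) ≠ sp k := by cases k <;> simp [sp]
    simp [writeReg, this, h.one]
  · simp only [get_set] at hj ⊢
    by_cases e : k' = k
    · subst e
      simp only [if_true] at hj ⊢
      rw [h.hmem k' j (by rw [hx]; simp; omega), hx, List.reverse_cons,
        List.getD_append _ _ _ _ (by simpa using hj)]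
    · simp only [if_neg e] at hj ⊢
      exact h.hmem k' j hj
  · have := h.hmem k r.length (by rw [hx]; simp)
    rw [hx, List.reverse_cons, List.getD_append_right _ _ _ _ (by simp)] at this
    rw [h.hsp, hx]
    simp only [List.length_cons]
    rw [show base + ix k + 4 * (r.length + 1) - 4 = base + ix k + 4 * r.length by omega, this]; simp

section steps
variable {code : List (Instr 16)} {w : ℕ} {ρ : ℕ → ℕ} {base : ℕ}

/-- `c'` is reached from `c` within `n` steps -/
def Rch (code : List (Instr 16)) (w : ℕ) (ρ : ℕ → ℕ) (c c' : Cfg 16) (n : ℕ) : Prop :=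
  ∃ τ ≤ n, (step ⟨16, code⟩ w ρ)^[τ] c = c'

theorem Rch.refl (c : Cfg 16) : Rch code w ρ c c 0 := ⟨0, le_rfl, rfl⟩

theorem Rch.trans {c c' c'' : Cfg 16} {m n : ℕ} (h : Rch code w ρ c c' m) (h' : Rch code w ρ c' c'' n) :
    Rch code w ρ c c'' (m + n) := by
  obtain ⟨a, ha, rfl⟩ := h
  obtain ⟨b, hb, rfl⟩ := h'
  exact ⟨b + a, by omega, Function.iterate_add_apply _ _ _ _⟩

theorem Rch.mono {c c' : Cfg 16} {m n : ℕ} (h : Rch code w ρ c c' m) (hmn : m ≤ n) : Rch code w ρ c c' n := by
  obtain ⟨a, ha, h⟩ := h; exact ⟨a, ha.trans hmn, h⟩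

theorem Rch.one (c : Cfg 16) : Rch code w ρ c (step ⟨16, code⟩ w ρ c) 1 := ⟨1, le_rfl, rfl⟩

theorem step_jump {c : Cfg 16} (h : c.halted = false) {l : ℕ} (hi : code[c.pc]? = some (.jump l)) :
    step ⟨16, code⟩ w ρ c = { c with pc := l } := by simp [step, h, hi]

theorem step_jeq {c : Cfg 16} (h : c.halted = false) {a b : Fin 16} {l : ℕ}
    (hi : code[c.pc]? = some (.jumpIfEq a b l)) :
    step ⟨16, code⟩ w ρ c = { c with pc := if c.regs a = c.regs b then l else c.pc + 1 } := by simp [step, h, hi]

theorem step_jz {c : Cfg 16} (h : c.halted = false) {a : Fin 16} {l : ℕ}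
    (hi : code[c.pc]? = some (.jumpIfZero a l)) :
    step ⟨16, code⟩ w ρ c = { c with pc := if c.regs a = 0 then l else c.pc + 1 } := by simp [step, h, hi]

theorem step_const {c : Cfg 16} (h : c.halted = false) {a : Fin 16} {v : ℕ}
    (hi : code[c.pc]? = some (.const a v)) :
    step ⟨16, code⟩ w ρ c = { c with pc := c.pc + 1, regs := writeReg c.regs a (v % 2 ^ w) } := by
  simp [step, h, hi]

theorem step_copy {c : Cfg 16} (h : c.halted = false) {a b : Fin 16} (hi : code[c.pc]? = some (.copy a b)) :
    step ⟨16, code⟩ w ρ c = { c with pc := c.pc + 1, regs := writeReg c.regs a (c.regs b) } := by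
  simp [step, h, hi]

theorem step_add {c : Cfg 16} (h : c.halted = false) {d a b : Fin 16} (hi : code[c.pc]? = some (.add d a b)) :
    step ⟨16, code⟩ w ρ c =
      { c with pc := c.pc + 1, regs := writeReg c.regs d ((c.regs a + c.regs b) % 2 ^ w) } := by
  simp [step, h, hi]

theorem step_sub {c : Cfg 16} (h : c.halted = false) {d a b : Fin 16} (hi : code[c.pc]? = some (.sub d a b)) :
    step ⟨16, code⟩ w ρ c = { c with pc := c.pc + 1, regs := writeReg c.regs d (c.regs a - c.regs b) } := by
  simp [step, h, hi]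

theorem step_and {c : Cfg 16} (h : c.halted = false) {d a b : Fin 16} (hi : code[c.pc]? = some (.and d a b)) :
    step ⟨16, code⟩ w ρ c = { c with pc := c.pc + 1, regs := writeReg c.regs d (c.regs a &&& c.regs b) } := by
  simp [step, h, hi]

theorem step_shr {c : Cfg 16} (h : c.halted = false) {d a b : Fin 16} (hi : code[c.pc]? = some (.shr d a b)) :
    step ⟨16, code⟩ w ρ c = ⟨c.pc + 1, c.halted,
      writeReg c.regs d (if c.regs b < w then c.regs a >>> c.regs b else 0), c.mem, c.drawn⟩ := by
  simp [step, h, hi]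

theorem step_load {c : Cfg 16} (h : c.halted = false) {d a : Fin 16} (hi : code[c.pc]? = some (.load d a)) :
    step ⟨16, code⟩ w ρ c = { c with pc := c.pc + 1, regs := writeReg c.regs d (c.mem (c.regs a)) } := by
  simp [step, h, hi]

theorem step_store {c : Cfg 16} (h : c.halted = false) {d a : Fin 16} (hi : code[c.pc]? = some (.store d a)) :
    step ⟨16, code⟩ w ρ c = { c with pc := c.pc + 1, mem := writeMem c.mem (c.regs a) (c.regs d) } := by
  simp [step, h, hi]

theorem step_rand {c : Cfg 16} (h : c.halted = false) {d : Fin 16} (hi : code[c.pc]? = some (.rand d)) :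
    step ⟨16, code⟩ w ρ c =
      { c with pc := c.pc + 1, regs := writeReg c.regs d (ρ c.drawn % 2 ^ w), drawn := c.drawn + 1 } := by
  simp [step, h, hi]

theorem step_halt {c : Cfg 16} (h : c.halted = false) (hi : code[c.pc]? = some .halt) :
    step ⟨16, code⟩ w ρ c = { c with halted := true } := by
  simp [step, h, hi]

/-- store the bit held in `d` on top of stack `k` -/
theorem push_steps {c : Cfg 16} {x : St} (hc : Rep base c x) {d : Fin 16} {k : K} {b : Bool}
    (h1 : code[c.pc]? = some (.store d (sp k))) (h2 : code[c.pc + 1]? = some (.add (sp k) (sp k) 10))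
    (hd : c.regs d = b.toNat) (hw : base + 4 * (x.get k).length + 8 < 2 ^ w) :
    (step ⟨16, code⟩ w ρ)^[2] c = ⟨c.pc + 2, c.halted, writeReg c.regs (sp k) (c.regs (sp k) + 4),
      writeMem c.mem (c.regs (sp k)) b.toNat, c.drawn⟩ := by
  have := ix_lt k
  rw [Function.iterate_succ_apply, Function.iterate_one, step_store hc.run h1, step_add (by exact hc.run) (by exact h2)]
  simp only [hd, hc.four]
  rw [Nat.mod_eq_of_lt (by rw [hc.hsp]; omega)]

theorem head_nil {c : Cfg 16} {x : St} (hc : Rep base c x) {k : K} (hx : x.get k = []) {l : ℕ}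
    (h1 : code[c.pc]? = some (.jumpIfEq (sp k) (bot k) l)) : step ⟨16, code⟩ w ρ c = { c with pc := l } := by
  rw [step_jeq hc.run h1, if_pos (by rw [hc.hsp, hc.hbot, hx]; simp)]

theorem head_ne {c : Cfg 16} {x : St} (hc : Rep base c x) {k : K} (hx : x.get k ≠ []) {l : ℕ}
    (h1 : code[c.pc]? = some (.jumpIfEq (sp k) (bot k) l)) :
    step ⟨16, code⟩ w ρ c = { c with pc := c.pc + 1 } := by
  have := List.length_pos_iff.2 hx
  rw [step_jeq hc.run h1, if_neg (by rw [hc.hsp, hc.hbot]; omega)]

/-- pop the top of stack `k` into register 11 -/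
theorem pop_steps {c : Cfg 16} {x : St} (hc : Rep base c x) {k : K} {b : Bool} {r : List Bool}
    (hx : x.get k = b :: r) (h1 : code[c.pc]? = some (.sub (sp k) (sp k) 10))
    (h2 : code[c.pc + 1]? = some (.load 11 (sp k))) :
    (step ⟨16, code⟩ w ρ)^[2] c = ⟨c.pc + 2, c.halted,
      writeReg (writeReg c.regs (sp k) (c.regs (sp k) - 4)) 11 b.toNat, c.mem, c.drawn⟩ := by
  rw [Function.iterate_succ_apply, Function.iterate_one, step_sub hc.run h1, step_load (by exact hc.run) (by exact h2)]
  simp only [hc.four]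
  rw [← (hc.popped hx 0).2]
  simp [writeReg]

theorem head_cons {c : Cfg 16} {x : St} (hc : Rep base c x) {k : K} {b : Bool} {r : List Bool}
    (hx : x.get k = b :: r) {l1 l2 : ℕ} {f : List (Instr 16)}
    (hat : At code c.pc (.jumpIfEq (sp k) (bot k) l1 :: .sub (sp k) (sp k) 10 :: .load 11 (sp k) ::
      .jumpIfZero 11 l2 :: f)) :
    ∃ c', Rch code w ρ c c' 4 ∧ c'.pc = (if b = true then c.pc + 4 else l2) ∧ Rep base c' (x.set k r) ∧
      c'.drawn = c.drawn := by
  have e1 := head_ne (w := w) (ρ := ρ) hc (by rw [hx]; simp) hat.head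
  have e2 := pop_steps (w := w) (ρ := ρ) (hc.pc (c.pc + 1)) hx hat.tail.head hat.tail.tail.head
  have hr := ((hc.popped hx 0).1.write (free_of (d := 11) (by simp)) (c.pc + 1 + 2) b.toNat c.drawn)
  have e3 := step_jz (w := w) (ρ := ρ) hr.run hat.tail.tail.tail.head
  refine ⟨_, (((Rch.one c).trans ⟨2, le_rfl, by rw [e1, e2]⟩).trans ⟨1, le_rfl, e3⟩), ?_, hr.pc _, rfl⟩
  cases b <;> simp [writeReg]

theorem sim' {p : P} {x y : St} {n : ℕ} (h : Ev p x y n) : ∀ (c : Cfg 16), At code c.pc (comp p c.pc) →
    Rep base c x → base + 4 * (x.len + n) + 8 < 2 ^ w →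
    ∃ c', Rch code w ρ c c' (5 * n) ∧ c'.pc = c.pc + plen p ∧ Rep base c' y ∧ c'.drawn = c.drawn := by
  induction h with
  | skip x => intro c _ hc _; exact ⟨c, (Rch.refl c).mono (by omega), rfl, hc, rfl⟩
  | push k b x =>
    intro c hat hc hw
    have hk := len_get_le x k
    have hb : b.toNat % 2 ^ w = b.toNat := Nat.mod_eq_of_lt (by have := Bool.toNat_le b; omega)
    have e1 := step_const (w := w) (ρ := ρ) hc.run hat.head
    rw [hb] at e1
    have hr := hc.write (free_of (d := 11) (by simp)) (c.pc + 1) b.toNat c.drawn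
    have e2 := push_steps (w := w) (ρ := ρ) (b := b) hr hat.tail.head hat.tail.tail.head (by simp [writeReg])
      (by omega)
    exact ⟨_, ((Rch.one c).trans ⟨2, le_rfl, by rw [e1]; exact e2⟩).mono (by omega), rfl, hr.pushed k b _, rfl⟩
  | @seq p q x y z m n h1 _ ih1 ih2 =>
    intro c hat hc hw
    have hl := h1.len_le
    rw [comp, At.append, length_comp] at hat
    obtain ⟨c1, r1, p1, s1, d1⟩ := ih1 c hat.1 hc (by omega)
    obtain ⟨c2, r2, p2, s2, d2⟩ := ih2 c1 (by rw [p1]; exact hat.2) s1 (by omega)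
    exact ⟨c2, (r1.trans r2).mono (by omega), by rw [p2, p1, plen]; omega, s2, d2.trans d1⟩
  | @caseN k pn pf pt x y n hx _ ih =>
    intro c hat hc hw
    simp only [comp, At.append, List.length_append, length_comp, List.length_cons, List.length_nil] at hat
    have e1 := head_nil (w := w) (ρ := ρ) hc hx hat.1.1.1.1.1.head
    obtain ⟨c2, r2, p2, s2, d2⟩ := ih _ (by convert hat.2 using 1; simp; omega)
      (hc.pc (c.pc + 4 + plen pt + 1 + plen pf + 1)) (by omega)
    exact ⟨c2, (Rch.trans ⟨1, le_rfl, e1⟩ r2).mono (by omega), by rw [p2, plen]; simp; omega, s2, d2⟩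
  | @caseF k pn pf pt x y n r hx _ ih =>
    intro c hat hc hw
    have hl := St.len_set x k r
    rw [hx, List.length_cons] at hl
    simp only [comp, At.append, List.length_append, length_comp, List.length_cons, List.length_nil] at hat
    obtain ⟨c1, r1, p1, s1, d1⟩ := head_cons (w := w) (ρ := ρ) hc hx hat.1.1.1.1.1
    simp only [Bool.false_eq_true, if_false] at p1
    obtain ⟨c2, r2, p2, s2, d2⟩ := ih c1 (by rw [p1]; convert hat.1.1.2 using 1; omega) s1 (by omega)
    have e3 := step_jump (w := w) (ρ := ρ) s2.run (by rw [p2, p1]; convert hat.1.2.head using 2; omega)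
    exact ⟨_, ((r1.trans r2).trans ⟨1, le_rfl, e3⟩).mono (by omega), by simp [plen]; omega, s2.pc _, d2.trans d1⟩
  | @caseT k pn pf pt x y n r hx _ ih =>
    intro c hat hc hw
    have hl := St.len_set x k r
    rw [hx, List.length_cons] at hl
    simp only [comp, At.append, List.length_append, length_comp, List.length_cons, List.length_nil] at hat
    obtain ⟨c1, r1, p1, s1, d1⟩ := head_cons (w := w) (ρ := ρ) hc hx hat.1.1.1.1.1
    simp only [if_true] at p1
    obtain ⟨c2, r2, p2, s2, d2⟩ := ih c1 (by rw [p1]; exact hat.1.1.1.1.2) s1 (by omega)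
    have e3 := step_jump (w := w) (ρ := ρ) s2.run (by rw [p2, p1]; convert hat.1.1.1.2.head using 2; omega)
    exact ⟨_, ((r1.trans r2).trans ⟨1, le_rfl, e3⟩).mono (by omega), by simp [plen]; omega, s2.pc _, d2.trans d1⟩
  | @loopN k pf pt x hx =>
    intro c hat hc hw
    simp only [comp, At.append, List.length_append, length_comp, List.length_cons, List.length_nil] at hat
    have e1 := head_nil (w := w) (ρ := ρ) hc hx hat.1.1.1.1.head
    exact ⟨_, Rch.mono ⟨1, le_rfl, e1⟩ (by omega), by simp [plen]; omega, hc.pc _, rfl⟩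
  | @loopF k pf pt x y z m n r hx h1 _ ih1 ih2 =>
    intro c hat0 hc hw
    have hl := St.len_set x k r
    have hl2 := h1.len_le
    rw [hx, List.length_cons] at hl
    have hat := hat0
    simp only [comp, At.append, List.length_append, length_comp, List.length_cons, List.length_nil] at hat
    obtain ⟨c1, r1, p1, s1, d1⟩ := head_cons (w := w) (ρ := ρ) hc hx hat.1.1.1.1
    simp only [Bool.false_eq_true, if_false] at p1
    obtain ⟨c2, r2, p2, s2, d2⟩ := ih1 c1 (by rw [p1]; convert hat.1.2 using 1; omega) s1 (by omega)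
    have e3 := step_jump (w := w) (ρ := ρ) s2.run (by rw [p2, p1]; convert hat.2.head using 2; omega)
    obtain ⟨c3, r3, p3, s3, d3⟩ := ih2 { c2 with pc := c.pc } hat0 (s2.pc c.pc) (by omega)
    exact ⟨c3, (((r1.trans r2).trans ⟨1, le_rfl, e3⟩).trans r3).mono (by omega), p3, s3,
      d3.trans (d2.trans d1)⟩
  | @loopT k pf pt x y z m n r hx h1 _ ih1 ih2 =>
    intro c hat0 hc hw
    have hl := St.len_set x k r
    have hl2 := h1.len_le
    rw [hx, List.length_cons] at hl
    have hat := hat0
    simp only [comp, At.append, List.length_append, length_comp, List.length_cons, List.length_nil] at hat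
    obtain ⟨c1, r1, p1, s1, d1⟩ := head_cons (w := w) (ρ := ρ) hc hx hat.1.1.1.1
    simp only [if_true] at p1
    obtain ⟨c2, r2, p2, s2, d2⟩ := ih1 c1 (by rw [p1]; exact hat.1.1.1.2) s1 (by omega)
    have e3 := step_jump (w := w) (ρ := ρ) s2.run (by rw [p2, p1]; convert hat.1.1.2.head using 2; omega)
    obtain ⟨c3, r3, p3, s3, d3⟩ := ih2 { c2 with pc := c.pc } hat0 (s2.pc c.pc) (by omega)
    exact ⟨c3, (((r1.trans r2).trans ⟨1, le_rfl, e3⟩).trans r3).mono (by omega), p3, s3,
      d3.trans (d2.trans d1)⟩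

end steps

theorem sim (code : List (Instr 16)) (w : ℕ) (ρ : ℕ → ℕ) (base : ℕ) {p : P} {x y : St} {n : ℕ} (h : Ev p x y n)
    (o : ℕ) (c : Cfg 16) (hat : At code o (comp p o)) (hpc : c.pc = o) (hc : Rep base c x)
    (hw : base + 4 * (x.len + n) + 8 < 2 ^ w) :
    ∃ τ ≤ 5 * n, ((step ⟨16, code⟩ w ρ)^[τ] c).pc = o + plen p ∧ Rep base ((step ⟨16, code⟩ w ρ)^[τ] c) y ∧
      ((step ⟨16, code⟩ w ρ)^[τ] c).drawn = c.drawn := by
  subst hpc
  obtain ⟨c', ⟨τ, h1, rfl⟩, h2⟩ := sim' (ρ := ρ) h c hat hc hw
  exact ⟨τ, h1, h2⟩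

theorem sim_le (code : List (Instr 16)) (w : ℕ) (ρ : ℕ → ℕ) (base : ℕ) {p : P} {x y : St} {n : ℕ}
    (h : EvLe p x y n) (o : ℕ) (c : Cfg 16) (hat : At code o (comp p o)) (hpc : c.pc = o) (hc : Rep base c x)
    (hw : base + 4 * (x.len + n) + 8 < 2 ^ w) :
    ∃ τ ≤ 5 * n, ((step ⟨16, code⟩ w ρ)^[τ] c).pc = o + plen p ∧ Rep base ((step ⟨16, code⟩ w ρ)^[τ] c) y ∧
      ((step ⟨16, code⟩ w ρ)^[τ] c).drawn = c.drawn := by
  obtain ⟨m, hm, h⟩ := h
  obtain ⟨τ, h1, h2⟩ := sim code w ρ base h o c hat hpc hc (by omega)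
  exact ⟨τ, by omega, h2⟩

end Crest.Agent.R309
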