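import Crest.Agent.R309.RamCode

/-!
# R309: input, random bit and output fragments of the word-RAM program

PLAN.  `init_spec`: ten steps set up the registers (`base = inp.length`).  Outer loop (position 10, register 13 is `i`):
invariant `Rep base c ⟨[], (icode (inp.take i)).reverse, [], []⟩`, `regs 0 = base`, memory below `base` unchanged, `drawn = 0`.
Inner loop (position 12, register 14 is `v`): strong induction on `v` (`Nat.binaryRec`, `Nat.bits`), pushing
`true, v % 2` in 8 steps.  A general push lemma for `Rep` (store the bit at `sp .a`, add 4) does most of the work.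
`out_spec`: after four steps, invariant at position `o+4`: stack `a` holds `tok rest`, `regs 14 = 0`, `regs 1 = s0` (the
initial `sp .a`), `regs 0 = #done`, `regs 13 = s0 + #done`, `mem (s0 + i) = done[i]`; inner invariant while reading the
bits `l` of a word most significant first: `regs 14 = ofBits (read bits, reversed) ≤ v`.  Stores happen at addresses
`≥ s0`, above all cells of stack `a` (the other stacks are empty).
-/

set_option autoImplicit false
open Crest.Agent.PTime Crest.WordRAM Crest.Enc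

namespace Crest.Agent.R309

/-- the input as a bit string -/
def icode (inp : List ℕ) : List Bool := (inp.map natCode).flatten

/-- the tokens read by the output loop -/
def tok (out : List ℕ) : List Bool := out.flatMap fun v => (v.bits.reverse.flatMap fun b => [true, b]) ++ [false]

def ocode (out : List ℕ) : List Bool := (tok out).reverse

def rbit (ρ : ℕ → ℕ) (i : ℕ) : Bool := decide (ρ i % 2 = 1)

def initCode : List (Instr 16) :=
  [.const 12 1, .const 10 4, .copy 6 0, .add 7 6 12, .add 8 7 12, .add 9 8 12, .copy 2 6, .copy 3 7, .copy 4 8,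
   .copy 5 9, .jumpIfEq 13 0 27, .load 14 13, .jumpIfZero 14 20, .store 12 3, .add 3 3 10, .and 11 14 12,
   .store 11 3, .add 3 3 10, .shr 14 14 12, .jump 12, .const 11 0, .store 11 3, .add 3 3 10, .store 11 3,
   .add 3 3 10, .add 13 13 12, .jump 10]

def randCode : List (Instr 16) := [.rand 11, .and 11 11 12, .store 11 3, .add 3 3 10]

def outR (o : ℕ) : List (Instr 16) :=
  [.copy 1 3, .const 0 0, .copy 13 3, .const 14 0, .jumpIfEq 3 7 (o + 18), .sub 3 3 10, .load 11 3,
   .jumpIfZero 11 (o + 13), .sub 3 3 10, .load 11 3, .add 14 14 14, .add 14 14 11, .jump (o + 4), .store 14 13,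
   .add 13 13 12, .add 0 0 12, .const 14 0, .jump (o + 4), .halt]

section
variable {code : List (Instr 16)} {w : ℕ} {ρ : ℕ → ℕ} {base : ℕ}

theorem At.get {o : ℕ} {f : List (Instr 16)} (h : At code o f) {p : ℕ} (i : ℕ) {a : Instr 16}
    (hp : p = o + i) (hf : f[i]? = some a) : code[p]? = some a := by
  subst hp
  rw [h i (List.getElem?_eq_some_iff.1 hf).1, hf]

/-- what the input loops keep -/
structure Keep (base : ℕ) (c c' : Cfg 16) : Prop where
  r0 : c'.regs 0 = c.regs 0
  r13 : c'.regs 13 = c.regs 13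
  dr : c'.drawn = c.drawn
  mem : ∀ i < base, c'.mem i = c.mem i

theorem Keep.trans {c c' c'' : Cfg 16} (h : Keep base c c') (h' : Keep base c' c'') : Keep base c c'' :=
  ⟨h'.r0.trans h.r0, h'.r13.trans h.r13, h'.dr.trans h.dr, fun i hi => (h'.mem i hi).trans (h.mem i hi)⟩

theorem push_a {c : Cfg 16} {s a : List Bool} (hc : Rep base c ⟨s, a, [], []⟩) {d : Fin 16} {b : Bool}
    (h1 : code[c.pc]? = some (.store d 3)) (h2 : code[c.pc + 1]? = some (.add 3 3 10))
    (hd : c.regs d = b.toNat) (hw : base + 4 * a.length + 8 < 2 ^ w) :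
    ∃ c', (step ⟨16, code⟩ w ρ)^[2] c = c' ∧ c'.pc = c.pc + 2 ∧ Rep base c' ⟨s, b :: a, [], []⟩ ∧ Keep base c c' ∧
      c'.regs 11 = c.regs 11 ∧ c'.regs 14 = c.regs 14 := by
  refine ⟨_, push_steps (k := .a) hc h1 h2 hd hw, rfl, hc.pushed .a b _, ⟨?_, ?_, rfl, fun i hi => ?_⟩, ?_, ?_⟩
  · simp [writeReg, sp]
  · simp [writeReg, sp]
  · have := hc.hsp .a
    simp only [writeMem]
    rw [if_neg (by omega)]
  · simp [writeReg, sp]
  · simp [writeReg, sp]

theorem bits_succ {v : ℕ} (hv : v ≠ 0) : v.bits = decide (v % 2 = 1) :: (v / 2).bits := by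
  conv_lhs => rw [← Nat.bit_decide_mod_two_eq_one_shiftRight_one v]
  rw [Nat.bits_append_bit _ _ (fun h => by
    rw [Nat.shiftRight_one] at h
    simp; omega), Nat.shiftRight_one]

theorem init_inner (hat : At code 0 initCode) (v : ℕ) : ∀ (c : Cfg 16) (a : List Bool), c.pc = 12 → c.regs 14 = v →
    Rep base c ⟨[], a, [], []⟩ → base + 4 * (a.length + 2 * v.bits.length) + 8 < 2 ^ w →
    ∃ c', Rch code w ρ c c' (8 * v.bits.length + 1) ∧ c'.pc = 20 ∧
      Rep base c' ⟨[], (v.bits.map fun b => [true, b]).flatten.reverse ++ a, [], []⟩ ∧ Keep base c c' := by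
  induction v using Nat.strong_induction_on with
  | _ v ih =>
    intro c a hpc hv hc hw
    have e0 := step_jz (w := w) (ρ := ρ) hc.run (hat.get 12 (by omega) rfl)
    by_cases h0 : v = 0
    · subst h0
      rw [if_pos hv] at e0
      exact ⟨_, ⟨1, by simp, e0⟩, rfl, by simpa using hc.pc 20, ⟨rfl, rfl, rfl, fun _ _ => rfl⟩⟩
    · rw [if_neg (by rw [hv]; exact h0)] at e0
      rw [bits_succ h0] at hw ⊢
      simp only [List.length_cons] at hw
      have hw1 : 1 < w := by
        by_contra h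
        have : 2 ^ w ≤ 2 ^ 1 := Nat.pow_le_pow_right (by norm_num) (by omega)
        omega
      obtain ⟨c1, e1, p1, s1, k1, -, v1⟩ := push_a (w := w) (ρ := ρ) (b := true) (hc.pc (c.pc + 1))
        (hat.get 13 (by simp; omega) rfl) (hat.get 14 (by simp; omega) rfl) hc.one (by omega)
      simp only at p1 v1
      have e2 := step_and (w := w) (ρ := ρ) s1.run (hat.get 15 (by omega) rfl)
      rw [v1, hv, s1.one, Nat.and_one_is_mod] at e2
      have s2 := s1.write (free_of (d := 11) (by simp)) (c1.pc + 1) (v % 2) c1.drawn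
      obtain ⟨c3, e3, p3, s3, k3, -, v3⟩ := push_a (w := w) (ρ := ρ) (b := decide (v % 2 = 1)) s2
        (hat.get 16 (by simp; omega) rfl) (hat.get 17 (by simp; omega) rfl)
        (by rcases Nat.mod_two_eq_zero_or_one v with h | h <;> simp [writeReg, h]) (by simp; omega)
      simp only at p3 v3
      have v3' : c3.regs 14 = v := by rw [v3]; simp [writeReg, v1, hv]
      have e4 := step_shr (w := w) (ρ := ρ) s3.run (hat.get 18 (by omega) rfl)
      rw [v3', s3.one, if_pos hw1, Nat.shiftRight_one] at e4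
      have s4 := s3.write (free_of (d := 14) (by simp)) (c3.pc + 1) (v / 2) c3.drawn
      have e5 := step_jump (w := w) (ρ := ρ) s4.run (hat.get 19 (by simp; omega) rfl)
      obtain ⟨c6, r6, p6, s6, k6⟩ := ih (v / 2) (by omega) _ _ rfl (by simp [writeReg]) (s4.pc 12) (by simp; omega)
      refine ⟨c6, ((((((Rch.trans ⟨1, le_rfl, e0⟩ ⟨2, le_rfl, e1⟩).trans ⟨1, le_rfl, e2⟩).trans
        ⟨2, le_rfl, e3⟩).trans ⟨1, le_rfl, e4⟩).trans ⟨1, le_rfl, e5⟩).trans r6).mono (by simp; omega), p6,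
        by simpa using s6, ⟨?_, ?_, ?_, fun i hi => ?_⟩⟩
      · rw [k6.r0]; simp only [writeReg]; rw [if_neg (by decide), k3.r0]; simp [writeReg, k1.r0]
      · rw [k6.r13]; simp only [writeReg]; rw [if_neg (by decide), k3.r13]; simp [writeReg, k1.r13]
      · rw [k6.dr]; simp only; rw [k3.dr]; exact k1.dr
      · rw [k6.mem i hi]; simp only; rw [k3.mem i hi]; exact k1.mem i hi

theorem length_natCode (v : ℕ) : (natCode v).length = 2 * v.bits.length + 2 := by
  unfold natCode
  generalize v.bits = l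
  induction l with
  | nil => rfl
  | cons b l ih => simp at ih ⊢; omega

theorem icode_cons (v : ℕ) (l : List ℕ) : icode (v :: l) = natCode v ++ icode l := by simp [icode]

theorem init_outer (hat : At code 0 initCode) (rest : List ℕ) : ∀ (c : Cfg 16) (a : List Bool), c.pc = 10 →
    c.regs 0 = base → c.regs 13 + rest.length = base → (∀ j < rest.length, c.mem (c.regs 13 + j) = rest.getD j 0) →
    Rep base c ⟨[], a, [], []⟩ → base + 4 * (a.length + (icode rest).length) + 8 < 2 ^ w →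
    ∃ c', Rch code w ρ c c' (5 * (icode rest).length + 1) ∧ c'.pc = 27 ∧
      Rep base c' ⟨[], (icode rest).reverse ++ a, [], []⟩ ∧ c'.drawn = c.drawn := by
  induction rest with
  | nil =>
    intro c a hpc h0 h13 _ hc _
    have e0 := step_jeq (w := w) (ρ := ρ) hc.run (hat.get 10 (by omega) rfl)
    rw [if_pos (by simpa [h0] using h13)] at e0
    exact ⟨_, ⟨1, by simp, e0⟩, rfl, by simpa [icode] using hc.pc 27, rfl⟩
  | cons v rest ih =>
    intro c a hpc h0 h13 hm hc hw
    rw [icode_cons] at hw ⊢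
    simp only [List.length_cons, List.length_append, length_natCode] at h13 hm hw ⊢
    have e0 := step_jeq (w := w) (ρ := ρ) hc.run (hat.get 10 (by omega) rfl)
    rw [if_neg (by omega)] at e0
    have e1 := step_load (w := w) (ρ := ρ) (hc.pc (c.pc + 1)).run (hat.get 11 (by simp; omega) rfl)
    have hv : c.mem (c.regs 13) = v := by simpa using hm 0 (by omega)
    simp only [hv] at e1
    have s1 := hc.write (free_of (d := 14) (by simp)) (c.pc + 1 + 1) v c.drawn
    obtain ⟨c2, r2, p2, s2, k2⟩ := init_inner (w := w) (ρ := ρ) hat v _ a (by simp; omega) (by simp [writeReg]) s1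
      (by omega)
    have hl : ((v.bits.map fun b => [true, b]).flatten.reverse ++ a).length = 2 * v.bits.length + a.length := by
      have := length_natCode v
      simp only [natCode, List.length_append, List.length_cons, List.length_nil] at this
      simp only [List.length_append, List.length_reverse]; omega
    have e3 := step_const (w := w) (ρ := ρ) s2.run (hat.get 20 (by omega) rfl)
    rw [Nat.zero_mod] at e3
    have s3 := s2.write (free_of (d := 11) (by simp)) (c2.pc + 1) 0 c2.drawn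
    obtain ⟨c4, e4, p4, s4, k4, u4, -⟩ := push_a (w := w) (ρ := ρ) (b := false) s3
      (hat.get 21 (by simp; omega) rfl) (hat.get 22 (by simp; omega) rfl) (by simp [writeReg]) (by omega)
    simp only at p4
    obtain ⟨c5, e5, p5, s5, k5, -, -⟩ := push_a (w := w) (ρ := ρ) (b := false) s4
      (hat.get 23 (by omega) rfl) (hat.get 24 (by omega) rfl) (by rw [u4]; simp [writeReg])
      (by simp only [List.length_cons]; omega)
    have q13 : c5.regs 13 = c.regs 13 := by
      rw [k5.r13, k4.r13]; simp only [writeReg]; rw [if_neg (by decide), k2.r13]; simp [writeReg]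
    have q0 : c5.regs 0 = base := by
      rw [k5.r0, k4.r0]; simp only [writeReg]; rw [if_neg (by decide), k2.r0]; simp [writeReg, h0]
    have e6 := step_add (w := w) (ρ := ρ) s5.run (hat.get 25 (by omega) rfl)
    rw [q13, s5.one, Nat.mod_eq_of_lt (by omega)] at e6
    have s6 := s5.write (free_of (d := 13) (by simp)) (c5.pc + 1) (c.regs 13 + 1) c5.drawn
    have e7 := step_jump (w := w) (ρ := ρ) s6.run (hat.get 26 (by simp; omega) rfl)
    obtain ⟨c8, r8, p8, s8, d8⟩ := ih _ _ rfl (by simp [writeReg, q0]) (by simp [writeReg]; omega)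
      (fun j hj => by
        have := hm (j + 1) (by omega)
        simp only [writeReg, if_true]
        rw [k5.mem _ (by omega), k4.mem _ (by omega)]
        simp only
        rw [k2.mem _ (by omega)]
        simpa [Nat.add_assoc, Nat.add_comm 1 j] using this) (s6.pc 10) (by simp only [List.length_cons]; omega)
    refine ⟨c8, ((((((((Rch.trans ⟨1, le_rfl, e0⟩ ⟨1, le_rfl, e1⟩).trans r2).trans ⟨1, le_rfl, e3⟩).trans
      ⟨2, le_rfl, e4⟩).trans ⟨2, le_rfl, e5⟩).trans ⟨1, le_rfl, e6⟩).trans ⟨1, le_rfl, e7⟩).trans r8).mono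
      (by omega), p8, by simpa [natCode] using s8, ?_⟩
    rw [d8]; simp only; rw [k5.dr, k4.dr]; exact k2.dr

end

theorem init_spec (code : List (Instr 16)) (hat : At code 0 initCode) (w : ℕ) (ρ : ℕ → ℕ) (inp : List ℕ)
    (hfit : Fits w inp) (hw : inp.length + 4 * (icode inp).length + 8 < 2 ^ w) :
    ∃ τ ≤ 5 * (icode inp).length + 11, (run ⟨16, code⟩ w ρ inp τ).pc = 27 ∧
      Rep inp.length (run ⟨16, code⟩ w ρ inp τ) ⟨[], (icode inp).reverse, [], []⟩ ∧
      (run ⟨16, code⟩ w ρ inp τ).drawn = 0 := by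
  have m0 : inp.length % 2 ^ w = inp.length := Nat.mod_eq_of_lt (by omega)
  have m1 : 1 % 2 ^ w = 1 := Nat.mod_eq_of_lt (by omega)
  have m4 : 4 % 2 ^ w = 4 := Nat.mod_eq_of_lt (by omega)
  have n1 : (inp.length + 1) % 2 ^ w = inp.length + 1 := Nat.mod_eq_of_lt (by omega)
  have n2 : (inp.length + 1 + 1) % 2 ^ w = inp.length + 1 + 1 := Nat.mod_eq_of_lt (by omega)
  have n3 : (inp.length + 1 + 1 + 1) % 2 ^ w = inp.length + 1 + 1 + 1 := Nat.mod_eq_of_lt (by omega)
  obtain ⟨c, hc⟩ : ∃ c, c = (step ⟨16, code⟩ w ρ)^[10] (init ⟨16, code⟩ w inp) := ⟨_, rfl⟩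
  have hc' := hc
  simp only [Function.iterate_succ_apply, Function.iterate_zero_apply] at hc'
  have e0 := step_const (w := w) (ρ := ρ) (c := init ⟨16, code⟩ w inp) rfl (hat.get 0 rfl rfl)
  rw [e0] at hc'
  generalize hc1 : (⟨(init ⟨16, code⟩ w inp).pc + 1, (init ⟨16, code⟩ w inp).halted,
    writeReg (init ⟨16, code⟩ w inp).regs 12 (1 % 2 ^ w), (init ⟨16, code⟩ w inp).mem,
    (init ⟨16, code⟩ w inp).drawn⟩ : Cfg 16) = c1 at hc'
  have st : ∀ (c : Cfg 16) (k : ℕ), c.pc = k → ∀ a, initCode[k]? = some a → code[c.pc]? = some a :=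
    fun c k h a ha => hat.get k (by omega) ha
  obtain ⟨c2, e2⟩ : ∃ c2, c2 = step ⟨16, code⟩ w ρ c1 := ⟨_, rfl⟩
  rw [← e2] at hc'
  rw [step_const (by rw [← hc1]; rfl) (st c1 1 (by rw [← hc1]; rfl) _ rfl), ← hc1] at e2
  obtain ⟨c3, e3⟩ : ∃ c3, c3 = step ⟨16, code⟩ w ρ c2 := ⟨_, rfl⟩
  rw [← e3] at hc'
  rw [step_copy (by rw [e2]; rfl) (st c2 2 (by rw [e2]; rfl) _ rfl), e2] at e3
  obtain ⟨c4, e4⟩ : ∃ c4, c4 = step ⟨16, code⟩ w ρ c3 := ⟨_, rfl⟩
  rw [← e4] at hc'
  rw [step_add (by rw [e3]; rfl) (st c3 3 (by rw [e3]; rfl) _ rfl), e3] at e4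
  obtain ⟨c5, e5⟩ : ∃ c5, c5 = step ⟨16, code⟩ w ρ c4 := ⟨_, rfl⟩
  rw [← e5] at hc'
  rw [step_add (by rw [e4]; rfl) (st c4 4 (by rw [e4]; rfl) _ rfl), e4] at e5
  obtain ⟨c6, e6⟩ : ∃ c6, c6 = step ⟨16, code⟩ w ρ c5 := ⟨_, rfl⟩
  rw [← e6] at hc'
  rw [step_add (by rw [e5]; rfl) (st c5 5 (by rw [e5]; rfl) _ rfl), e5] at e6
  obtain ⟨c7, e7⟩ : ∃ c7, c7 = step ⟨16, code⟩ w ρ c6 := ⟨_, rfl⟩
  rw [← e7] at hc'
  rw [step_copy (by rw [e6]; rfl) (st c6 6 (by rw [e6]; rfl) _ rfl), e6] at e7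
  obtain ⟨c8, e8⟩ : ∃ c8, c8 = step ⟨16, code⟩ w ρ c7 := ⟨_, rfl⟩
  rw [← e8] at hc'
  rw [step_copy (by rw [e7]; rfl) (st c7 7 (by rw [e7]; rfl) _ rfl), e7] at e8
  obtain ⟨c9, e9⟩ : ∃ c9, c9 = step ⟨16, code⟩ w ρ c8 := ⟨_, rfl⟩
  rw [← e9] at hc'
  rw [step_copy (by rw [e8]; rfl) (st c8 8 (by rw [e8]; rfl) _ rfl), e8] at e9
  rw [step_copy (by rw [e9]; rfl) (st c9 9 (by rw [e9]; rfl) _ rfl), e9] at hc'
  have hrep : Rep inp.length c ⟨[], [], [], []⟩ := by
    subst hc'
    refine ⟨rfl, fun k => ?_, fun k => ?_, ?_, ?_, fun k j hj => ?_⟩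
    · cases k <;> simp [sp, ix, St.get, writeReg, init, m0, m1, n1, n2, n3]
    · cases k <;> simp [bot, ix, writeReg, init, m0, m1, n1, n2, n3]
    · simp [writeReg, m4]
    · simp [writeReg, m1]
    · cases k <;> simp [St.get] at hj
  have h13 : c.regs 13 = 0 := by rw [hc']; simp [writeReg, init]
  obtain ⟨c', ⟨τ, h1, h2⟩, h3, h4, h5⟩ := init_outer (w := w) (ρ := ρ) hat inp c [] (by rw [hc']; rfl)
    (by rw [hc']; simp [writeReg, init, m0]) (by omega) (fun j hj => by
      rw [h13, hc']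
      simp only [init, Nat.zero_add, List.getD_eq_getElem?_getD]
      exact Nat.mod_eq_of_lt (hfit.2 _ (by simp [hj]))) hrep (by simpa using hw)
  have e : run ⟨16, code⟩ w ρ inp (τ + 10) = c' := by rw [run, Function.iterate_add_apply, ← hc, h2]
  refine ⟨τ + 10, by omega, ?_⟩
  rw [e]
  exact ⟨h3, by simpa using h4, by rw [h5, hc']; rfl⟩

theorem rand_spec (code : List (Instr 16)) (w : ℕ) (ρ : ℕ → ℕ) (base o : ℕ) (hat : At code o randCode) (c : Cfg 16)
    (hpc : c.pc = o) (s : List Bool) (hc : Rep base c (mk s)) (hw : base + 8 < 2 ^ w) :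
    ((step ⟨16, code⟩ w ρ)^[4] c).pc = o + 4 ∧
      Rep base ((step ⟨16, code⟩ w ρ)^[4] c) ⟨s, [rbit ρ c.drawn], [], []⟩ ∧
      ((step ⟨16, code⟩ w ρ)^[4] c).drawn = c.drawn + 1 := by
  have hw1 : w ≠ 0 := by rintro rfl; omega
  have e0 := step_rand (w := w) (ρ := ρ) hc.run (hat.get 0 (by omega) rfl)
  have s0 := hc.write (free_of (d := 11) (by simp)) (c.pc + 1) (ρ c.drawn % 2 ^ w) (c.drawn + 1)
  have e1 := step_and (w := w) (ρ := ρ) s0.run (hat.get 1 (by simp; omega) rfl)
  rw [s0.one, Nat.and_one_is_mod] at e1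
  simp only [writeReg, if_true, Nat.mod_mod_of_dvd _ (dvd_pow_self 2 hw1)] at e1
  have s1 := s0.write (free_of (d := 11) (by simp)) (c.pc + 1 + 1) (ρ c.drawn % 2) (c.drawn + 1)
  obtain ⟨c2, e2, p2, s2, k2, -, -⟩ := push_a (w := w) (ρ := ρ) (b := rbit ρ c.drawn) s1
    (hat.get 2 (by simp; omega) rfl) (hat.get 3 (by simp; omega) rfl)
    (by rcases Nat.mod_two_eq_zero_or_one (ρ c.drawn) with h | h <;> simp [writeReg, rbit, h]) (by simpa using hw)
  have e : (step ⟨16, code⟩ w ρ)^[4] c = c2 := by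
    rw [← e2, show 4 = 2 + 1 + 1 from rfl, Function.iterate_succ_apply, Function.iterate_succ_apply, e0]
    exact congrArg _ e1
  rw [e]
  exact ⟨by rw [p2]; simp; omega, s2, k2.dr⟩

section
variable {code : List (Instr 16)} {w : ℕ} {ρ : ℕ → ℕ} {base o : ℕ}

theorem pop_a {c : Cfg 16} {b : Bool} {a : List Bool} (hc : Rep base c ⟨[], b :: a, [], []⟩)
    (h1 : code[c.pc]? = some (.sub 3 3 10)) (h2 : code[c.pc + 1]? = some (.load 11 3)) :
    ∃ c', (step ⟨16, code⟩ w ρ)^[2] c = c' ∧ c'.pc = c.pc + 2 ∧ Rep base c' ⟨[], a, [], []⟩ ∧ c'.mem = c.mem ∧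
      c'.regs 11 = b.toNat ∧ c'.regs 0 = c.regs 0 ∧ c'.regs 1 = c.regs 1 ∧ c'.regs 13 = c.regs 13 ∧
      c'.regs 14 = c.regs 14 :=
  ⟨_, pop_steps (k := .a) hc rfl h1 h2, rfl,
    (hc.popped (k := .a) rfl 0).1.write (free_of (d := 11) (by simp)) _ _ _, rfl, by simp [writeReg],
    by simp [writeReg, sp], by simp [writeReg, sp], by simp [writeReg, sp], by simp [writeReg, sp]⟩

theorem le_foldl_bit (l : List Bool) : ∀ acc : ℕ, acc ≤ l.foldl (fun a b => 2 * a + b.toNat) acc := by
  induction l with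
  | nil => intro acc; exact le_rfl
  | cons b l ih => intro acc; exact le_trans (show acc ≤ 2 * acc + b.toNat by omega) (ih _)

theorem foldl_bits (v : ℕ) : v.bits.reverse.foldl (fun a b => 2 * a + b.toNat) 0 = v := by
  rw [List.foldl_reverse]
  conv_rhs => rw [← ofBits_bits v]
  generalize v.bits = l
  induction l with
  | nil => rfl
  | cons b l ih => rw [List.foldr_cons, ih, ofBits_cons]

theorem out_inner (hat : At code o (outR o)) (l : List Bool) : ∀ (c : Cfg 16) (a : List Bool), c.pc = o + 4 →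
    Rep base c ⟨[], (l.flatMap fun b => [true, b]) ++ a, [], []⟩ →
    l.foldl (fun a b => 2 * a + b.toNat) (c.regs 14) < 2 ^ w →
    ∃ c', Rch code w ρ c c' (9 * l.length) ∧ c'.pc = o + 4 ∧ Rep base c' ⟨[], a, [], []⟩ ∧ c'.mem = c.mem ∧
      c'.regs 0 = c.regs 0 ∧ c'.regs 1 = c.regs 1 ∧ c'.regs 13 = c.regs 13 ∧
      c'.regs 14 = l.foldl (fun a b => 2 * a + b.toNat) (c.regs 14) := by
  induction l with
  | nil => intro c a hpc hc _; exact ⟨c, Rch.refl c, hpc, hc, rfl, rfl, rfl, rfl, rfl⟩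
  | cons b l ih =>
    intro c a hpc hc hw
    rw [List.foldl_cons] at hw ⊢
    have hb := le_foldl_bit l (2 * c.regs 14 + b.toNat)
    have hc' : Rep base c ⟨[], true :: b :: ((l.flatMap fun b => [true, b]) ++ a), [], []⟩ := hc
    have e0 := head_ne (w := w) (ρ := ρ) (k := .a) hc' (by simp [St.get]) (hat.get 4 hpc rfl)
    obtain ⟨c1, e1, p1, s1, m1, t1, a1, b1, d1, f1⟩ := pop_a (w := w) (ρ := ρ) (hc'.pc (c.pc + 1))
      (hat.get 5 (by simp; omega) rfl) (hat.get 6 (by simp; omega) rfl)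
    simp only at p1 m1 a1 b1 d1 f1
    have e2 := step_jz (w := w) (ρ := ρ) s1.run (hat.get 7 (by omega) rfl)
    rw [if_neg (by rw [t1]; simp)] at e2
    obtain ⟨c3, e3, p3, s3, m3, t3, a3, b3, d3, f3⟩ := pop_a (w := w) (ρ := ρ) (s1.pc (c1.pc + 1))
      (hat.get 8 (by simp; omega) rfl) (hat.get 9 (by simp; omega) rfl)
    simp only at p3 m3 a3 b3 d3 f3
    have e4 := step_add (w := w) (ρ := ρ) s3.run (hat.get 10 (by omega) rfl)
    rw [f3, f1, Nat.mod_eq_of_lt (by omega)] at e4
    have s4 := s3.write (free_of (d := 14) (by simp)) (c3.pc + 1) (c.regs 14 + c.regs 14) c3.drawn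
    have e5 := step_add (w := w) (ρ := ρ) s4.run (hat.get 11 (by simp; omega) rfl)
    have v5 : (writeReg c3.regs 14 (c.regs 14 + c.regs 14) 14 + writeReg c3.regs 14 (c.regs 14 + c.regs 14) 11)
        % 2 ^ w = 2 * c.regs 14 + b.toNat := by
      simp only [writeReg, if_true]
      rw [if_neg (show ¬ (11 : Fin 16) = 14 by decide), t3, Nat.mod_eq_of_lt (by omega)]; omega
    simp only [v5] at e5
    have s5 := s4.write (free_of (d := 14) (by simp)) (c3.pc + 1 + 1) (2 * c.regs 14 + b.toNat) c3.drawn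
    have e6 := step_jump (w := w) (ρ := ρ) s5.run (hat.get 12 (by simp; omega) rfl)
    obtain ⟨c7, r7, p7, s7, m7, a7, b7, d7, f7⟩ := ih _ a rfl (s5.pc (o + 4)) (by simpa [writeReg] using hw)
    refine ⟨c7, (((((((Rch.trans ⟨1, le_rfl, e0⟩ ⟨2, le_rfl, e1⟩).trans ⟨1, le_rfl, e2⟩).trans
      ⟨2, le_rfl, e3⟩).trans ⟨1, le_rfl, e4⟩).trans ⟨1, le_rfl, e5⟩).trans ⟨1, le_rfl, e6⟩).trans r7).mono
      (by simp; omega), p7, s7, ?_, ?_, ?_, ?_, ?_⟩
    · rw [m7]; simp only; rw [m3, m1]
    · rw [a7]; simp [writeReg, a3, a1]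
    · rw [b7]; simp [writeReg, b3, b1]
    · rw [d7]; simp [writeReg, d3, d1]
    · rw [f7]; simp [writeReg]

theorem tok_cons (v : ℕ) (l : List ℕ) :
    tok (v :: l) = (v.bits.reverse.flatMap fun b => [true, b]) ++ (false :: tok l) := by simp [tok]

theorem length_pairs (l : List Bool) : (l.flatMap fun b => [true, b]).length = 2 * l.length := by
  induction l with
  | nil => rfl
  | cons b l ih => simp at ih ⊢; omega

theorem out_outer (hat : At code o (outR o)) (s0 : ℕ) (rest : List ℕ) : ∀ (c : Cfg 16) (dn : List ℕ),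
    c.pc = o + 4 → Rep base c ⟨[], tok rest, [], []⟩ → base + 4 * (tok rest).length < s0 → c.regs 14 = 0 →
    c.regs 1 = s0 → c.regs 0 = dn.length → c.regs 13 = s0 + dn.length →
    (∀ i < dn.length, c.mem (s0 + i) = dn.getD i 0) → (∀ v ∈ rest, v < 2 ^ w) →
    s0 + dn.length + rest.length < 2 ^ w →
    ∃ c', Rch code w ρ c c' (9 * (tok rest).length + 2) ∧ c'.halted = true ∧ c'.output = dn ++ rest := by
  induction rest with
  | nil =>
    intro c dn hpc hc _ _ h1 h0 _ hm _ _
    have e0 := head_nil (w := w) (ρ := ρ) (k := .a) hc rfl (hat.get 4 hpc rfl)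
    have e1 := step_halt (w := w) (ρ := ρ) (hc.pc (o + 18)).run (hat.get 18 rfl rfl)
    refine ⟨_, (Rch.trans ⟨1, le_rfl, e0⟩ ⟨1, le_rfl, e1⟩).mono (by omega), rfl, ?_⟩
    have r0 : ∀ c' : Cfg 16, c'.reg 0 = c'.regs 0 := fun _ => rfl
    have r1 : ∀ c' : Cfg 16, c'.reg 1 = c'.regs 1 := fun _ => rfl
    simp only [Cfg.output, r0, r1, h0, h1, List.append_nil]
    refine List.ext_getElem (by simp) fun i h2 h3 => ?_
    simp only [List.getElem_map, List.getElem_range]
    rw [hm i h3, List.getD_eq_getElem _ _ h3]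
  | cons v rest ih =>
    intro c dn hpc hc hs h14 h1 h0 h13 hm hv hw
    rw [tok_cons] at hc hs ⊢
    simp only [List.length_append, length_pairs, List.length_cons, List.length_reverse] at hs hw ⊢
    obtain ⟨c1, r1, p1, s1, m1, a1, b1, d1, f1⟩ := out_inner (w := w) (ρ := ρ) hat _ c _ hpc hc
      (by rw [h14, foldl_bits]; exact hv v (by simp))
    rw [h14, foldl_bits] at f1
    have e2 := head_ne (w := w) (ρ := ρ) (k := .a) s1 (by simp [St.get]) (hat.get 4 p1 rfl)
    obtain ⟨c3, e3, p3, s3, m3, t3, a3, b3, d3, f3⟩ := pop_a (w := w) (ρ := ρ) (s1.pc (c1.pc + 1))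
      (hat.get 5 (by simp; omega) rfl) (hat.get 6 (by simp; omega) rfl)
    simp only at p3 m3 a3 b3 d3 f3
    have e4 := step_jz (w := w) (ρ := ρ) s3.run (hat.get 7 (by omega) rfl)
    rw [if_pos (by rw [t3]; simp)] at e4
    have e5 := step_store (w := w) (ρ := ρ) (s3.pc (o + 13)).run (hat.get 13 rfl rfl)
    simp only [d3, d1, h13, f3, f1] at e5
    have s5 : Rep base ⟨o + 13 + 1, c3.halted, c3.regs, writeMem c3.mem (s0 + dn.length) v, c3.drawn⟩
        ⟨[], tok rest, [], []⟩ := by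
      refine ⟨s3.run, s3.hsp, s3.hbot, s3.four, s3.one, fun k j hj => ?_⟩
      simp only [writeMem]
      rw [if_neg, s3.hmem k j hj]
      cases k <;> simp [St.get, ix] at hj ⊢
      omega
    have e6 := step_add (w := w) (ρ := ρ) s5.run (hat.get 14 rfl rfl)
    simp only [d3, d1, h13, s3.one] at e6
    rw [Nat.mod_eq_of_lt (by omega)] at e6
    have s6 := s5.write (free_of (d := 13) (by simp)) (o + 13 + 1 + 1) (s0 + dn.length + 1) c3.drawn
    have e7 := step_add (w := w) (ρ := ρ) s6.run (hat.get 15 rfl rfl)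
    have v7 : (writeReg c3.regs 13 (s0 + dn.length + 1) 0 + writeReg c3.regs 13 (s0 + dn.length + 1) 12) % 2 ^ w =
        dn.length + 1 := by
      simp only [writeReg]
      rw [if_neg (show ¬ (0 : Fin 16) = 13 by decide), if_neg (show ¬ (12 : Fin 16) = 13 by decide), a3, a1, h0,
        s3.one, Nat.mod_eq_of_lt (by omega)]
    simp only [v7] at e7
    have s7 := s6.write (free_of (d := 0) (by simp)) (o + 13 + 1 + 1 + 1) (dn.length + 1) c3.drawn
    have e8 := step_const (w := w) (ρ := ρ) s7.run (hat.get 16 rfl rfl)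
    rw [Nat.zero_mod] at e8
    have s8 := s7.write (free_of (d := 14) (by simp)) (o + 13 + 1 + 1 + 1 + 1) 0 c3.drawn
    have e9 := step_jump (w := w) (ρ := ρ) s8.run (hat.get 17 rfl rfl)
    obtain ⟨c', r', h', o'⟩ := ih _ (dn ++ [v]) rfl (s8.pc (o + 4)) (by omega) (by simp [writeReg])
      (by simp [writeReg, b3, b1, h1]) (by simp [writeReg]) (by simp [writeReg]; omega)
      (fun i hi => by
        simp only [writeMem, List.length_append, List.length_cons, List.length_nil] at hi ⊢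
        split_ifs with e
        · rw [List.getD_append_right _ _ _ _ (by omega), show i - dn.length = 0 by omega]; rfl
        · rw [List.getD_append _ _ _ _ (by omega), m3, m1, hm i (by omega)])
      (fun u hu => hv u (by simp [hu])) (by simp; omega)
    exact ⟨c', (((((((((r1.trans ⟨1, le_rfl, e2⟩).trans ⟨2, le_rfl, e3⟩).trans ⟨1, le_rfl, e4⟩).trans
      ⟨1, le_rfl, e5⟩).trans ⟨1, le_rfl, e6⟩).trans ⟨1, le_rfl, e7⟩).trans ⟨1, le_rfl, e8⟩).trans
      ⟨1, le_rfl, e9⟩).trans r').mono (by simp; omega), h', by simpa using o'⟩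

theorem length_le_tok (l : List ℕ) : l.length ≤ (tok l).length := by
  induction l with
  | nil => simp
  | cons v l ih => rw [tok_cons]; simp only [List.length_append, List.length_cons]; omega

end

theorem out_spec (code : List (Instr 16)) (w : ℕ) (ρ : ℕ → ℕ) (base o : ℕ) (hat : At code o (outR o)) (c : Cfg 16)
    (hpc : c.pc = o) (out : List ℕ) (hc : Rep base c ⟨[], tok out, [], []⟩) (hout : ∀ v ∈ out, v < 2 ^ w)
    (hw : base + 5 * (tok out).length + 8 < 2 ^ w) :
    ∃ τ ≤ 10 * (tok out).length + 6, ((step ⟨16, code⟩ w ρ)^[τ] c).halted = true ∧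
      ((step ⟨16, code⟩ w ρ)^[τ] c).output = out := by
  have h3 : c.regs 3 = base + 1 + 4 * (tok out).length := hc.hsp .a
  have hl := length_le_tok out
  have e0 := step_copy (w := w) (ρ := ρ) hc.run (hat.get 0 (by omega) rfl)
  have s0 := hc.write (free_of (d := 1) (by simp)) (c.pc + 1) (c.regs 3) c.drawn
  have e1 := step_const (w := w) (ρ := ρ) s0.run (hat.get 1 (by simp; omega) rfl)
  have s1 := s0.write (free_of (d := 0) (by simp)) (c.pc + 1 + 1) (0 % 2 ^ w) c.drawn
  have e2 := step_copy (w := w) (ρ := ρ) s1.run (hat.get 2 (by simp; omega) rfl)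
  have s2 := s1.write (free_of (d := 13) (by simp)) (c.pc + 1 + 1 + 1)
    (writeReg (writeReg c.regs 1 (c.regs 3)) 0 (0 % 2 ^ w) 3) c.drawn
  have e3 := step_const (w := w) (ρ := ρ) s2.run (hat.get 3 (by simp; omega) rfl)
  have s3 := s2.write (free_of (d := 14) (by simp)) (c.pc + 1 + 1 + 1 + 1) (0 % 2 ^ w) c.drawn
  obtain ⟨c', r', h', o'⟩ := out_outer (w := w) (ρ := ρ) hat (c.regs 3) out _ [] (by simp; omega) s3 (by omega)
    (by simp [writeReg]) (by simp [writeReg]) (by simp [writeReg]) (by simp [writeReg]) (by simp) hout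
    (by simp; omega)
  obtain ⟨τ, h1, h2⟩ := (((Rch.trans ⟨1, le_rfl, e0⟩ ⟨1, le_rfl, e1⟩).trans ⟨1, le_rfl, e2⟩).trans
    ⟨1, le_rfl, e3⟩).trans r'
  exact ⟨τ, by omega, by rw [h2]; exact h', by rw [h2]; simpa using o'⟩

@[fun_prop] theorem PT.ocode {α : Type} [Enc α] {out : α → List ℕ} (h : PT out) : PT (fun a => ocode (out a)) := by
  unfold R309.ocode tok; fun_prop

end Crest.Agent.R309
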