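import Crest.Agent.R309.RamIO

/-!
# R309: a word-RAM program that iterates a polynomial-time step function on random bits

PLAN.  Let `pf, qf` come from `PT f` and `pg, qg` from `PT g`; the program is `mainCode pg pf`; split it with `At.append`,
`At.self`, `length_comp`.  Start: `init_spec`, `sim_le` for `.seq pIn pg` (`pIn` is `push false` followed by `ev_pIn_loop`
with `m = []`; `Cmp` with `r = []`).  One round from position `m0` with `Rep base c (mk (enc (st i)).bits)`, `drawn = i`:
`rand_spec`, `ev_body` and `sim_le`, then `jumpIfEq 3 7 m0` jumps back iff stack `a` is empty.  Otherwise `sub 3 3 10`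
pops the flag, `ev_pOutLoop` with `sim_le`, `out_spec`.  Sizes: `T.length_bits`, `Cmp.size_le`
(`sz (ocode out) ≤ sz (b, st) + qf`), `length_le_sz`, `sz_bits_le`, `eval_mono` (`sz (b, a) ≤ sz a + 4`).  Take e.g.
`q = 400 * (qf.comp (X + 4) + X + 30)` and `qi = 400 * (qg.comp (4 * X + 1) + X + 30)`, so that `base ≤ qi/2` and all
stack addresses exceed `base` by at most `q/2` (`inp.length ≤ (icode inp).length`).  A halted configuration does not
change any more (`step` with `halted = true`), which gives `HaltsWithin` at the later time.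
-/

set_option autoImplicit false
open Finset Crest.Agent.PTime Crest.WordRAM

namespace Crest.Agent.R309

/-- build the pair from the bit on stack `a`, run `pf`, move the flag to stack `a` -/
def pBody (pf : P) : P :=
  .seq (.case .a .skip (.push .s false) (pushBits [true, false, false])) (.seq (.push .s true) (.seq pf
    (.seq (pop1 .s) (.case .s .skip .skip (.seq (pop1 .s) (.seq (pop1 .s) (.push .a true)))))))

theorem ev_body {pf : P} {b fl : Bool} {t u : T} {n : ℕ} (h : Cmp pf (enc (b, t)) (enc (fl, u)) n) :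
    EvLe (pBody pf) ⟨t.bits, [b], [], []⟩ ⟨u.bits, if fl = true then [true] else [], [], []⟩ (n + 20) := by
  have h1 : EvLe (.case .a .skip (.push .s false) (pushBits [true, false, false])) ⟨t.bits, [b], [], []⟩
      (mk ((enc b).bits ++ t.bits)) 5 := by
    cases b
    · exact EvLe.mono (EvLe.caseF (r := []) rfl (EvLe.push _ _ _)) (by omega)
    · exact EvLe.caseT (r := []) rfl (ev_pushBits [true, false, false] t.bits)
  have h2 := h []
  simp only [List.append_nil] at h2
  have h3 : EvLe (.seq (pop1 .s) (.case .s .skip .skip (.seq (pop1 .s) (.seq (pop1 .s) (.push .a true)))))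
      (mk (enc (fl, u)).bits) ⟨u.bits, if fl = true then [true] else [], [], []⟩ 8 := by
    cases fl
    · exact EvLe.mono ((ev_pop1 true (false :: u.bits) [] [] []).seq (EvLe.caseF (r := u.bits) rfl (EvLe.skip _)))
        (by omega)
    · exact (ev_pop1 true (true :: false :: false :: u.bits) [] [] []).seq
        (EvLe.caseT (k := .s) (r := false :: false :: u.bits) rfl
          ((ev_pop1 false (false :: u.bits) [] [] []).seq ((ev_pop1 false u.bits [] [] []).seq
            (EvLe.push .a true _))))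
  exact EvLe.mono (h1.seq ((EvLe.push .s true _).seq (EvLe.seq h2 h3))) (by omega)

def mainCode (pg pf : P) : List (Instr 16) :=
  initCode ++ comp (.seq pIn pg) 27 ++ randCode ++ comp (pBody pf) (27 + plen (.seq pIn pg) + 4) ++
    [.jumpIfEq 3 7 (27 + plen (.seq pIn pg)), .sub 3 3 10] ++
    comp pOutLoop (27 + plen (.seq pIn pg) + 4 + plen (pBody pf) + 2) ++
    outR (27 + plen (.seq pIn pg) + 4 + plen (pBody pf) + 2 + plen pOutLoop)

/-- `Pr` iterates `f` from `s0`; `c0` bounds the time before the first step, `cost` the time of a step -/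
def Iter {σ : Type} [Enc σ] (f : Bool × σ → Bool × T) (Pr : Program) (w : ℕ) (inp : List ℕ) (s0 : σ) (c0 : ℕ)
    (cost : σ → ℕ) : Prop :=
  ∀ (ρ : ℕ → ℕ) (st : ℕ → σ) (n : ℕ), st 0 = s0 → (∀ i < n, f (rbit ρ i, st i) = (false, enc (st (i + 1)))) →
    (∀ i ≤ n, cost (st i) < 2 ^ w) →
    ∃ τ, n ≤ τ ∧ τ ≤ c0 + ∑ i ∈ range n, cost (st i) ∧ (run Pr w ρ inp τ).halted = false ∧
      ∀ out, f (rbit ρ n, st n) = (true, enc (ocode out)) → (∀ v ∈ out, v < 2 ^ w) →
        HaltsWithin Pr w ρ inp (τ + cost (st n)) out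

theorem step_halted {Pr : Program} {w : ℕ} {ρ : ℕ → ℕ} {c : Cfg Pr.numRegs} (h : c.halted = true) (n : ℕ) :
    (step Pr w ρ)^[n] c = c :=
  Function.iterate_fixed (by simp [step, h]) n

theorem length_le_icode (l : List ℕ) : l.length ≤ (icode l).length := by
  induction l with
  | nil => simp
  | cons v l ih => rw [icode_cons, List.length_append, length_natCode, List.length_cons]; omega

theorem ramsim {σ : Type} [Enc σ] (f : Bool × σ → Bool × T) (hf : PT f) :
    ∃ q : Polynomial ℕ, ∀ g : List Bool → σ, PT g → ∃ (Pr : Program) (qi : Polynomial ℕ),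
      ∀ (w : ℕ) (inp : List ℕ), Fits w inp → qi.eval (icode inp).length < 2 ^ w →
        Iter f Pr w inp (g (icode inp)) (qi.eval (icode inp).length) (fun a => q.eval (sz a)) := by
  obtain ⟨pf, qf, hf⟩ := hf
  refine ⟨400 * (qf.comp (Polynomial.X + 4) + Polynomial.X + 30), fun g hg => ?_⟩
  obtain ⟨pg, qg, hg⟩ := hg
  refine ⟨⟨16, mainCode pg pf⟩, 400 * (qg.comp (4 * Polynomial.X + 1) + Polynomial.X + 30), ?_⟩
  intro w inp hfit hw ρ st n h0 hst hcost
  simp only [Polynomial.eval_add, Polynomial.eval_mul, Polynomial.eval_comp, Polynomial.eval_X,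
    Polynomial.eval_ofNat, Polynomial.eval_one] at hw hcost ⊢
  have hat := At.self (mainCode pg pf)
  generalize hcode : mainCode pg pf = code at hat ⊢
  rw [← hcode] at hat
  nth_rewrite 1 [hcode] at hat
  simp only [mainCode, At.append, List.length_append, length_comp, List.length_cons, List.length_nil] at hat
  obtain ⟨⟨⟨⟨⟨⟨a1, a2⟩, a3⟩, a4⟩, a5⟩, a6⟩, a7⟩ := hat
  have l1 : initCode.length = 27 := rfl
  have l2 : randCode.length = 4 := rfl
  simp only [l1, l2, Nat.zero_add] at a2 a3 a4 a5 a6 a7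
  obtain ⟨L0, hL0⟩ : ∃ L0, L0 = plen (.seq pIn pg) := ⟨_, rfl⟩
  rw [← hL0] at a3 a4 a5 a6 a7
  have hb := length_le_icode inp
  generalize hx : icode inp = x at *
  -- one round up to the test of the flag
  have round : ∀ (c : Cfg 16) (s : σ) (fl : Bool) (u : T), c.pc = 27 + L0 → Rep inp.length c (mk (enc s).bits) →
      f (rbit ρ c.drawn, s) = (fl, u) → 400 * (qf.eval (sz s + 4) + sz s + 30) < 2 ^ w →
      ∃ τ ≤ 5 * qf.eval (sz s + 4) + 100, ∃ c', (step ⟨16, code⟩ w ρ)^[τ + 4] c = c' ∧
        c'.pc = 27 + L0 + 4 + plen (pBody pf) ∧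
        Rep inp.length c' ⟨u.bits, if fl = true then [true] else [], [], []⟩ ∧ c'.drawn = c.drawn + 1 ∧
        u.size ≤ sz s + 4 + qf.eval (sz s + 4) := by
    intro c s fl u hpc hc hfs hs
    obtain ⟨r1, r2, r3⟩ := rand_spec code w ρ _ _ a3 c hpc _ hc (by omega)
    have hsz : sz (rbit ρ c.drawn, s) ≤ sz s + 4 := by
      have := sz_bool (rbit ρ c.drawn); rw [sz_pair]; omega
    have hcm := (hf (rbit ρ c.drawn, s)).mono (eval_mono qf hsz)
    rw [hfs] at hcm
    have hu := hcm.size_le
    have hs' : (enc s).bits.length = sz s := T.length_bits _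
    obtain ⟨τ, t1, t2, t3, t4⟩ := sim_le code w ρ _ (ev_body (t := enc s) hcm) _ _ a4 r1 r2
      (by simp only [St.len, hs', List.length_cons, List.length_nil]; omega)
    refine ⟨τ, by omega, _, Function.iterate_add_apply _ _ _ _, t2, t3, t4.trans r3, ?_⟩
    have e1 : (enc (fl, u)).size = sz (fl, u) := rfl
    have e2 : (enc (rbit ρ c.drawn, s)).size = sz (rbit ρ c.drawn, s) := rfl
    rw [e1, e2, sz_pair, sz_T] at hu
    omega
  have main : ∀ i ≤ n, ∃ τ, i ≤ τ ∧
      τ ≤ 400 * (qg.eval (4 * x.length + 1) + x.length + 30) +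
        ∑ j ∈ range i, 400 * (qf.eval (sz (st j) + 4) + sz (st j) + 30) ∧
      (run ⟨16, code⟩ w ρ inp τ).pc = 27 + L0 ∧ Rep inp.length (run ⟨16, code⟩ w ρ inp τ) (mk (enc (st i)).bits) ∧
      (run ⟨16, code⟩ w ρ inp τ).drawn = i := by
    intro i
    induction i with
    | zero =>
      intro _
      obtain ⟨τ, t1, t2, t3, t4⟩ := init_spec code a1 w ρ inp hfit (by rw [hx]; omega)
      rw [hx] at t1 t3
      have h1 := ev_pIn_loop x.reverse []
      have h2 := ((hg x).mono (eval_mono qg (sz_bits_le x))) []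
      simp only [List.reverse_reverse, List.append_nil, List.length_reverse] at h1 h2
      have h5 : EvLe (.seq pIn pg) _ _ _ := ((EvLe.push .s false ⟨[], x.reverse, [], []⟩).seq h1).seq h2
      obtain ⟨τ', u1, u2, u3, u4⟩ := sim_le code w ρ _ h5 _ _ a2 t2 t3
        (by simp only [St.len, List.length_nil, List.length_reverse]; omega)
      have e' : run ⟨16, code⟩ w ρ inp (τ' + τ) = _ := Function.iterate_add_apply _ _ _ _
      refine ⟨τ' + τ, by omega, by simp only [Finset.range_zero, Finset.sum_empty]; omega, ?_⟩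
      rw [e', h0, hL0]
      exact ⟨u2, u3, u4.trans t4⟩
    | succ i ih =>
      intro hi
      obtain ⟨τ, t1, t2, t3, t4, t5⟩ := ih (by omega)
      obtain ⟨τ', u1, c', u2, u3, u4, u5, -⟩ := round _ (st i) false (enc (st (i + 1))) t3 t4
        (by rw [t5]; exact hst i (by omega)) (hcost i (by omega))
      have e := head_nil (w := w) (ρ := ρ) (k := .a) u4 rfl (by rw [u3]; exact a5.head)
      have e' : run ⟨16, code⟩ w ρ inp (1 + (τ' + 4 + τ)) = { c' with pc := 27 + L0 } := by
        rw [run, Function.iterate_add_apply, Function.iterate_add_apply, ← e, ← u2]; rfl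
      refine ⟨1 + (τ' + 4 + τ), by omega, by rw [Finset.sum_range_succ]; omega, ?_⟩
      rw [e']
      exact ⟨rfl, u4.pc _, by rw [← t5]; exact u5⟩
  obtain ⟨τ, t1, t2, t3, t4, t5⟩ := main n le_rfl
  refine ⟨τ, t1, t2, t4.run, fun out ho hout => ?_⟩
  have hc := hcost n le_rfl
  obtain ⟨τ', u1, c', u2, u3, u4, u5, u6⟩ := round _ (st n) true (enc (ocode out)) t3 t4 (by rw [t5]; exact ho) hc
  have e1 := head_ne (w := w) (ρ := ρ) (k := .a) u4 (by simp [St.get]) (by rw [u3]; exact a5.head)
  have e2 := step_sub (w := w) (ρ := ρ) (u4.pc (c'.pc + 1)).run (by simp only [u3]; exact a5.tail.head)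
  simp only [u4.four] at e2
  have s2 := (u4.popped (k := .a) (b := true) (r := []) rfl (c'.pc + 1 + 1)).1
  have hl : (ocode out).length ≤ sz (st n) + 4 + qf.eval (sz (st n) + 4) := (length_le_sz _).trans u6
  have hl' : (tok out).length = (ocode out).length := by simp [ocode]
  have hs' : (enc (ocode out)).bits.length = (enc (ocode out)).size := T.length_bits _
  obtain ⟨τ3, v1, v2, v3, -⟩ := sim_le code w ρ _ (ev_pOutLoop (ocode out) []) _ _ a6 (by simp only [u3]) s2
    (by simp only [St.len, hs', List.length_nil]; omega)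
  rw [List.append_nil, ocode, List.reverse_reverse] at v3
  obtain ⟨τ4, x1, x2, x3⟩ := out_spec code w ρ _ _ a7 _ v2 out v3 hout (by omega)
  have e : run ⟨16, code⟩ w ρ inp (τ4 + (τ3 + (1 + (1 + (τ' + 4 + τ))))) =
      (step ⟨16, code⟩ w ρ)^[τ4] ((step ⟨16, code⟩ w ρ)^[τ3]
        ⟨c'.pc + 1 + 1, c'.halted, writeReg c'.regs (sp K.a) (c'.regs (sp K.a) - 4), c'.mem, c'.drawn⟩) := by
    rw [run, Function.iterate_add_apply, Function.iterate_add_apply, Function.iterate_add_apply,
      Function.iterate_add_apply, Function.iterate_add_apply]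
    exact congrArg _ (congrArg _ (by
      rw [show (step ⟨16, code⟩ w ρ)^[τ] (init ⟨16, code⟩ w inp) = run ⟨16, code⟩ w ρ inp τ from rfl, u2,
        Function.iterate_one, e1, e2]; rfl))
  obtain ⟨d, hd⟩ : ∃ d, τ + 400 * (qf.eval (sz (st n) + 4) + sz (st n) + 30) =
      d + (τ4 + (τ3 + (1 + (1 + (τ' + 4 + τ))))) := ⟨_, (Nat.sub_add_cancel (by omega)).symm⟩
  have e' : run ⟨16, code⟩ w ρ inp (τ + 400 * (qf.eval (sz (st n) + 4) + sz (st n) + 30)) =
      run ⟨16, code⟩ w ρ inp (τ4 + (τ3 + (1 + (1 + (τ' + 4 + τ))))) := by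
    rw [hd, run, Function.iterate_add_apply]
    exact step_halted (by rw [← x2, ← e]; rfl) d
  rw [HaltsWithin, e', e]
  exact ⟨x2, x3⟩

end Crest.Agent.R309
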