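import Crest.Agent.R309.RamMain
import Crest.Agent.R309.Ex
import Crest.Prelude.Def_WordRAMProb

/-!
# R309: independent rounds on the word RAM

PLAN.  `run_congr`: induction on `T` with `drawn ≤ T`.  `avg_words`: induction on `T` (`Fin.consEquiv`/`Fin.cons`; half of
the words are odd).  `avg_ext`: the run for `T` steps depends only on the first `T` words; fibres of the restriction map
have equal size (`Fin.append`/induction on `T' - T` with `Fin.snoc`).

`ram_rounds`.  For a stream `ρ` let `blk j` be the bits `rbit ρ (j nr), …` (`nr` of them), and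
`st i = tr ((blk (i / nr)).take (i % nr))`.  If rounds `0, …, j-1` fail, `Iter` applies for every `n < (j+1) nr`.  Hence:
(a) if the rounds `< k` all fail the run is not halted at some `τ ≥ k nr`, `τ ≤ c0 + ∑_{j<k} rc (blk j)` where
`rc l = ∑_{i<nr} cost (tr (l.take i))`; (b) if round `j` is the first success with result `out`, then
`HaltsWithin … (c0 + ∑_{j' ≤ j} rc (blk j')) out`.  Halting is monotone and the output is then constant.
Let `N k bits = c0 + ∑_{j<k} [rounds < j fail] rc (blk j)` (define it by recursion on `k` or by `runL`);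
`Ex (k nr) (N k) ≤ c0 + C ∑_{j<k} (1-a)^j ≤ c0 + A C` (induction on `k` with `Ex_split`: `E_{k+1} ≤ C + (1-a) E_k`).
Expected time: `ENNReal.tsum_eq_iSup_nat`/`tsum_le_of_sum_range_le`; for `T0` put `k = T0`, `T' = k nr ≥ T0`;
`∑_{T<T0} probAfter T = avg over tables of T' words of #{T < T0 | not halted at T} ≤ avg N k` (`avg_ext`, `avg_words`).
`probHaltsWith`: upper bound for each `T` with `k = T` rounds, `first_some`, `∑_{j<k} (1-a)^j ≤ 1/a`; lower bound: for each
`k`, at `T = c0 + k nr 2^w` the probability is at least `p ∑_{j<k} (1-a)^j = p (1 - (1-a)^k)/a → p/a`.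
-/

set_option autoImplicit false
open Finset Crest.Agent.PTime Crest.WordRAM

namespace Crest.Agent.R309

theorem step_congr (Pr : Program) (w : ℕ) {ρ ρ' : ℕ → ℕ} (c : Cfg Pr.numRegs) (h : ρ c.drawn = ρ' c.drawn) :
    step Pr w ρ c = step Pr w ρ' c := by
  unfold step
  split_ifs
  · rfl
  · simp only [h]

theorem drawn_step (Pr : Program) (w : ℕ) (ρ : ℕ → ℕ) (c : Cfg Pr.numRegs) :
    (step Pr w ρ c).drawn ≤ c.drawn + 1 := by
  unfold step
  split_ifs
  · omega
  · simp only
    split <;> simp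

theorem run_succ (Pr : Program) (w : ℕ) (ρ : ℕ → ℕ) (inp : List ℕ) (T : ℕ) :
    run Pr w ρ inp (T + 1) = step Pr w ρ (run Pr w ρ inp T) := Function.iterate_succ_apply' _ _ _

theorem drawn_run (Pr : Program) (w : ℕ) (ρ : ℕ → ℕ) (inp : List ℕ) (T : ℕ) : (run Pr w ρ inp T).drawn ≤ T := by
  induction T with
  | zero => exact le_rfl
  | succ T ih => rw [run_succ]; exact (drawn_step _ _ _ _).trans (by omega)

theorem run_congr (Pr : Program) (w : ℕ) (inp : List ℕ) {ρ ρ' : ℕ → ℕ} {T : ℕ} (h : ∀ i < T, ρ i = ρ' i) :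
    run Pr w ρ inp T = run Pr w ρ' inp T := by
  induction T with
  | zero => rfl
  | succ T ih =>
    rw [run_succ, run_succ, ← ih fun i hi => h i (by omega)]
    exact step_congr _ _ _ (h _ (Nat.lt_succ_of_le (drawn_run _ _ _ _ _)))

theorem run_halted (Pr : Program) (w : ℕ) (inp : List ℕ) (ρ : ℕ → ℕ) {T T' : ℕ} (h : T ≤ T')
    (hh : (run Pr w ρ inp T).halted = true) : run Pr w ρ inp T' = run Pr w ρ inp T := by
  obtain ⟨d, rfl⟩ := Nat.exists_eq_add_of_le' h
  rw [run, Function.iterate_add_apply]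
  exact step_halted hh d

theorem sum_parity (k : ℕ) (F : Bool → ℝ) :
    ∑ x ∈ range (2 * k), F (decide (x % 2 = 1)) = k * (F false + F true) := by
  induction k with
  | zero => simp
  | succ k ih =>
    rw [show 2 * (k + 1) = 2 * k + 1 + 1 by ring, sum_range_succ, sum_range_succ, ih]
    have h1 : decide (2 * k % 2 = 1) = false := by simp
    have h2 : decide ((2 * k + 1) % 2 = 1) = true := by simp [Nat.add_mod]
    rw [h1, h2]; push_cast; ring

theorem avg_words {w : ℕ} (hw : 1 ≤ w) (T : ℕ) (G : List Bool → ℝ) :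
    (∑ tab : Fin T → Fin (2 ^ w), G ((List.range T).map (rbit (streamOf tab)))) / ((2 : ℝ) ^ w) ^ T = Ex T G := by
  induction T generalizing G with
  | zero => simp [Ex]
  | succ T ih =>
    rw [← (Fin.consEquiv fun _ : Fin (T + 1) => Fin (2 ^ w)).sum_comp, Fintype.sum_prod_type]
    have e : ∀ (x : Fin (2 ^ w)) (tab : Fin T → Fin (2 ^ w)),
        (List.range (T + 1)).map (rbit (streamOf ((Fin.consEquiv fun _ : Fin (T + 1) => Fin (2 ^ w)) (x, tab)))) =
          decide ((x : ℕ) % 2 = 1) :: (List.range T).map (rbit (streamOf tab)) := by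
      intro x tab
      rw [List.range_succ_eq_map, List.map_cons, List.map_map]
      congr 1
      refine List.map_congr_left fun i hi => ?_
      have hi' := List.mem_range.1 hi
      simp only [Function.comp, rbit, streamOf, Nat.succ_lt_succ_iff, hi', dif_pos]
      rfl
    simp only [e]
    obtain ⟨v, rfl⟩ := Nat.exists_eq_add_of_le' hw
    have e2 := sum_parity (2 ^ v) fun b => ∑ tab : Fin T → Fin (2 ^ (v + 1)),
      G (b :: (List.range T).map (rbit (streamOf tab)))
    rw [← pow_succ'] at e2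
    rw [Fin.sum_univ_eq_sum_range (fun x => ∑ tab : Fin T → Fin (2 ^ (v + 1)),
      G (decide (x % 2 = 1) :: (List.range T).map (rbit (streamOf tab)))), e2, Ex, ← ih, ← ih]
    push_cast
    field_simp
    ring

theorem avg_ext' (m : ℕ) (hm : 0 < m) (T d : ℕ) (G : (ℕ → ℕ) → ℝ)
    (hG : ∀ ρ ρ', (∀ i < T, ρ i = ρ' i) → G ρ = G ρ') :
    (∑ tab : Fin (T + d) → Fin m, G (streamOf tab)) / (m : ℝ) ^ (T + d) =
      (∑ tab : Fin T → Fin m, G (streamOf tab)) / (m : ℝ) ^ T := by
  induction d with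
  | zero => rfl
  | succ d ih =>
    rw [← ih]
    change (∑ tab : Fin (T + d + 1) → Fin m, G (streamOf tab)) / (m : ℝ) ^ (T + d + 1) = _
    rw [← (Fin.snocEquiv fun _ : Fin (T + d + 1) => Fin m).sum_comp, Fintype.sum_prod_type]
    have e : ∀ (x : Fin m) (tab : Fin (T + d) → Fin m),
        G (streamOf ((Fin.snocEquiv fun _ : Fin (T + d + 1) => Fin m) (x, tab))) = G (streamOf tab) := by
      intro x tab
      refine hG _ _ fun i hi => ?_
      have h1 : i < T + d := by omega
      have h2 : i < T + d + 1 := by omega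
      simp only [streamOf, h1, h2, dif_pos]
      have := Fin.snoc_castSucc (α := fun _ : Fin (T + d + 1) => Fin m) x tab ⟨i, h1⟩
      exact congrArg Fin.val this
    simp only [e, Finset.sum_const, Finset.card_univ, Fintype.card_fin, nsmul_eq_mul]
    have : (m : ℝ) ≠ 0 := by positivity
    rw [pow_succ', mul_div_mul_left _ _ this]

theorem avg_ext (Pr : Program) (w : ℕ) (inp : List ℕ) {T T' : ℕ} (h : T ≤ T') (E : Cfg Pr.numRegs → Prop) :
    probAfter Pr w inp T E =
      (∑ tab : Fin T' → Fin (2 ^ w), ind (E (run Pr w (streamOf tab) inp T))) / ((2 : ℝ) ^ w) ^ T' := by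
  obtain ⟨d, rfl⟩ := Nat.exists_eq_add_of_le h
  have := avg_ext' (2 ^ w) (by positivity) T d (fun ρ => ind (E (run Pr w ρ inp T)))
    (fun ρ ρ' h => by rw [run_congr Pr w inp h])
  push_cast at this
  rw [this, probAfter, Crest.FinProb.uniformProb, Finset.card_filter]
  simp [ind]

/-- the first `i` bits of block `j` -/
def blk (nr : ℕ) (ρ : ℕ → ℕ) (j i : ℕ) : List Bool := (List.range i).map fun a => rbit ρ (j * nr + a)

theorem blk_succ (nr : ℕ) (ρ : ℕ → ℕ) (j i : ℕ) : blk nr ρ j (i + 1) = blk nr ρ j i ++ [rbit ρ (j * nr + i)] := by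
  simp [blk, List.range_succ]

theorem length_blk (nr : ℕ) (ρ : ℕ → ℕ) (j i : ℕ) : (blk nr ρ j i).length = i := by simp [blk]

theorem take_blk (nr : ℕ) (ρ : ℕ → ℕ) (j : ℕ) {i : ℕ} (h : i ≤ nr) : (blk nr ρ j nr).take i = blk nr ρ j i := by
  simp [blk, ← List.map_take, List.take_range, h]

theorem seg_eq (nr : ℕ) (ρ : ℕ → ℕ) {j L : ℕ} (h : (j + 1) * nr ≤ L) :
    (((List.range L).map (rbit ρ)).drop (j * nr)).take nr = blk nr ρ j nr := by
  have h' : j * nr + nr ≤ L := by rw [← Nat.succ_mul]; exact h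
  refine List.ext_getElem (by simp [blk]; omega) fun i h1 h2 => ?_
  simp [blk]

theorem firstSome_succ {β : Type} (g : List Bool → Option β) (seg k : ℕ) (t : List Bool) :
    firstSome g seg (k + 1) t = (firstSome g seg k t).or (g ((t.drop (k * seg)).take seg)) :=
  runL_succ' _ _ _ _ _

theorem fs_none {β : Type} (g : List Bool → Option β) (nr : ℕ) (ρ : ℕ → ℕ) {L : ℕ} (k : ℕ) (h : k * nr ≤ L) :
    firstSome g nr k ((List.range L).map (rbit ρ)) = none ↔ ∀ j < k, g (blk nr ρ j nr) = none := by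
  induction k with
  | zero => simp [firstSome, runL]
  | succ k ih =>
    rw [firstSome_succ, seg_eq nr ρ h, Option.or_eq_none_iff, ih (le_trans (Nat.mul_le_mul_right _ (by omega)) h)]
    exact ⟨fun h j hj => (Nat.lt_succ_iff_lt_or_eq.1 hj).elim (h.1 j) fun e => e ▸ h.2,
      fun h => ⟨fun j hj => h j (by omega), h k (by omega)⟩⟩

theorem fs_some {β : Type} (g : List Bool → Option β) (nr : ℕ) (ρ : ℕ → ℕ) {L : ℕ} (k : ℕ) (h : k * nr ≤ L) {y : β}
    (hy : firstSome g nr k ((List.range L).map (rbit ρ)) = some y) :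
    ∃ j < k, (∀ j' < j, g (blk nr ρ j' nr) = none) ∧ g (blk nr ρ j nr) = some y := by
  induction k with
  | zero => simp [firstSome, runL] at hy
  | succ k ih =>
    have h' : k * nr ≤ L := le_trans (Nat.mul_le_mul_right _ (by omega)) h
    rw [firstSome_succ, seg_eq nr ρ h, Option.or_eq_some_iff] at hy
    rcases hy with hy | ⟨h1, h2⟩
    · obtain ⟨j, hj, h3⟩ := ih h' hy
      exact ⟨j, by omega, h3⟩
    · exact ⟨k, by omega, (fs_none g nr ρ k h').1 h1, h2⟩

theorem Ex_fail_mul {β : Type} (g : List Bool → Option β) (nr j L : ℕ) (h : (j + 1) * nr ≤ L) (F : List Bool → ℝ) :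
    Ex L (fun t => ind (firstSome g nr j t = none) * F ((t.drop (j * nr)).take nr)) =
      Ex nr (fun l => ind (g l = none)) ^ j * Ex nr F := by
  have h' : j * nr + nr ≤ L := by rw [← Nat.succ_mul]; exact h
  have e := Ex_split (a := j * nr) (n := L) (by omega)
    (fun l l' => ind (firstSome g nr j l = none) * F (l'.take nr))
  simp only [Ex_mul, Ex_take (show nr ≤ L - j * nr by omega)] at e
  simp only [mul_comm _ (Ex nr F), Ex_mul] at e
  rw [← first_none g nr j (j * nr) le_rfl, mul_comm _ (Ex nr F), ← e]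
  refine Ex_congr fun l _ => ?_
  rw [firstSome, firstSome, runL_take _ _ _ _ _ le_rfl]

theorem ram_rounds {σ : Type} [Enc σ] {f : Bool × σ → Bool × T} {Pr : Program} {w : ℕ} {inp : List ℕ} {c0 : ℕ}
    {cost : σ → ℕ} (hw : 1 ≤ w) {nr : ℕ} (hnr : 1 ≤ nr) (tr : List Bool → σ) (R : List Bool → Option (List ℕ))
    (hit : Iter f Pr w inp (tr []) c0 cost)
    (hstep : ∀ l b, l.length + 1 < nr → f (b, tr l) = (false, enc (tr (l ++ [b]))))
    (hlast : ∀ l b, l.length + 1 = nr →
      f (b, tr l) = (R (l ++ [b])).elim (false, enc (tr [])) (fun out => (true, enc (ocode out))))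
    (hout : ∀ l out, R l = some out → ∀ v ∈ out, v < 2 ^ w)
    (hcost : ∀ l, l.length < nr → cost (tr l) < 2 ^ w) (C A : ℕ)
    (hC : Ex nr (fun l => ∑ i ∈ range nr, (cost (tr (l.take i)) : ℝ)) ≤ C)
    (hA : 1 ≤ A * Ex nr (fun l => ind (R l ≠ none))) :
    expectedTime Pr w inp ≤ ((c0 + A * C : ℕ) : ENNReal) ∧
      (∀ ρ T out, HaltsWithin Pr w ρ inp T out → ∃ l, R l = some out) ∧
      ∀ X, probHaltsWith Pr w inp (fun out => out = X) =
        Ex nr (fun l => ind (R l = some X)) / Ex nr (fun l => ind (R l ≠ none)) := by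
  obtain ⟨rc, hrc⟩ : ∃ rc : List Bool → ℕ, ∀ l, rc l = ∑ i ∈ range nr, cost (tr (l.take i)) := ⟨_, fun _ => rfl⟩
  obtain ⟨st, hst⟩ : ∃ st : (ℕ → ℕ) → ℕ → σ, ∀ ρ i, st ρ i = tr (blk nr ρ (i / nr) (i % nr)) := ⟨_, fun _ _ => rfl⟩
  have st_at : ∀ ρ j a, a < nr → st ρ (j * nr + a) = tr (blk nr ρ j a) := by
    intro ρ j a ha
    rw [hst, Nat.mul_comm, Nat.mul_add_div (by omega), Nat.mul_add_mod, Nat.div_eq_of_lt ha, Nat.mod_eq_of_lt ha,
      Nat.add_zero]
  have st_cost : ∀ ρ i, cost (st ρ i) < 2 ^ w := fun ρ i => by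
    rw [hst]; exact hcost _ (by rw [length_blk]; exact Nat.mod_lt _ (by omega))
  have st0 : ∀ ρ, st ρ 0 = tr [] := fun ρ => by simpa [blk] using st_at ρ 0 0 (by omega)
  have st_step : ∀ ρ k a, a < nr → (∀ j < k, R (blk nr ρ j nr) = none) → ∀ i < k * nr + a,
      f (rbit ρ i, st ρ i) = (false, enc (st ρ (i + 1))) := by
    intro ρ k a ha hk i hi
    obtain ⟨j, b, hb, rfl⟩ : ∃ j b, b < nr ∧ i = j * nr + b :=
      ⟨i / nr, i % nr, Nat.mod_lt _ (by omega), (Nat.div_add_mod' i nr).symm⟩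
    rw [st_at ρ j b hb]
    by_cases h : b + 1 < nr
    · rw [hstep _ _ (by rwa [length_blk]), Nat.add_assoc, st_at ρ j _ h, blk_succ]
    · have hb' : b + 1 = nr := by omega
      have hj : j < k := by
        by_contra hj
        have := Nat.mul_le_mul_right nr (not_lt.1 hj)
        omega
      rw [hlast _ _ (by rwa [length_blk]), ← blk_succ, hb', hk j hj,
        show j * nr + b + 1 = (j + 1) * nr + 0 by rw [Nat.succ_mul]; omega, st_at ρ _ 0 (by omega)]
      rfl
  have sum_st : ∀ ρ k, ∑ i ∈ range (k * nr), cost (st ρ i) = ∑ j ∈ range k, rc (blk nr ρ j nr) := by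
    intro ρ k
    induction k with
    | zero => simp
    | succ k ih =>
      rw [Nat.succ_mul, Finset.sum_range_add, ih, Finset.sum_range_succ, hrc]
      congr 1
      refine Finset.sum_congr rfl fun a ha => ?_
      rw [st_at ρ k a (mem_range.1 ha), take_blk _ _ _ (mem_range.1 ha).le]
  have KA : ∀ ρ k, (∀ j < k, R (blk nr ρ j nr) = none) → ∃ τ, k * nr ≤ τ ∧
      τ ≤ c0 + ∑ j ∈ range k, rc (blk nr ρ j nr) ∧ (run Pr w ρ inp τ).halted = false := by
    intro ρ k hk
    obtain ⟨τ, h1, h2, h3, -⟩ := hit ρ (st ρ) (k * nr) (st0 ρ) (st_step ρ k 0 (by omega) hk) fun i _ => st_cost ρ i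
    exact ⟨τ, h1, by rwa [sum_st] at h2, h3⟩
  have KB : ∀ ρ k out, (∀ j < k, R (blk nr ρ j nr) = none) → R (blk nr ρ k nr) = some out → ∀ T,
      c0 + ∑ j ∈ range (k + 1), rc (blk nr ρ j nr) ≤ T → HaltsWithin Pr w ρ inp T out := by
    intro ρ k out hk ho T hT
    obtain ⟨b, hb⟩ : ∃ b, b + 1 = nr := ⟨nr - 1, by omega⟩
    obtain ⟨τ, -, h2, -, h4⟩ := hit ρ (st ρ) (k * nr + b) (st0 ρ) (st_step ρ k b (by omega) hk)
      fun i _ => st_cost ρ i
    have h5 := h4 out (by
      rw [st_at ρ k b (by omega), hlast _ _ (by rwa [length_blk]), ← blk_succ, hb, ho]; rfl) (hout _ _ ho)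
    have h6 := sum_st ρ (k + 1)
    rw [show (k + 1) * nr = k * nr + b + 1 by rw [Nat.succ_mul]; omega, Finset.sum_range_succ] at h6
    rw [HaltsWithin, run_halted Pr w inp ρ (show τ + cost (st ρ (k * nr + b)) ≤ T by omega) h5.1]
    exact h5
  have KC : ∀ ρ T out L, T * nr ≤ L → HaltsWithin Pr w ρ inp T out →
      firstSome R nr T ((List.range L).map (rbit ρ)) = some out := by
    intro ρ T out L hL ho
    cases hfs : firstSome R nr T ((List.range L).map (rbit ρ)) with
    | none =>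
      obtain ⟨τ, h1, -, h3⟩ := KA ρ T ((fs_none R nr ρ T hL).1 hfs)
      rw [run_halted Pr w inp ρ (le_trans (Nat.le_mul_of_pos_right _ hnr) h1) ho.1, ho.1] at h3
      cases h3
    | some y =>
      obtain ⟨j, -, h1, h2⟩ := fs_some R nr ρ T hL hfs
      have h3 := KB ρ j y h1 h2 _ (le_max_left _ T)
      rw [HaltsWithin, run_halted Pr w inp ρ (le_max_right _ T) ho.1, ho.2] at h3
      rw [h3.2]
  obtain ⟨r, hr⟩ : ∃ r, r = Ex nr (fun l => ind (R l = none)) := ⟨_, rfl⟩
  have ha : Ex nr (fun l => ind (R l ≠ none)) = 1 - r := by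
    simp only [ne_eq, ind_not]; rw [Ex_sub, Ex_const, hr]
  rw [ha] at hA ⊢
  have hr0 : 0 ≤ r := by rw [hr]; exact Ex_nonneg fun _ _ => ind_nonneg _
  have hA0 : (0 : ℝ) ≤ A := Nat.cast_nonneg _
  have hr1 : 0 < 1 - r := by
    by_contra h
    nlinarith [mul_nonneg hA0 (neg_nonneg.2 (not_lt.1 h))]
  have geo : ∀ k, ∑ j ∈ range k, r ^ j = (1 - r ^ k) / (1 - r) := fun k => by
    rw [eq_div_iff hr1.ne', geom_sum_mul_neg]
  have geo' : ∀ k, ∑ j ∈ range k, r ^ j ≤ 1 / (1 - r) := fun k => by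
    rw [geo]; gcongr; linarith [pow_nonneg hr0 k]
  have hD : ∀ L : ℕ, (0 : ℝ) < ((2 : ℝ) ^ w) ^ L := fun L => by positivity
  refine ⟨?_, fun ρ T out ho => ?_, fun X => ?_⟩
  · refine ENNReal.tsum_le_of_sum_range_le fun T0 => ?_
    have hp : ∀ T, 0 ≤ probAfter Pr w inp T fun c => c.halted = false := fun T => by
      rw [avg_ext Pr w inp le_rfl]
      exact div_nonneg (Finset.sum_nonneg fun _ _ => ind_nonneg _) (hD T).le
    rw [← ENNReal.ofReal_sum_of_nonneg fun T _ => hp T, ← ENNReal.ofReal_natCast]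
    refine ENNReal.ofReal_le_ofReal ?_
    have hT0 : T0 ≤ T0 * nr := Nat.le_mul_of_pos_right _ hnr
    rw [Finset.sum_congr rfl fun T hT => avg_ext Pr w inp (show T ≤ T0 * nr from (mem_range.1 hT).le.trans hT0) _,
      ← Finset.sum_div, Finset.sum_comm]
    have hN : Ex (T0 * nr) (fun t => (c0 : ℝ) + ∑ j ∈ range T0,
        ind (firstSome R nr j t = none) * (rc ((t.drop (j * nr)).take nr) : ℝ)) ≤ ((c0 + A * C : ℕ) : ℝ) := by
      rw [Ex_add, Ex_const, Ex_sum, Finset.sum_congr rfl fun j hj => Ex_fail_mul R nr j (T0 * nr)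
        (Nat.mul_le_mul_right _ (mem_range.1 hj)) (fun l => (rc l : ℝ)), ← Finset.sum_mul, ← hr]
      have h1 : Ex nr (fun l => (rc l : ℝ)) ≤ C := by simpa only [hrc, Nat.cast_sum] using hC
      have h2 : 0 ≤ Ex nr (fun l => (rc l : ℝ)) := Ex_nonneg fun _ _ => Nat.cast_nonneg _
      have h3 : 1 / (1 - r) ≤ A := by rw [div_le_iff₀ hr1]; exact hA
      push_cast
      exact add_le_add le_rfl (mul_le_mul ((geo' T0).trans h3) h1 h2 hA0)
    refine le_trans ?_ hN
    rw [← avg_words hw]
    refine div_le_div_of_nonneg_right (Finset.sum_le_sum fun tab _ => ?_) (hD _).le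
    generalize streamOf tab = ρ
    have hsum : ∀ k ≤ T0, (∀ j, j + 1 < k + 1 → ∀ j' < j, R (blk nr ρ j' nr) = none) →
        ((c0 + ∑ j ∈ range k, rc (blk nr ρ j nr) : ℕ) : ℝ) ≤ (c0 : ℝ) + ∑ j ∈ range T0,
          ind (firstSome R nr j ((List.range (T0 * nr)).map (rbit ρ)) = none) *
            (rc ((((List.range (T0 * nr)).map (rbit ρ)).drop (j * nr)).take nr) : ℝ) := by
      intro k hk hf
      push_cast
      refine add_le_add le_rfl (le_trans (le_of_eq (Finset.sum_congr rfl fun j hj => ?_))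
        (Finset.sum_le_sum_of_subset_of_nonneg (range_mono hk) fun j _ _ =>
          mul_nonneg (ind_nonneg _) (Nat.cast_nonneg _)))
      have hj' := mem_range.1 hj
      rw [seg_eq nr ρ (Nat.mul_le_mul_right _ (by omega)), ind_true, one_mul]
      exact (fs_none R nr ρ j (Nat.mul_le_mul_right _ (by omega))).2 (hf j (by omega))
    have cnt : ∀ N : ℕ, (∀ T < T0, N ≤ T → (run Pr w ρ inp T).halted = true) →
        ∑ T ∈ range T0, ind ((run Pr w ρ inp T).halted = false) ≤ (N : ℝ) := by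
      intro N hN
      calc ∑ T ∈ range T0, ind ((run Pr w ρ inp T).halted = false)
          ≤ ∑ T ∈ range T0, (if T < N then (1 : ℝ) else 0) := Finset.sum_le_sum fun T hT => by
            split_ifs with h
            · exact ind_le_one _
            · rw [ind_false (by rw [hN T (mem_range.1 hT) (by omega)]; simp)]
        _ ≤ N := by
            rw [← Finset.sum_filter, Finset.sum_const, nsmul_eq_mul, mul_one, Nat.cast_le]
            exact (Finset.card_le_card (t := range N) fun T hT => mem_range.2 (mem_filter.1 hT).2).trans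
              (card_range N).le
    cases hfs : firstSome R nr T0 ((List.range (T0 * nr)).map (rbit ρ)) with
    | none =>
      have hf := (fs_none R nr ρ T0 le_rfl).1 hfs
      obtain ⟨τ, h1, h2, -⟩ := KA ρ T0 hf
      exact (cnt _ fun T hT h => by omega).trans (hsum T0 le_rfl fun j hj j' hj' => hf j' (by omega))
    | some y =>
      obtain ⟨j, hj, h1, h2⟩ := fs_some R nr ρ T0 le_rfl hfs
      exact (cnt _ fun T _ h => (KB ρ j y h1 h2 T h).1).trans
        (hsum (j + 1) hj fun j1 hj1 j' hj' => h1 j' (by omega))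
  · exact firstSome_mem (KC ρ T out _ le_rfl ho) |>.imp fun l h => h
  · obtain ⟨p, hp⟩ : ∃ p, p = Ex nr (fun l => ind (R l = some X)) := ⟨_, rfl⟩
    have hp0 : 0 ≤ p := by rw [hp]; exact Ex_nonneg fun _ _ => ind_nonneg _
    rw [← hp]
    have up : ∀ T, (probAfter Pr w inp T fun c => c.halted = true ∧ c.output = X) ≤ p / (1 - r) := by
      intro T
      have h1 := first_some R nr T (T * nr) le_rfl X
      rw [← hp, ← hr] at h1
      have h2 : p * ∑ j ∈ range T, r ^ j ≤ p / (1 - r) := by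
        rw [div_eq_mul_one_div]; exact mul_le_mul_of_nonneg_left (geo' T) hp0
      refine le_trans ?_ h2
      rw [← h1, ← avg_words hw, avg_ext Pr w inp (Nat.le_mul_of_pos_right _ hnr : T ≤ T * nr)]
      refine div_le_div_of_nonneg_right (Finset.sum_le_sum fun tab _ => ?_) (hD _).le
      by_cases h : HaltsWithin Pr w (streamOf tab) inp T X
      · rw [ind_true (KC _ T X _ le_rfl h)]; exact ind_le_one _
      · rw [ind_false (p := _ ∧ _) h]; exact ind_nonneg _
    refine le_antisymm (ciSup_le up) ?_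
    have lo : ∀ k, p * ((1 - r ^ k) / (1 - r)) ≤ probHaltsWith Pr w inp fun out => out = X := by
      intro k
      refine le_trans ?_ (le_ciSup ⟨_, Set.forall_mem_range.2 up⟩ (c0 + k * (nr * 2 ^ w)))
      have hk : k * nr ≤ c0 + k * (nr * 2 ^ w) :=
        le_trans (Nat.mul_le_mul_left _ (Nat.le_mul_of_pos_right _ (by positivity))) (Nat.le_add_left _ _)
      have h1 := first_some R nr k _ hk X
      rw [← hp, ← hr, geo] at h1
      rw [← h1, ← avg_words hw, avg_ext Pr w inp le_rfl]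
      refine div_le_div_of_nonneg_right (Finset.sum_le_sum fun tab _ => ?_) (hD _).le
      generalize streamOf tab = ρ
      by_cases h : firstSome R nr k ((List.range (c0 + k * (nr * 2 ^ w))).map (rbit ρ)) = some X
      · obtain ⟨j, hj, h2, h3⟩ := fs_some R nr ρ k hk h
        have h4 : ∑ j ∈ range (j + 1), rc (blk nr ρ j nr) ≤ k * (nr * 2 ^ w) := by
          refine (Finset.sum_le_card_nsmul _ _ (nr * 2 ^ w) fun i _ => ?_).trans ?_
          · rw [hrc]
            refine (Finset.sum_le_card_nsmul _ _ (2 ^ w) fun a ha => (hcost _ ?_).le).trans (by simp)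
            exact lt_of_le_of_lt (List.length_take_le _ _) (mem_range.1 ha)
          · rw [card_range, smul_eq_mul]; exact Nat.mul_le_mul_right _ hj
        rw [ind_true (p := _ ∧ _) (KB ρ j X h2 h3 _ (Nat.add_le_add_left h4 _))]; exact ind_le_one _
      · rw [ind_false h]; exact ind_nonneg _
    have lim : Filter.Tendsto (fun k : ℕ => p * ((1 - r ^ k) / (1 - r))) Filter.atTop
        (nhds (p * ((1 - 0) / (1 - r)))) :=
      (((tendsto_pow_atTop_nhds_zero_of_lt_one hr0 (by linarith)).const_sub 1).div_const _).const_mul p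
    have := le_of_tendsto' lim lo
    rwa [sub_zero, ← div_eq_mul_one_div] at this

end Crest.Agent.R309
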