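import Crest.Agent.R309.Inst
import Crest.Prelude.Def_Tables

/-!
# R309: tables as flows, and parsing

Rows are the vertices `0, …, m-1`, columns the vertices `m, …, m+n-1`, the cell `(i,j)` is the arc `i * n + j`.

PLAN.  `flat_getD`: induction on `m` (`List.ofFn_succ`), or `List.ofFn_mul`-type lemmas; `flat_ext` follows.
`exc_tabI`: `Finset.sum_range` over `e = i n + j` (`finProdFinEquiv`, `Finset.sum_product'`, or `Finset.range_mul`-like
induction on `m` with `Finset.sum_range_add`).  `isFlow_tabI`: given a flow `x` put `X i j = (gz x (i n + j)).toNat`.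
`card_flows`: `Finset.card_bij`/`Fintype.card_subtype` with `X ↦ (flat X).map cast`.
`exists_table`: induction on `m` generalising `cs`: choose a first row `y ≤ cs` with `∑ y = rs 0 ≤ ∑ cs`
(induction on the required sum, or on `n`), subtract it.  Parsing: `parseNat_natCode`, `parseRep_code`,
`length_le_flatten`; every `natCode k` has length `2 * size k + 2`, so `k < 2 ^ len`.
-/

set_option autoImplicit false
open Finset Crest.Agent.PTime Crest.Enc Crest.Tables

namespace Crest.Agent.R309

def mkInst (m n : ℕ) (r c bl : List ℕ) : Inst :=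
  ((List.range (m * n)).map fun e => e / n, (List.range (m * n)).map fun e => m + e % n, bl,
    (r.map fun x => (x : ℤ)) ++ c.map fun x => -(x : ℤ))

/-- the entries row by row -/
def flat {m n : ℕ} (X : Fin m → Fin n → ℕ) : List ℕ := (List.ofFn fun i => List.ofFn (X i)).flatten

def flatZ {m n : ℕ} (X : Fin m → Fin n → ℕ) : List ℤ := (flat X).map fun x => (x : ℤ)

def tabI {m n : ℕ} (rs : Fin m → ℕ) (cs : Fin n → ℕ) (b : Fin m → Fin n → ℕ) : Inst :=
  mkInst m n (List.ofFn rs) (List.ofFn cs) (flat b)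

variable {m n : ℕ}

theorem flatZ_eq (X : Fin m → Fin n → ℕ) : flatZ X = (flat X).map Nat.cast := by
  simp [flatZ, List.map_eq_flatMap]

theorem mkInst_eq (m n : ℕ) (r c bl : List ℕ) : mkInst m n r c bl =
    ((List.range (m * n)).map fun e => e / n, (List.range (m * n)).map fun e => m + e % n, bl,
      r.map Nat.cast ++ c.map fun x : ℕ => -(x : ℤ)) := by
  have h : ∀ l : List ℕ, List.flatMap (fun a : ℕ => [(a : ℤ)]) l = l.map Nat.cast := fun l =>
    List.map_eq_flatMap.symm
  simp [mkInst, h]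
  rfl

theorem cell_lt (i : Fin m) (j : Fin n) : (i : ℕ) * n + j < m * n :=
  calc (i : ℕ) * n + j < (i + 1) * n := by rw [add_mul, one_mul]; exact Nat.add_lt_add_left j.2 _
    _ ≤ m * n := Nat.mul_le_mul_right _ i.2

theorem cell_div (i : ℕ) (j : Fin n) : (i * n + j) / n = i := by
  rw [add_comm, Nat.add_mul_div_right _ _ j.pos, Nat.div_eq_of_lt j.2, zero_add]

theorem cell_mod (i : ℕ) (j : Fin n) : (i * n + j) % n = j := by
  rw [add_comm, Nat.add_mul_mod_self_right, Nat.mod_eq_of_lt j.2]

theorem exists_cell {e : ℕ} (h : e < m * n) : ∃ (i : Fin m) (j : Fin n), e = i * n + j :=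
  ⟨(⟨e, h⟩ : Fin (m * n)).divNat, (⟨e, h⟩ : Fin (m * n)).modNat, (Nat.div_add_mod' e n).symm⟩

theorem flat_eq (X : Fin m → Fin n → ℕ) : flat X = List.ofFn fun e : Fin (m * n) => X e.divNat e.modNat := by
  rw [List.ofFn_mul]
  unfold flat
  congr 2
  funext i
  congr 1
  funext j
  congr 1
  · exact Fin.ext (cell_div i j).symm
  · exact Fin.ext (cell_mod i j).symm

theorem length_flat (X : Fin m → Fin n → ℕ) : (flat X).length = m * n := by
  rw [flat_eq, List.length_ofFn]

theorem flat_getD (X : Fin m → Fin n → ℕ) (i : Fin m) (j : Fin n) : (flat X).getD (i * n + j) 0 = X i j := by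
  rw [flat_eq, List.getD_eq_getElem _ _ (by rw [List.length_ofFn]; exact cell_lt i j), List.getElem_ofFn]
  congr 1
  · exact Fin.ext (cell_div i j)
  · exact Fin.ext (cell_mod i j)

theorem flat_inj {X Y : Fin m → Fin n → ℕ} (h : flat X = flat Y) : X = Y := by
  funext i j
  rw [← flat_getD X, ← flat_getD Y, h]

theorem flatZ_inj {X Y : Fin m → Fin n → ℕ} (h : flatZ X = flatZ Y) : X = Y := by
  rw [flatZ_eq, flatZ_eq] at h
  exact flat_inj (List.map_injective_iff.2 Nat.cast_injective h)

theorem toNat_flatZ (X : Fin m → Fin n → ℕ) : (flatZ X).map Int.toNat = flat X := by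
  simp [flatZ_eq, Function.comp_def]

theorem flat_const (N : ℕ) : flat (fun (_ : Fin m) (_ : Fin n) => N) = List.replicate (m * n) N := by
  rw [flat_eq, List.ofFn_const]

theorem mem_flat {X : Fin m → Fin n → ℕ} {v : ℕ} (h : v ∈ flat X) : ∃ i j, v = X i j := by
  rw [flat_eq, List.mem_ofFn] at h
  obtain ⟨e, rfl⟩ := h
  exact ⟨_, _, rfl⟩

section tab
variable (rs : Fin m → ℕ) (cs : Fin n → ℕ) (b : Fin m → Fin n → ℕ)

theorem nE_tabI : nE (tabI rs cs b) = m * n := length_flat b

theorem nV_tabI : nV (tabI rs cs b) = m + n := by simp [nV, tabI, mkInst_eq]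

theorem tl_tabI (i : Fin m) (j : Fin n) : tl (tabI rs cs b) (i * n + j) = i := by
  simp [tl, tabI, mkInst, List.getD_eq_getElem?_getD, List.getElem?_range (cell_lt i j), cell_div]

theorem hd_tabI (i : Fin m) (j : Fin n) : hd (tabI rs cs b) (i * n + j) = m + j := by
  simp [hd, tabI, mkInst, List.getD_eq_getElem?_getD, List.getElem?_range (cell_lt i j), Nat.mod_eq_of_lt j.2]

theorem cap_tabI (i : Fin m) (j : Fin n) : cap (tabI rs cs b) (i * n + j) = b i j := flat_getD b i j

theorem bal_row (i : Fin m) : bal (tabI rs cs b) i = rs i := by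
  simp [bal, tabI, mkInst_eq, List.getD_eq_getElem?_getD, List.getElem?_append_left]

theorem bal_col (j : Fin n) : bal (tabI rs cs b) (m + j) = -(cs j : ℤ) := by
  simp [bal, tabI, mkInst_eq, List.getD_eq_getElem?_getD]

theorem sum_cells (f : ℕ → ℤ) : ∑ e ∈ range (m * n), f e = ∑ i : Fin m, ∑ j : Fin n, f (i * n + j) := by
  induction m with
  | zero => simp
  | succ m ih =>
    rw [Nat.succ_mul, sum_range_add, ih, Fin.sum_univ_castSucc, sum_range fun j => f (m * n + j)]
    simp

theorem exc_row (x : List ℤ) (i : Fin m) : exc (tabI rs cs b) x i = ∑ j : Fin n, gz x (i * n + j) := by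
  unfold exc
  rw [nE_tabI, sum_cells, sum_eq_single i (fun i' _ hi => sum_eq_zero fun j _ => ?_) (by simp)]
  · refine sum_congr rfl fun j _ => ?_
    have : m + (j : ℕ) ≠ i := by have := i.2; omega
    simp [sg, tl_tabI, hd_tabI, this]
  · have h1 : m + (j : ℕ) ≠ i := by have := i.2; omega
    have h2 : (i' : ℕ) ≠ i := fun h => hi (Fin.ext h)
    simp [sg, tl_tabI, hd_tabI, h1, h2]

theorem exc_col (x : List ℤ) (j : Fin n) : exc (tabI rs cs b) x (m + j) = - ∑ i : Fin m, gz x (i * n + j) := by
  unfold exc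
  rw [nE_tabI, sum_cells, ← sum_neg_distrib]
  refine sum_congr rfl fun i _ => ?_
  have h1 : (i : ℕ) ≠ m + j := by have := i.2; omega
  rw [sum_eq_single j (fun j' _ hj => ?_) (by simp)]
  · simp [sg, tl_tabI, hd_tabI, h1]
  · have h2 : (j' : ℕ) ≠ j := fun h => hj (Fin.ext h)
    simp [sg, tl_tabI, hd_tabI, h1, h2]

end tab

theorem gz_flatZ (X : Fin m → Fin n → ℕ) (i : Fin m) (j : Fin n) : gz (flatZ X) (i * n + j) = X i j := by
  rw [← flat_getD X i j, flatZ_eq]
  exact List.getD_map (flat X) 0 (fun x : ℕ => (x : ℤ))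

theorem length_flatZ (X : Fin m → Fin n → ℕ) : (flatZ X).length = m * n := by
  rw [flatZ_eq, List.length_map, length_flat]

theorem tabI_wf (rs : Fin m → ℕ) (cs : Fin n → ℕ) (b : Fin m → Fin n → ℕ) : WF (tabI rs cs b) := by
  intro e he
  rw [nE_tabI] at he
  obtain ⟨i, j, rfl⟩ := exists_cell he
  rw [tl_tabI, hd_tabI, nV_tabI]
  have := i.2
  have := j.2
  omega

theorem isFlow_tabI (rs : Fin m → ℕ) (cs : Fin n → ℕ) (b : Fin m → Fin n → ℕ) (x : List ℤ) :
    IsFlow (tabI rs cs b) x ↔ ∃ X, IsTable rs cs X ∧ (∀ i j, X i j ≤ b i j) ∧ x = flatZ X := by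
  constructor
  · rintro ⟨⟨h1, h2⟩, h3⟩
    rw [nE_tabI] at h1 h2
    rw [nV_tabI] at h3
    have h4 : ∀ (i : Fin m) (j : Fin n), (((gz x (i * n + j)).toNat : ℕ) : ℤ) = gz x (i * n + j) := fun i j =>
      Int.toNat_of_nonneg (h2 _ (cell_lt i j)).1
    refine ⟨fun i j => (gz x (i * n + j)).toNat, ⟨fun i => ?_, fun j => ?_⟩, fun i j => ?_, ?_⟩
    · have := h3 i (by have := i.2; omega)
      rw [exc_row, bal_row] at this
      zify
      simp only [h4, this]
    · have := h3 (m + j) (by have := j.2; omega)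
      rw [exc_col, bal_col, neg_inj] at this
      zify
      simp only [h4, this]
    · have := (h2 _ (cell_lt i j)).2
      rw [cap_tabI] at this
      exact Int.toNat_le.2 this
    · refine ext_gz (by rw [h1, length_flatZ]) fun e he => ?_
      obtain ⟨i, j, rfl⟩ := exists_cell (h1 ▸ he)
      rw [gz_flatZ, h4]
  · rintro ⟨X, ⟨h1, h2⟩, h3, rfl⟩
    refine ⟨⟨by rw [nE_tabI, length_flatZ], fun e he => ?_⟩, fun v hv => ?_⟩
    · rw [nE_tabI] at he
      obtain ⟨i, j, rfl⟩ := exists_cell he
      rw [gz_flatZ, cap_tabI]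
      exact ⟨Int.natCast_nonneg _, by exact_mod_cast h3 i j⟩
    · rw [nV_tabI] at hv
      by_cases hm : v < m
      · refine (exc_row rs cs b _ ⟨v, hm⟩).trans (Eq.trans ?_ (bal_row rs cs b ⟨v, hm⟩).symm)
        rw [sum_congr rfl fun j _ => gz_flatZ X ⟨v, hm⟩ j]
        exact_mod_cast h1 _
      · obtain ⟨j, rfl⟩ := Nat.exists_eq_add_of_le (not_lt.1 hm)
        refine (exc_col rs cs b _ ⟨j, by omega⟩).trans (Eq.trans ?_ (bal_col rs cs b ⟨j, by omega⟩).symm)
        rw [sum_congr rfl fun i _ => gz_flatZ X i ⟨j, by omega⟩, neg_inj]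
        exact_mod_cast h2 _

theorem card_flows (rs : Fin m → ℕ) (cs : Fin n → ℕ) (b : Fin m → Fin n → ℕ) :
    (flows (tabI rs cs b)).card = numBoundedTables rs cs b := by
  unfold numBoundedTables
  rw [Fintype.card_subtype]
  refine (card_bij (fun X _ => flatZ fun i j => (X i j : ℕ)) (fun X hX => ?_) (fun X _ Y _ h => ?_)
    fun x hx => ?_).symm
  · exact mem_flows.2 ((isFlow_tabI rs cs b _).2 ⟨_, (mem_filter.1 hX).2, fun i j => Nat.le_of_lt_succ (X i j).2, rfl⟩)
  · have := flatZ_inj h
    funext i j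
    exact Fin.ext (congrFun (congrFun this i) j)
  · obtain ⟨X, h1, h2, rfl⟩ := (isFlow_tabI rs cs b _).1 (mem_flows.1 hx)
    exact ⟨fun i j => ⟨X i j, Nat.lt_succ_of_le (h2 i j)⟩, mem_filter.2 ⟨mem_univ _, h1⟩, rfl⟩

theorem exists_row (cs : Fin n → ℕ) (k : ℕ) (h : k ≤ ∑ j, cs j) :
    ∃ y : Fin n → ℕ, (∀ j, y j ≤ cs j) ∧ ∑ j, y j = k := by
  induction k with
  | zero => exact ⟨fun _ => 0, fun _ => Nat.zero_le _, by simp⟩
  | succ k ih =>
    obtain ⟨y, h1, h2⟩ := ih (by omega)
    obtain ⟨j, -, hj⟩ := exists_lt_of_sum_lt (s := univ) (f := y) (g := cs) (by omega)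
    refine ⟨fun i => y i + if i = j then 1 else 0, fun i => ?_, ?_⟩
    · by_cases hi : i = j
      · subst hi; simp only [if_true]; omega
      · simpa [hi] using h1 i
    · rw [sum_add_distrib, h2]; simp

theorem exists_table (rs : Fin m → ℕ) (cs : Fin n → ℕ) (h : ∑ i, rs i = ∑ j, cs j) : ∃ X, IsTable rs cs X := by
  induction m generalizing cs with
  | zero =>
    refine ⟨fun i => i.elim0, fun i => i.elim0, fun j => ?_⟩
    have := single_le_sum (f := cs) (fun _ _ => Nat.zero_le _) (mem_univ j)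
    simp only [univ_eq_empty, sum_empty] at h ⊢
    omega
  | succ m ih =>
    rw [Fin.sum_univ_succ] at h
    obtain ⟨y, h1, h2⟩ := exists_row cs (rs 0) (by omega)
    have h3 : ∑ j, (cs j - y j) + ∑ j, y j = ∑ j, cs j := by
      rw [← sum_add_distrib]
      exact sum_congr rfl fun j _ => Nat.sub_add_cancel (h1 j)
    obtain ⟨X, h4, h5⟩ := ih (fun i => rs i.succ) (fun j => cs j - y j) (by omega)
    refine ⟨Fin.cons y X, fun i => ?_, fun j => ?_⟩
    · refine Fin.cases ?_ (fun i => ?_) i
      · simpa using h2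
      · simpa using h4 i
    · rw [Fin.sum_univ_succ]
      simp only [Fin.cons_zero, Fin.cons_succ, h5 j]
      have := h1 j
      omega

theorem table_le {rs : Fin m → ℕ} {cs : Fin n → ℕ} {X : Fin m → Fin n → ℕ} (h : IsTable rs cs X) (i : Fin m)
    (j : Fin n) : X i j ≤ ∑ i, rs i := by
  exact (single_le_sum (f := X i) (fun _ _ => Nat.zero_le _) (mem_univ j)).trans ((h.1 i).trans_le
    (single_le_sum (f := rs) (fun _ _ => Nat.zero_le _) (mem_univ i)))

/-- code of a matrix given as a list -/
def outCode (m n : ℕ) (x : List ℤ) : List Bool :=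
  natCode m ++ natCode n ++ ((x.map Int.toNat).map natCode).flatten

theorem boundsCode_eq (b : Fin m → Fin n → ℕ) : boundsCode b = ((flat b).map natCode).flatten := by
  rw [boundsCode, flat, List.map_flatten, List.flatten_flatten, List.map_ofFn, List.map_ofFn]
  rfl

theorem outCode_flatZ (X : Fin m → Fin n → ℕ) : outCode m n (flatZ X) = matrixCode X := by
  rw [outCode, toNat_flatZ, ← boundsCode_eq]; rfl

theorem matrixCode_inj {X Y : Fin m → Fin n → ℕ} (h : matrixCode X = matrixCode Y) : X = Y := by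
  have h1 : boundsCode X = boundsCode Y := List.append_cancel_left h
  have h2 := parseRep_code parseNat natCode (flat X) (fun x _ r => parseNat_natCode x r) []
  have h3 := parseRep_code parseNat natCode (flat Y) (fun x _ r => parseNat_natCode x r) []
  rw [length_flat, ← boundsCode_eq] at h2 h3
  rw [h1, h3] at h2
  exact flat_inj (congrArg Prod.fst h2).symm

/-! parsing -/

def pm (w : List Bool) : ℕ := min w.length (parseNat w).1
def pn (w : List Bool) : ℕ := min w.length (parseNat (parseNat w).2).1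
def pr (w : List Bool) : List ℕ × List Bool := parseRep parseNat (pm w) (parseNat (parseNat w).2).2
def pc (w : List Bool) : List ℕ × List Bool := parseRep parseNat (pn w) (pr w).2

/-- margins and bounds -/
def inst1 (w : List Bool) : Inst :=
  mkInst (pm w) (pn w) (pr w).1 (pc w).1 (parseRep parseNat (pm w * pn w) (pc w).2).1

/-- margins only -/
def inst2 (w : List Bool) : Inst :=
  mkInst (pm w) (pn w) (pr w).1 (pc w).1 (List.replicate (pm w * pn w) (pr w).1.sum)

def sOf (w : List Bool) : ℕ := w.length ^ 2 + 100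

theorem tab_len_natCode (k : ℕ) : (natCode k).length = 2 * k.size + 2 := by
  rw [← Nat.size_eq_bits_len, natCode]
  induction k.bits with
  | nil => rfl
  | cons b l ih => simp at ih ⊢; omega

theorem margins_eq (rs : Fin m → ℕ) (cs : Fin n → ℕ) (rest : List Bool) : marginsCode rs cs ++ rest =
    natCode m ++ (natCode n ++ (((List.ofFn rs).map natCode).flatten ++
      (((List.ofFn cs).map natCode).flatten ++ rest))) := by
  simp only [marginsCode, List.append_assoc]

theorem margins_len (rs : Fin m → ℕ) (cs : Fin n → ℕ) (rest : List Bool) :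
    m + n ≤ (marginsCode rs cs ++ rest).length := by
  have h1 := length_le_flatten natCode (List.ofFn rs) fun x => by rw [tab_len_natCode]; omega
  have h2 := length_le_flatten natCode (List.ofFn cs) fun x => by rw [tab_len_natCode]; omega
  rw [List.length_ofFn] at h1 h2
  rw [margins_eq]
  simp only [List.length_append]
  omega

theorem pm_code (rs : Fin m → ℕ) (cs : Fin n → ℕ) (rest : List Bool) : pm (marginsCode rs cs ++ rest) = m := by
  have h : (parseNat (marginsCode rs cs ++ rest)).1 = m := by rw [margins_eq, parseNat_natCode]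
  rw [pm, h, min_eq_right ((Nat.le_add_right m n).trans (margins_len rs cs rest))]

theorem pn_code (rs : Fin m → ℕ) (cs : Fin n → ℕ) (rest : List Bool) : pn (marginsCode rs cs ++ rest) = n := by
  have h : (parseNat (parseNat (marginsCode rs cs ++ rest)).2).1 = n := by
    rw [margins_eq, parseNat_natCode, parseNat_natCode]
  rw [pn, h, min_eq_right ((Nat.le_add_left n m).trans (margins_len rs cs rest))]

theorem pr_code (rs : Fin m → ℕ) (cs : Fin n → ℕ) (rest : List Bool) :
    pr (marginsCode rs cs ++ rest) = (List.ofFn rs, ((List.ofFn cs).map natCode).flatten ++ rest) := by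
  have h := parseRep_code parseNat natCode (List.ofFn rs) (fun x _ r => parseNat_natCode x r)
    (((List.ofFn cs).map natCode).flatten ++ rest)
  rw [List.length_ofFn] at h
  rw [pr, pm_code, margins_eq, parseNat_natCode, parseNat_natCode, h]

theorem pc_code (rs : Fin m → ℕ) (cs : Fin n → ℕ) (rest : List Bool) :
    pc (marginsCode rs cs ++ rest) = (List.ofFn cs, rest) := by
  have h := parseRep_code parseNat natCode (List.ofFn cs) (fun x _ r => parseNat_natCode x r) rest
  rw [List.length_ofFn] at h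
  rw [pc, pn_code, pr_code, h]

theorem inst1_code (rs : Fin m → ℕ) (cs : Fin n → ℕ) (b : Fin m → Fin n → ℕ) (rest : List Bool) :
    inst1 (marginsCode rs cs ++ (boundsCode b ++ rest)) = tabI rs cs b := by
  have h := parseRep_code parseNat natCode (flat b) (fun x _ r => parseNat_natCode x r) rest
  rw [length_flat, ← boundsCode_eq] at h
  rw [inst1, pm_code, pn_code, pr_code, pc_code, h, tabI]

theorem inst2_code (rs : Fin m → ℕ) (cs : Fin n → ℕ) (rest : List Bool) :
    inst2 (marginsCode rs cs ++ rest) = tabI rs cs (fun _ _ => ∑ i, rs i) := by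
  rw [inst2, pm_code, pn_code, pr_code, pc_code, tabI, flat_const, List.sum_ofFn]

theorem lt_of_mem_code {l : List ℕ} {k : ℕ} (h : k ∈ l) : k < 2 ^ (l.map natCode).flatten.length := by
  have := (List.sublist_flatten_of_mem (List.mem_map_of_mem (f := natCode) h)).length_le
  rw [tab_len_natCode] at this
  exact (Nat.lt_size_self k).trans_le (Nat.pow_le_pow_right (by norm_num) (by omega))

theorem sized_of (rs : Fin m → ℕ) (cs : Fin n → ℕ) (b : Fin m → Fin n → ℕ) {w : List Bool} (h : m + n ≤ w.length)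
    (hb : ∀ i j, b i j < 2 ^ (2 * w.length)) : Sized (tabI rs cs b) (sOf w) := by
  unfold sOf
  refine ⟨?_, ?_, fun e he => ?_⟩
  · rw [nE_tabI, sq]
    exact (Nat.mul_le_mul (by omega) (by omega)).trans (Nat.le_add_right _ _)
  · rw [nV_tabI]
    nlinarith
  · rw [nE_tabI] at he
    obtain ⟨i, j, rfl⟩ := exists_cell he
    rw [cap_tabI]
    exact (hb i j).trans_le (Nat.pow_le_pow_right (by norm_num) (by nlinarith))

theorem sized1 (rs : Fin m → ℕ) (cs : Fin n → ℕ) (b : Fin m → Fin n → ℕ) (rest : List Bool) :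
    Sized (tabI rs cs b) (sOf (marginsCode rs cs ++ (boundsCode b ++ rest))) := by
  refine sized_of rs cs b (margins_len rs cs _) fun i j => ?_
  have h1 : b i j ∈ flat b := by
    rw [← flat_getD b i j, List.getD_eq_getElem _ _ (by rw [length_flat]; exact cell_lt i j)]
    exact List.getElem_mem _
  refine (lt_of_mem_code h1).trans_le (Nat.pow_le_pow_right (by norm_num) ?_)
  rw [← boundsCode_eq]
  simp only [List.length_append]
  omega

theorem sized2 (rs : Fin m → ℕ) (cs : Fin n → ℕ) (rest : List Bool) :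
    Sized (tabI rs cs (fun _ _ => ∑ i, rs i)) (sOf (marginsCode rs cs ++ rest)) := by
  have h := margins_len rs cs rest
  refine sized_of rs cs _ h fun _ _ => ?_
  have h1 : ∀ i, rs i ≤ 2 ^ (marginsCode rs cs ++ rest).length := fun i => by
    refine (lt_of_mem_code (l := List.ofFn rs) (List.mem_ofFn.2 ⟨i, rfl⟩)).le.trans
      (Nat.pow_le_pow_right (by norm_num) ?_)
    rw [margins_eq]
    simp only [List.length_append]
    omega
  generalize (marginsCode rs cs ++ rest).length = L at h h1
  have h2 := sum_le_card_nsmul univ rs _ fun i _ => h1 i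
  rw [card_univ, Fintype.card_fin, smul_eq_mul] at h2
  refine h2.trans_lt ?_
  rw [two_mul, pow_add]
  exact Nat.mul_lt_mul_of_pos_right (lt_of_le_of_lt (by omega) (Nat.lt_two_pow_self (n := L))) (by positivity)

theorem inv_pow_le_rat {δ : ℚ} (h : 0 < δ) {k : ℕ} (hk : (ratCode δ).length ≤ k) : (1 : ℝ) / 2 ^ k ≤ δ := by
  have h1 : δ.den < 2 ^ k := by
    simp only [ratCode, List.length_cons, List.length_append, tab_len_natCode] at hk
    exact (Nat.lt_size_self _).trans_le (Nat.pow_le_pow_right (by norm_num) (by omega))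
  have h2 : (δ.den : ℝ) ≤ 2 ^ k := by exact_mod_cast h1.le
  have h3 : (1 : ℝ) ≤ δ.num := by exact_mod_cast Rat.num_pos.2 h
  have h4 : (0 : ℝ) < δ.den := by exact_mod_cast δ.den_pos
  rw [Rat.cast_def]
  gcongr

theorem length_marginsCode_le (rs : Fin m → ℕ) (cs : Fin n → ℕ) (h : ∑ i, rs i = ∑ j, cs j) :
    (marginsCode rs cs).length ≤ 8 * (m + n + Nat.clog 2 (∑ i, rs i + 2) + 1) ^ 2 := by
  have key : ∀ {k : ℕ} (f : Fin k → ℕ), ∑ i, f i = ∑ i, rs i →
      ((List.ofFn f).map natCode).flatten.length ≤ k * (2 * Nat.clog 2 (∑ i, rs i + 2) + 2) := fun {k} f hf => by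
    rw [List.length_flatten, List.map_ofFn, List.map_ofFn, List.sum_ofFn]
    refine (sum_le_card_nsmul univ _ (2 * Nat.clog 2 (∑ i, rs i + 2) + 2) fun i _ => ?_).trans (by simp)
    have h1 := single_le_sum (f := f) (fun _ _ => Nat.zero_le _) (mem_univ i)
    have h2 := Nat.le_pow_clog (b := 2) (by norm_num) (∑ i, rs i + 2)
    have h3 : (f i).size ≤ Nat.clog 2 (∑ i, rs i + 2) := Nat.size_le.2 (by omega)
    simp only [Function.comp_apply, tab_len_natCode]
    omega
  have h1 := key rs rfl
  have h2 := key cs h.symm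
  have h3 : m.size ≤ m := Nat.size_le.2 Nat.lt_two_pow_self
  have h4 : n.size ≤ n := Nat.size_le.2 Nat.lt_two_pow_self
  simp only [marginsCode, List.length_append, tab_len_natCode]
  generalize Nat.clog 2 (∑ i, rs i + 2) = L at h1 h2 ⊢
  nlinarith

section pt
variable {α : Type} [Enc α]

@[fun_prop] theorem PT.pm {w : α → List Bool} (h : PT w) : PT (fun a => pm (w a)) := by
  unfold R309.pm; fun_prop
@[fun_prop] theorem PT.pn {w : α → List Bool} (h : PT w) : PT (fun a => pn (w a)) := by
  unfold R309.pn; fun_prop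
@[fun_prop] theorem PT.sOf {w : α → List Bool} (h : PT w) : PT (fun a => sOf (w a)) := by
  unfold R309.sOf; fun_prop
@[fun_prop] theorem PB.sOf {w : α → List Bool} (h : PT w) : PB (fun a => sOf (w a)) := by
  unfold R309.sOf; fun_prop
theorem PB.pm {w : α → List Bool} (h : PT w) : PB (fun a => pm (w a)) := PB.min_left (PB.length h)
theorem PB.pn {w : α → List Bool} (h : PT w) : PB (fun a => pn (w a)) := PB.min_left (PB.length h)
theorem PT.pr {w : α → List Bool} (h : PT w) : PT (fun a => pr (w a)) :=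
  PT.parseRep (p := fun _ => parseNat) PT.id.snd.parseNat (fun _ => parseNat_len) (PT.pm h) (PB.pm h)
    h.parseNat.snd.parseNat.snd
theorem PT.pc {w : α → List Bool} (h : PT w) : PT (fun a => pc (w a)) :=
  PT.parseRep (p := fun _ => parseNat) PT.id.snd.parseNat (fun _ => parseNat_len) (PT.pn h) (PB.pn h) (PT.pr h).snd
theorem PT.mkInst {m n : α → ℕ} {r c bl : α → List ℕ} (hm : PT m) (hm' : PB m) (hn : PT n) (hn' : PB n)
    (hr : PT r) (hc : PT c) (hb : PT bl) : PT (fun a => mkInst (m a) (n a) (r a) (c a) (bl a)) := by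
  simp only [mkInst_eq]
  exact (PT.map_range (hm.mul hn) (hm'.mul hn') (PT.id.snd.val.div (hn.comp PT.id.fst))).pair
    ((PT.map_range (hm.mul hn) (hm'.mul hn') ((hm.comp PT.id.fst).add (PT.id.snd.val.mod (hn.comp PT.id.fst)))).pair
      (hb.pair ((PT.map (f := fun _ (x : ℕ) => (x : ℤ)) PT.id.snd.natCast_int hr).append
        (PT.map (f := fun _ (x : ℕ) => -(x : ℤ)) PT.id.snd.natCast_int.int_neg hc))))
@[fun_prop] theorem PT.inst1 {w : α → List Bool} (h : PT w) : PT (fun a => inst1 (w a)) := by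
  unfold R309.inst1
  exact PT.mkInst (PT.pm h) (PB.pm h) (PT.pn h) (PB.pn h) (PT.pr h).fst (PT.pc h).fst
    (PT.parseRep (p := fun _ => parseNat) PT.id.snd.parseNat (fun _ => parseNat_len) ((PT.pm h).mul (PT.pn h))
      ((PB.pm h).mul (PB.pn h)) (PT.pc h).snd).fst
@[fun_prop] theorem PT.inst2 {w : α → List Bool} (h : PT w) : PT (fun a => inst2 (w a)) := by
  unfold R309.inst2
  exact PT.mkInst (PT.pm h) (PB.pm h) (PT.pn h) (PB.pn h) (PT.pr h).fst (PT.pc h).fst
    (PT.replicate ((PT.pm h).mul (PT.pn h)) ((PB.pm h).mul (PB.pn h)) (PT.pr h).fst.list_sum)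
@[fun_prop] theorem PT.outCode {m n : α → ℕ} {x : α → List ℤ} (hm : PT m) (hn : PT n) (h : PT x) :
    PT (fun a => outCode (m a) (n a) (x a)) := by
  unfold R309.outCode
  exact (hm.natCode.append hn.natCode).append (PT.map (f := fun _ => natCode) PT.id.snd.natCode
    (PT.map (f := fun _ => Int.toNat) PT.id.snd.toNat h)).flatten

end pt

end Crest.Agent.R309
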