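import Crest.Agent.R309.PTAlg
import Crest.Agent.R309.Tab
import Crest.Prelude.Def_Randomized

/-!
# R309: small lemmas for the final statements
-/

set_option autoImplicit false
open Finset Crest.Agent.PTime Crest.Enc Crest.Tables

namespace Crest.Agent.R309

theorem exists_poly (F : ℕ → ℕ) (h : PB (fun u : U => F u.val)) : ∃ r : Polynomial ℕ, ∀ n, F n ≤ r.eval n := by
  obtain ⟨q, hq⟩ := h
  refine ⟨q.comp (2 * Polynomial.X + 1), fun n => ?_⟩
  have := hq ⟨n⟩
  rw [sz_U] at this
  simpa using this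

theorem randPT {A : List Bool × List Bool → List Bool} (h : PT A) : Crest.Randomized.RandPolyTime A :=
  PT.computable₂ _ A h

theorem le_sOf (w : List Bool) : w.length ≤ sOf w := by
  unfold sOf; nlinarith [Nat.zero_le w.length]

theorem hundred_le_sOf (w : List Bool) : 100 ≤ sOf w := by unfold sOf; omega

theorem ratCode_inj {a b : ℚ} (h : ratCode a = ratCode b) : a = b := by
  have h1 := parseRat_ratCode a []
  have h2 := parseRat_ratCode b []
  rw [h] at h1
  exact (Prod.mk.inj (h1.symm.trans h2)).1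

theorem poly_le (q : Polynomial ℕ) : ∃ C d : ℕ, 1 ≤ C ∧ 1 ≤ d ∧ ∀ n, 1 ≤ n → q.eval n ≤ C * n ^ d := by
  induction q using Polynomial.induction_on' with
  | add p q hp hq =>
    obtain ⟨C, d, h1, h2, h⟩ := hp
    obtain ⟨C', d', h1', h2', h'⟩ := hq
    refine ⟨C + C', d + d', by omega, by omega, fun n hn => ?_⟩
    have a1 : n ^ d ≤ n ^ (d + d') := Nat.pow_le_pow_right hn (by omega)
    have a2 : n ^ d' ≤ n ^ (d + d') := Nat.pow_le_pow_right hn (by omega)
    have := h n hn
    have := h' n hn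
    rw [Polynomial.eval_add, add_mul]
    exact Nat.add_le_add ((h n hn).trans (Nat.mul_le_mul_left _ a1)) ((h' n hn).trans (Nat.mul_le_mul_left _ a2))
  | monomial k c =>
    refine ⟨c + 1, k + 1, by omega, by omega, fun n hn => ?_⟩
    rw [Polynomial.eval_monomial]
    exact Nat.mul_le_mul (by omega) (Nat.pow_le_pow_right hn (by omega))

theorem tv_tables {m n : ℕ} (rs : Fin m → ℕ) (cs : Fin n → ℕ) (S : List Bool → List ℤ)
    (hout : ∀ t, ∃ X, IsTable rs cs X ∧ S t = flatZ X) (len : ℕ) {s k : ℕ}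
    (htv : ∑ y ∈ flows (tabI rs cs (fun _ _ => ∑ i, rs i)),
      |Ex len (fun t => ind (S t = y)) - 1 / (flows (tabI rs cs (fun _ _ => ∑ i, rs i))).card| ≤ 2 / 2 ^ s)
    (hk : k ≤ s) :
    (∑ X : (i : Fin m) → (j : Fin n) → Fin (∑ i, rs i + 1),
      |Crest.FinProb.uniformProb {ω : Fin len → Bool |
          outCode m n (S (List.ofFn ω)) = matrixCode (fun i j => (X i j : ℕ))} -
        uniformTableWeight rs cs (fun i j => (X i j : ℕ))|) / 2 ≤ (2 : ℝ)⁻¹ ^ k := by
  classical
  have key : ∀ X : Fin m → Fin n → ℕ, Crest.FinProb.uniformProb {ω : Fin len → Bool |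
      outCode m n (S (List.ofFn ω)) = matrixCode X} = Ex len (fun t => ind (S t = flatZ X)) := fun X => by
    rw [uniformProb_eq_Ex len (fun l => outCode m n (S l) = matrixCode X)]
    refine Ex_congr fun l _ => congrArg ind (propext ?_)
    obtain ⟨Y, _, h2⟩ := hout l
    rw [h2, outCode_flatZ]
    exact ⟨fun h => by rw [matrixCode_inj h], fun h => by rw [flatZ_inj h]⟩
  simp only [key]
  have h1 : ∑ X : (i : Fin m) → (j : Fin n) → Fin (∑ i, rs i + 1),
      |Ex len (fun t => ind (S t = flatZ (fun i j => (X i j : ℕ)))) -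
        uniformTableWeight rs cs (fun i j => (X i j : ℕ))| =
      ∑ y ∈ flows (tabI rs cs (fun _ _ => ∑ i, rs i)),
      |Ex len (fun t => ind (S t = y)) - 1 / (flows (tabI rs cs (fun _ _ => ∑ i, rs i))).card| := by
    rw [← Finset.sum_filter_add_sum_filter_not univ
      (fun X : (i : Fin m) → (j : Fin n) → Fin (∑ i, rs i + 1) => IsTable rs cs (fun i j => (X i j : ℕ)))]
    rw [Finset.sum_eq_zero (s := univ.filter fun X : (i : Fin m) → (j : Fin n) → Fin (∑ i, rs i + 1) =>
      ¬ IsTable rs cs (fun i j => (X i j : ℕ))), add_zero]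
    · refine Finset.sum_bij (fun X _ => flatZ (fun i j => (X i j : ℕ))) (fun X hX => ?_) (fun X _ Y _ h => ?_)
        (fun y hy => ?_) (fun X hX => ?_)
      · have hX' := (Finset.mem_filter.1 hX).2
        exact mem_flows.2 ((isFlow_tabI _ _ _ _).2 ⟨_, hX', table_le hX', rfl⟩)
      · have := flatZ_inj h
        funext i j
        exact Fin.ext (congrFun (congrFun this i) j)
      · obtain ⟨X, h1, h2, h3⟩ := (isFlow_tabI _ _ _ _).1 (mem_flows.1 hy)
        exact ⟨fun i j => ⟨X i j, Nat.lt_succ_of_le (h2 i j)⟩, Finset.mem_filter.2 ⟨mem_univ _, h1⟩, h3.symm⟩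
      · have hX' := (Finset.mem_filter.1 hX).2
        rw [card_flows, uniformTableWeight, if_pos hX']
    · intro X hX
      have hX' := (Finset.mem_filter.1 hX).2
      rw [uniformTableWeight, if_neg hX', sub_zero, abs_eq_zero, ← Ex_const len 0]
      refine Ex_congr fun l _ => ind_false fun h => hX' ?_
      obtain ⟨Y, h1, h2⟩ := hout l
      rw [h2] at h
      rw [← flatZ_inj h]; exact h1
  rw [h1, inv_pow, ← one_div]
  have h2 : (1 : ℝ) / 2 ^ s ≤ 1 / 2 ^ k :=
    one_div_le_one_div_of_le (by positivity) (pow_le_pow_right₀ (by norm_num) hk)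
  have h3 : (2 : ℝ) / 2 ^ s = 2 * (1 / 2 ^ s) := by ring
  linarith

end Crest.Agent.R309
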