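import Crest.Agent.R309.RamProb
import Crest.Agent.R309.Top

/-!
# R309: rounds with a rare expensive branch

A round reads `L a J` bits; if the `J` coins after position `a0 a` are all `false` it may use a unary padding of length
`2 ^ Q a`.

PLAN.  State `σ = (A × U) × List Bool × U`: parameters `(a, J)`, bits read so far, padding.  `nr = L a J + Q a + 1`,
`padv l = if L a J ≤ l.length ∧ coin (a0 a) J l then 2 ^ (l.length - L a J) else 1`, `tr l = ((a, J), l, padv l)`.
Step function `f (b, (a,J), l, pad)`: with `l' = l ++ [b]`, if `l'.length < nr` then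
`(false, enc ((a,J), l', if L a J < l'.length ∧ coin (a0 a) J l' then 2 pad else pad))`, else
`(rd a J pad l').elim (false, enc ((a,J), [], 1)) (fun out => (true, enc (ocode out)))`; it is `PT` (`PT.enc.comp`,
`PT.uadd`, `PT.option_elim`, `PT.ocode`).  `coin` of a list of length `≥ L a J ≥ a0 a + J` does not change when bits are
appended.  `ramsim` gives `q`; choose `c1, d ≥ 1` with `q.eval n ≤ c1 * (n+1)^d`, put `J = d * (Q a + 2)`,
`G x = ((g x, J), [], 1)` (`PT`), and get `Pr, qi`.  With `y = sz ((a,J)) + 4 nr + 4` (polynomially bounded in `x`):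
`sz (tr l) + 1 ≤ y + 2 padv l + 1 ≤ (y+1) (2 padv l + 1)`, so the cost of a step is `≤ c1 (y+1)^d 3^d` if the coins are not
all `false` and `≤ c1 (y+1)^d 2^J` otherwise (`2 * 2^Q + 1 ≤ 2^(Q+2)`), the latter with probability `2^(-J)`
(`Ex_split`/`Ex_take`, `Ex_all_false`).  So `C = nr c1 (y+1)^d (3^d + 1)`; all costs are `< 2 ^ (C + J)`.  Turn the `PB`
bound of `qi + 10 C + J + 1` (in `sz x ≤ 4 x.length + 1`, `sz_bits_le`) into the polynomial `c`; `ram_rounds` with `A = 10`.
-/

set_option autoImplicit false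
open Finset Crest.Agent.PTime Crest.WordRAM

namespace Crest.Agent.R309

theorem coin_append {a0 J : ℕ} {l : List Bool} (h : a0 + J ≤ l.length) (m : List Bool) :
    coin a0 J (l ++ m) = coin a0 J l := by
  unfold coin
  rw [List.drop_append_of_le_length (by omega), List.take_append_of_le_length (by simp; omega)]

theorem Ex_coin {a0 J n : ℕ} (h : a0 + J ≤ n) : Ex n (fun l => ind (coin a0 J l = true)) = 1 / 2 ^ J := by
  have e := Ex_split (a := a0) (n := n) (by omega) (fun _ l' => ind ((l'.take J).all (fun b => !b) = true))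
  simp only [Ex_take (show J ≤ n - a0 by omega) (fun l => ind (l.all (fun b => !b) = true)), Ex_all_false,
    Ex_const] at e
  exact e

def lvStep {A : Type} [Enc A] (a0 Q : A → ℕ) (L : A → ℕ → ℕ) (rd : A → ℕ → ℕ → List Bool → Option (List ℕ))
    (p : Bool × (A × U) × List Bool × U) : Bool × T :=
  if (p.2.2.1 ++ [p.1]).length < L p.2.1.1 p.2.1.2.val + Q p.2.1.1 + 1 then
    (false, enc (p.2.1, p.2.2.1 ++ [p.1],
      if L p.2.1.1 p.2.1.2.val < (p.2.2.1 ++ [p.1]).length ∧ coin (a0 p.2.1.1) p.2.1.2.val (p.2.2.1 ++ [p.1]) = true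
      then (⟨p.2.2.2.val + p.2.2.2.val⟩ : U) else p.2.2.2))
  else (rd p.2.1.1 p.2.1.2.val p.2.2.2.val (p.2.2.1 ++ [p.1])).elim
    (false, enc (p.2.1, ([] : List Bool), (⟨1⟩ : U))) fun out => (true, enc (ocode out))

theorem pt_lvStep {A : Type} [Enc A] {a0 Q : A → ℕ} (h1 : PT a0) (h2 : PT Q) {L : A → ℕ → ℕ}
    (h3 : PT (fun p : A × U => L p.1 p.2.val)) {rd : A → ℕ → ℕ → List Bool → Option (List ℕ)}
    (h4 : PT (fun p : (A × U) × List Bool × U => rd p.1.1 p.1.2.val p.2.2.val p.2.1)) :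
    PT (lvStep a0 Q L rd) := by
  have b1 : PT (fun p : Bool × (A × U) × List Bool × U => p.2.2.1 ++ [p.1]) := by fun_prop
  have b2 : PT (fun p : Bool × (A × U) × List Bool × U => L p.2.1.1 p.2.1.2.val) :=
    h3.comp (g := fun p : Bool × (A × U) × List Bool × U => p.2.1) (by fun_prop)
  have b3 : PT (fun p : Bool × (A × U) × List Bool × U => Q p.2.1.1) := h2.comp (by fun_prop)
  have b4 : PT (fun p : Bool × (A × U) × List Bool × U => a0 p.2.1.1) := h1.comp (by fun_prop)
  have b5 : PT (fun p : Bool × (A × U) × List Bool × U =>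
      rd p.2.1.1 p.2.1.2.val p.2.2.2.val (p.2.2.1 ++ [p.1])) :=
    h4.comp (g := fun p : Bool × (A × U) × List Bool × U => (p.2.1, p.2.2.1 ++ [p.1], p.2.2.2)) (by fun_prop)
  have b6 : PT (fun p : Bool × (A × U) × List Bool × U =>
      coin (a0 p.2.1.1) p.2.1.2.val (p.2.2.1 ++ [p.1])) := by
    unfold coin
    exact PT.all (f := fun _ b => !b) (by fun_prop) (PT.take (by fun_prop) (PT.drop b4 b1))
  have b7 : PT (fun p : Bool × (A × U) × List Bool × U => p.2.2.2) := by fun_prop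
  have b8 : PT (fun p : Bool × (A × U) × List Bool × U => p.2.1) := by fun_prop
  unfold lvStep
  refine PT.ite (b1.length.lt ((b2.add b3).add (PT.const 1))) ((PT.const false).pair (PT.enc.comp (b8.pair (b1.pair
    (PT.ite ((b2.lt b1.length).and (b6.eq (PT.const true))) (b7.uadd b7) b7))))) ?_
  exact PT.option_elim b5 ((PT.const false).pair (PT.enc.comp (b8.pair (PT.const _))))
    ((PT.const true).pair (PT.enc.comp (PT.ocode (by fun_prop))))

theorem ram_lv {A : Type} [Enc A] (g : List Bool → A) (hg : PT g) (a0 Q : A → ℕ) (h1 : PT a0) (h2 : PT Q)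
    (h2' : PB Q) (L : A → ℕ → ℕ) (h3 : PT (fun p : A × U => L p.1 p.2.val))
    (h3' : PB (fun p : A × U => L p.1 p.2.val)) (hL : ∀ a J, a0 a + J ≤ L a J)
    (rd : A → ℕ → ℕ → List Bool → Option (List ℕ))
    (h4 : PT (fun p : (A × U) × List Bool × U => rd p.1.1 p.1.2.val p.2.2.val p.2.1))
    (hind : ∀ a J pad pad' t, coin (a0 a) J t = false → rd a J pad t = rd a J pad' t) :
    ∃ (Pr : Program) (c : Polynomial ℕ), ∀ (w : ℕ) (inp : List ℕ), Fits w inp → c.eval (icode inp).length ≤ w →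
      ∃ J nr : ℕ, 1 ≤ J ∧ L (g (icode inp)) J ≤ nr ∧
        ∀ R, R = rd (g (icode inp)) J (2 ^ Q (g (icode inp))) →
        (∀ l out, R l = some out → ∀ v ∈ out, v < 2 ^ w) → 1 ≤ 10 * Ex nr (fun l => ind (R l ≠ none)) →
        expectedTime Pr w inp ≤ ((c.eval (icode inp).length : ℕ) : ENNReal) ∧
          (∀ ρ T out, HaltsWithin Pr w ρ inp T out → ∃ l, R l = some out) ∧
          ∀ X, probHaltsWith Pr w inp (fun out => out = X) =
            Ex nr (fun l => ind (R l = some X)) / Ex nr (fun l => ind (R l ≠ none)) := by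
  obtain ⟨q, hq⟩ := ramsim _ (pt_lvStep h1 h2 h3 h4)
  obtain ⟨c1, d, hc1, hd, hqd⟩ := poly_le q
  have hJ : PT (fun x => (⟨d * (Q (g x) + 2)⟩ : U)) :=
    PT.toU ((PT.const d).mul ((h2.comp hg).add (PT.const 2))) ((PB.const d).mul ((h2'.comp hg).add (PB.const 2)))
  have hP : PT (fun x => (g x, (⟨d * (Q (g x) + 2)⟩ : U))) := hg.pair hJ
  obtain ⟨Pr, qi, hPr⟩ := hq (fun x => ((g x, (⟨d * (Q (g x) + 2)⟩ : U)), ([] : List Bool), (⟨1⟩ : U)))
    (hP.pair (PT.const _))
  have hnr : PB (fun x => L (g x) (d * (Q (g x) + 2)) + Q (g x) + 1) :=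
    ((h3'.comp hP).add (h2'.comp hg)).add (PB.const 1)
  obtain ⟨c', hc'⟩ : PB (fun x => qi.eval x.length + 10 * ((L (g x) (d * (Q (g x) + 2)) + Q (g x) + 1) *
      (c1 * (sz (g x, (⟨d * (Q (g x) + 2)⟩ : U)) + 4 * (L (g x) (d * (Q (g x) + 2)) + Q (g x) + 1) + 4) ^ d *
        (3 ^ d + 1))) + d * (Q (g x) + 2) + 1) :=
    (((PB.poly_eval qi (PB.length PT.id)).add ((PB.const 10).mul (hnr.mul (((PB.const c1).mul
      (((hP.pb_sz.add ((PB.const 4).mul hnr)).add (PB.const 4)).pow d)).mul (PB.const _))))).add (PB.val hJ)).add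
      (PB.const 1)
  refine ⟨Pr, c'.comp (4 * Polynomial.X + 1), fun w inp hfit hw => ?_⟩
  have hc := (hc' (icode inp)).trans (eval_mono c' (sz_bits_le _))
  have ec : (c'.comp (4 * Polynomial.X + 1)).eval (icode inp).length = c'.eval (4 * (icode inp).length + 1) := by
    simp
  rw [ec] at hw ⊢
  simp only at hc
  have hit := hPr w inp hfit (lt_of_le_of_lt (by omega) (Nat.lt_two_pow_self (n := w)))
  generalize c'.eval (4 * (icode inp).length + 1) = cc at hw hc ⊢
  generalize qi.eval (icode inp).length = c0 at hit hc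
  generalize g (icode inp) = a at hit hc ⊢
  have hJQ : (2 * 2 ^ Q a + 1) ^ d ≤ 2 ^ (d * (Q a + 2)) := by
    rw [mul_comm d, pow_mul]
    refine Nat.pow_le_pow_left ?_ _
    have : 0 < 2 ^ Q a := by positivity
    rw [pow_add]; omega
  have hJ1 : 1 ≤ d * (Q a + 2) := Nat.mul_pos hd (by omega)
  generalize d * (Q a + 2) = J at hit hc hJQ hJ1
  have hLa := hL a J
  obtain ⟨nr, hnr⟩ : ∃ nr, nr = L a J + Q a + 1 := ⟨_, rfl⟩
  rw [← hnr] at hc
  obtain ⟨y, hy⟩ : ∃ y, y = sz (a, (⟨J⟩ : U)) + 4 * nr + 4 := ⟨_, rfl⟩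
  rw [← hy] at hc
  refine ⟨J, nr, hJ1, by omega, fun R hR hout hA => ?_⟩
  obtain ⟨pv, hpv⟩ : ∃ pv : List Bool → ℕ, ∀ l, pv l =
    if L a J ≤ l.length ∧ coin (a0 a) J l = true then 2 ^ (l.length - L a J) else 1 := ⟨_, fun _ => rfl⟩
  have pv0 : pv [] = 1 := by rw [hpv]; split_ifs <;> simp
  have hcost : ∀ l : List Bool, l.length < nr →
      q.eval (sz ((a, (⟨J⟩ : U)), l, (⟨pv l⟩ : U))) ≤ c1 * y ^ d * (2 * pv l + 1) ^ d := by
    intro l hl
    refine (hqd _ (sz_pos _)).trans ?_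
    rw [mul_assoc, ← mul_pow]
    refine Nat.mul_le_mul_left _ (Nat.pow_le_pow_left ?_ _)
    have := sz_bits_le l
    rw [sz_pair, sz_pair l, sz_U]
    simp only
    nlinarith [Nat.zero_le (pv l), Nat.zero_le (sz (a, (⟨J⟩ : U)))]
  have hpv1 : ∀ l : List Bool, l.length < nr → (2 * pv l + 1) ^ d ≤ 3 ^ d +
      if L a J ≤ l.length ∧ coin (a0 a) J l = true then 2 ^ J else 0 := by
    intro l hl
    rw [hpv]
    split_ifs with h
    · refine le_trans (le_trans (Nat.pow_le_pow_left ?_ _) hJQ) (Nat.le_add_left _ _)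
      have : 2 ^ (l.length - L a J) ≤ 2 ^ Q a := Nat.pow_le_pow_right (by norm_num) (by omega)
      omega
    · simp
  have key := ram_rounds (cost := fun s => q.eval (sz s)) (w := w) (by omega) (nr := nr) (by omega)
    (fun l => ((a, (⟨J⟩ : U)), l, (⟨pv l⟩ : U))) R (by simpa only [pv0] using hit) (fun l b hl => ?_)
    (fun l b hl => ?_) hout (fun l hl => ?_) (nr * (c1 * y ^ d * (3 ^ d + 1))) 10 ?_ (by exact_mod_cast hA)
  · exact ⟨key.1.trans (by exact_mod_cast (by omega)), key.2⟩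
  · have hl' : (l ++ [b]).length = l.length + 1 := by simp
    simp only [lvStep]
    rw [if_pos (by omega)]
    congr 4
    rw [hpv, hpv, hl']
    by_cases h : L a J ≤ l.length
    · rw [coin_append (by omega)]
      by_cases h' : coin (a0 a) J l = true
      · rw [if_pos ⟨by omega, h'⟩, if_pos ⟨h, h'⟩, if_pos ⟨by omega, h'⟩,
          show l.length + 1 - L a J = l.length - L a J + 1 by omega, pow_succ, mul_two]
      · rw [if_neg fun e => h' e.2, if_neg fun e => h' e.2, if_neg fun e => h' e.2]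
    · rw [if_neg (by omega), if_neg (by omega)]
      split_ifs with e
      · rw [show l.length + 1 - L a J = 0 by omega]; rfl
      · rfl
  · have hl' : (l ++ [b]).length = l.length + 1 := by simp
    simp only [lvStep]
    rw [if_neg (by omega), pv0, hR]
    congr 1
    cases h : coin (a0 a) J (l ++ [b]) with
    | false => exact hind _ _ _ _ _ h
    | true =>
      rw [coin_append (by omega)] at h
      rw [hpv, if_pos ⟨by omega, h⟩, show l.length - L a J = Q a by omega]
  · refine lt_of_le_of_lt ((hcost l hl).trans (Nat.mul_le_mul_left _ (hpv1 l hl))) ?_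
    have h5 : c1 * y ^ d * (3 ^ d + 1) < 2 ^ (c1 * y ^ d * (3 ^ d + 1)) := Nat.lt_two_pow_self
    have h6 : c1 * y ^ d * (3 ^ d + 1) ≤ nr * (c1 * y ^ d * (3 ^ d + 1)) := Nat.le_mul_of_pos_left _ (by omega)
    have h7 : 2 ^ (c1 * y ^ d * (3 ^ d + 1) + J) ≤ 2 ^ w := Nat.pow_le_pow_right (by norm_num) (by omega)
    have h8 : 0 < 2 ^ J := by positivity
    calc c1 * y ^ d * (3 ^ d + if L a J ≤ l.length ∧ coin (a0 a) J l = true then 2 ^ J else 0)
        ≤ c1 * y ^ d * ((3 ^ d + 1) * 2 ^ J) := by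
          refine Nat.mul_le_mul_left _ ?_
          have : 3 ^ d ≤ 3 ^ d * 2 ^ J := Nat.le_mul_of_pos_right _ h8
          split_ifs <;> nlinarith
      _ < 2 ^ (c1 * y ^ d * (3 ^ d + 1)) * 2 ^ J := by
          rw [← mul_assoc]; exact Nat.mul_lt_mul_of_pos_right h5 h8
      _ ≤ 2 ^ w := by rw [← pow_add]; exact h7
  · have h5 : Ex nr (fun l => (nr : ℝ) * ((c1 : ℝ) * y ^ d * (3 ^ d + 2 ^ J * ind (coin (a0 a) J l = true)))) =
        ((nr * (c1 * y ^ d * (3 ^ d + 1)) : ℕ) : ℝ) := by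
      rw [Ex_mul, Ex_mul, Ex_add, Ex_const, Ex_mul, Ex_coin (by omega)]
      push_cast
      field_simp
    rw [← h5]
    refine Ex_mono fun l hl => ?_
    rw [← nsmul_eq_mul]
    refine (Finset.sum_le_card_nsmul _ _ _ fun i hi => ?_).trans (by rw [card_range])
    have hi' : (l.take i).length < nr := lt_of_le_of_lt (List.length_take_le _ _) (mem_range.1 hi)
    have h6 : ((q.eval (sz ((a, (⟨J⟩ : U)), l.take i, (⟨pv (l.take i)⟩ : U))) : ℕ) : ℝ) ≤ _ :=
      Nat.cast_le.2 ((hcost _ hi').trans (Nat.mul_le_mul_left _ (hpv1 _ hi')))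
    refine h6.trans ?_
    push_cast
    refine mul_le_mul_of_nonneg_left (add_le_add le_rfl ?_) (by positivity)
    split_ifs with h
    · have h7 := coin_append (le_trans hLa h.1) (l.drop i)
      rw [List.take_append_drop, h.2] at h7
      rw [ind_true h7, mul_one]
    · exact mul_nonneg (by positivity) (ind_nonneg _)

end Crest.Agent.R309
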