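import Crest.Agent.R309.Push

/-!
# R309: the range of an arc value over all flows, up to a factor `2s`

PLAN.  If `upTry` succeeds with label `y` at `tl e`, then `y.set e (gz x e + Δ)` is a flow (`push_lab` with the start
vertex `hd e`, `push_incap`, `gz_set`).  If it fails, either `cap < gz x e + Δ`, or the labelled set `U` contains
`hd e` and not `tl e`, `sg U e = -1`, and `∑_{e'} sg U e' (f - x) = 0` (`sum_exc` for both flows) with `push_cut`
gives `f e - x e ≤ (nE - 1)(Δ - 1)`; in both cases `f e - x e ≤ s (Δ - 1)`.  The list of candidates is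
`2^(s-1), …, 1`; if `find?` returns `2^i` then `i = s-1` (use `cap < 2^s`) or `2^(i+1)` failed; if it returns nothing
then `Δ = 1` failed (`s ≥ 1` since `e < nE ≤ s`), and `x` itself is the required flow.  `dn` is symmetric.
-/

set_option autoImplicit false
open Finset Crest.Agent.PTime

namespace Crest.Agent.R309

/-- entry of a list of naturals -/
def gn (l : List ℕ) (e : ℕ) : ℕ := l.getD e 0

def upTry (I : Inst) (x : List ℤ) (e Δ : ℕ) : Bool :=
  decide (gz x e + Δ ≤ cap I e) && (lab (push I x Δ e fun v => decide (v = hd I e)) (tl I e)).isSome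

def dnTry (I : Inst) (x : List ℤ) (e Δ : ℕ) : Bool :=
  decide ((Δ : ℤ) ≤ gz x e) && (lab (push I x Δ e fun v => decide (v = tl I e)) (hd I e)).isSome

def pows (s : ℕ) : List ℕ := (List.range s).map fun i => 2 ^ (s - 1 - i)

def upL (I : Inst) (s : ℕ) (x : List ℤ) : List ℕ :=
  (List.range (nE I)).map fun e => ((pows s).find? (upTry I x e)).getD 0

def dnL (I : Inst) (s : ℕ) (x : List ℤ) : List ℕ :=
  (List.range (nE I)).map fun e => ((pows s).find? (dnTry I x e)).getD 0

def RangeOK (I : Inst) (s : ℕ) (x : List ℤ) (up dn : ℕ → ℕ) : Prop :=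
  ∀ e < nE I, (∃ f, IsFlow I f ∧ gz f e = gz x e + up e) ∧ (∃ f, IsFlow I f ∧ gz f e = gz x e - dn e) ∧
    ∀ f, IsFlow I f → gz x e - 2 * s * dn e ≤ gz f e ∧ gz f e ≤ gz x e + 2 * s * up e

private theorem exc_set' {I : Inst} {y : List ℤ} (hy : y.length = nE I) {e : ℕ} (he : e < nE I) (t : ℤ) (w : ℕ) :
    exc I (y.set e t) w = exc I y w + sg I (fun u => decide (u = w)) e * (t - gz y e) := by
  unfold exc
  have : ∀ e' ∈ range (nE I), sg I (fun u => decide (u = w)) e' * gz (y.set e t) e' =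
      sg I (fun u => decide (u = w)) e' * gz y e' +
        if e' = e then sg I (fun u => decide (u = w)) e * (t - gz y e) else 0 := by
    intro e' _
    rw [gz_set _ _ _ _ (by rw [hy]; exact he)]
    split_ifs with h
    · subst h; ring
    · ring
  rw [sum_congr rfl this, sum_add_distrib, sum_ite_eq' (range (nE I)) e, if_pos (mem_range.2 he)]

private theorem incap_set {I : Inst} {y : List ℤ} (hy : InCap I y) {e : ℕ} (he : e < nE I) {t : ℤ} (h0 : 0 ≤ t)
    (h1 : t ≤ cap I e) : InCap I (y.set e t) := by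
  refine ⟨by rw [List.length_set, hy.1], fun e' he' => ?_⟩
  rw [gz_set _ _ _ _ (by rw [hy.1]; exact he)]
  split_ifs with hh
  · subst hh; exact ⟨h0, h1⟩
  · exact hy.2 e' he'

private theorem up_succ {I : Inst} (hI : WF I) {x : List ℤ} (hx : IsFlow I x) {e Δ : ℕ} (he : e < nE I)
    (h : upTry I x e Δ = true) : ∃ f, IsFlow I f ∧ gz f e = gz x e + Δ := by
  simp only [upTry, Bool.and_eq_true, decide_eq_true_eq, Option.isSome_iff_exists] at h
  obtain ⟨h1, y, h2⟩ := h
  have hy := push_incap hx.1 _ _ _ h2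
  obtain ⟨h3, a, -, h4, h5⟩ := push_lab hI hx.1 _ _ _ h2
  have h4' : a = hd I e := by simpa using h4
  subst h4'
  have h6 := hx.1.2 e he
  refine ⟨y.set e (gz x e + Δ), ⟨incap_set hy he (by omega) h1, fun w hw => ?_⟩, ?_⟩
  · rw [exc_set' hy.1 he, h5 w, h3, hx.2 w hw]
    simp only [sg, decide_eq_true_eq, eq_comm (a := w)]
    ring
  · rw [gz_set _ _ _ _ (by rw [hy.1]; exact he), if_pos rfl]

private theorem dn_succ {I : Inst} (hI : WF I) {x : List ℤ} (hx : IsFlow I x) {e Δ : ℕ} (he : e < nE I)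
    (h : dnTry I x e Δ = true) : ∃ f, IsFlow I f ∧ gz f e = gz x e - Δ := by
  simp only [dnTry, Bool.and_eq_true, decide_eq_true_eq, Option.isSome_iff_exists] at h
  obtain ⟨h1, y, h2⟩ := h
  have hy := push_incap hx.1 _ _ _ h2
  obtain ⟨h3, a, -, h4, h5⟩ := push_lab hI hx.1 _ _ _ h2
  have h4' : a = tl I e := by simpa using h4
  subst h4'
  have h6 := hx.1.2 e he
  refine ⟨y.set e (gz x e - Δ), ⟨incap_set hy he (by omega) (by omega), fun w hw => ?_⟩, ?_⟩
  · rw [exc_set' hy.1 he, h5 w, h3, hx.2 w hw]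
    simp only [sg, decide_eq_true_eq, eq_comm (a := w)]
    ring
  · rw [gz_set _ _ _ _ (by rw [hy.1]; exact he), if_pos rfl]

private theorem cut_bound {I : Inst} (hI : WF I) {s : ℕ} (hs : Sized I s) {x : List ℤ} (hx : IsFlow I x)
    {e Δ : ℕ} (he : e < nE I) (hΔ : 1 ≤ Δ) (init : ℕ → Bool) {f : List ℤ} (hf : IsFlow I f) :
    -(sg I (fun v => (lab (push I x Δ e init) v).isSome) e * (gz f e - gz x e)) ≤ s * ((Δ : ℤ) - 1) := by
  have h0 : ∀ U : ℕ → Bool, ∑ e ∈ range (nE I), sg I U e * (gz f e - gz x e) = 0 := by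
    intro U
    have : ∑ v ∈ range (nV I), (if U v = true then exc I f v else 0) =
        ∑ v ∈ range (nV I), (if U v = true then exc I x v else 0) :=
      sum_congr rfl fun v hv => by rw [hf.2 v (mem_range.1 hv), hx.2 v (mem_range.1 hv)]
    rw [sum_exc hI, sum_exc hI] at this
    simp only [mul_sub, sum_sub_distrib, this, sub_self]
  have h1 := h0 fun v => (lab (push I x Δ e init) v).isSome
  rw [← add_sum_erase _ _ (mem_range.2 he)] at h1
  have h2 : ∑ e' ∈ (range (nE I)).erase e,
      sg I (fun v => (lab (push I x Δ e init) v).isSome) e' * (gz f e' - gz x e') ≤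
      ∑ _e' ∈ (range (nE I)).erase e, ((Δ : ℤ) - 1) :=
    sum_le_sum fun e' he' => push_cut hI hx.1 hΔ e init hf.1 (mem_range.1 (mem_erase.1 he').2) (mem_erase.1 he').1
  rw [sum_const, nsmul_eq_mul] at h2
  have h3 : (((range (nE I)).erase e).card : ℤ) ≤ s := by
    have := card_erase_le (s := range (nE I)) (a := e)
    rw [card_range] at this
    exact_mod_cast this.trans hs.1
  have h4 := mul_le_mul_of_nonneg_right h3 (show (0 : ℤ) ≤ (Δ : ℤ) - 1 by omega)
  linarith

private theorem up_fail {I : Inst} (hI : WF I) {s : ℕ} (hs : Sized I s) {x : List ℤ} (hx : IsFlow I x) {e Δ : ℕ}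
    (he : e < nE I) (hΔ : 1 ≤ Δ) (h : upTry I x e Δ = false) {f : List ℤ} (hf : IsFlow I f) :
    gz f e - gz x e ≤ s * ((Δ : ℤ) - 1) := by
  have h1 := cut_bound hI hs hx he hΔ (fun v => decide (v = hd I e)) hf
  have h2 := push_init x Δ e (fun v => decide (v = hd I e)) (hI e he).2 (by simp)
  simp only [upTry, Bool.and_eq_false_iff, decide_eq_false_iff_not] at h
  rcases h with h | h
  · have a1 := hf.1.2 e he
    have a2 : (1 : ℤ) ≤ s := by have := hs.1; omega
    have a3 := mul_le_mul_of_nonneg_right a2 (show (0 : ℤ) ≤ (Δ : ℤ) - 1 by omega)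
    omega
  · simp only [sg, h, h2] at h1
    simpa using h1

private theorem dn_fail {I : Inst} (hI : WF I) {s : ℕ} (hs : Sized I s) {x : List ℤ} (hx : IsFlow I x) {e Δ : ℕ}
    (he : e < nE I) (hΔ : 1 ≤ Δ) (h : dnTry I x e Δ = false) {f : List ℤ} (hf : IsFlow I f) :
    gz x e - gz f e ≤ s * ((Δ : ℤ) - 1) := by
  have h1 := cut_bound hI hs hx he hΔ (fun v => decide (v = tl I e)) hf
  have h2 := push_init x Δ e (fun v => decide (v = tl I e)) (hI e he).1 (by simp)
  simp only [dnTry, Bool.and_eq_false_iff, decide_eq_false_iff_not] at h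
  rcases h with h | h
  · have a1 := hf.1.2 e he
    have a2 : (1 : ℤ) ≤ s := by have := hs.1; omega
    have a3 := mul_le_mul_of_nonneg_right a2 (show (0 : ℤ) ≤ (Δ : ℤ) - 1 by omega)
    omega
  · simp only [sg, h, h2] at h1
    simpa using h1

private theorem find_pows (p : ℕ → Bool) {s : ℕ} (hs : 1 ≤ s) :
    (((pows s).find? p).getD 0 = 0 ∧ p 1 = false) ∨
      ∃ r, ((pows s).find? p).getD 0 = r ∧ p r = true ∧ 1 ≤ r ∧ (2 * r = 2 ^ s ∨ p (2 * r) = false) := by
  unfold pows
  rw [List.find?_map]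
  cases h : (List.range s).find? (p ∘ fun i => 2 ^ (s - 1 - i)) with
  | none =>
    left
    have := List.find?_eq_none.1 h (s - 1) (List.mem_range.2 (by omega))
    exact ⟨rfl, by simpa using this⟩
  | some i =>
    right
    obtain ⟨h1, h2, h3⟩ := List.find?_range_eq_some.1 h
    have h2' := List.mem_range.1 h2
    refine ⟨2 ^ (s - 1 - i), rfl, h1, Nat.one_le_two_pow, ?_⟩
    rw [← pow_succ']
    rcases Nat.eq_zero_or_pos i with rfl | hi
    · left
      congr 1
      omega
    · right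
      have := h3 (i - 1) (by omega)
      have e : s - 1 - i + 1 = s - 1 - (i - 1) := by omega
      rw [e]
      simpa using this

private theorem gn_map_range (n : ℕ) (g : ℕ → ℕ) {e : ℕ} (h : e < n) : gn ((List.range n).map g) e = g e := by
  simp [gn, List.getD_eq_getElem?_getD, h]

theorem range_ok {I : Inst} (hI : WF I) {s : ℕ} (hs : Sized I s) {x : List ℤ} (hx : IsFlow I x) :
    RangeOK I s x (gn (upL I s x)) (gn (dnL I s x)) := by
  intro e he
  have hs1 : 1 ≤ s := by have := hs.1; omega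
  have hs1' : (1 : ℤ) ≤ s := by exact_mod_cast hs1
  have hc : (cap I e : ℤ) < 2 ^ s := by exact_mod_cast hs.2.2 e he
  have hxe := hx.1.2 e he
  unfold upL dnL
  rw [gn_map_range _ _ he, gn_map_range _ _ he]
  have A : (∃ f, IsFlow I f ∧ gz f e = gz x e + (((pows s).find? (upTry I x e)).getD 0 : ℕ)) ∧
      ∀ f, IsFlow I f → gz f e ≤ gz x e + 2 * s * (((pows s).find? (upTry I x e)).getD 0 : ℕ) := by
    rcases find_pows (upTry I x e) hs1 with ⟨h1, h2⟩ | ⟨r, h1, h2, h3, h4⟩
    · rw [h1]
      refine ⟨⟨x, hx, by simp⟩, fun f hf => ?_⟩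
      have := up_fail hI hs hx he le_rfl h2 hf
      simp at this ⊢
      omega
    · rw [h1]
      refine ⟨up_succ hI hx he h2, fun f hf => ?_⟩
      have a0 : (0 : ℤ) ≤ r := by positivity
      rcases h4 with h4 | h4
      · have a1 := hf.1.2 e he
        have a2 : (2 * r : ℤ) = 2 ^ s := by exact_mod_cast h4
        nlinarith
      · have := up_fail hI hs hx he (by omega) h4 hf
        push_cast at this
        nlinarith
  have B : (∃ f, IsFlow I f ∧ gz f e = gz x e - (((pows s).find? (dnTry I x e)).getD 0 : ℕ)) ∧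
      ∀ f, IsFlow I f → gz x e - 2 * s * (((pows s).find? (dnTry I x e)).getD 0 : ℕ) ≤ gz f e := by
    rcases find_pows (dnTry I x e) hs1 with ⟨h1, h2⟩ | ⟨r, h1, h2, h3, h4⟩
    · rw [h1]
      refine ⟨⟨x, hx, by simp⟩, fun f hf => ?_⟩
      have := dn_fail hI hs hx he le_rfl h2 hf
      simp at this ⊢
      omega
    · rw [h1]
      refine ⟨dn_succ hI hx he h2, fun f hf => ?_⟩
      have a0 : (0 : ℤ) ≤ r := by positivity
      rcases h4 with h4 | h4
      · have a1 := hf.1.2 e he
        have a2 : (2 * r : ℤ) = 2 ^ s := by exact_mod_cast h4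
        nlinarith
      · have := dn_fail hI hs hx he (by omega) h4 hf
        push_cast at this
        nlinarith
  exact ⟨A.1, B.1, fun f hf => ⟨B.2 f hf, A.2 f hf⟩⟩

section pt
variable {α : Type} [Enc α]

@[fun_prop] theorem PT.gn {l : α → List ℕ} {e : α → ℕ} (h : PT l) (he : PT e) : PT (fun a => gn (l a) (e a)) := by
  unfold R309.gn; fun_prop

@[fun_prop] theorem PT.pows {s : α → ℕ} (hs : PT s) (hs' : PB s) : PT (fun a => pows (s a)) := by
  unfold R309.pows
  refine PT.map (f := fun a i => 2 ^ (s a - 1 - i)) ?_ (by fun_prop)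
  exact PT.pow (by fun_prop) (by fun_prop) (PB.sub (PB.sub (by fun_prop)))

@[fun_prop] theorem PT.upTry {I : α → Inst} {x : α → List ℤ} {e Δ : α → ℕ} (hI : PT I) (hx : PT x) (he : PT e)
    (hΔ : PT Δ) : PT (fun a => upTry (I a) (x a) (e a) (Δ a)) := by
  unfold R309.upTry
  have := PT.push (init := fun a v => decide (v = R309.hd (I a) (e a))) hI hx hΔ he (by fun_prop)
  exact PT.band (by fun_prop) (PT.isSome (PT.lab this (by fun_prop)))

@[fun_prop] theorem PT.dnTry {I : α → Inst} {x : α → List ℤ} {e Δ : α → ℕ} (hI : PT I) (hx : PT x) (he : PT e)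
    (hΔ : PT Δ) : PT (fun a => dnTry (I a) (x a) (e a) (Δ a)) := by
  unfold R309.dnTry
  have := PT.push (init := fun a v => decide (v = R309.tl (I a) (e a))) hI hx hΔ he (by fun_prop)
  exact PT.band (by fun_prop) (PT.isSome (PT.lab this (by fun_prop)))

@[fun_prop] theorem PT.upL {I : α → Inst} {s : α → ℕ} {x : α → List ℤ} (hI : PT I) (hs : PT s) (hs' : PB s)
    (hx : PT x) : PT (fun a => upL (I a) (s a) (x a)) := by
  unfold R309.upL
  refine PT.map (f := fun a e => ((R309.pows (s a)).find? (R309.upTry (I a) (x a) e)).getD 0) ?_ (by fun_prop)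
  refine PT.getD_option (PT.find? (f := fun (p : α × ℕ) D => R309.upTry (I p.1) (x p.1) p.2 D) (by fun_prop) ?_)
    (by fun_prop)
  exact PT.pows (by fun_prop) (by fun_prop)

@[fun_prop] theorem PT.dnL {I : α → Inst} {s : α → ℕ} {x : α → List ℤ} (hI : PT I) (hs : PT s) (hs' : PB s)
    (hx : PT x) : PT (fun a => dnL (I a) (s a) (x a)) := by
  unfold R309.dnL
  refine PT.map (f := fun a e => ((R309.pows (s a)).find? (R309.dnTry (I a) (x a) e)).getD 0) ?_ (by fun_prop)
  refine PT.getD_option (PT.find? (f := fun (p : α × ℕ) D => R309.dnTry (I p.1) (x p.1) p.2 D) (by fun_prop) ?_)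
    (by fun_prop)
  exact PT.pows (by fun_prop) (by fun_prop)

end pt

end Crest.Agent.R309
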