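import Crest.Agent.R309.Core

/-!
# R309: the telescoping flow inequality

PLAN.  `energy1d`: summation by parts.  With `w b = (b-l+1)(u-b)` (so `w (l-1) = 0 = w u`,
`2 w b - w (b+1) - w (b-1) = 2`), `∑_{b ∈ Ico l u} w b (2E_b - E_{b+1} - E_{b-1}) = 2 ∑ E_b`: the difference
of the summands is `S_b - S_{b-1}` for `S_b = w (b+1) E_b - w b E_{b+1}`; `S (u-1) = 0 = S (l-1)`.

`star`: `Finset.induction_on P`, generalising `α c`.
* `P = ∅` (`CC_empty`): `2 ∑ c_a h_a F_a = 2 ∑ c_a h_a (F_a - m α) ≤ ∑ h_a (ρ_a c_a^2 + (F_a - m α)^2/ρ_a)`.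
* `insert j P`: put `p = px j`, `p' = py j`, `d = dd p p'`, `g = CC P h` (positive, `Lor`),
  `a i = ∑ c_a g(α + i•d + e_a)`, `D i = g(α + i•d + e_p) = g(α + (i+1)•d + e_p')`,
  `t i = -(∑ i' ∈ Icc l i, a i') / D i` (so `t (l-1) = 0`, and `t u = 0` by the balance hypothesis and
  `CC_insert`), `c i = c + t i • e_p - t (i-1) • e_p'`.  Then `a i + t i D i - t (i-1) D (i-1) = 0` is the balance
  of `c i` at `α + i•d`, `c i` vanishes on the variables of `P` (`hinj`, `j ∉ P`), apply the induction hypothesis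
  for every `i ∈ Icc l u` and add.  Left sides: the extra terms telescope (`sum_Icc_tel`), giving the left side for
  `insert j P`.  First terms on the right: `∑ ρ_a c_a^2 CC(insert) + (ρ_p + ρ_p') ∑_{Ico l u} t_i^2 D_i`
  (`c p = c p' = 0`, `p ≠ p'`).  With `E b = t_b^2 D_b`, `η b = -QF g (α + b•d - e_p') c c`:
  the vector `y = c + t(b+1) e_p - t b e_p'` has `QF g β y e_p = a(b+1) + t(b+1) D(b+1) - t b D b = 0` at
  `β = α + b•d - e_p'` (`QF_ext_single`), so `QF g β y y ≤ 0` (`Lor.orth`); expanding with `QF_ext` and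
  `a b = t(b-1) D(b-1) - t b D b` gives `η b ≥ 2E_b - E_{b+1} - E_{b-1} + D(b-1) (t b - t(b-1))^2`.
  `energy1d` bounds `2 ∑ E`.  For `k ∈ P`: `(insert j P).erase k = insert j (P.erase k)`, and `tel` (with
  `CC_insert`; `QF` is additive in the array) gives
  `∑_i -QF (CC (P.erase k) h) (β + i•d) (c i) (c i) ≤ -QF (CC (insert j (P.erase k)) h) β c c`; the weights
  `(b - l k + 1)(u k - b)` and `ρ` are nonnegative.  Last terms: `CC_insert`.
-/

set_option autoImplicit false
set_option linter.unusedSectionVars false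
open Finset

namespace Crest.Agent.R309

theorem energy1d (E η : ℤ → ℝ) (l u : ℤ) (hlu : l ≤ u) (h0 : E (l - 1) = 0) (h1 : E u = 0)
    (h : ∀ b ∈ Ico l u, 2 * E b - E (b + 1) - E (b - 1) ≤ η b) :
    2 * ∑ b ∈ Ico l u, E b ≤ ∑ b ∈ Ico l u, (((b - l + 1) * (u - b) : ℤ) : ℝ) * η b := by
  have h2 := sum_Icc_tel (fun b => ((b : ℝ) + 1 - l + 1) * (u - (b + 1)) * E b -
    ((b : ℝ) - l + 1) * (u - b) * E (b + 1)) l (u - 1) (by omega)
  simp only [sub_add_cancel, h0, h1, Icc_sub_one_right_eq_Ico] at h2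
  have h3 : 2 * ∑ b ∈ Ico l u, E b = ∑ b ∈ Ico l u,
      (((b - l + 1) * (u - b) : ℤ) : ℝ) * (2 * E b - E (b + 1) - E (b - 1)) := by
    rw [mul_sum, eq_comm, ← sub_eq_zero, ← sum_sub_distrib]
    refine (sum_congr rfl fun b _ => ?_).trans (h2.trans ?_) <;> push_cast <;> ring
  rw [h3]
  refine sum_le_sum fun b hb => mul_le_mul_of_nonneg_left (h b hb) (Int.cast_nonneg ?_)
  rw [mem_Ico] at hb
  exact mul_nonneg (by omega) (by omega)

variable {V ι : Type} [Fintype V] [DecidableEq V] [Fintype ι] [DecidableEq ι]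

theorem lin_ext (G : (V → ℤ) → ℝ) (γ : V → ℤ) (c : V → ℝ) (p p' : V) (s t : ℝ) :
    ∑ a, (c + s • Pi.single p 1 - t • Pi.single p' 1 : V → ℝ) a * G (γ + ee a) =
      ∑ a, c a * G (γ + ee a) + s * G (γ + ee p) - t * G (γ + ee p') := by
  simp [add_mul, sub_mul, sum_add_distrib, sum_sub_distrib, Pi.single_apply]

theorem sq_ext (G : (V → ℤ) → ℝ) (γ : V → ℤ) (ρ : V → ℝ) {c : V → ℝ} {p p' : V} (hpp : p ≠ p')
    (hp : c p = 0) (hp' : c p' = 0) (s t : ℝ) :
    ∑ a, ρ a * (c + s • Pi.single p 1 - t • Pi.single p' 1 : V → ℝ) a ^ 2 * G (γ + ee a) =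
      ∑ a, ρ a * c a ^ 2 * G (γ + ee a) + ρ p * (s ^ 2 * G (γ + ee p)) +
        ρ p' * (t ^ 2 * G (γ + ee p')) := by
  rw [← sum_ite_eq_of_mem' univ p (fun _ => ρ p * (s ^ 2 * G (γ + ee p))) (mem_univ _),
    ← sum_ite_eq_of_mem' univ p' (fun _ => ρ p' * (t ^ 2 * G (γ + ee p'))) (mem_univ _),
    ← sum_add_distrib, ← sum_add_distrib]
  refine sum_congr rfl fun a _ => ?_
  by_cases h1 : a = p
  · subst h1; simp [hpp, hp, mul_assoc]
  · by_cases h2 : a = p'
    · subst h2; simp [h1, hp', mul_assoc]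
    · simp [h1, h2]

theorem dd_shift (α : V → ℤ) (i : ℤ) (p p' : V) :
    α + i • dd p p' + ee p' = α + (i - 1) • dd p p' + ee p := by unfold dd; module

theorem sum_lin_ext (G : (V → ℤ) → ℝ) (α : V → ℤ) (c : V → ℝ) (p p' : V) {l u : ℤ} (hlu : l ≤ u)
    {t : ℤ → ℝ} (h0 : t (l - 1) = 0) (h1 : t u = 0) :
    ∑ i ∈ Icc l u, ∑ a, (c + t i • Pi.single p 1 - t (i - 1) • Pi.single p' 1 : V → ℝ) a *
      G (α + i • dd p p' + ee a) = ∑ a, c a * ∑ i ∈ Icc l u, G (α + ee a + i • dd p p') := by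
  have h2 := sum_Icc_tel (fun i => t i * G (α + i • dd p p' + ee p)) l u (by omega)
  simp only [lin_ext, dd_shift]
  simp only [add_sub_assoc, sum_add_distrib, h2, h0, h1, mul_sum, add_right_comm α (ee _)]
  rw [sum_comm]
  simp

/-- the flow along the line -/
noncomputable def flow (g : (V → ℤ) → ℝ) (α : V → ℤ) (c : V → ℝ) (p p' : V) (l i : ℤ) : ℝ :=
  -(∑ j ∈ Icc l i, ∑ a, c a * g (α + j • dd p p' + ee a)) / g (α + i • dd p p' + ee p)

theorem flow_bal {g : (V → ℤ) → ℝ} (hp : Pos g) (α : V → ℤ) (c : V → ℝ) (p p' : V) {l i : ℤ}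
    (hi : l ≤ i) : ∑ a, c a * g (α + i • dd p p' + ee a) =
      flow g α c p p' l (i - 1) * g (α + (i - 1) • dd p p' + ee p) -
        flow g α c p p' l i * g (α + i • dd p p' + ee p) := by
  rw [flow, flow, div_mul_cancel₀ _ (hp _).ne', div_mul_cancel₀ _ (hp _).ne', sum_Icc_top _ hi]
  ring

theorem flow_energy {g : (V → ℤ) → ℝ} (hp : Pos g) (hl : Lor g) (α : V → ℤ) (c : V → ℝ) (p p' : V)
    {l b : ℤ} (hb : l ≤ b) :
    2 * (flow g α c p p' l b ^ 2 * g (α + b • dd p p' + ee p)) -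
      flow g α c p p' l (b + 1) ^ 2 * g (α + (b + 1) • dd p p' + ee p) -
      flow g α c p p' l (b - 1) ^ 2 * g (α + (b - 1) • dd p p' + ee p) ≤
      -QF g (α + b • dd p p' - ee p') c c := by
  have e1 : ∀ a, α + b • dd p p' - ee p' + ee a + ee p = α + (b + 1) • dd p p' + ee a := fun a => by
    unfold dd; module
  have e2 : ∀ a, α + b • dd p p' - ee p' + ee a + ee p' = α + b • dd p p' + ee a := fun a => by
    abel
  have h1 := flow_bal hp α c p p' (show l ≤ b + 1 by omega)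
  have h2 := flow_bal hp α c p p' hb
  rw [add_sub_cancel_right] at h1
  have h3 := hl.orth hp (α + b • dd p p' - ee p') p (c + flow g α c p p' l (b + 1) • Pi.single p 1 -
    flow g α c p p' l b • Pi.single p' 1) (by
      simp only [QF_ext_single, e1, dd_shift, add_sub_cancel_right, h1]; ring)
  simp only [QF_ext, e1, e2, dd_shift, h1, h2] at h3
  nlinarith [mul_nonneg (hp (α + (b - 1) • dd p p' + ee p)).le
    (sq_nonneg (flow g α c p p' l b - flow g α c p p' l (b - 1)))]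

theorem star (px py : ι → V) (hinj : Function.Injective (Sum.elim px py)) (l u : ι → ℤ)
    (hlu : ∀ j, l j ≤ u j) {h : (V → ℤ) → ℝ} (hp : Pos h) (hl : Lor h) (ρ : V → ℝ) (hρ : ∀ a, 0 < ρ a)
    (F m : (V → ℤ) → ℝ) (P : Finset ι) (α : V → ℤ) (c : V → ℝ)
    (hc : ∀ j ∈ P, c (px j) = 0 ∧ c (py j) = 0)
    (hbal : ∑ a, c a * CC px py l u P h (α + ee a) = 0) :
    2 * ∑ a, c a * CC px py l u P (fun β => h β * F β) (α + ee a) ≤
      ∑ a, ρ a * c a ^ 2 * CC px py l u P h (α + ee a)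
      + ∑ j ∈ P, (ρ (px j) + ρ (py j)) / 2 * ∑ b ∈ Ico (l j) (u j),
          (((b - l j + 1) * (u j - b) : ℤ) : ℝ) *
            (- QF (CC px py l u (P.erase j) h) (α + b • dd (px j) (py j) - ee (py j)) c c)
      + CC px py l u P (fun τ => ∑ a, h (τ + ee a) * (F (τ + ee a) - m τ) ^ 2 / ρ a) α := by
  induction P using Finset.induction_on generalizing α c with
  | empty =>
    simp only [CC_empty, sum_empty, add_zero] at hbal ⊢
    rw [← sub_zero (2 * _), ← mul_zero (2 * m α), ← hbal, mul_sum, mul_sum, ← sum_sub_distrib,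
      ← sum_add_distrib]
    refine sum_le_sum fun a _ => ?_
    have h1 := hρ a
    have h2 := div_nonneg (mul_nonneg (hp (α + ee a)).le
      (sq_nonneg (ρ a * c a - (F (α + ee a) - m α)))) h1.le
    refine le_of_sub_nonneg (h2.trans_eq ?_)
    field_simp
    ring
  | insert j P hj ih =>
    have gp := CC_pos px py l u hlu P hp
    have gl := CC_lor px py l u hlu P hp hl
    set t := flow (CC px py l u P h) α c (px j) (py j) (l j) with ht
    have t0 : t (l j - 1) = 0 := by simp [ht, flow]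
    have t1 : t (u j) = 0 := by
      simp only [CC_insert _ _ _ _ _ _ hj, mul_sum, add_right_comm α (ee _)] at hbal
      rw [ht, flow, sum_comm, hbal, neg_zero, zero_div]
    have n1 : ∀ k, px k ≠ py j := fun k e => by simpa using @hinj (.inl k) (.inr j) e
    have n2 : ∀ k, py k ≠ px j := fun k e => by simpa using @hinj (.inr k) (.inl j) e
    have n3 : ∀ k ∈ P, px k ≠ px j := fun k hk e =>
      hj (Sum.inl_injective (@hinj (.inl k) (.inl j) e) ▸ hk)
    have n4 : ∀ k ∈ P, py k ≠ py j := fun k hk e =>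
      hj (Sum.inr_injective (@hinj (.inr k) (.inr j) e) ▸ hk)
    have key := sum_le_sum fun i (hi : i ∈ Icc (l j) (u j)) => ih (α + i • dd (px j) (py j))
      (c + t i • Pi.single (px j) 1 - t (i - 1) • Pi.single (py j) 1)
      (fun k hk => by simpa [n1, n2, n3 k hk, n4 k hk] using hc k (mem_insert_of_mem hk))
      (by rw [lin_ext, flow_bal gp _ _ _ _ (mem_Icc.1 hi).1, dd_shift]; ring)
    have c0 := hc j (mem_insert_self _ _)
    rw [← mul_sum, sum_lin_ext _ _ _ _ _ (hlu j) t0 t1, sum_add_distrib, sum_add_distrib] at key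
    simp only [sq_ext _ _ _ (n1 j) c0.1 c0.2, sum_add_distrib, dd_shift, ← mul_sum] at key
    rw [sum_insert hj, erase_insert hj]
    simp only [CC_insert _ _ _ _ _ _ hj]
    set E : ℤ → ℝ := fun i => t i ^ 2 * CC px py l u P h (α + i • dd (px j) (py j) + ee (px j))
      with hE
    have E0 : E (l j - 1) = 0 := by simp [hE, t0]
    have E1 : E (u j) = 0 := by simp [hE, t1]
    have s1 := sum_Icc_tel E (l j) (u j) (by linarith [hlu j])
    have s2 := sum_Icc_top E (hlu j)
    rw [sum_sub_distrib, E0, E1, sub_self, sub_eq_zero] at s1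
    rw [E1, add_zero, Icc_sub_one_right_eq_Ico] at s2
    have s3 := mul_le_mul_of_nonneg_left (energy1d E _ _ _ (hlu j) E0 E1 fun b hb =>
      flow_energy gp gl α c (px j) (py j) (mem_Ico.1 hb).1)
      (half_pos (add_pos (hρ (px j)) (hρ (py j)))).le
    have s4 : ∑ i ∈ Icc (l j) (u j), ∑ a, ρ a * c a ^ 2 *
        CC px py l u P h (α + i • dd (px j) (py j) + ee a) = ∑ a, ρ a * c a ^ 2 *
        ∑ i ∈ Icc (l j) (u j), CC px py l u P h (α + ee a + i • dd (px j) (py j)) := by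
      rw [sum_comm]; simp only [mul_sum, add_right_comm α (ee _)]
    have s5 : ∑ i ∈ Icc (l j) (u j), ∑ k ∈ P, (ρ (px k) + ρ (py k)) / 2 * ∑ b ∈ Ico (l k) (u k),
        (((b - l k + 1) * (u k - b) : ℤ) : ℝ) * (- QF (CC px py l u (P.erase k) h)
          (α + i • dd (px j) (py j) + b • dd (px k) (py k) - ee (py k))
          (c + t i • Pi.single (px j) 1 - t (i - 1) • Pi.single (py j) 1)
          (c + t i • Pi.single (px j) 1 - t (i - 1) • Pi.single (py j) 1)) ≤
        ∑ k ∈ P, (ρ (px k) + ρ (py k)) / 2 * ∑ b ∈ Ico (l k) (u k),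
        (((b - l k + 1) * (u k - b) : ℤ) : ℝ) * (- QF (CC px py l u ((insert j P).erase k) h)
          (α + b • dd (px k) (py k) - ee (py k)) c c) := by
      rw [sum_comm]
      refine sum_le_sum fun k hk => ?_
      rw [← mul_sum, sum_comm]
      refine mul_le_mul_of_nonneg_left (sum_le_sum fun b hb => ?_)
        (half_pos (add_pos (hρ _) (hρ _))).le
      rw [← mul_sum, mem_Ico] at *
      refine mul_le_mul_of_nonneg_left ?_ (Int.cast_nonneg (mul_nonneg (by omega) (by omega)))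
      rw [erase_insert_of_ne (ne_of_mem_of_not_mem hk hj).symm,
        show CC px py l u (insert j (P.erase k)) h = _ from funext
          (CC_insert px py l u _ j (fun h => hj (mem_of_mem_erase h)) h), QF_sum, sum_neg_distrib,
        neg_le_neg_iff]
      refine (tel _ (fun α => (CC_pos px py l u hlu _ hp α).le) _ _ _ _ _ (hlu j) t t0 t1 c).trans_eq
        (sum_congr rfl fun i _ => ?_)
      congr 1
      abel
    rw [s4] at key
    change _ ≤ _ + ρ (px j) * ∑ i ∈ _, E i + ρ (py j) * ∑ i ∈ _, E (i - 1) + _ + _ at key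
    rw [← s1, s2] at key
    linarith

end Crest.Agent.R309
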