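import Crest.Agent.R309.Star
import Crest.Agent.R309.LC

/-!
# R309: the threshold inequality

PLAN.  `brk` is pure algebra: with `x = T (b-1) / A b`, `y = T (b+1) / A (b+1)`, `T b / A b = x - γ b`,
`T b / A (b+1) = y + γ (b+1)`, the bracket is `2 (x - γ_b)(y + γ_{b+1}) - x^2 - y^2
 ≤ 2 y (γ_{b+1} - γ_b) + γ_{b+1}^2 - 2 γ_b γ_{b+1}`.  First regroup
`∑_{b ∈ Ico l u} (2 T_b^2 H_b/(A_b A_{b+1}) - T_b^2 H_{b+1}/A_{b+1}^2 - T_b^2 H_{b-1}/A_b^2)
 ≤ ∑_{b ∈ Ico l u} H_b (2T_b^2/(A_b A_{b+1}) - T_{b-1}^2/A_b^2 - T_{b+1}^2/A_{b+1}^2)` (shift indices, drop the two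
negative boundary terms, `T (l-1) = T u = 0`).  For `b ≠ θ-1` the bracket is `≤ -γ^2 ≤ 0`.

`thr`: `px j = (j,true)`, `py j = (j,false)`, `P = univ.erase k`, `d = dd (px k) (py k)`, `A b = CC P h (b • d)`
(`= ∑` of `Wt h` over the slice `X k = b`; `LC A` by `CC_pos`, `CC_lor`, `Lor.lc2` at `b • d - e_p - e_p'`),
`AL, AU` the masses of the two halves, `γ i = if i < θ then -AU else AL`, `T b = -∑ i ∈ Icc l b, γ i * A i`,
`0 ≤ T b ≤ AU * AL`, `T b ≤ (AL+AU) * min (lower sum) (upper sum)`, `T (l-1) = T u = 0`.  For a real `s` apply `star`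
with `ρ a = 1 / Λ a.1 ^ 2`, `F α = s * m (fun j => min (α (j,true)) (u j))`, `m τ := s * m (fun j => τ (j,true))`
(clamped in the same way), `α = b • d - e_p'`, `c = T b • (e_p / A (b+1) - e_p' / A b)`, and add over `b ∈ Ico l u`.
Left side: `2 s (AL * MU - AU * ML)` (Abel summation, `T (i-1) - T i = γ i * A i`).  Terminal terms:
`∑ T_b^2 (1/A_{b+1} + 1/A_b)/Λ_k^2 ≤ 2 (AL+AU) AU AL` by `LC.min_le`.  Class `j ≠ k`, level `b'`:
`H b = CC (P.erase j) h (b • d + e_p + b' • dd j - e_(j,false))`, `brk`, and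
`∑_{b'} H (θ-1) ≤ κ A θ` by `CC_insert` and `hκ` (the points are `lift X (-X + ee k - ee j)` with `X k = θ`), weights
`(b'-l+1)(u-b') ≤ (u-l)^2 ≤ Λ_j^2`.  Last term: the variables `(j,false)` contribute `0`, `(j,true)` contributes
`Λ_j^2 h (lift (ξ+e_j) (-(ξ+e_j) + e_j - e_k)) s^2 (m (ξ+e_j) - m ξ)^2` if `ξ j < u j` and `0` otherwise (clamp);
`hκ`.  So `2 s L ≤ 𝓗 + s^2 D` for all `s`, hence `L^2 ≤ 𝓗 D` (`quad_le`).
-/

set_option autoImplicit false
set_option linter.unusedSectionVars false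
open Finset

namespace Crest.Agent.R309

theorem quad_le {L H D : ℝ} (hD : 0 ≤ D) (h : ∀ s : ℝ, 2 * s * L ≤ H + s ^ 2 * D) : L ^ 2 ≤ H * D := by
  have := discrim_le_zero (a := D) (b := -(2 * L)) (c := H) fun s => by nlinarith [h s]
  rw [discrim] at this
  nlinarith

theorem brk (A H T : ℤ → ℝ) (l u θ : ℤ) (h1 : l < θ) (h2 : θ ≤ u) (AL AU : ℝ) (hAL : 0 ≤ AL) (hAU : 0 ≤ AU)
    (hA : ∀ b, 0 < A b) (hH : ∀ b, 0 ≤ H b) (hT0 : T (l - 1) = 0) (hT1 : T u = 0)
    (hT : ∀ i ∈ Icc l u, T (i - 1) - T i = (if i < θ then -AU else AL) * A i) :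
    ∑ b ∈ Ico l u, (2 * T b ^ 2 * H b / (A b * A (b + 1)) - T b ^ 2 * H (b + 1) / A (b + 1) ^ 2
        - T b ^ 2 * H (b - 1) / A b ^ 2) ≤
      H (θ - 1) * (2 * (T θ / A θ) * (AL + AU) + AL ^ 2 + 2 * AU * AL) := by
  have s1 := sum_Icc_tel (fun b => T b ^ 2 * H (b + 1) / A (b + 1) ^ 2 -
    T (b + 1) ^ 2 * H b / A (b + 1) ^ 2) l (u - 1) (by omega)
  simp only [sub_add_cancel, hT0, hT1, Icc_sub_one_right_eq_Ico] at s1
  have s2 : 0 ≤ T (u - 1) ^ 2 * H u / A u ^ 2 := div_nonneg (mul_nonneg (sq_nonneg _) (hH _)) (sq_nonneg _)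
  have s3 : 0 ≤ T l ^ 2 * H (l - 1) / A l ^ 2 := div_nonneg (mul_nonneg (sq_nonneg _) (hH _)) (sq_nonneg _)
  refine le_trans (le_add_of_nonneg_right (s1.ge.trans' (by simpa using add_nonneg s2 s3))) ?_
  rw [← sum_add_distrib, ← sum_ite_eq_of_mem' (Ico l u) (θ - 1)
    (fun _ => H (θ - 1) * (2 * (T θ / A θ) * (AL + AU) + AL ^ 2 + 2 * AU * AL))
    (mem_Ico.2 ⟨by omega, by omega⟩)]
  refine sum_le_sum fun b hb => ?_
  rw [mem_Ico] at hb
  have e1 := hT b (mem_Icc.2 ⟨hb.1, hb.2.le⟩)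
  have e2 := hT (b + 1) (mem_Icc.2 ⟨by omega, by omega⟩)
  rw [add_sub_cancel_right] at e2
  have a1 := (hA b).ne'
  have a2 := (hA (b + 1)).ne'
  have key : ∀ γ γ' : ℝ, T (b - 1) - T b = γ * A b → T b - T (b + 1) = γ' * A (b + 1) →
      2 * T b ^ 2 * H b / (A b * A (b + 1)) - T b ^ 2 * H (b + 1) / A (b + 1) ^ 2 -
        T b ^ 2 * H (b - 1) / A b ^ 2 + (T b ^ 2 * H (b + 1) / A (b + 1) ^ 2 -
        T (b + 1) ^ 2 * H b / A (b + 1) ^ 2 - (T (b - 1) ^ 2 * H b / A b ^ 2 -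
        T b ^ 2 * H (b - 1) / A b ^ 2)) ≤
      H b * (2 * (T (b + 1) / A (b + 1)) * (γ' - γ) + γ' ^ 2 - 2 * γ * γ') := fun γ γ' f1 f2 => by
    have g1 : T b / A b = T (b - 1) / A b - γ := by field_simp; linarith
    have g2 : T b / A (b + 1) = T (b + 1) / A (b + 1) + γ' := by field_simp; linarith
    refine le_of_eq_of_le (b := H b * (2 * (T b / A b) * (T b / A (b + 1)) - (T (b - 1) / A b) ^ 2 -
      (T (b + 1) / A (b + 1)) ^ 2)) (by field_simp; ring) (mul_le_mul_of_nonneg_left ?_ (hH b))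
    rw [g1, g2]
    nlinarith [sq_nonneg (T (b - 1) / A b - T (b + 1) / A (b + 1) - γ')]
  refine (key _ _ e1 e2).trans ?_
  by_cases h : b = θ - 1
  · subst h
    rw [if_pos rfl, if_pos (sub_one_lt θ), sub_add_cancel, if_neg (lt_irrefl θ)]
    exact le_of_eq (by ring)
  · rw [if_neg h]
    refine mul_nonpos_of_nonneg_of_nonpos (hH b) ?_
    by_cases h' : b < θ
    · rw [if_pos h', if_pos (by omega)]; nlinarith [sq_nonneg AU]
    · rw [if_neg h', if_neg (by omega)]; nlinarith [sq_nonneg AL]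

variable {ι : Type} [Fintype ι] [DecidableEq ι]

namespace ThrA

theorem sum_Icc_split (f : ℤ → ℝ) {l u b : ℤ} (h1 : l - 1 ≤ b) (h2 : b ≤ u) :
    ∑ i ∈ Icc l u, f i = ∑ i ∈ Icc l b, f i + ∑ i ∈ Icc (b + 1) u, f i := by
  rw [← sum_union (by simp only [disjoint_left, mem_Icc]; omega)]
  congr 1
  ext i; simp only [mem_Icc, mem_union]; omega

theorem exists_T {A : ℤ → ℝ} (hA : LC A) {l u θ : ℤ} (h1 : l < θ) (h2 : θ ≤ u) {AL AU : ℝ}
    (hL : AL = ∑ i ∈ Icc l (θ - 1), A i) (hU : AU = ∑ i ∈ Icc θ u, A i) :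
    ∃ T : ℤ → ℝ, T (l - 1) = 0 ∧ T u = 0 ∧
      (∀ i ∈ Icc l u, T (i - 1) - T i = (if i < θ then -AU else AL) * A i) ∧
      (∀ b ∈ Icc l u, 0 ≤ T b ∧ T b ≤ AU * AL) ∧
      ∀ b ∈ Ico l u, T b ≤ (AL + AU) * (((u - l : ℤ) : ℝ) * min (A b) (A (b + 1))) := by
  have hn : ∀ s : Finset ℤ, 0 ≤ ∑ i ∈ s, A i := fun s => sum_nonneg fun i _ => (hA.1 i).le
  have hZ := sum_Icc_split A (l := l) (u := u) (b := θ - 1) (by omega) (by omega)
  rw [sub_add_cancel, ← hL, ← hU] at hZ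
  have l0 : 0 ≤ AL := hL ▸ hn _
  have u0 : 0 ≤ AU := hU ▸ hn _
  have key : ∀ b ∈ Icc l u, (0 ≤ ∑ i ∈ Icc l b, A i ∧ 0 ≤ ∑ i ∈ Icc (b + 1) u, A i) ∧
      ∑ i ∈ Icc l b, A i + ∑ i ∈ Icc (b + 1) u, A i = AL + AU ∧
      (b < θ → ∑ i ∈ Icc l b, A i ≤ AL) ∧ (¬ b < θ → AL ≤ ∑ i ∈ Icc l b, A i) := fun b hb => by
    rw [mem_Icc] at hb
    refine ⟨⟨hn _, hn _⟩, by rw [← hZ, sum_Icc_split A (l := l) (b := b) (by omega) hb.2], fun h => ?_,
      fun h => ?_⟩
    · rw [hL, sum_Icc_split A (l := l) (u := θ - 1) (b := b) (by omega) (by omega)]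
      exact le_add_of_nonneg_right (hn _)
    · rw [hL, sum_Icc_split A (l := l) (u := b) (b := θ - 1) (by omega) (by omega)]
      exact le_add_of_nonneg_right (hn _)
  refine ⟨fun b => if b < θ then AU * ∑ i ∈ Icc l b, A i else AL * (AL + AU - ∑ i ∈ Icc l b, A i),
    by simp [show l - 1 < θ by omega], by simp [h2.not_gt, hZ], fun i hi => ?_, fun b hb => ?_,
    fun b hb => ?_⟩
  · simp only [sum_Icc_top A (mem_Icc.1 hi).1]
    rcases lt_trichotomy i θ with h | rfl | h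
    · simp only [h, show i - 1 < θ by omega, if_true]; ring
    · simp only [lt_irrefl, show i - 1 < i by omega, if_true, if_false, ← hL]; ring
    · simp only [h.not_gt, show ¬ i - 1 < θ by omega, if_false]; ring
  · obtain ⟨k1, k2, k3, k4⟩ := key b hb
    simp only
    split_ifs with h
    · exact ⟨mul_nonneg u0 k1.1, mul_le_mul_of_nonneg_left (k3 h) u0⟩
    · exact ⟨mul_nonneg l0 (by linarith [k1.2]), by nlinarith [k4 h]⟩
  · obtain ⟨k1, k2, k3, k4⟩ := key b (Ico_subset_Icc_self hb)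
    refine le_trans ?_ (mul_le_mul_of_nonneg_left (hA.min_le hb) (add_nonneg l0 u0))
    rw [mul_min_of_nonneg _ _ (add_nonneg l0 u0), le_min_iff]
    simp only
    split_ifs with h
    · constructor <;> nlinarith [k3 h, k1.1, k1.2]
    · constructor <;> nlinarith [k4 h, k1.1, k1.2]

/-- the `true` variables -/
abbrev pT : ι → ι × Bool := fun j => (j, true)

/-- the `false` variables -/
abbrev pF : ι → ι × Bool := fun j => (j, false)

theorem slice {l u l' u' : ι → ℤ} {k : ι} (h : ∀ j, j ≠ k → l' j = l j ∧ u' j = u j)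
    (G : (ι × Bool → ℤ) → ℝ) : ∑ X ∈ Box l' u', G (lift X (-X)) =
      ∑ b ∈ Icc (l' k) (u' k), CC pT pF l u (univ.erase k) G (b • dd (pT k) (pF k)) := by
  have h1 := CC_insert pT pF l' u' (univ.erase k) k (notMem_erase _ _) G 0
  have h2 : bx l' u' (univ.erase k) = bx l u (univ.erase k) := by
    unfold bx
    congr 1
    funext j
    split_ifs with hj
    · rw [(h j (ne_of_mem_erase hj)).1, (h j (ne_of_mem_erase hj)).2]
    · rfl
  simpa only [insert_erase (mem_univ k), CC, bx_univ, zero_add, h2, emb_eq_lift] using h1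

theorem CC_shift {V : Type} [Fintype V] [DecidableEq V] (px py : ι → V) (l u : ι → ℤ)
    (P : Finset ι) (G : (V → ℤ) → ℝ) (α δ : V → ℤ) :
    CC px py l u P G (α + δ) = CC px py l u P (fun τ => G (τ + δ)) α := by
  simp only [CC, add_right_comm α δ]

theorem class_le {h : (ι × Bool → ℤ) → ℝ} {l u : ι → ℤ} {κ : ℝ}
    (hκ : ∀ X ∈ Box l u, ∀ j k, h (lift X (-X + ee j - ee k)) ≤ κ * Wt h X) {k : ι} {θ : ℤ}
    (h1 : l k ≤ θ) (h2 : θ ≤ u k) (j : ι) :
    CC pT pF l u (univ.erase k) h (θ • dd (pT k) (pF k) + (ee (pF k) - ee (pF j))) ≤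
      κ * CC pT pF l u (univ.erase k) h (θ • dd (pT k) (pF k)) := by
  have e := fun G => slice (l := l) (u := u) (l' := Function.update l k θ)
    (u' := Function.update u k θ) (k := k) (fun j hj => by simp [hj]) G
  simp only [Function.update_self, Icc_self, sum_singleton] at e
  rw [CC_shift, ← e, ← e, mul_sum]
  refine sum_le_sum fun X hX => le_of_eq_of_le (congrArg h ?_) (hκ X ?_ k j)
  · funext ⟨i, b⟩
    cases b <;> simp [lift, ee, Pi.single_apply, add_sub_assoc]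
  · rw [mem_Box] at hX ⊢
    intro i
    have := hX i
    by_cases hi : i = k
    · subst hi; simp only [Function.update_self] at this; omega
    · simpa [hi] using this

/-- the clamped observable -/
def clamp (u : ι → ℤ) (m : (ι → ℤ) → ℝ) (α : ι × Bool → ℤ) : ℝ :=
  m fun j => min (α (j, true)) (u j)

theorem clamp_eq {l u X : ι → ℤ} (hX : X ∈ Box l u) (m : (ι → ℤ) → ℝ) {α : ι × Bool → ℤ}
    (h : ∀ j, min (α (j, true)) (u j) = min (X j) (u j)) : clamp u m α = m X :=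
  congrArg m (funext fun j => (h j).trans (min_eq_left (mem_Box.1 hX j).2))

theorem last_le {h : (ι × Bool → ℤ) → ℝ} {l u : ι → ℤ} {κ : ℝ} (Λ : ι → ℝ)
    (hκ : ∀ X ∈ Box l u, ∀ j k, h (lift X (-X + ee j - ee k)) ≤ κ * Wt h X) (k : ι)
    (m : (ι → ℤ) → ℝ) (s : ℝ) :
    ∑ b ∈ Icc (l k) (u k), CC pT pF l u (univ.erase k) (fun τ => ∑ a, h (τ + ee a) *
      (s * clamp u m (τ + ee a) - s * clamp u m τ) ^ 2 / (1 / Λ a.1 ^ 2))
      (b • dd (pT k) (pF k) - ee (pF k)) ≤ s ^ 2 * (κ * ∑ a, Λ a ^ 2 * Gr (Wt h) l u a m) := by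
  simp only [sub_eq_add_neg (_ • _), CC_shift]
  rw [← slice fun _ _ => ⟨rfl, rfl⟩]
  simp only [Gr, mul_sum]
  rw [sum_comm (s := univ)]
  refine sum_le_sum fun X hX => ?_
  rw [Fintype.sum_prod_type]
  refine sum_le_sum fun j _ => ?_
  have e0 : clamp u m (lift X (-X) + -ee (pF k)) = m X := clamp_eq hX m fun i => by simp [lift, ee]
  have e1 : clamp u m (lift X (-X) + -ee (pF k) + ee (j, false)) = m X :=
    clamp_eq hX m fun i => by simp [lift, ee]
  rw [Fintype.sum_bool, e0, e1, sub_self, zero_pow two_ne_zero, mul_zero, zero_div, add_zero]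
  split_ifs with hj
  · have hX' : X + ee j ∈ Box l u := mem_Box.2 fun i => by
      have := mem_Box.1 hX i
      by_cases hi : i = j
      · subst hi; simp only [ee, Pi.add_apply, Pi.single_eq_same]; omega
      · simpa [ee, hi] using this
    have e2 : lift X (-X) + -ee (pF k) + ee (j, true) =
        lift (X + ee j) (-(X + ee j) + ee j - ee k) := by
      funext ⟨i, b⟩
      cases b <;> simp [lift, ee, Pi.single_apply, sub_eq_add_neg]
    rw [e2, clamp_eq hX' m fun i => by simp [lift], div_div_eq_mul_div, div_one, ← mul_sub, mul_pow]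
    nlinarith [mul_le_mul_of_nonneg_right (hκ _ hX' j k)
      (mul_nonneg (mul_nonneg (sq_nonneg s) (sq_nonneg (m (X + ee j) - m X))) (sq_nonneg (Λ j)))]
  · rw [clamp_eq hX m fun i => ?_]
    · simp
    · have := mem_Box.1 hX i
      by_cases hi : i = j
      · subst hi; simp [lift, ee]; omega
      · simp [lift, ee, hi]

theorem box_sub {l u : ι → ℤ} {k : ι} {a b : ℤ} (ha : l k ≤ a) (hb : b ≤ u k) :
    Box l (Function.update u k b) ⊆ Box l u ∧ Box (Function.update l k a) u ⊆ Box l u := by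
  constructor <;> intro X hX <;> rw [mem_Box] at hX ⊢ <;> intro i <;> have := hX i <;>
    by_cases hi : i = k
  · subst hi; simp only [Function.update_self] at this; omega
  · simpa [hi] using this
  · subst hi; simp only [Function.update_self] at this; omega
  · simpa [hi] using this

theorem abel_sum (T μ : ℤ → ℝ) {l u : ℤ} (hlu : l ≤ u) (h0 : T (l - 1) = 0) (h1 : T u = 0) :
    ∑ b ∈ Ico l u, T b * (μ (b + 1) - μ b) = ∑ i ∈ Icc l u, (T (i - 1) - T i) * μ i := by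
  have s1 := sum_Icc_tel (fun i => T i * μ (i + 1)) l u (by omega)
  have s2 := sum_Icc_top (fun b => T b * (μ (b + 1) - μ b)) hlu
  simp only [h0, h1, zero_mul, sub_self, sub_add_cancel, add_zero, Icc_sub_one_right_eq_Ico] at s1 s2
  rw [← s2, ← sub_eq_zero, ← sum_sub_distrib, ← s1]
  exact sum_congr rfl fun i _ => by ring

theorem term_le {T a c Z w : ℝ} (ha : 0 < a) (h0 : 0 ≤ T) (h1 : T ≤ c) (h2 : T ≤ Z * (w * a)) :
    (T / a) ^ 2 * a ≤ c * (Z * w) := by
  rw [div_pow, sq a, div_mul_eq_mul_div, mul_div_mul_right _ _ ha.ne', div_le_iff₀ ha, sq,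
    mul_assoc, mul_assoc]
  exact mul_le_mul h1 h2 h0 (h0.trans h1)

end ThrA

theorem thr {h : (ι × Bool → ℤ) → ℝ} (hp : Pos h) (hl : Lor h) (l u : ι → ℤ) (hlu : ∀ j, l j ≤ u j)
    (Λ : ι → ℝ) (hΛ1 : ∀ j, 1 ≤ Λ j) (hΛ : ∀ j, ((u j - l j : ℤ) : ℝ) ≤ Λ j) (κ : ℝ)
    (hκ : ∀ X ∈ Box l u, ∀ j k, h (lift X (-X + ee j - ee k)) ≤ κ * Wt h X)
    (k : ι) (θ : ℤ) (h1 : l k < θ) (h2 : θ ≤ u k) (m : (ι → ℤ) → ℝ) :
    ((∑ X ∈ Box l (Function.update u k (θ - 1)), Wt h X) * (∑ X ∈ Box (Function.update l k θ) u, Wt h X * m X)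
      - (∑ X ∈ Box (Function.update l k θ) u, Wt h X) *
        (∑ X ∈ Box l (Function.update u k (θ - 1)), Wt h X * m X)) ^ 2 ≤
      ((2 + 4 * κ * Fintype.card ι) * (∑ X ∈ Box l u, Wt h X) * (∑ X ∈ Box (Function.update l k θ) u, Wt h X)
        * (∑ X ∈ Box l (Function.update u k (θ - 1)), Wt h X)) *
      (κ * ∑ a, Λ a ^ 2 * Gr (Wt h) l u a m) := by
  open ThrA in
  have gp := fun P => CC_pos pT pF l u hlu P hp
  set A : ℤ → ℝ := fun b => CC pT pF l u (univ.erase k) h (b • dd (pT k) (pF k)) with hA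
  set M : ℤ → ℝ := fun b => CC pT pF l u (univ.erase k) (fun β => h β * clamp u m β)
    (b • dd (pT k) (pF k)) with hM
  have e1 : ∀ b : ℤ, b • dd (pT k) (pF k) - ee (pF k) + ee (pT k) = (b + 1) • dd (pT k) (pF k) :=
    fun b => by unfold dd; module
  have hLC : LC A := ⟨fun n => gp _ _, fun n => by
    have := (CC_lor pT pF l u hlu (univ.erase k) hp hl).lc2 (gp _)
      (n • dd (pT k) (pF k) - ee (pF k) - ee (pT k)) (pF k) (pT k)
    convert this using 3 <;> (unfold dd; module)⟩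
  have hsub := box_sub (a := θ) (b := θ - 1) h1.le (show θ - 1 ≤ u k by omega)
  have sL := fun G => slice (l := l) (u := u) (l' := l) (u' := Function.update u k (θ - 1)) (k := k)
    (fun j hj => by simp [hj]) G
  have sU := fun G => slice (l := l) (u := u) (l' := Function.update l k θ) (u' := u) (k := k)
    (fun j hj => by simp [hj]) G
  simp only [Function.update_self] at sL sU
  have mL : ∑ X ∈ Box l (Function.update u k (θ - 1)), Wt h X * m X = ∑ i ∈ Icc (l k) (θ - 1), M i :=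
    (sum_congr rfl fun X hX => by rw [clamp_eq (hsub.1 hX) m fun _ => rfl, Wt]).trans (sL _)
  have mU : ∑ X ∈ Box (Function.update l k θ) u, Wt h X * m X = ∑ i ∈ Icc θ (u k), M i :=
    (sum_congr rfl fun X hX => by rw [clamp_eq (hsub.2 hX) m fun _ => rfl, Wt]).trans (sU _)
  have hZ : ∑ X ∈ Box l u, Wt h X = ∑ i ∈ Icc (l k) (θ - 1), A i + ∑ i ∈ Icc θ (u k), A i := by
    have := sum_Icc_split A (l := l k) (u := u k) (b := θ - 1) (by omega) (by omega)
    rw [sub_add_cancel] at this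
    exact (slice (fun _ _ => ⟨rfl, rfl⟩) h).trans this
  have hL : ∑ X ∈ Box l (Function.update u k (θ - 1)), Wt h X = ∑ i ∈ Icc (l k) (θ - 1), A i := sL h
  have hU : ∑ X ∈ Box (Function.update l k θ) u, Wt h X = ∑ i ∈ Icc θ (u k), A i := sU h
  rw [mL, mU, hZ, hL, hU]
  generalize hL : ∑ i ∈ Icc (l k) (θ - 1), A i = AL
  generalize hU : ∑ i ∈ Icc θ (u k), A i = AU
  obtain ⟨T, T0, T1, T2, T3, T4⟩ := exists_T hLC h1 h2 hL.symm hU.symm
  have l0 : 0 ≤ AL := hL ▸ sum_nonneg fun i _ => (hLC.1 i).le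
  have u0 : A θ ≤ AU := hU ▸ single_le_sum (fun i _ => (hLC.1 i).le) (mem_Icc.2 ⟨le_rfl, h2⟩)
  have a0 := hLC.1 θ
  have u1 := a0.le.trans u0
  have hκ0 : 0 ≤ κ := nonneg_of_mul_nonneg_left ((hp _).le.trans
    (hκ l (mem_Box.2 fun j => ⟨le_rfl, hlu j⟩) k k)) (hp _)
  have hΛ0 : ∀ j, 0 < Λ j ^ 2 := fun j => pow_pos (one_pos.trans_le (hΛ1 j)) 2
  refine quad_le (mul_nonneg hκ0 (sum_nonneg fun a _ => mul_nonneg (hΛ0 a).le
    (sum_nonneg fun ξ _ => ?_))) fun s => ?_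
  · split_ifs
    · exact mul_nonneg (hp _).le (sq_nonneg _)
    · exact le_rfl
  have key := sum_le_sum fun b (_ : b ∈ Ico (l k) (u k)) => star pT pF
    (by rintro (a | a) (b | b) e <;> simp_all) l u hlu hp hl (fun a => 1 / Λ a.1 ^ 2)
    (fun a => one_div_pos.2 (hΛ0 _)) (fun β => s * clamp u m β) (fun β => s * clamp u m β)
    (univ.erase k) (b • dd (pT k) (pF k) - ee (pF k))
    (0 + (T b / A (b + 1)) • Pi.single (pT k) 1 - (T b / A b) • Pi.single (pF k) 1)
    (fun j hj => by simp [ne_of_mem_erase hj]) (by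
      rw [lin_ext, e1, sub_add_cancel, div_mul_cancel₀ _ (hLC.1 _).ne',
        div_mul_cancel₀ _ (hLC.1 _).ne']; simp)
  rw [sum_add_distrib, sum_add_distrib] at key
  have k1 : ∑ b ∈ Ico (l k) (u k), 2 * ∑ a, (0 + (T b / A (b + 1)) • Pi.single (pT k) 1 -
      (T b / A b) • Pi.single (pF k) 1 : ι × Bool → ℝ) a * CC pT pF l u (univ.erase k)
      (fun β => h β * (s * clamp u m β)) (b • dd (pT k) (pF k) - ee (pF k) + ee a) =
      2 * s * (AL * ∑ i ∈ Icc θ (u k), M i - AU * ∑ i ∈ Icc (l k) (θ - 1), M i) := by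
    have f1 : ∀ b : ℤ, CC pT pF l u (univ.erase k) (fun β => h β * (s * clamp u m β))
        (b • dd (pT k) (pF k)) = s * M b := fun b => by simp [hM, CC, mul_sum, mul_left_comm]
    have f2 := abel_sum T (fun b => M b / A b) (hlu k) T0 T1
    have f3 := sum_Icc_split (fun i => (T (i - 1) - T i) * (M i / A i)) (l := l k) (u := u k)
      (b := θ - 1) (by omega) (by omega)
    have f4 : ∀ i ∈ Icc (l k) (u k), (T (i - 1) - T i) * (M i / A i) =
        (if i < θ then -AU else AL) * M i := fun i hi => by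
      rw [T2 i hi, mul_assoc, mul_div_cancel₀ _ (hLC.1 i).ne']
    rw [sub_add_cancel, sum_congr rfl fun i (hi : i ∈ Icc (l k) (θ - 1)) => (f4 i (by
        rw [mem_Icc] at *; omega)).trans (by rw [if_pos (by rw [mem_Icc] at hi; omega)]),
      sum_congr rfl fun i (hi : i ∈ Icc θ (u k)) => (f4 i (by
        rw [mem_Icc] at *; omega)).trans (by rw [if_neg (by rw [mem_Icc] at hi; omega)]),
      ← mul_sum, ← mul_sum, ← f2] at f3
    rw [show AL * ∑ i ∈ Icc θ (u k), M i - AU * ∑ i ∈ Icc (l k) (θ - 1), M i = _ from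
      Eq.trans (by ring) f3.symm, mul_sum]
    refine sum_congr rfl fun b _ => ?_
    rw [lin_ext, e1, sub_add_cancel, f1, f1]
    simp only [Pi.zero_apply, zero_mul, sum_const_zero]
    ring
  have k2 : ∑ b ∈ Ico (l k) (u k), ∑ a : ι × Bool, 1 / Λ a.1 ^ 2 * (0 + (T b / A (b + 1)) •
      Pi.single (pT k) 1 - (T b / A b) • Pi.single (pF k) 1 : ι × Bool → ℝ) a ^ 2 *
      CC pT pF l u (univ.erase k) h (b • dd (pT k) (pF k) - ee (pF k) + ee a) ≤
      2 * (AL + AU) * AU * AL := by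
    have w0 : (0 : ℝ) ≤ (u k - l k : ℤ) := Int.cast_nonneg (sub_nonneg.2 (hlu k))
    refine (sum_le_card_nsmul _ _ (1 / Λ k ^ 2 * (2 * (AU * AL * ((AL + AU) * (u k - l k : ℤ)))))
      fun b hb => ?_).trans ?_
    · rw [sq_ext _ _ (fun a : ι × Bool => 1 / Λ a.1 ^ 2) (by simp) rfl rfl, e1, sub_add_cancel]
      obtain ⟨t0, t1⟩ := T3 b (Ico_subset_Icc_self hb)
      have t2 := term_le (hLC.1 b) t0 t1 ((T4 b hb).trans (by gcongr; exact min_le_left _ _))
      have t3 := term_le (hLC.1 (b + 1)) t0 t1 ((T4 b hb).trans (by gcongr; exact min_le_right _ _))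
      simp only [Pi.zero_apply, ne_eq, OfNat.ofNat_ne_zero, not_false_eq_true, zero_pow, mul_zero,
        zero_mul, sum_const_zero, zero_add]
      rw [← mul_add, two_mul]
      exact mul_le_mul_of_nonneg_left (add_le_add t3 t2) (one_div_pos.2 (hΛ0 _)).le
    · rw [nsmul_eq_mul, show ((Ico (l k) (u k)).card : ℝ) = (u k - l k : ℤ) by
        rw [← Int.card_Ico_of_le _ _ (hlu k), Int.cast_natCast], one_div, ← mul_assoc, ← div_eq_mul_inv,
        div_mul_eq_mul_div, div_le_iff₀ (hΛ0 k)]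
      nlinarith [mul_le_mul_of_nonneg_left (pow_le_pow_left₀ w0 (hΛ k) 2)
        (show 0 ≤ (AL + AU) * AU * AL by positivity)]
  have k3 : ∀ j ∈ univ.erase k, ∑ b ∈ Ico (l k) (u k), (1 / Λ j ^ 2 + 1 / Λ j ^ 2) / 2 *
      ∑ b' ∈ Ico (l j) (u j), (((b' - l j + 1) * (u j - b') : ℤ) : ℝ) *
        (-QF (CC pT pF l u ((univ.erase k).erase j) h)
          (b • dd (pT k) (pF k) - ee (pF k) + b' • dd (pT j) (pF j) - ee (pF j))
          (0 + (T b / A (b + 1)) • Pi.single (pT k) 1 - (T b / A b) • Pi.single (pF k) 1)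
          (0 + (T b / A (b + 1)) • Pi.single (pT k) 1 - (T b / A b) • Pi.single (pF k) 1)) ≤
      4 * κ * (AL + AU) * AU * AL := fun j hj => by
    obtain ⟨t0, t1⟩ := T3 θ (mem_Icc.2 ⟨h1.le, h2⟩)
    have R0 : 0 ≤ 2 * (T θ / A θ) * (AL + AU) + AL ^ 2 + 2 * AU * AL := by positivity
    have c1 := class_le hκ h1.le h2 j
    rw [← insert_erase hj, CC_insert _ _ _ _ _ _ (notMem_erase _ _), insert_erase hj] at c1
    rw [← mul_sum, sum_comm, add_self_div_two, one_div, inv_mul_le_iff₀ (hΛ0 j)]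
    refine (sum_le_sum (g := fun b' => Λ j ^ 2 * (CC pT pF l u ((univ.erase k).erase j) h
      (θ • dd (pT k) (pF k) + (ee (pF k) - ee (pF j)) + b' • dd (pT j) (pF j)) *
      (2 * (T θ / A θ) * (AL + AU) + AL ^ 2 + 2 * AU * AL))) fun b' hb' => ?_).trans ?_
    · have := brk A (fun b => CC pT pF l u ((univ.erase k).erase j) h ((b + 1) • dd (pT k) (pF k) +
        (ee (pF k) - ee (pF j)) + b' • dd (pT j) (pF j))) T _ _ θ h1 h2 AL AU l0 u1 hLC.1
        (fun _ => (gp _ _).le) T0 T1 T2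
      rw [sub_add_cancel] at this
      rw [← mul_sum, mem_Ico] at *
      refine (mul_le_mul_of_nonneg_left (le_of_eq_of_le (sum_congr rfl fun b _ => ?_) this)
        (Int.cast_nonneg (mul_nonneg (by omega) (by omega)))).trans
        (mul_le_mul_of_nonneg_right ?_ (mul_nonneg (gp _ _).le R0))
      · have g1 : b • dd (pT k) (pF k) - ee (pF k) + b' • dd (pT j) (pF j) - ee (pF j) + ee (pT k) +
            ee (pT k) = (b + 1 + 1) • dd (pT k) (pF k) + (ee (pF k) - ee (pF j)) +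
            b' • dd (pT j) (pF j) := by unfold dd; module
        have g2 : b • dd (pT k) (pF k) - ee (pF k) + b' • dd (pT j) (pF j) - ee (pF j) + ee (pT k) +
            ee (pF k) = (b + 1) • dd (pT k) (pF k) + (ee (pF k) - ee (pF j)) +
            b' • dd (pT j) (pF j) := by unfold dd; module
        have g3 : b • dd (pT k) (pF k) - ee (pF k) + b' • dd (pT j) (pF j) - ee (pF j) + ee (pF k) +
            ee (pF k) = (b - 1 + 1) • dd (pT k) (pF k) + (ee (pF k) - ee (pF j)) +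
            b' • dd (pT j) (pF j) := by unfold dd; module
        rw [QF_ext, g1, g2, g3]
        simp only [QF, Pi.zero_apply, zero_mul, sum_const_zero]
        ring
      · have w1 : ((b' - l j + 1 : ℤ) : ℝ) ≤ Λ j := (Int.cast_le.2 (by omega)).trans (hΛ j)
        have w2 : ((u j - b' : ℤ) : ℝ) ≤ Λ j := (Int.cast_le.2 (by omega)).trans (hΛ j)
        rw [Int.cast_mul, sq]
        exact mul_le_mul w1 w2 (Int.cast_nonneg (by omega)) (zero_le_one.trans (hΛ1 j))
    · rw [← mul_sum, ← sum_mul]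
      refine mul_le_mul_of_nonneg_left ((mul_le_mul_of_nonneg_right
        ((sum_le_sum_of_subset_of_nonneg Ico_subset_Icc_self fun _ _ _ => (gp _ _).le).trans c1)
        R0).trans ?_) (hΛ0 j).le
      have : A θ * (2 * (T θ / A θ) * (AL + AU) + AL ^ 2 + 2 * AU * AL) ≤
          4 * (AL + AU) * AU * AL := by
        rw [show A θ * (2 * (T θ / A θ) * (AL + AU) + AL ^ 2 + 2 * AU * AL) =
          2 * T θ * (AL + AU) + A θ * (AL ^ 2 + 2 * AU * AL) by field_simp; ring]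
        nlinarith [mul_le_mul_of_nonneg_right t1 (add_nonneg l0 u1), mul_le_mul_of_nonneg_right u0
          (show 0 ≤ AL ^ 2 + 2 * AU * AL by positivity), mul_nonneg u1 (sq_nonneg AL)]
      nlinarith [mul_le_mul_of_nonneg_left this hκ0]
  have k4 := (sum_le_sum_of_subset_of_nonneg Ico_subset_Icc_self fun _ _ _ =>
    sum_nonneg fun _ _ => sum_nonneg fun a _ => div_nonneg (mul_nonneg (hp _).le (sq_nonneg _))
      (one_div_pos.2 (hΛ0 _)).le).trans (last_le Λ hκ k m s)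
  have k5 := sum_le_card_nsmul _ _ _ k3
  have k6 : (((univ.erase k).card : ℕ) : ℝ) ≤ Fintype.card ι := Nat.cast_le.2 (card_le_univ _)
  rw [sum_comm, nsmul_eq_mul] at k5
  rw [k1] at key
  refine (key.trans (add_le_add (add_le_add k2 (k5.trans (mul_le_mul_of_nonneg_right k6
    (by positivity)))) k4)).trans_eq (by ring)

end Crest.Agent.R309
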