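import Crest.Agent.R309.Top
import Crest.Agent.R309.RamTop

/-!
# R309: the exact sampler on the word RAM
-/

set_option autoImplicit false
open Finset Crest.Agent.PTime Crest.Enc Crest.Tables Crest.WordRAM

namespace Crest.Agent.R309

def rdT (M : Mod) (J pad : ℕ) (t : List Bool) : Option (List ℕ) := (round M J pad t).map fun x => x.map Int.toNat

theorem icode_eq {m n : ℕ} (rs : Fin m → ℕ) (cs : Fin n → ℕ) :
    icode (m :: n :: (List.ofFn rs ++ List.ofFn cs)) = marginsCode rs cs := by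
  simp [icode, marginsCode]

theorem unif_of_law {β : Type} (F : Finset β) (g : List Bool → Option β) (hg : ∀ l y, g l = some y → y ∈ F)
    (n : ℕ) (c : ℝ) (hc : ∀ y ∈ F, Ex n (fun l => ind (g l = some y)) = c)
    (hA : 1 ≤ 10 * Ex n (fun l => ind (g l ≠ none))) :
    c / Ex n (fun l => ind (g l ≠ none)) = 1 / F.card := by
  classical
  have h1 : Ex n (fun l => ind (g l ≠ none)) = F.card * c := by
    rw [← nsmul_eq_mul, ← Finset.sum_const, ← Finset.sum_congr rfl hc, ← Ex_sum]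
    refine Ex_congr fun l _ => ?_
    cases h : g l with
    | none => simp [ind]
    | some y =>
      rw [ind_true (by simp), Finset.sum_eq_single y, ind_true rfl]
      · intro z _ hz; exact ind_false fun e => hz (Option.some.inj e).symm
      · intro hy; exact absurd (hg l y h) hy
  rw [h1] at hA ⊢
  have hc0 : c ≠ 0 := by rintro rfl; norm_num at hA
  have hF : (F.card : ℝ) ≠ 0 := by intro e; rw [e] at hA; norm_num at hA
  field_simp

theorem exact_ram :
    ∃ (P : Program) (c₀ c₁ C d : ℕ),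
      ∀ (m n : ℕ) (rs : Fin m → ℕ) (cs : Fin n → ℕ), ∑ i, rs i = ∑ j, cs j →
        expectedTime P (c₀ * (m + n + Nat.clog 2 (∑ i, rs i + 2) + 1) ^ c₁)
            (m :: n :: (List.ofFn rs ++ List.ofFn cs))
          ≤ ((C * (m + n + Nat.clog 2 (∑ i, rs i + 2) + 1) ^ d : ℕ) : ENNReal) ∧
        (∀ (ρ : ℕ → ℕ) (T : ℕ) (out : List ℕ),
          HaltsWithin P (c₀ * (m + n + Nat.clog 2 (∑ i, rs i + 2) + 1) ^ c₁) ρ
            (m :: n :: (List.ofFn rs ++ List.ofFn cs)) T out →
          ∃ X : Fin m → Fin n → ℕ, IsTable rs cs X ∧ out = (List.ofFn fun i => List.ofFn (X i)).flatten) ∧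
        ∀ X : Fin m → Fin n → ℕ, IsTable rs cs X →
          probHaltsWith P (c₀ * (m + n + Nat.clog 2 (∑ i, rs i + 2) + 1) ^ c₁)
              (m :: n :: (List.ofFn rs ++ List.ofFn cs))
              (fun out => out = (List.ofFn fun i => List.ofFn (X i)).flatten)
            = 1 / (numBoundedTables rs cs (fun _ _ => ∑ i, rs i) : ℝ) := by
  obtain ⟨Pr, c, hc⟩ := ram_lv (A := Mod) (fun x => mkMod (inst2 x) (sOf x)) (by fun_prop)
    (fun M => alen (ms M)) (fun M => qq (ms M)) (by fun_prop) (by fun_prop) (by fun_prop)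
    (fun M J => rlen (ms M) J) (by fun_prop) (by fun_prop) (fun M J => by unfold rlen; omega) rdT
    (by unfold rdT; fun_prop) (fun M J pad pad' t h => by unfold rdT; rw [round_pad M J pad pad' h])
  obtain ⟨C, d, hC, hd, hcd⟩ := poly_le c
  refine ⟨Pr, C * 8 ^ d, 2 * d, C * 8 ^ d, 2 * d, fun m n rs cs hsum => ?_⟩
  have hlen := length_marginsCode_le rs cs hsum
  have hclog : 1 ≤ Nat.clog 2 (∑ i, rs i + 2) := Nat.clog_pos (by norm_num) (by omega)
  have hN : ∑ i, rs i + 2 ≤ 2 ^ Nat.clog 2 (∑ i, rs i + 2) := Nat.le_pow_clog (by norm_num) _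
  generalize hS : m + n + Nat.clog 2 (∑ i, rs i + 2) + 1 = S at hlen ⊢
  have hS1 : 1 ≤ S := by omega
  have hw : c.eval (marginsCode rs cs).length ≤ C * 8 ^ d * S ^ (2 * d) := by
    refine (eval_mono c hlen).trans ((hcd _ (by nlinarith)).trans (le_of_eq ?_))
    rw [mul_pow, ← pow_mul, mul_assoc]
  have hSw : S ≤ C * 8 ^ d * S ^ (2 * d) := by
    have h1 : S ≤ S ^ (2 * d) := Nat.le_self_pow (by omega) _
    have h2 : 1 ≤ C * 8 ^ d := Nat.mul_pos hC (by positivity)
    nlinarith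
  generalize C * 8 ^ d * S ^ (2 * d) = w at hw hSw ⊢
  have h2w : 2 ^ S ≤ 2 ^ w := Nat.pow_le_pow_right (by norm_num) hSw
  have hSlt : S < 2 ^ S := Nat.lt_two_pow_self
  have hNw : ∑ i, rs i < 2 ^ w := by
    have : 2 ^ Nat.clog 2 (∑ i, rs i + 2) ≤ 2 ^ S := Nat.pow_le_pow_right (by norm_num) (by omega)
    omega
  have hfit : Fits w (m :: n :: (List.ofFn rs ++ List.ofFn cs)) := by
    refine ⟨by simp; omega, fun a ha => ?_⟩
    simp only [List.mem_cons, List.mem_append, List.mem_ofFn] at ha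
    rcases ha with rfl | rfl | ⟨i, rfl⟩ | ⟨j, rfl⟩
    · omega
    · omega
    · exact (Finset.single_le_sum (f := rs) (fun _ _ => Nat.zero_le _) (mem_univ i)).trans_lt hNw
    · exact (Finset.single_le_sum (f := cs) (fun _ _ => Nat.zero_le _) (mem_univ j)).trans_lt (hsum ▸ hNw)
  obtain ⟨J, nr, hJ, hnr, h⟩ := hc w _ hfit (by rw [icode_eq]; exact hw)
  rw [icode_eq] at hnr h
  have hI := inst2_code rs cs []
  have hZ := sized2 rs cs []
  rw [List.append_nil] at hI hZ
  obtain ⟨X0, hX0⟩ := exists_table rs cs hsum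
  have hf : IsFlow (tabI rs cs (fun _ _ => ∑ i, rs i)) (flatZ X0) :=
    (isFlow_tabI _ _ _ _).2 ⟨X0, hX0, table_le hX0, rfl⟩
  rw [hI] at hnr h
  have hM := mkMod_ok (tabI_wf rs cs (fun _ _ => ∑ i, rs i)) hZ (hundred_le_sOf _) hf
  have hmI := mI_mkMod (tabI rs cs (fun _ _ => ∑ i, rs i)) (sOf (marginsCode rs cs))
  generalize mkMod (tabI rs cs (fun _ _ => ∑ i, rs i)) (sOf (marginsCode rs cs)) = M at hnr h hM hmI
  have hR : ∀ l out, rdT M J (2 ^ qq (ms M)) l = some out → ∃ X, IsTable rs cs X ∧ out = flat X := by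
    intro l out ho
    obtain ⟨y, hy, rfl⟩ := Option.map_eq_some_iff.1 ho
    have := round_flow hM hy
    rw [hmI] at this
    obtain ⟨X, h1, _, rfl⟩ := (isFlow_tabI _ _ _ _).1 this
    exact ⟨X, h1, toNat_flatZ X⟩
  have hne : ∀ l, (rdT M J (2 ^ qq (ms M)) l ≠ none) = (round M J (2 ^ qq (ms M)) l ≠ none) := fun l => by
    simp [rdT]
  have hsucc := round_succ hM hJ (2 ^ qq (ms M)) hnr
  obtain ⟨h1, h2, h3⟩ := h _ rfl (fun l out ho v hv => by
    obtain ⟨X, hX, rfl⟩ := hR l out ho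
    obtain ⟨i, j, rfl⟩ := mem_flat hv
    exact (table_le hX i j).trans_lt hNw) (by simp only [hne]; exact hsucc)
  refine ⟨h1.trans (by exact_mod_cast hw), fun ρ T out ho => ?_, fun X hX => ?_⟩
  · obtain ⟨l, hl⟩ := h2 ρ T out ho
    exact hR l out hl
  · obtain ⟨c', hc'⟩ := round_law hM J le_rfl hnr
    have hfX : IsFlow (mI M) (flatZ X) := by
      rw [hmI]; exact (isFlow_tabI _ _ _ _).2 ⟨X, hX, table_le hX, rfl⟩
    have e1 : Ex nr (fun l => ind (rdT M J (2 ^ qq (ms M)) l = some (flat X))) = c' := by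
      rw [← hc' _ hfX]
      refine Ex_congr fun l _ => congrArg ind (propext ⟨fun ho => ?_, fun ho => ?_⟩)
      · obtain ⟨y, hy, e⟩ := Option.map_eq_some_iff.1 ho
        have := round_flow hM hy
        rw [hmI] at this
        obtain ⟨Y, _, _, rfl⟩ := (isFlow_tabI _ _ _ _).1 this
        rw [toNat_flatZ] at e
        rw [hy, flat_inj e]
      · rw [rdT, ho, Option.map_some, toNat_flatZ]
    refine (h3 (flat X)).trans ?_
    simp only [hne]
    rw [e1, ← card_flows, ← hmI]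
    exact unif_of_law (flows (mI M)) _ (fun l y hy => mem_flows.2 (round_flow hM hy)) nr c'
      (fun y hy => hc' y (mem_flows.1 hy)) hsucc

end Crest.Agent.R309
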